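import Vale.Agent.Lib.P150.GaussComp

/-!
Exponential moments of squares of Gaussians and a Markov bound.
-/

open MeasureTheory ProbabilityTheory
open scoped BigOperators NNReal ENNReal

set_option linter.unusedSectionVars false
set_option linter.unusedSimpArgs false
set_option linter.unusedVariables false

noncomputable section

namespace Vale.Agent.Lib.P150

lemma pdf_eq (y : ℝ) : gaussianPDFReal 0 1 y = (Real.sqrt (2 * Real.pi))⁻¹ * Real.exp (-(y ^ 2 / 2)) := by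
  unfold gaussianPDFReal
  have e1 : (2 * Real.pi * ((1:ℝ≥0):ℝ)) = 2 * Real.pi := by simp
  have e2 : (-(y - 0) ^ 2 / (2 * ((1:ℝ≥0):ℝ))) = -(y ^ 2 / 2) := by simp; ring
  rw [e1, e2]

lemma integrable_exp_sq {s : ℝ} (hs : s < 1 / 2) :
    Integrable (fun y : ℝ => Real.exp (s * y ^ 2)) N01 := by
  have hv : (1 : ℝ≥0) ≠ 0 := one_ne_zero
  have e := gaussianReal_of_var_ne_zero 0 hv
  rw [N01, e, integrable_withDensity_iff_integrable_smul' (measurable_gaussianPDF 0 1)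
    (ae_of_all _ fun _ => gaussianPDF_lt_top)]
  have hb : 0 < 1 / 2 - s := by linarith
  have h := (integrable_exp_neg_mul_sq hb).const_mul (Real.sqrt (2 * Real.pi))⁻¹
  refine h.congr (Filter.Eventually.of_forall (fun y => ?_))
  simp only [toReal_gaussianPDF, pdf_eq, smul_eq_mul]
  have : Real.exp (-(1 / 2 - s) * y ^ 2) = Real.exp (-(y ^ 2 / 2)) * Real.exp (s * y ^ 2) := by
    rw [← Real.exp_add]; congr 1; ring
  rw [this]
  ring

lemma integral_exp_sq {s : ℝ} (hs : s < 1 / 2) :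
    ∫ y, Real.exp (s * y ^ 2) ∂N01 = Real.sqrt ((1 - 2 * s)⁻¹) := by
  rw [integral_N01_eq]
  have hb : 0 < 1 / 2 - s := by linarith
  have e : ∀ y : ℝ, gaussianPDFReal 0 1 y * Real.exp (s * y ^ 2)
      = (Real.sqrt (2 * Real.pi))⁻¹ * Real.exp (-(1 / 2 - s) * y ^ 2) := by
    intro y
    rw [pdf_eq, mul_assoc, ← Real.exp_add]
    congr 2; ring
  simp_rw [e]
  rw [integral_const_mul, integral_gaussian]
  have h2 : (0:ℝ) ≤ 2 * Real.pi := by positivity
  rw [← Real.sqrt_inv, ← Real.sqrt_mul (by positivity)]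
  congr 1
  have hpi := Real.pi_pos
  have h1 : (1 - 2 * s) ≠ 0 := by linarith
  have h3 : (1 / 2 - s) ≠ 0 := by linarith
  field_simp

lemma sqrt_inv_le_exp {s : ℝ} (h0 : 0 ≤ s) (hs : s ≤ 1 / 4) :
    Real.sqrt ((1 - 2 * s)⁻¹) ≤ Real.exp (s + 4 * s ^ 2) := by
  have hpos : 0 < 1 - 2 * s := by linarith
  rw [Real.sqrt_le_left (Real.exp_pos _).le]
  rw [← Real.exp_nat_mul]
  have h1 : (1 - 2 * s)⁻¹ = 1 + 2 * s / (1 - 2 * s) := by
    field_simp
    ring
  have h2 : 2 * s / (1 - 2 * s) ≤ 2 * s + 8 * s ^ 2 := by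
    rw [div_le_iff₀ hpos]
    nlinarith [sq_nonneg s, mul_nonneg h0 h0, mul_nonneg (mul_nonneg h0 h0) h0]
  rw [h1]
  have h3 := Real.add_one_le_exp (2 * s / (1 - 2 * s))
  have h4 : Real.exp (2 * s / (1 - 2 * s)) ≤ Real.exp ((2:ℕ) * (s + 4 * s ^ 2)) := by
    apply Real.exp_le_exp.2
    push_cast
    linarith
  linarith

lemma integral_exp_sq_le {s : ℝ} (h0 : 0 ≤ s) (hs : s ≤ 1 / 4) :
    ∫ y, Real.exp (s * y ^ 2) ∂N01 ≤ Real.exp (s + 4 * s ^ 2) := by
  rw [integral_exp_sq (by linarith)]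
  exact sqrt_inv_le_exp h0 hs

lemma integrable_stdG_exp_sq {m : Type*} [Fintype m] {c : m → ℝ} (hc : ∀ k, c k < 1 / 2) :
    Integrable (fun γ : m → ℝ => Real.exp (∑ k, c k * γ k ^ 2)) (stdG m) := by
  have h := Integrable.fintype_prod (μ := fun _ : m => N01)
    (f := fun k y => Real.exp (c k * y ^ 2)) (fun k => integrable_exp_sq (hc k))
  refine h.congr (Filter.Eventually.of_forall (fun γ => ?_))
  simp only [Real.exp_sum]

lemma integral_stdG_exp_sq_le {m : Type*} [Fintype m] {c : m → ℝ}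
    (hc0 : ∀ k, 0 ≤ c k) (hc : ∀ k, c k ≤ 1 / 4) :
    ∫ γ : m → ℝ, Real.exp (∑ k, c k * γ k ^ 2) ∂(stdG m)
      ≤ Real.exp (∑ k, (c k + 4 * c k ^ 2)) := by
  have e : ∀ γ : m → ℝ, Real.exp (∑ k, c k * γ k ^ 2) = ∏ k, Real.exp (c k * γ k ^ 2) := by
    intro γ; rw [Real.exp_sum]
  simp_rw [e]
  rw [integral_fintype_prod_eq_prod (fun k y => Real.exp (c k * y ^ 2)), Real.exp_sum]
  refine Finset.prod_le_prod (fun k _ => integral_nonneg (fun y => (Real.exp_pos _).le))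
    (fun k _ => integral_exp_sq_le (hc0 k) (hc k))

/-- Markov's inequality in `ENNReal` form. -/
lemma markov_ofReal {Ω : Type*} [MeasurableSpace Ω] {μ : Measure Ω} [IsProbabilityMeasure μ]
    {f : Ω → ℝ} (hf : Integrable f μ) (hnn : ∀ x, 0 ≤ f x) {t B : ℝ} (ht : 0 < t)
    (hB : ∫ x, f x ∂μ ≤ B) :
    μ {x | t ≤ f x} ≤ ENNReal.ofReal (B / t) := by
  have h := mul_meas_ge_le_integral_of_nonneg (μ := μ) (Filter.Eventually.of_forall hnn) hf t
  have h2 : μ.real {x | t ≤ f x} ≤ B / t := by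
    rw [le_div_iff₀ ht]
    linarith
  rw [← ofReal_measureReal]
  exact ENNReal.ofReal_le_ofReal h2

end Vale.Agent.Lib.P150
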