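import Vale.Agent.Lib.P150.Defs

open scoped BigOperators
open Function

set_option linter.unusedSectionVars false
set_option linter.unusedSimpArgs false
set_option linter.unusedVariables false

noncomputable section

namespace Vale.Agent.Lib.P150

variable {ι : Type*} [Fintype ι] [DecidableEq ι]

@[simp] lemma spin_true : spin true = 1 := by simp [spin]
@[simp] lemma spin_false : spin false = -1 := by simp [spin]
lemma spin_mul_self (b : Bool) : spin b * spin b = 1 := by cases b <;> simp
lemma spin_sq (b : Bool) : spin b ^ 2 = 1 := by cases b <;> simp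

/-- Half difference in direction `i`. -/
def D (i : ι) (u : (ι → Bool) → ℝ) (x : ι → Bool) : ℝ :=
  (u (update x i true) - u (update x i false)) / 2

lemma value_update (u : (ι → Bool) → ℝ) (x : ι → Bool) (i : ι) (b : Bool) :
    u (update x i b) = u x + (spin b - spin (x i)) * D i u x := by
  have h : u x = u (update x i (x i)) := by rw [update_eq_self]
  unfold D
  cases hb : b <;> cases hx : x i <;> simp only [hx, spin_true, spin_false] at h ⊢ <;>
    rw [h] <;> ring

lemma D_update (i : ι) (u : (ι → Bool) → ℝ) (x : ι → Bool) (b : Bool) :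
    D i u (update x i b) = D i u x := by
  unfold D; simp

lemma D_D_self (i : ι) (u : (ι → Bool) → ℝ) (x : ι → Bool) : D i (D i u) x = 0 := by
  unfold D
  simp [update_idem]

lemma D_comm (i j : ι) (u : (ι → Bool) → ℝ) (x : ι → Bool) : D i (D j u) x = D j (D i u) x := by
  by_cases h : i = j
  · subst h; rfl
  · unfold D
    simp only [update_comm h]
    ring

lemma D_add (i : ι) (u v : (ι → Bool) → ℝ) (x : ι → Bool) :
    D i (fun y => u y + v y) x = D i u x + D i v x := by
  unfold D; ring

lemma D_sub (i : ι) (u v : (ι → Bool) → ℝ) (x : ι → Bool) :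
    D i (fun y => u y - v y) x = D i u x - D i v x := by
  unfold D; ring

lemma D_const_mul (i : ι) (c : ℝ) (u : (ι → Bool) → ℝ) (x : ι → Bool) :
    D i (fun y => c * u y) x = c * D i u x := by
  unfold D; ring

lemma D_sum {κ : Type*} (s : Finset κ) (i : ι) (u : κ → (ι → Bool) → ℝ) (x : ι → Bool) :
    D i (fun y => ∑ k ∈ s, u k y) x = ∑ k ∈ s, D i (u k) x := by
  unfold D
  rw [← Finset.sum_sub_distrib, Finset.sum_div]

lemma D_mul (j : ι) (a b : (ι → Bool) → ℝ) (x : ι → Bool) :
    D j (fun y => a y * b y) x
      = D j a x * b x + a x * D j b x - 2 * spin (x j) * (D j a x * D j b x) := by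
  have h1 := value_update a x j true
  have h2 := value_update a x j false
  have h3 := value_update b x j true
  have h4 := value_update b x j false
  have hs := spin_mul_self (x j)
  have e : D j (fun y => a y * b y) x
      = (a (update x j true) * b (update x j true)
          - a (update x j false) * b (update x j false)) / 2 := rfl
  rw [e, h1, h2, h3, h4]
  simp only [spin_true, spin_false]
  cases hx : x j <;> simp [hx] <;> ring

lemma D_sq (j : ι) (a : (ι → Bool) → ℝ) (x : ι → Bool) :
    D j (fun y => a y ^ 2) x = 2 * a x * D j a x - 2 * spin (x j) * (D j a x) ^ 2 := by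
  have := D_mul j a a x
  simp only [pow_two]
  rw [this]; ring

lemma D_spin (j i : ι) (x : ι → Bool) :
    D j (fun y => spin (y i)) x = if i = j then 1 else 0 := by
  unfold D
  by_cases h : i = j
  · subst h; simp
  · simp [h, update_of_ne h]

/-- The generator in first-order form, for a general family of conditional means `t`. -/
def gen (t : (ι → Bool) → ι → ℝ) (u : (ι → Bool) → ℝ) (x : ι → Bool) : ℝ :=
  ∑ i, (t x i - spin (x i)) * D i u x

/-- The squared length of the discrete gradient. -/
def gradSq (u : (ι → Bool) → ℝ) (x : ι → Bool) : ℝ := ∑ j, (D j u x) ^ 2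

lemma D_gen (t : (ι → Bool) → ι → ℝ) (ht : ∀ x i b, t (update x i b) i = t x i)
    (u : (ι → Bool) → ℝ) (x : ι → Bool) (j : ι) :
    D j (gen t u) x = ∑ i, ((D j (fun y => t y i) x - if i = j then 1 else 0) * D i u x
      + (t x i - spin (x i)) * D j (D i u) x
      - 2 * spin (x j) * ((D j (fun y => t y i) x - if i = j then 1 else 0) * D j (D i u) x)) := by
  have e : gen t u = fun y => ∑ i, (t y i - spin (y i)) * D i u y := rfl
  rw [e, D_sum]
  refine Finset.sum_congr rfl (fun i _ => ?_)
  have := D_mul j (fun y => t y i - spin (y i)) (D i u) x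
  rw [this, D_sub, D_spin]

/-- The fundamental Bochner identity for the squared gradient. -/
lemma bochner_identity (t : (ι → Bool) → ι → ℝ) (ht : ∀ x i b, t (update x i b) i = t x i)
    (u : (ι → Bool) → ℝ) (x : ι → Bool) :
    2 * ∑ j, D j u x * D j (gen t u) x - gen t (gradSq u) x
      = -2 * gradSq u x
        + 2 * ∑ j, ∑ i, D j u x * D j (fun y => t y i) x * D i u x
        - 4 * ∑ j, ∑ i, spin (x j) * D j u x * D j (fun y => t y i) x * D j (D i u) x
        - 2 * ∑ j, ∑ i, (1 - spin (x i) * t x i) * (D j (D i u) x) ^ 2 := by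
  have hB : ∀ j i, i = j → D j (D i u) x = 0 := by
    intro j i h; subst h; exact D_D_self _ _ _
  -- rewrite the second term
  have h2 : gen t (gradSq u) x
      = ∑ j, ∑ i, (t x i - spin (x i)) * (2 * D j u x * D j (D i u) x
          - 2 * spin (x i) * (D j (D i u) x) ^ 2) := by
    have e1 : gen t (gradSq u) x = ∑ i, (t x i - spin (x i)) * D i (gradSq u) x := rfl
    rw [e1, Finset.sum_comm]
    refine Finset.sum_congr rfl (fun i _ => ?_)
    have e2 : gradSq u = fun y => ∑ j, (D j u y) ^ 2 := rfl
    rw [e2, D_sum, Finset.mul_sum]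
    refine Finset.sum_congr rfl (fun j _ => ?_)
    rw [D_sq, D_comm i j]
  rw [h2]
  simp only [D_gen t ht u x]
  -- collect everything into one double sum
  have h3 : gradSq u x = ∑ j, ∑ i, (if i = j then D j u x * D i u x else 0) := by
    unfold gradSq
    refine Finset.sum_congr rfl (fun j _ => ?_)
    simp [pow_two]
  rw [h3]
  simp only [Finset.mul_sum, ← Finset.sum_add_distrib, ← Finset.sum_sub_distrib]
  refine Finset.sum_congr rfl (fun j _ => ?_)
  refine Finset.sum_congr rfl (fun i _ => ?_)
  have hs := spin_mul_self (x i)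
  by_cases h : i = j
  · subst h
    rw [hB i i rfl]
    simp only [if_true]
    ring
  · simp only [if_neg h]
    linear_combination (-2 * (D j (D i u) x) ^ 2) * hs

end Vale.Agent.Lib.P150
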