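import Vale.Agent.Lib.P150.Ising

open scoped BigOperators
open Function

set_option linter.unusedSectionVars false
set_option linter.unusedSimpArgs false
set_option linter.unusedVariables false

noncomputable section

namespace Vale.Agent.Lib.P150

variable {ι : Type*} [Fintype ι] [DecidableEq ι]

lemma t_mul_one_sub_sq_le {t : ℝ} (h0 : 0 ≤ t) : t * (1 - t ^ 2) ≤ 77 / 200 := by
  have h := mul_nonneg (sq_nonneg (t - 5774 / 10000)) (by linarith : (0:ℝ) ≤ t + 2 * (5774 / 10000))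
  nlinarith

lemma y_bound {y : ℝ} (hy : -1 ≤ y) : (1 - y ^ 2) * (1 + y) ≤ 32 / 27 := by
  have h := mul_nonneg (sq_nonneg (y - 1 / 3)) (by linarith : (0:ℝ) ≤ y + 5 / 3)
  nlinarith

/-- The exact form of the discrete derivative of the conditional mean. -/
lemma D_tf (J : ι → ι → ℝ) (x : ι → Bool) (i j : ι) :
    D j (fun y => tf J y i) x
      = Real.tanh (2 * J i j) / 2 * (1 - tf J x i ^ 2)
          / (1 - spin (x j) * tf J x i * Real.tanh (2 * J i j)) := by
  unfold D tf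
  show (Real.tanh (field J (update x j true) i) - Real.tanh (field J (update x j false) i)) / 2 = _
  rw [field_update, field_update]
  simp only [spin_true, spin_false]
  set h := field J x i
  set δ := J i j
  cases hx : x j
  · simp only [spin_false]
    have e1 : h + δ * (1 - -1) = h + 2 * δ := by ring
    have e2 : h + δ * (-1 - -1) = h := by ring
    rw [e1, e2, tanh_diff_minus]
    congr 2
    ring
  · simp only [spin_true]
    have e1 : h + δ * (1 - 1) = h := by ring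
    have e2 : h + δ * (-1 - 1) = h - 2 * δ := by ring
    rw [e1, e2, tanh_diff_plus]
    congr 2
    ring

/-- Real-variable bounds on the derivative of the conditional mean. -/
lemma B_bounds {T δ si sj : ℝ} (hT : |T| < 1) (hsi : si * si = 1) (hsj : sj * sj = 1)
    (hδ : |δ| ≤ 1 / 200) :
    ∃ B, B = Real.tanh (2 * δ) / 2 * (1 - T ^ 2) / (1 - sj * T * Real.tanh (2 * δ)) ∧
      B ^ 2 / (1 - si * T) ≤ 121 / 100 * δ ^ 2 ∧
      |B - δ * (1 - T ^ 2)| ≤ 79 / 100 * δ ^ 2 := by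
  set E := Real.tanh (2 * δ) with hE
  have hE2 : |E| ≤ |2 * δ| := abs_tanh_le_abs _
  have hE2' : |E| ≤ 2 * |δ| := by simpa [abs_mul] using hE2
  have hE3 : E ^ 2 ≤ 4 * δ ^ 2 := by
    have : E ^ 2 ≤ (2 * |δ|) ^ 2 := by
      rw [← sq_abs E]
      exact pow_le_pow_left₀ (abs_nonneg _) hE2' 2
    rw [mul_pow, sq_abs] at this
    linarith
  have hE4 : |E| ≤ 1 / 100 := by linarith
  have hsj1 : |sj| = 1 := by
    have : |sj| * |sj| = 1 := by rw [← abs_mul, hsj, abs_one]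
    nlinarith [abs_nonneg sj]
  have hsi1 : |si| = 1 := by
    have : |si| * |si| = 1 := by rw [← abs_mul, hsi, abs_one]
    nlinarith [abs_nonneg si]
  set q := sj * T * E with hq
  have hq1 : |q| ≤ 1 / 100 := by
    rw [hq, abs_mul, abs_mul, hsj1, one_mul]
    calc |T| * |E| ≤ 1 * |E| := mul_le_mul_of_nonneg_right hT.le (abs_nonneg _)
      _ ≤ 1 / 100 := by linarith
  have hDpos : (99 / 100 : ℝ) ≤ 1 - q := by
    have := le_abs_self q
    linarith
  have hD0 : 0 < 1 - q := by linarith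
  set B := E / 2 * (1 - T ^ 2) / (1 - q) with hB
  refine ⟨B, rfl, ?_, ?_⟩
  · -- first bound
    set y := si * T with hy
    have hyT : y ^ 2 = T ^ 2 := by
      rw [hy, mul_pow, pow_two si, hsi, one_mul]
    have hy1 : |y| < 1 := by
      rw [hy, abs_mul, hsi1, one_mul]; exact hT
    have hy2 := abs_lt.mp hy1
    have hypos : 0 < 1 - y := by linarith [hy2.2]
    have e : B ^ 2 / (1 - y) = (E ^ 2 / 4) * ((1 - y ^ 2) * (1 + y)) * (1 / (1 - q) ^ 2) := by
      rw [hB, hyT.symm]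
      field_simp
      ring
    rw [e]
    have h1 : (1 - y ^ 2) * (1 + y) ≤ 32 / 27 := y_bound hy2.1.le
    have h2 : 0 ≤ (1 - y ^ 2) * (1 + y) := by
      apply mul_nonneg
      · nlinarith [hy2.1, hy2.2]
      · linarith [hy2.1]
    have h3 : 1 / (1 - q) ^ 2 ≤ (100 / 99) ^ 2 := by
      rw [div_le_iff₀ (by positivity)]
      have : (99 / 100 : ℝ) ^ 2 ≤ (1 - q) ^ 2 := pow_le_pow_left₀ (by norm_num) hDpos 2
      have e' : ((100 : ℝ) / 99) ^ 2 * (99 / 100) ^ 2 = 1 := by norm_num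
      nlinarith [sq_nonneg (1 - q)]
    have h4 : 0 ≤ 1 / (1 - q) ^ 2 := by positivity
    have h5 : E ^ 2 / 4 ≤ δ ^ 2 := by linarith
    have h6 : 0 ≤ E ^ 2 / 4 := by positivity
    calc (E ^ 2 / 4) * ((1 - y ^ 2) * (1 + y)) * (1 / (1 - q) ^ 2)
        ≤ δ ^ 2 * (32 / 27) * (100 / 99) ^ 2 := by
          apply mul_le_mul _ h3 h4 (by positivity)
          exact mul_le_mul h5 h1 h2 (by positivity)
      _ ≤ 121 / 100 * δ ^ 2 := by nlinarith [sq_nonneg δ]
  · -- second bound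
    have hw1 : 0 ≤ 1 - T ^ 2 := by
      have := (sq_lt_one_iff_abs_lt_one T).mpr hT
      linarith
    have hw2 : 1 - T ^ 2 ≤ 1 := by nlinarith [sq_nonneg T]
    have e : B - δ * (1 - T ^ 2)
        = (1 - T ^ 2) * (E / 2 - δ) + ((1 - T ^ 2) * T) * (sj * (E ^ 2 / 2) / (1 - q)) := by
      rw [hB]
      field_simp
      rw [hq]
      ring
    have h1 : |E / 2 - δ| ≤ 1 / 150 * δ ^ 2 := by
      have h0 := abs_tanh_sub_self_le (2 * δ)
      have e0 : E / 2 - δ = (E - 2 * δ) / 2 := by ring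
      rw [e0, abs_div, abs_of_pos (by norm_num : (0:ℝ) < 2)]
      have e3 : |2 * δ| = 2 * |δ| := by simp [abs_mul]
      rw [e3] at h0
      have e4 : (2 * |δ|) ^ 3 / 3 = (8 / 3) * (|δ| * |δ| ^ 2) := by ring
      rw [e4] at h0
      have e5 : |δ| ^ 2 = δ ^ 2 := sq_abs δ
      rw [e5] at h0
      have hδ2 : |δ| * δ ^ 2 ≤ 1 / 200 * δ ^ 2 :=
        mul_le_mul_of_nonneg_right hδ (sq_nonneg _)
      have : |E - 2 * δ| ≤ (8 / 3) * (1 / 200 * δ ^ 2) :=
        h0.trans (mul_le_mul_of_nonneg_left hδ2 (by norm_num))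
      calc |E - 2 * δ| / 2 ≤ (8 / 3) * (1 / 200 * δ ^ 2) / 2 := by
            apply div_le_div_of_nonneg_right this (by norm_num)
        _ = 1 / 150 * δ ^ 2 := by ring
    have h2 : |(1 - T ^ 2) * T| ≤ 77 / 200 := by
      rw [abs_mul, abs_of_nonneg hw1]
      have := t_mul_one_sub_sq_le (abs_nonneg T)
      rw [sq_abs] at this
      linarith
    have h3 : |sj * (E ^ 2 / 2) / (1 - q)| ≤ 2 * δ ^ 2 * (100 / 99) := by
      rw [abs_div, abs_mul, hsj1, one_mul, abs_of_pos hD0, abs_of_nonneg (by positivity)]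
      have h4 : 1 / (1 - q) ≤ 100 / 99 := by
        rw [div_le_iff₀ hD0]
        nlinarith
      calc E ^ 2 / 2 / (1 - q) = (E ^ 2 / 2) * (1 / (1 - q)) := by ring
        _ ≤ (2 * δ ^ 2) * (100 / 99) :=
            mul_le_mul (by linarith) h4 (by positivity) (by positivity)
    rw [e]
    refine (abs_add_le _ _).trans ?_
    rw [abs_mul, abs_mul, abs_of_nonneg hw1]
    have h5 : (1 - T ^ 2) * |E / 2 - δ| ≤ 1 * (1 / 150 * δ ^ 2) :=
      mul_le_mul hw2 h1 (abs_nonneg _) (by norm_num)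
    have h6 : |(1 - T ^ 2) * T| * |sj * (E ^ 2 / 2) / (1 - q)|
        ≤ (77 / 200) * (2 * δ ^ 2 * (100 / 99)) :=
      mul_le_mul h2 h3 (abs_nonneg _) (by norm_num)
    nlinarith [sq_nonneg δ]

/-- **The curvature bound** for the Ising model: `κ = 1 - ρ - 2 r²`. -/
theorem curv_ising (J : ι → ι → ℝ) (hsym : ∀ i j, J i j = J j i)
    {ρ r2 : ℝ} (hρ0 : 0 ≤ ρ)
    (hρ : ∀ v : ι → ℝ, ∑ i, (∑ j, J i j * v j) ^ 2 ≤ ρ ^ 2 * ∑ i, v i ^ 2)
    (hr : ∀ j, ∑ i, J i j ^ 2 ≤ r2) (hη : ∀ i j, |J i j| ≤ 1 / 200) (x : ι → Bool) :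
    CurvAt (tf J) (1 - ρ - 2 * r2) x := by
  intro v
  set T : ι → ℝ := fun i => tf J x i with hT
  have hTlt : ∀ i, |T i| < 1 := fun i => Real.abs_tanh_lt_one _
  set B : ι → ι → ℝ := fun j i => D j (fun y => tf J y i) x with hB
  have hbd : ∀ j i, B j i ^ 2 / (1 - spin (x i) * T i) ≤ 121 / 100 * J i j ^ 2 ∧
      |B j i - J i j * (1 - T i ^ 2)| ≤ 79 / 100 * J i j ^ 2 := by
    intro j i
    obtain ⟨B', hB', h1, h2⟩ := B_bounds (T := T i) (δ := J i j) (si := spin (x i)) (sj := spin (x j))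
      (hTlt i) (spin_mul_self _) (spin_mul_self _) (hη i j)
    have : B j i = B' := by
      rw [hB']
      exact D_tf J x i j
    rw [this]
    exact ⟨h1, h2⟩
  set N := ∑ j, v j ^ 2 with hN
  have hN0 : 0 ≤ N := Finset.sum_nonneg (fun _ _ => sq_nonneg _)
  -- the second sum
  have h2nd : ∑ j, ∑ i, v j ^ 2 * (B j i ^ 2 / (1 - spin (x i) * T i)) ≤ 121 / 100 * r2 * N := by
    rw [hN, Finset.mul_sum]
    refine Finset.sum_le_sum (fun j _ => ?_)
    rw [← Finset.mul_sum]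
    have : ∑ i, B j i ^ 2 / (1 - spin (x i) * T i) ≤ 121 / 100 * r2 := by
      calc _ ≤ ∑ i, 121 / 100 * J i j ^ 2 := Finset.sum_le_sum (fun i _ => (hbd j i).1)
        _ = 121 / 100 * ∑ i, J i j ^ 2 := by rw [Finset.mul_sum]
        _ ≤ _ := mul_le_mul_of_nonneg_left (hr j) (by norm_num)
    calc v j ^ 2 * ∑ i, B j i ^ 2 / (1 - spin (x i) * T i) ≤ v j ^ 2 * (121 / 100 * r2) :=
          mul_le_mul_of_nonneg_left this (sq_nonneg _)
      _ = _ := by ring
  -- the first sum, main part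
  have hw01 : ∀ i, 0 ≤ 1 - T i ^ 2 ∧ 1 - T i ^ 2 ≤ 1 := by
    intro i
    have := (sq_lt_one_iff_abs_lt_one (T i)).mpr (hTlt i)
    constructor
    · linarith
    · nlinarith [sq_nonneg (T i)]
  have hmain : ∑ j, ∑ i, v j * (J i j * (1 - T i ^ 2)) * v i ≤ ρ * N := by
    have e : ∑ j, ∑ i, v j * (J i j * (1 - T i ^ 2)) * v i
        = ∑ i, ((1 - T i ^ 2) * v i) * (∑ j, J i j * v j) := by
      rw [Finset.sum_comm]
      refine Finset.sum_congr rfl (fun i _ => ?_)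
      rw [Finset.mul_sum]
      refine Finset.sum_congr rfl (fun j _ => ?_)
      ring
    rw [e]
    have hcs := Finset.sum_mul_sq_le_sq_mul_sq Finset.univ (fun i => (1 - T i ^ 2) * v i)
      (fun i => ∑ j, J i j * v j)
    have h1 : ∑ i, ((1 - T i ^ 2) * v i) ^ 2 ≤ N := by
      refine Finset.sum_le_sum (fun i _ => ?_)
      rw [mul_pow]
      have h' := hw01 i
      have : (1 - T i ^ 2) ^ 2 ≤ 1 := by nlinarith [h'.1, h'.2]
      nlinarith [sq_nonneg (v i)]
    have h2 := hρ v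
    have h3 : (∑ i, ((1 - T i ^ 2) * v i) * (∑ j, J i j * v j)) ^ 2 ≤ (ρ * N) ^ 2 := by
      calc _ ≤ (∑ i, ((1 - T i ^ 2) * v i) ^ 2) * ∑ i, (∑ j, J i j * v j) ^ 2 := hcs
        _ ≤ N * (ρ ^ 2 * N) := mul_le_mul h1 h2 (Finset.sum_nonneg (fun _ _ => sq_nonneg _)) hN0
        _ = (ρ * N) ^ 2 := by ring
    exact abs_le_of_sq_le_sq' h3 (by positivity) |>.2
  -- the error part
  have herr : ∑ j, ∑ i, v j * (B j i - J i j * (1 - T i ^ 2)) * v i ≤ 79 / 100 * r2 * N := by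
    have h1 : ∀ j i, v j * (B j i - J i j * (1 - T i ^ 2)) * v i
        ≤ 79 / 100 * (J i j ^ 2 * (v j ^ 2 + v i ^ 2) / 2) := by
      intro j i
      have h0 := (hbd j i).2
      have habs : v j * (B j i - J i j * (1 - T i ^ 2)) * v i
          ≤ |B j i - J i j * (1 - T i ^ 2)| * (|v j| * |v i|) := by
        calc _ ≤ |v j * (B j i - J i j * (1 - T i ^ 2)) * v i| := le_abs_self _
          _ = _ := by rw [abs_mul, abs_mul]; ring
      have h3 : |v j| * |v i| ≤ (v j ^ 2 + v i ^ 2) / 2 := by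
        have := sq_nonneg (|v j| - |v i|)
        rw [sub_sq, sq_abs, sq_abs] at this
        linarith
      calc _ ≤ |B j i - J i j * (1 - T i ^ 2)| * (|v j| * |v i|) := habs
        _ ≤ (79 / 100 * J i j ^ 2) * ((v j ^ 2 + v i ^ 2) / 2) :=
          mul_le_mul h0 h3 (by positivity) (by positivity)
        _ = _ := by ring
    have h2 : ∑ j, ∑ i, (79 / 100 * (J i j ^ 2 * (v j ^ 2 + v i ^ 2) / 2))
        = 79 / 100 * (1 / 2 * (∑ j, v j ^ 2 * ∑ i, J i j ^ 2)
            + 1 / 2 * ∑ i, v i ^ 2 * ∑ j, J i j ^ 2) := by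
      have a1 : ∑ j, v j ^ 2 * ∑ i, J i j ^ 2 = ∑ j, ∑ i, v j ^ 2 * J i j ^ 2 := by
        simp only [Finset.mul_sum]
      have a2 : ∑ i, v i ^ 2 * ∑ j, J i j ^ 2 = ∑ j, ∑ i, v i ^ 2 * J i j ^ 2 := by
        simp only [Finset.mul_sum]
        rw [Finset.sum_comm]
      rw [a1, a2]
      simp only [Finset.mul_sum, ← Finset.sum_add_distrib]
      refine Finset.sum_congr rfl (fun j _ => Finset.sum_congr rfl (fun i _ => ?_))
      ring
    have h3 : ∑ j, v j ^ 2 * ∑ i, J i j ^ 2 ≤ r2 * N := by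
      rw [hN, Finset.mul_sum]
      refine Finset.sum_le_sum (fun j _ => ?_)
      calc _ ≤ v j ^ 2 * r2 := mul_le_mul_of_nonneg_left (hr j) (sq_nonneg _)
        _ = _ := by ring
    have h4 : ∑ i, v i ^ 2 * ∑ j, J i j ^ 2 ≤ r2 * N := by
      rw [hN, Finset.mul_sum]
      refine Finset.sum_le_sum (fun i _ => ?_)
      have : ∑ j, J i j ^ 2 ≤ r2 := by
        have e : ∑ j, J i j ^ 2 = ∑ j, J j i ^ 2 :=
          Finset.sum_congr rfl (fun j _ => by rw [hsym i j])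
        rw [e]; exact hr i
      calc _ ≤ v i ^ 2 * r2 := mul_le_mul_of_nonneg_left this (sq_nonneg _)
        _ = _ := by ring
    calc _ ≤ ∑ j, ∑ i, (79 / 100 * (J i j ^ 2 * (v j ^ 2 + v i ^ 2) / 2)) :=
          Finset.sum_le_sum (fun j _ => Finset.sum_le_sum (fun i _ => h1 j i))
      _ = _ := h2
      _ ≤ _ := by nlinarith
  have hfirst : ∑ j, ∑ i, v j * B j i * v i
      = ∑ j, ∑ i, v j * (J i j * (1 - T i ^ 2)) * v i
        + ∑ j, ∑ i, v j * (B j i - J i j * (1 - T i ^ 2)) * v i := by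
    simp only [← Finset.sum_add_distrib]
    refine Finset.sum_congr rfl (fun j _ => Finset.sum_congr rfl (fun i _ => ?_))
    ring
  change ∑ j, ∑ i, v j * B j i * v i
      + ∑ j, ∑ i, v j ^ 2 * (B j i ^ 2 / (1 - spin (x i) * T i)) ≤ (1 - (1 - ρ - 2 * r2)) * N
  rw [hfirst]
  nlinarith

end Vale.Agent.Lib.P150
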