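import Mathlib

/-!
Definitions for the heat-bath (Glauber) dynamics of an Ising model on a finite index set,
with zero external field, and the Sherrington-Kirkpatrick disorder.
-/

open scoped BigOperators

noncomputable section

namespace Vale.Agent.Lib.P150

variable {ι : Type*} [Fintype ι] [DecidableEq ι]

/-- The spin value in `{1, -1}` attached to a Boolean. -/
def spin (b : Bool) : ℝ := if b then 1 else -1

/-- The local field `h_i(x) = ∑_j J i j * x_j`. -/
def field (J : ι → ι → ℝ) (x : ι → Bool) (i : ι) : ℝ := ∑ j, J i j * spin (x j)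

/-- The heat-bath probability `exp (b h_i) / (2 cosh h_i)` of setting spin `i` to the value `b`. -/
def hbProb (J : ι → ι → ℝ) (x : ι → Bool) (i : ι) (b : Bool) : ℝ :=
  Real.exp (spin b * field J x i) / (2 * Real.cosh (field J x i))

/-- The generator `∑_i (Q_i - I)` of heat-bath dynamics, as a matrix on configurations:
`Q_i` resamples spin `i` from its conditional law. -/
def generator (J : ι → ι → ℝ) : Matrix (ι → Bool) (ι → Bool) ℝ :=
  fun x y => ∑ i, ((if y = Function.update x i true then hbProb J x i true else 0)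
    + (if y = Function.update x i false then hbProb J x i false else 0)
    - (if y = x then 1 else 0))

/-- The continuous-time kernel `P_t = exp (t L)`. -/
def semigroup (J : ι → ι → ℝ) (t : ℝ) : Matrix (ι → Bool) (ι → Bool) ℝ :=
  NormedSpace.exp (t • generator J)

/-- The Gibbs weight `exp ((1/2) ∑_{i,j} J i j x_i x_j)`. -/
def gibbsWeight (J : ι → ι → ℝ) (x : ι → Bool) : ℝ :=
  Real.exp ((1 / 2) * ∑ i, ∑ j, J i j * spin (x i) * spin (x j))

/-- The Gibbs probability of a configuration. -/
def gibbs (J : ι → ι → ℝ) (x : ι → Bool) : ℝ :=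
  gibbsWeight J x / ∑ y, gibbsWeight J y

/-- Total variation distance between two functions on configurations. -/
def tvDist (p q : (ι → Bool) → ℝ) : ℝ := (1 / 2) * ∑ y, |p y - q y|

/-- The mixing time `inf {t ≥ 0 : max_x ‖P_t(x,·) - μ‖_TV ≤ 1/4}`. -/
def mixingTime (J : ι → ι → ℝ) : ℝ :=
  sInf {t : ℝ | 0 ≤ t ∧ ∀ x, tvDist (semigroup J t x) (gibbs J) ≤ 1 / 4}

/-- The Dirichlet form `⟨f, -L f⟩` in `L²(μ)`. -/
def dirichletForm (J : ι → ι → ℝ) (f : (ι → Bool) → ℝ) : ℝ :=
  -∑ x, gibbs J x * (f x * (generator J).mulVec f x)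

/-- The variance of `f` under the Gibbs measure. -/
def gibbsVar (J : ι → ι → ℝ) (f : (ι → Bool) → ℝ) : ℝ :=
  ∑ x, gibbs J x * f x ^ 2 - (∑ x, gibbs J x * f x) ^ 2

/-- The spectral gap of `-L` on `L²(μ)`, as the infimum of the Rayleigh quotient
over nonconstant functions. -/
def spectralGap (J : ι → ι → ℝ) : ℝ :=
  sInf {r : ℝ | ∃ f, 0 < gibbsVar J f ∧ r = dirichletForm J f / gibbsVar J f}

/-- The SK coupling matrix `J i j = β n^{-1/2} g_{ij}` for `i ≠ j` (symmetric, zero diagonal). -/
def skCoupling {n : ℕ} (β : ℝ) (g : {p : Fin n × Fin n // p.1 < p.2} → ℝ) : Fin n → Fin n → ℝ :=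
  fun i j =>
    if h : i < j then β / Real.sqrt n * g ⟨(i, j), h⟩
    else if h' : j < i then β / Real.sqrt n * g ⟨(j, i), h'⟩
    else 0

end Vale.Agent.Lib.P150
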