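import Vale.Agent.Lib.P150.GaussBasic

/-!
A small calculus of functions on `m → ℝ` dominated by exponentials of `∑ L_j |z_j|`, uniformly in
a parameter.
-/

open MeasureTheory ProbabilityTheory
open scoped BigOperators

set_option linter.unusedSectionVars false
set_option linter.unusedSimpArgs false
set_option linter.unusedVariables false

noncomputable section

namespace Vale.Agent.Lib.P150

variable {m : Type*} [Fintype m] {T : Type*}

/-- Uniform domination by an exponential of a weighted `ℓ¹` norm. -/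
def Dom (F : T → (m → ℝ) → ℝ) : Prop :=
  ∃ (C : ℝ) (L : m → ℝ), 0 ≤ C ∧ (∀ j, 0 ≤ L j) ∧ ∀ t z, |F t z| ≤ C * Real.exp (∑ j, L j * |z j|)

lemma exp_sum_le_add (L L' : m → ℝ) (hL' : ∀ j, 0 ≤ L' j) (z : m → ℝ) :
    Real.exp (∑ j, L j * |z j|) ≤ Real.exp (∑ j, (L j + L' j) * |z j|) := by
  apply Real.exp_le_exp.2
  refine Finset.sum_le_sum (fun j _ => ?_)
  have := mul_nonneg (hL' j) (abs_nonneg (z j))
  nlinarith

lemma Dom.of_bdd {F : T → (m → ℝ) → ℝ} {B : ℝ} (h : ∀ t z, |F t z| ≤ B) (hB : 0 ≤ B) : Dom F := by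
  refine ⟨B, fun _ => 0, hB, fun _ => le_rfl, fun t z => ?_⟩
  simp only [zero_mul, Finset.sum_const_zero, Real.exp_zero, mul_one]
  exact h t z

lemma Dom.const (c : ℝ) : Dom (m := m) (T := T) (fun _ _ => c) :=
  Dom.of_bdd (B := |c|) (fun _ _ => le_rfl) (abs_nonneg c)

lemma Dom.add {F G : T → (m → ℝ) → ℝ} (hF : Dom F) (hG : Dom G) :
    Dom (fun t z => F t z + G t z) := by
  obtain ⟨C1, L1, hC1, hL1, h1⟩ := hF
  obtain ⟨C2, L2, hC2, hL2, h2⟩ := hG
  refine ⟨C1 + C2, fun j => L1 j + L2 j, by positivity, fun j => add_nonneg (hL1 j) (hL2 j),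
    fun t z => ?_⟩
  refine (abs_add_le _ _).trans ?_
  have a1 := exp_sum_le_add L1 L2 hL2 z
  have a2 := exp_sum_le_add L2 L1 hL1 z
  have e : ∑ j, (L2 j + L1 j) * |z j| = ∑ j, (L1 j + L2 j) * |z j| :=
    Finset.sum_congr rfl (fun j _ => by ring)
  rw [e] at a2
  have b1 := (h1 t z).trans (mul_le_mul_of_nonneg_left a1 hC1)
  have b2 := (h2 t z).trans (mul_le_mul_of_nonneg_left a2 hC2)
  rw [add_mul]
  exact add_le_add b1 b2

lemma Dom.mul {F G : T → (m → ℝ) → ℝ} (hF : Dom F) (hG : Dom G) :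
    Dom (fun t z => F t z * G t z) := by
  obtain ⟨C1, L1, hC1, hL1, h1⟩ := hF
  obtain ⟨C2, L2, hC2, hL2, h2⟩ := hG
  refine ⟨C1 * C2, fun j => L1 j + L2 j, by positivity, fun j => add_nonneg (hL1 j) (hL2 j),
    fun t z => ?_⟩
  rw [abs_mul]
  have e : ∑ j, (L1 j + L2 j) * |z j| = ∑ j, L1 j * |z j| + ∑ j, L2 j * |z j| := by
    rw [← Finset.sum_add_distrib]
    exact Finset.sum_congr rfl (fun j _ => by ring)
  rw [e, Real.exp_add]
  calc |F t z| * |G t z|
      ≤ (C1 * Real.exp (∑ j, L1 j * |z j|)) * (C2 * Real.exp (∑ j, L2 j * |z j|)) :=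
        mul_le_mul (h1 t z) (h2 t z) (abs_nonneg _) (by positivity)
    _ = _ := by ring

lemma Dom.neg {F : T → (m → ℝ) → ℝ} (hF : Dom F) : Dom (fun t z => -F t z) := by
  obtain ⟨C1, L1, hC1, hL1, h1⟩ := hF
  exact ⟨C1, L1, hC1, hL1, fun t z => by rw [abs_neg]; exact h1 t z⟩

lemma Dom.sub {F G : T → (m → ℝ) → ℝ} (hF : Dom F) (hG : Dom G) :
    Dom (fun t z => F t z - G t z) := by
  simpa [sub_eq_add_neg] using hF.add hG.neg

lemma Dom.const_mul {F : T → (m → ℝ) → ℝ} (c : ℝ) (hF : Dom F) : Dom (fun t z => c * F t z) :=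
  (Dom.const c).mul hF

lemma Dom.sum {α : Type*} (s : Finset α) {F : α → T → (m → ℝ) → ℝ} (hF : ∀ a ∈ s, Dom (F a)) :
    Dom (fun t z => ∑ a ∈ s, F a t z) := by
  classical
  induction s using Finset.induction_on with
  | empty => simpa using Dom.const (m := m) (T := T) 0
  | insert a s ha ih =>
    simp only [Finset.sum_insert ha]
    exact (hF a (Finset.mem_insert_self a s)).add
      (ih (fun b hb => hF b (Finset.mem_insert_of_mem hb)))

lemma Dom.coord [DecidableEq m] (k : m) : Dom (m := m) (T := T) (fun _ z => z k) := by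
  refine ⟨1, fun j => if j = k then 1 else 0, zero_le_one, fun j => by dsimp only; split_ifs <;> norm_num,
    fun t z => ?_⟩
  simp only [ite_mul, one_mul, zero_mul, Finset.sum_ite_eq', Finset.mem_univ, if_true]
  exact abs_le_exp_abs _

lemma Dom.comp_param {S : Type*} {F : T → (m → ℝ) → ℝ} (hF : Dom F) (φ : S → T) :
    Dom (fun s z => F (φ s) z) := by
  obtain ⟨C1, L1, hC1, hL1, h1⟩ := hF
  exact ⟨C1, L1, hC1, hL1, fun t z => h1 _ z⟩

lemma Dom.bound {F : T → (m → ℝ) → ℝ} (hF : Dom F) :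
    ∃ b : (m → ℝ) → ℝ, Integrable b (stdG m) ∧ ∀ t z, |F t z| ≤ b z := by
  obtain ⟨C1, L1, hC1, hL1, h1⟩ := hF
  exact ⟨fun z => C1 * Real.exp (∑ j, L1 j * |z j|), (integrable_stdG_exp L1).const_mul C1, h1⟩

lemma Dom.integrable {F : T → (m → ℝ) → ℝ} (hF : Dom F) (t : T) (hc : Continuous (F t)) :
    Integrable (F t) (stdG m) := by
  obtain ⟨b, hb, h1⟩ := hF.bound
  refine hb.mono' hc.aestronglyMeasurable ?_
  filter_upwards with z
  simpa [Real.norm_eq_abs] using h1 t z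

end Vale.Agent.Lib.P150
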