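import Vale.Agent.Lib.P150.Root

/-!
Exponential decay of entropy along the semigroup, and the resulting bound on the total variation
distance from an arbitrary starting configuration.
-/

open scoped BigOperators
open Function

set_option linter.unusedSectionVars false
set_option linter.unusedSimpArgs false
set_option linter.unusedVariables false

noncomputable section

namespace Vale.Agent.Lib.P150

variable {ι : Type*} [Fintype ι] [DecidableEq ι]

/-- Approximate tensorization of entropy with constant `C`. -/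
def EntFactor (π : (ι → Bool) → ℝ) (t : (ι → Bool) → ι → ℝ) (C : ℝ) : Prop :=
  ∀ f : (ι → Bool) → ℝ, (∀ x, 0 < f x) → ∑ x, π x * f x = 1 →
    ∑ x, π x * Phi (f x) ≤ C * ∑ i, ∑ x, π x * (Phi (f x) - Phi (Qt t i f x))

lemma gen_eq_sum_Qt (t : (ι → Bool) → ι → ℝ) (g : (ι → Bool) → ℝ) (x : ι → Bool) :
    gen t g x = ∑ i, (Qt t i g x - g x) := by
  unfold gen
  exact Finset.sum_congr rfl (fun i _ => (Qt_sub t i g x).symm)

/-- The modified log-Sobolev form dominates the entropy production. -/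
lemma mlsi_form {π : (ι → Bool) → ℝ} {t : (ι → Bool) → ι → ℝ} (hR : IsRev π t)
    (hlt : ∀ x i, |t x i| < 1) {g : (ι → Bool) → ℝ} (hg : ∀ x, 0 < g x) :
    ∑ i, ∑ x, π x * (Phi (g x) - Phi (Qt t i g x)) ≤ -∑ x, π x * (gen t g x * Real.log (g x)) := by
  have e : ∑ x, π x * (gen t g x * Real.log (g x))
      = ∑ i, ∑ x, π x * ((Qt t i g x - g x) * Real.log (g x)) := by
    simp only [gen_eq_sum_Qt, Finset.sum_mul, Finset.mul_sum]
    rw [Finset.sum_comm]
  rw [e, ← Finset.sum_neg_distrib]
  refine Finset.sum_le_sum (fun i _ => ?_)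
  rw [← Finset.sum_neg_distrib]
  -- pointwise: `Q log f ≤ Q log Q + f - Q`
  have key : ∀ x, π x * (Phi (g x) - Phi (Qt t i g x)) + π x * (Qt t i g x - g x)
      ≤ -(π x * ((Qt t i g x - g x) * Real.log (g x))) := by
    intro x
    have hq := Qt_pos hlt i hg x
    have hgx := hg x
    have hπ := hR.pos x
    have hu : 0 < g x / Qt t i g x := by positivity
    have h1 := Real.log_le_sub_one_of_pos hu
    rw [Real.log_div hgx.ne' hq.ne'] at h1
    have h2 := mul_le_mul_of_nonneg_left h1 (mul_pos hπ hq).le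
    have h3 : π x * Qt t i g x * (g x / Qt t i g x - 1) = π x * g x - π x * Qt t i g x := by
      field_simp
    rw [h3] at h2
    unfold Phi
    nlinarith
  have hs := Finset.sum_le_sum (fun x (_ : x ∈ Finset.univ) => key x)
  rw [Finset.sum_add_distrib] at hs
  have h0 : ∑ x, π x * (Qt t i g x - g x) = 0 := by
    have := sum_Qt hR i g
    simp only [mul_sub, Finset.sum_sub_distrib]
    linarith
  rw [h0, add_zero] at hs
  exact hs

/-- Positivity along the semigroup. -/
lemma act_pos {L : Matrix (ι → Bool) (ι → Bool) ℝ} {t : (ι → Bool) → ι → ℝ} (hG : IsGlauber L t)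
    {f : (ι → Bool) → ℝ} (hf : ∀ x, 0 < f x) {v : ℝ} (hv : 0 ≤ v) (x : ι → Bool) :
    0 < act L v f x := by
  obtain ⟨x1, -, hx1⟩ := Finset.exists_min_image Finset.univ f Finset.univ_nonempty
  have h1 := act_mono L hG.offdiag hv (v := fun _ => f x1) (w := f)
    (fun y => hx1 y (Finset.mem_univ y)) x
  rw [act_const L hG.mulVec_one] at h1
  exact (hf x1).trans_le h1

lemma phi_hasDerivAt {u : ℝ} (hu : 0 < u) : HasDerivAt Phi (Real.log u + 1) u := by
  unfold Phi
  have := (hasDerivAt_id' u).mul (Real.hasDerivAt_log hu.ne')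
  refine this.congr_deriv ?_
  field_simp

/-- **Entropy decay.** -/
theorem ent_decay {L : Matrix (ι → Bool) (ι → Bool) ℝ} {t : (ι → Bool) → ι → ℝ}
    (hG : IsGlauber L t) {π : (ι → Bool) → ℝ} (hR : IsRev π t) {C : ℝ} (hC : 0 < C)
    (hF : EntFactor π t C) {f : (ι → Bool) → ℝ} (hf : ∀ x, 0 < f x) (hf1 : ∑ x, π x * f x = 1)
    {v : ℝ} (hv : 0 ≤ v) :
    ∑ x, π x * Phi (act L v f x) ≤ Real.exp (-(v / C)) * ∑ x, π x * Phi (f x) := by
  set H : ℝ → ℝ := fun r => ∑ x, π x * Phi (act L r f x) with hH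
  set Y : ℝ → ℝ := fun r => Real.exp (r / C) * H r with hY
  have hact : ∀ x r, HasDerivAt (fun q => act L q f x) (gen t (act L r f) x) r := by
    intro x r
    have := act_hasDerivAt L f x r
    rwa [hG.mulVec_eq] at this
  have hHd : ∀ r, 0 ≤ r → HasDerivAt H
      (∑ x, π x * ((Real.log (act L r f x) + 1) * gen t (act L r f) x)) r := by
    intro r hr
    refine HasDerivAt.fun_sum (fun x _ => ?_)
    exact ((phi_hasDerivAt (act_pos hG hf hr x)).comp r (hact x r)).const_mul (π x)
  have hHc : Continuous H := by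
    simp only [hH]
    refine continuous_finsetSum _ (fun x _ => continuous_const.mul ?_)
    have h1 : Continuous (fun r => act L r f x) :=
      continuous_iff_continuousAt.2 (fun r => (hact x r).continuousAt)
    exact (Real.continuous_mul_log.comp h1 : Continuous fun r => act L r f x * Real.log (act L r f x))
  have hYc : Continuous Y := (Real.continuous_exp.comp (continuous_id.div_const C)).mul hHc
  have hYd : ∀ r, 0 ≤ r → HasDerivAt Y (Real.exp (r / C) * (1 / C) * H r
      + Real.exp (r / C) * (∑ x, π x * ((Real.log (act L r f x) + 1) * gen t (act L r f) x))) r := by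
    intro r hr
    have h1 : HasDerivAt (fun q : ℝ => Real.exp (q / C)) (Real.exp (r / C) * (1 / C)) r := by
      have : HasDerivAt (fun q : ℝ => q / C) (1 / C) r := (hasDerivAt_id' r).div_const C
      exact this.exp
    exact h1.mul (hHd r hr)
  have hanti : AntitoneOn Y (Set.Ici 0) := by
    refine antitoneOn_of_deriv_nonpos (convex_Ici 0) hYc.continuousOn ?_ ?_
    · intro r hr
      rw [interior_Ici] at hr
      exact (hYd r (le_of_lt hr)).differentiableAt.differentiableWithinAt
    · intro r hr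
      rw [interior_Ici] at hr
      have hr0 : 0 ≤ r := le_of_lt hr
      rw [(hYd r hr0).deriv]
      set g := act L r f with hg
      have hg0 : ∀ x, 0 < g x := fun x => act_pos hG hf hr0 x
      have hg1 : ∑ x, π x * g x = 1 := by
        rw [hg, sum_act hG hR, hf1]
      have h1 := hF g hg0 hg1
      have h2 := mlsi_form hR hG.lt_one hg0
      have e1 : ∑ x, π x * ((Real.log (g x) + 1) * gen t g x)
          = ∑ x, π x * (gen t g x * Real.log (g x)) := by
        have h3 := sum_gen_eq_zero hR g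
        have : ∑ x, π x * ((Real.log (g x) + 1) * gen t g x)
            = ∑ x, π x * (gen t g x * Real.log (g x)) + ∑ x, π x * gen t g x := by
          rw [← Finset.sum_add_distrib]
          exact Finset.sum_congr rfl (fun x _ => by ring)
        rw [this, h3, add_zero]
      rw [e1]
      have hHr : H r = ∑ x, π x * Phi (g x) := rfl
      rw [hHr]
      have h4 : (1 / C) * ∑ x, π x * Phi (g x) ≤ -∑ x, π x * (gen t g x * Real.log (g x)) := by
        have h5 : (1 / C) * ∑ x, π x * Phi (g x)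
            ≤ (1 / C) * (C * ∑ i, ∑ x, π x * (Phi (g x) - Phi (Qt t i g x))) :=
          mul_le_mul_of_nonneg_left h1 (by positivity)
        have h6 : (1 / C) * (C * ∑ i, ∑ x, π x * (Phi (g x) - Phi (Qt t i g x)))
            = ∑ i, ∑ x, π x * (Phi (g x) - Phi (Qt t i g x)) := by
          field_simp
        linarith
      have hp := Real.exp_pos (r / C)
      have e2 : Real.exp (r / C) * (1 / C) * ∑ x, π x * Phi (g x)
          + Real.exp (r / C) * ∑ x, π x * (gen t g x * Real.log (g x))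
          = Real.exp (r / C) * ((1 / C) * ∑ x, π x * Phi (g x)
            + ∑ x, π x * (gen t g x * Real.log (g x))) := by ring
      rw [e2]
      exact mul_nonpos_of_nonneg_of_nonpos hp.le (by linarith)
  have h1 := hanti (Set.mem_Ici.2 le_rfl) (Set.mem_Ici.2 hv) hv
  have e0 : Y 0 = ∑ x, π x * Phi (f x) := by
    simp [hY, hH, act_zero]
  rw [e0] at h1
  have h3 : Real.exp (-(v / C)) * Real.exp (v / C) = 1 := by
    rw [← Real.exp_add]; simp
  have h4 : 0 < Real.exp (-(v / C)) := Real.exp_pos _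
  calc H v = Real.exp (-(v / C)) * Y v := by
        simp only [hY]; rw [← mul_assoc, h3, one_mul]
    _ ≤ _ := mul_le_mul_of_nonneg_left h1 h4.le

/-- Total variation is controlled by entropy. -/
theorem l1_le_entropy {π : (ι → Bool) → ℝ} (hπ : ∀ x, 0 < π x) (hπ1 : ∑ x, π x = 1)
    {g : (ι → Bool) → ℝ} (hg : ∀ x, 0 < g x) (hg1 : ∑ x, π x * g x = 1) :
    ∑ x, π x * |g x - 1| ≤ 2 * Real.sqrt (∑ x, π x * Phi (g x)) := by
  set u : (ι → Bool) → ℝ := fun x => Real.sqrt (g x) with hu
  have hu0 : ∀ x, 0 < u x := fun x => Real.sqrt_pos.2 (hg x)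
  have hu2 : ∀ x, u x * u x = g x := fun x => Real.mul_self_sqrt (hg x).le
  -- the Hellinger bound
  have hell : ∀ x, (u x - 1) ^ 2 ≤ Phi (g x) - g x + 1 := by
    intro x
    have h1 := hu0 x
    have h2 : Real.log (g x) = 2 * Real.log (u x) := by
      rw [← hu2 x, Real.log_mul h1.ne' h1.ne']
      ring
    have h3 := Real.one_sub_inv_le_log_of_pos h1
    have h4 : (1 - (u x)⁻¹) * (u x * u x) = u x * u x - u x := by
      field_simp
    have h5 : (1 - (u x)⁻¹) * (u x * u x) ≤ Real.log (u x) * (u x * u x) :=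
      mul_le_mul_of_nonneg_right h3 (by positivity)
    rw [h4] at h5
    unfold Phi
    rw [h2, ← hu2 x]
    nlinarith
  have hA : ∑ x, π x * (u x - 1) ^ 2 ≤ ∑ x, π x * Phi (g x) := by
    have h1 : ∑ x, π x * (u x - 1) ^ 2 ≤ ∑ x, π x * (Phi (g x) - g x + 1) :=
      Finset.sum_le_sum (fun x _ => mul_le_mul_of_nonneg_left (hell x) (hπ x).le)
    have e : ∑ x, π x * (Phi (g x) - g x + 1)
        = ∑ x, π x * Phi (g x) - ∑ x, π x * g x + ∑ x, π x := by
      rw [← Finset.sum_sub_distrib, ← Finset.sum_add_distrib]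
      exact Finset.sum_congr rfl (fun x _ => by ring)
    rw [e, hg1, hπ1] at h1
    linarith
  have hB : ∑ x, π x * (u x + 1) ^ 2 ≤ 4 := by
    have h1 : ∀ x, π x * (u x + 1) ^ 2 ≤ 2 * (π x * g x) + 2 * π x := by
      intro x
      have h2 := hπ x
      have h3 : (u x + 1) ^ 2 ≤ 2 * g x + 2 := by
        rw [← hu2 x]
        nlinarith [sq_nonneg (u x - 1)]
      nlinarith
    have h2 := Finset.sum_le_sum (fun x (_ : x ∈ Finset.univ) => h1 x)
    rw [Finset.sum_add_distrib, ← Finset.mul_sum, ← Finset.mul_sum, hg1, hπ1] at h2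
    linarith
  have hcs := Finset.sum_mul_sq_le_sq_mul_sq Finset.univ
    (fun x => Real.sqrt (π x) * |u x - 1|) (fun x => Real.sqrt (π x) * (u x + 1))
  have hs : ∀ x, Real.sqrt (π x) * Real.sqrt (π x) = π x := fun x => Real.mul_self_sqrt (hπ x).le
  have e1 : ∑ x, (Real.sqrt (π x) * |u x - 1|) * (Real.sqrt (π x) * (u x + 1))
      = ∑ x, π x * |g x - 1| := by
    refine Finset.sum_congr rfl (fun x _ => ?_)
    have h0 : |g x - 1| = |u x - 1| * (u x + 1) := by
      rw [← hu2 x]
      have : u x * u x - 1 = (u x - 1) * (u x + 1) := by ring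
      rw [this, abs_mul, abs_of_pos (by linarith [hu0 x] : 0 < u x + 1)]
    rw [h0]
    calc _ = (Real.sqrt (π x) * Real.sqrt (π x)) * (|u x - 1| * (u x + 1)) := by ring
      _ = _ := by rw [hs]
  have e2 : ∑ x, (Real.sqrt (π x) * |u x - 1|) ^ 2 = ∑ x, π x * (u x - 1) ^ 2 := by
    refine Finset.sum_congr rfl (fun x _ => ?_)
    rw [mul_pow, sq_abs, Real.sq_sqrt (hπ x).le]
  have e3 : ∑ x, (Real.sqrt (π x) * (u x + 1)) ^ 2 = ∑ x, π x * (u x + 1) ^ 2 := by
    refine Finset.sum_congr rfl (fun x _ => ?_)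
    rw [mul_pow, Real.sq_sqrt (hπ x).le]
  rw [e1, e2, e3] at hcs
  set E := ∑ x, π x * Phi (g x) with hE
  have hE0 : 0 ≤ E := (Finset.sum_nonneg (fun x _ => mul_nonneg (hπ x).le (sq_nonneg _))).trans hA
  have h0 : 0 ≤ ∑ x, π x * |g x - 1| :=
    Finset.sum_nonneg (fun x _ => mul_nonneg (hπ x).le (abs_nonneg _))
  have h5 : (∑ x, π x * |g x - 1|) ^ 2 ≤ (2 * Real.sqrt E) ^ 2 := by
    rw [mul_pow, Real.sq_sqrt hE0]
    have h6 : 0 ≤ ∑ x, π x * (u x + 1) ^ 2 :=
      Finset.sum_nonneg (fun x _ => mul_nonneg (hπ x).le (sq_nonneg _))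
    calc _ ≤ (∑ x, π x * (u x - 1) ^ 2) * ∑ x, π x * (u x + 1) ^ 2 := hcs
      _ ≤ E * 4 := mul_le_mul hA hB h6 hE0
      _ = _ := by ring
  exact abs_le_of_sq_le_sq' h5 (by positivity) |>.2

/-- Detailed balance for the semigroup. -/
lemma sg_detailed {L : Matrix (ι → Bool) (ι → Bool) ℝ} {t : (ι → Bool) → ι → ℝ}
    (hG : IsGlauber L t) {π : (ι → Bool) → ℝ} (hR : IsRev π t) (v : ℝ) (x y : ι → Bool) :
    π y * sg L v y x = π x * sg L v x y := by
  have h := ip_act_symm L π (Lsymm hG hR) v (fun z => if z = y then 1 else 0)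
    (fun z => if z = x then 1 else 0)
  have e : ∀ (a b : ι → Bool), act L v (fun z => if z = b then (1:ℝ) else 0) a = sg L v a b := by
    intro a b
    rw [act_apply]
    simp
  unfold ip at h
  simp only [mul_ite, mul_one, mul_zero, ite_mul, one_mul, zero_mul, Finset.sum_ite_eq',
    Finset.mem_univ, if_true] at h
  rw [e, e] at h
  linarith

/-- The bound on the total variation distance from any starting point. -/
theorem tv_le_of_ent {L : Matrix (ι → Bool) (ι → Bool) ℝ} {t : (ι → Bool) → ι → ℝ}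
    (hG : IsGlauber L t) {π : (ι → Bool) → ℝ} (hR : IsRev π t) {C : ℝ} (hC : 0 < C)
    (hF : EntFactor π t C) {B : ℝ} (hB : ∀ x, Real.log (π x)⁻¹ ≤ B) {v : ℝ} (hv : 0 ≤ v)
    (x0 : ι → Bool) :
    tvDist (sg L v x0) π ≤ 2 * Real.sqrt (Real.exp (-(v / C)) * B) := by
  have hπx0 := hR.pos x0
  have hπle : π x0 ≤ 1 := by
    rw [← hR.sum_one]
    exact Finset.single_le_sum (f := π) (fun x _ => (hR.pos x).le) (Finset.mem_univ x0)
  set f0 : (ι → Bool) → ℝ := fun y => (1 / 2) * (if y = x0 then (π x0)⁻¹ else 0) + 1 / 2 with hf0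
  have hf0pos : ∀ y, 0 < f0 y := by
    intro y
    simp only [hf0]
    split_ifs <;> positivity
  have hf01 : ∑ y, π y * f0 y = 1 := by
    have e : ∀ y, π y * f0 y = (1 / 2) * (if y = x0 then 1 else 0) + (1 / 2) * π y := by
      intro y
      simp only [hf0]
      split_ifs with h
      · subst h
        field_simp
      · ring
    simp only [e, Finset.sum_add_distrib, ← Finset.mul_sum, hR.sum_one, Finset.sum_ite_eq',
      Finset.mem_univ, if_true]
    norm_num
  have hinvge : 1 ≤ (π x0)⁻¹ := by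
    rw [one_le_inv₀ hπx0]
    exact hπle
  have hf0le : ∀ y, f0 y ≤ (π x0)⁻¹ := by
    intro y
    simp only [hf0]
    split_ifs <;> linarith
  have hH0 : ∑ y, π y * Phi (f0 y) ≤ Real.log (π x0)⁻¹ := by
    have h1 : ∀ y, π y * Phi (f0 y) ≤ (π y * f0 y) * Real.log (π x0)⁻¹ := by
      intro y
      have h2 := Real.log_le_log (hf0pos y) (hf0le y)
      have h3 := mul_le_mul_of_nonneg_left h2 (mul_pos (hR.pos y) (hf0pos y)).le
      unfold Phi
      linarith
    have h2 := Finset.sum_le_sum (fun y (_ : y ∈ Finset.univ) => h1 y)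
    rw [← Finset.sum_mul, hf01, one_mul] at h2
    exact h2
  have hdecay := ent_decay hG hR hC hF hf0pos hf01 hv
  set g := act L v f0 with hg
  have hgpos : ∀ y, 0 < g y := act_pos hG hf0pos hv
  have hg1 : ∑ y, π y * g y = 1 := by
    rw [hg, sum_act hG hR, hf01]
  have hgval : ∀ y, π y * (g y - 1) = (1 / 2) * (sg L v x0 y - π y) := by
    intro y
    have h1 : g y = (1 / 2) * (sg L v y x0 * (π x0)⁻¹) + 1 / 2 := by
      rw [hg, act_apply]
      simp only [hf0, mul_add, mul_ite, mul_zero, Finset.sum_add_distrib, ← Finset.sum_mul,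
        sg_row_sum hG, Finset.sum_ite_eq', Finset.mem_univ, if_true]
      ring
    have h2 := sg_detailed hG hR v x0 y
    rw [h1]
    have h3 : π y * ((1 / 2) * (sg L v y x0 * (π x0)⁻¹) + 1 / 2 - 1)
        = (1 / 2) * ((π y * sg L v y x0) * (π x0)⁻¹ - π y) := by ring
    rw [h3, h2]
    field_simp
  have htv : tvDist (sg L v x0) π = ∑ y, π y * |g y - 1| := by
    unfold tvDist
    rw [Finset.mul_sum]
    refine Finset.sum_congr rfl (fun y _ => ?_)
    have hy := hR.pos y
    have e : sg L v x0 y - π y = 2 * (π y * (g y - 1)) := by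
      rw [hgval]; ring
    rw [e, abs_mul, abs_mul, abs_of_pos hy, abs_of_pos (by norm_num : (0:ℝ) < 2)]
    ring
  rw [htv]
  refine (l1_le_entropy hR.pos hR.sum_one hgpos hg1).trans ?_
  refine mul_le_mul_of_nonneg_left (Real.sqrt_le_sqrt ?_) (by norm_num)
  refine hdecay.trans (mul_le_mul_of_nonneg_left (hH0.trans (hB x0)) (Real.exp_pos _).le)

end Vale.Agent.Lib.P150
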