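import Vale.Agent.Lib.P150.Poinc2

/-!
Entropic stability: the covariance bound for all external fields gives the quadratic bound on the
shift of the mean in terms of relative entropy.
-/

open scoped BigOperators
open Function

set_option linter.unusedSectionVars false
set_option linter.unusedSimpArgs false
set_option linter.unusedVariables false

noncomputable section

namespace Vale.Agent.Lib.P150

variable {ι : Type*} [Fintype ι] [DecidableEq ι]

/-- A linear form in the spins. -/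
def lin (b : ι → ℝ) (x : ι → Bool) : ℝ := ∑ i, b i * spin (x i)

/-- The Laplace transform of a linear form and its derivatives. -/
def Lap (ν : (ι → Bool) → ℝ) (b : ι → ℝ) (k : ℕ) (θ : ℝ) : ℝ :=
  ∑ x, ν x * (lin b x ^ k * Real.exp (θ * lin b x))

lemma Lap_hasDerivAt (ν : (ι → Bool) → ℝ) (b : ι → ℝ) (k : ℕ) (θ : ℝ) :
    HasDerivAt (Lap ν b k) (Lap ν b (k + 1) θ) θ := by
  unfold Lap
  refine HasDerivAt.fun_sum (fun x _ => ?_)
  have h1 : HasDerivAt (fun q : ℝ => Real.exp (q * lin b x))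
      (Real.exp (θ * lin b x) * lin b x) θ := by
    have : HasDerivAt (fun q : ℝ => q * lin b x) (lin b x) θ := by
      simpa using (hasDerivAt_id' θ).mul_const (lin b x)
    exact this.exp
  refine ((h1.const_mul (lin b x ^ k)).const_mul (ν x)).congr_deriv ?_
  rw [pow_succ]
  ring

lemma Lap_pos {ν : (ι → Bool) → ℝ} (hν : ∀ x, 0 < ν x) (b : ι → ℝ) (θ : ℝ) : 0 < Lap ν b 0 θ := by
  unfold Lap
  refine Finset.sum_pos (fun x _ => ?_) Finset.univ_nonempty
  have := hν x
  have := Real.exp_pos (θ * lin b x)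
  simp only [pow_zero, one_mul]
  positivity

/-- Tilting an Ising measure by a linear form changes the external field. -/
lemma gibbsH_tilt (J : ι → ι → ℝ) (h b : ι → ℝ) (θ : ℝ) (x : ι → Bool) :
    gibbsH J (fun i => h i + θ * b i) x
      = gibbsH J h x * Real.exp (θ * lin b x) / Lap (gibbsH J h) b 0 θ := by
  have hw : ∀ y, gibbsWeightH J (fun i => h i + θ * b i) y
      = gibbsWeightH J h y * Real.exp (θ * lin b y) := by
    intro y
    unfold gibbsWeightH lin
    rw [← Real.exp_add]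
    congr 1
    rw [add_assoc]
    congr 1
    rw [Finset.mul_sum, ← Finset.sum_add_distrib]
    refine Finset.sum_congr rfl (fun i _ => ?_)
    ring
  have hZ := sum_gibbsWeightH_pos J h
  have hL : Lap (gibbsH J h) b 0 θ
      = (∑ y, gibbsWeightH J h y * Real.exp (θ * lin b y)) / ∑ y, gibbsWeightH J h y := by
    unfold Lap gibbsH
    rw [Finset.sum_div]
    refine Finset.sum_congr rfl (fun y _ => ?_)
    rw [pow_zero, one_mul]
    ring
  have hpos : 0 < ∑ y, gibbsWeightH J h y * Real.exp (θ * lin b y) :=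
    Finset.sum_pos (fun y _ => mul_pos (gibbsWeightH_pos J h y) (Real.exp_pos _))
      Finset.univ_nonempty
  rw [hL]
  have hq : gibbsH J (fun i => h i + θ * b i) x
      = gibbsWeightH J h x * Real.exp (θ * lin b x) / ∑ y, gibbsWeightH J h y * Real.exp (θ * lin b y) := by
    unfold gibbsH
    simp only [hw]
  rw [hq]
  unfold gibbsH
  field_simp

lemma Lap_zero_zero {ν : (ι → Bool) → ℝ} (h1 : ∑ x, ν x = 1) (b : ι → ℝ) : Lap ν b 0 0 = 1 := by
  simpa [Lap] using h1

lemma Lap_one_zero (ν : (ι → Bool) → ℝ) (b : ι → ℝ) : Lap ν b 1 0 = ∑ x, ν x * lin b x := by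
  simp [Lap]

/-- The second derivative bound of the log-Laplace transform. -/
lemma log_lap_second {J : ι → ι → ℝ} {κ : ℝ} (hκ : 0 < κ) (hcov : CovBound J κ) (h b : ι → ℝ)
    (θ : ℝ) :
    (Lap (gibbsH J h) b 2 θ * Lap (gibbsH J h) b 0 θ - Lap (gibbsH J h) b 1 θ ^ 2)
        / Lap (gibbsH J h) b 0 θ ^ 2 ≤ (∑ i, b i ^ 2) / κ := by
  set ν := gibbsH J h with hν
  have hL := Lap_pos (gibbsH_pos J h) b θ
  rw [← hν] at hL
  have h1 := hcov (fun i => h i + θ * b i) b
  have e1 : ∑ x, gibbsH J (fun i => h i + θ * b i) x * (∑ i, b i * spin (x i)) ^ 2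
      = Lap ν b 2 θ / Lap ν b 0 θ := by
    simp only [gibbsH_tilt, ← hν]
    unfold Lap lin
    rw [Finset.sum_div]
    refine Finset.sum_congr rfl (fun x _ => ?_)
    simp only [pow_zero, one_mul] at hL ⊢
    field_simp
  have e2 : ∑ x, gibbsH J (fun i => h i + θ * b i) x * (∑ i, b i * spin (x i))
      = Lap ν b 1 θ / Lap ν b 0 θ := by
    simp only [gibbsH_tilt, ← hν]
    unfold Lap lin
    rw [Finset.sum_div]
    refine Finset.sum_congr rfl (fun x _ => ?_)
    simp only [pow_zero, one_mul, pow_one] at hL ⊢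
    field_simp
  rw [e1, e2] at h1
  rw [le_div_iff₀ hκ]
  have e3 : (Lap ν b 2 θ * Lap ν b 0 θ - Lap ν b 1 θ ^ 2) / Lap ν b 0 θ ^ 2
      = Lap ν b 2 θ / Lap ν b 0 θ - (Lap ν b 1 θ / Lap ν b 0 θ) ^ 2 := by
    field_simp
  rw [e3, mul_comm]
  exact h1

/-- Upper bound for the log-Laplace transform at one. -/
theorem log_lap_le {J : ι → ι → ℝ} {κ : ℝ} (hκ : 0 < κ) (hcov : CovBound J κ) (h b : ι → ℝ) :
    Real.log (Lap (gibbsH J h) b 0 1)
      ≤ ∑ x, gibbsH J h x * lin b x + (∑ i, b i ^ 2) / (2 * κ) := by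
  set ν := gibbsH J h with hν
  have hpos : ∀ θ, 0 < Lap ν b 0 θ := Lap_pos (gibbsH_pos J h) b
  set c := (∑ i, b i ^ 2) / κ with hc
  set m0 := ∑ x, ν x * lin b x with hm0
  -- first derivative
  set G' : ℝ → ℝ := fun θ => Lap ν b 1 θ / Lap ν b 0 θ - m0 - c * θ with hG'
  set G : ℝ → ℝ := fun θ => Real.log (Lap ν b 0 θ) - m0 * θ - c * θ ^ 2 / 2 with hGdef
  have hd1 : ∀ θ, HasDerivAt G (G' θ) θ := by
    intro θ
    have h1 := (Lap_hasDerivAt ν b 0 θ).log (hpos θ).ne'
    have h2 : HasDerivAt (fun q : ℝ => m0 * q) m0 θ := by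
      simpa using (hasDerivAt_id' θ).const_mul m0
    have h3 : HasDerivAt (fun q : ℝ => c * q ^ 2 / 2) (c * θ) θ := by
      have := ((hasDerivAt_id' θ).pow 2).const_mul c
      refine (this.div_const 2).congr_deriv ?_
      simp
      ring
    exact ((h1.sub h2).sub h3)
  have hd2 : ∀ θ, HasDerivAt G'
      ((Lap ν b 2 θ * Lap ν b 0 θ - Lap ν b 1 θ * Lap ν b 1 θ) / Lap ν b 0 θ ^ 2 - c) θ := by
    intro θ
    have h1 := (Lap_hasDerivAt ν b 1 θ).div (Lap_hasDerivAt ν b 0 θ) (hpos θ).ne'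
    have h3 : HasDerivAt (fun q : ℝ => c * q) c θ := by
      simpa using (hasDerivAt_id' θ).const_mul c
    have h4 := ((h1.sub_const m0).sub h3)
    exact h4
  have hle : ∀ θ, deriv G' θ ≤ 0 := by
    intro θ
    rw [(hd2 θ).deriv]
    have := log_lap_second hκ hcov h b θ
    rw [← hν, pow_two (Lap ν b 1 θ)] at this
    linarith
  have hanti : Antitone G' := antitone_of_deriv_nonpos (fun θ => (hd2 θ).differentiableAt) hle
  have hG'0 : G' 0 = 0 := by
    simp only [hG']
    rw [Lap_zero_zero (gibbsH_sum J h) b, Lap_one_zero, div_one]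
    simp [hm0]
  have hantiG : AntitoneOn G (Set.Ici 0) := by
    refine antitoneOn_of_deriv_nonpos (convex_Ici 0) ?_ ?_ ?_
    · exact fun θ _ => (hd1 θ).continuousAt.continuousWithinAt
    · exact fun θ _ => (hd1 θ).differentiableAt.differentiableWithinAt
    · intro θ hθ
      rw [(hd1 θ).deriv]
      have : 0 ≤ θ := by
        rw [interior_Ici] at hθ
        exact le_of_lt hθ
      have h2 := hanti this
      rw [hG'0] at h2
      exact h2
  have h3 := hantiG (Set.mem_Ici.2 le_rfl) (Set.mem_Ici.2 zero_le_one) zero_le_one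
  have e0 : G 0 = 0 := by
    simp only [hGdef]
    rw [Lap_zero_zero (gibbsH_sum J h) b]
    simp
  rw [e0] at h3
  simp only [hGdef] at h3
  have e4 : c * (1:ℝ) ^ 2 / 2 = (∑ i, b i ^ 2) / (2 * κ) := by
    rw [hc]; field_simp
  rw [e4] at h3
  linarith

/-- The Donsker-Varadhan inequality. -/
theorem donsker_varadhan {ν : (ι → Bool) → ℝ} (hν : ∀ x, 0 < ν x) (b : ι → ℝ)
    {f : (ι → Bool) → ℝ} (hf : ∀ x, 0 < f x) (hf1 : ∑ x, ν x * f x = 1) :
    ∑ x, ν x * (f x * lin b x) ≤ ∑ x, ν x * (f x * Real.log (f x)) + Real.log (Lap ν b 0 1) := by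
  set Λ := Lap ν b 0 1 with hΛ
  have hΛ0 : 0 < Λ := Lap_pos hν b 1
  have key : ∀ x, ν x * (f x * lin b x) - ν x * (f x * Real.log (f x)) - Real.log Λ * (ν x * f x)
      ≤ ν x * (Real.exp (lin b x) / Λ) - ν x * f x := by
    intro x
    have hfx := hf x
    have hνx := hν x
    set g := Real.exp (lin b x) / (Λ * f x) with hg
    have hg0 : 0 < g := by positivity
    have h1 : Real.log g ≤ g - 1 := Real.log_le_sub_one_of_pos hg0
    have h2 : Real.log g = lin b x - (Real.log Λ + Real.log (f x)) := by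
      rw [hg, Real.log_div (Real.exp_pos _).ne' (by positivity), Real.log_exp,
        Real.log_mul hΛ0.ne' hfx.ne']
    rw [h2] at h1
    have h3 : ν x * f x * (lin b x - (Real.log Λ + Real.log (f x)))
        ≤ ν x * f x * (g - 1) := mul_le_mul_of_nonneg_left h1 (by positivity)
    have h4 : ν x * f x * g = ν x * (Real.exp (lin b x) / Λ) := by
      rw [hg]; field_simp
    nlinarith
  have hs := Finset.sum_le_sum (fun x (_ : x ∈ Finset.univ) => key x)
  simp only [Finset.sum_sub_distrib, ← Finset.mul_sum] at hs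
  rw [hf1] at hs
  have e : ∑ x, ν x * (Real.exp (lin b x) / Λ) = 1 := by
    have : ∑ x, ν x * (Real.exp (lin b x) / Λ) = Λ / Λ := by
      rw [hΛ]
      unfold Lap
      rw [Finset.sum_div]
      refine Finset.sum_congr rfl (fun x _ => ?_)
      simp only [pow_zero, one_mul]
      ring
    rw [this, div_self hΛ0.ne']
  rw [e] at hs
  linarith

/-- **Entropic stability** for Ising measures with the covariance bound. -/
theorem ent_stab {J : ι → ι → ℝ} {κ : ℝ} (hκ : 0 < κ) (hcov : CovBound J κ) (h : ι → ℝ)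
    {f : (ι → Bool) → ℝ} (hf : ∀ x, 0 < f x) (hf1 : ∑ x, gibbsH J h x * f x = 1) :
    κ / 2 * ∑ i, (∑ x, gibbsH J h x * (f x * spin (x i)) - ∑ x, gibbsH J h x * spin (x i)) ^ 2
      ≤ ∑ x, gibbsH J h x * (f x * Real.log (f x)) := by
  set ν := gibbsH J h with hν
  set v : ι → ℝ := fun i => ∑ x, ν x * (f x * spin (x i)) - ∑ x, ν x * spin (x i) with hv
  set b : ι → ℝ := fun i => κ * v i with hb
  have h1 := donsker_varadhan (gibbsH_pos J h) b hf hf1
  have h2 := log_lap_le hκ hcov h b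
  rw [← hν] at h1 h2
  have e1 : ∑ x, ν x * (f x * lin b x) = ∑ i, b i * ∑ x, ν x * (f x * spin (x i)) := by
    unfold lin
    simp only [Finset.mul_sum]
    rw [Finset.sum_comm]
    exact Finset.sum_congr rfl (fun i _ => Finset.sum_congr rfl (fun x _ => by ring))
  have e2 : ∑ x, ν x * lin b x = ∑ i, b i * ∑ x, ν x * spin (x i) := by
    unfold lin
    simp only [Finset.mul_sum]
    rw [Finset.sum_comm]
    exact Finset.sum_congr rfl (fun i _ => Finset.sum_congr rfl (fun x _ => by ring))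
  have e3 : ∑ i, b i ^ 2 = κ ^ 2 * ∑ i, v i ^ 2 := by
    rw [Finset.mul_sum]
    exact Finset.sum_congr rfl (fun i _ => by simp only [hb]; ring)
  have e4 : ∑ x, ν x * (f x * lin b x) - ∑ x, ν x * lin b x = κ * ∑ i, v i ^ 2 := by
    rw [e1, e2, ← Finset.sum_sub_distrib, Finset.mul_sum]
    exact Finset.sum_congr rfl (fun i _ => by simp only [hb, hv]; ring)
  rw [e3] at h2
  have e5 : (κ ^ 2 * ∑ i, v i ^ 2) / (2 * κ) = κ / 2 * ∑ i, v i ^ 2 := by
    field_simp
  rw [e5] at h2
  have e6 : κ * ∑ i, v i ^ 2 = κ / 2 * ∑ i, v i ^ 2 + κ / 2 * ∑ i, v i ^ 2 := by ring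
  linarith

end Vale.Agent.Lib.P150
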