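import Mathlib

/-!
Basic facts on the standard Gaussian: exponential integrability, integration by parts,
resampling one coordinate of a product Gaussian measure.
-/

open MeasureTheory ProbabilityTheory
open scoped BigOperators NNReal ENNReal

set_option linter.unusedSectionVars false
set_option linter.unusedSimpArgs false
set_option linter.unusedVariables false

noncomputable section

namespace Vale.Agent.Lib.P150

/-- The standard Gaussian on the line. -/
abbrev N01 : Measure ℝ := gaussianReal 0 1

/-- The standard Gaussian on `m → ℝ`. -/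
abbrev stdG (m : Type*) [Fintype m] : Measure (m → ℝ) := Measure.pi (fun _ => N01)

lemma integrable_exp_abs (L : ℝ) : Integrable (fun y : ℝ => Real.exp (L * |y|)) N01 := by
  have h1 := integrable_exp_mul_gaussianReal (μ := 0) (v := 1) L
  have h2 := integrable_exp_mul_gaussianReal (μ := 0) (v := 1) (-L)
  refine (h1.add h2).mono' (by fun_prop) ?_
  filter_upwards with y
  rw [Real.norm_eq_abs, abs_of_pos (Real.exp_pos _)]
  simp only [Pi.add_apply]
  have p1 := Real.exp_pos (L * y)
  have p2 := Real.exp_pos (-L * y)
  rcases abs_cases y with ⟨h, _⟩ | ⟨h, _⟩ <;> rw [h]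
  · linarith
  · have e : L * -y = -L * y := by ring
    rw [e]; linarith

lemma integrable_stdG_exp {m : Type*} [Fintype m] (L : m → ℝ) :
    Integrable (fun γ : m → ℝ => Real.exp (∑ k, L k * |γ k|)) (stdG m) := by
  have h := Integrable.fintype_prod (μ := fun _ : m => N01)
    (f := fun k y => Real.exp (L k * |y|)) (fun k => integrable_exp_abs (L k))
  refine h.congr (Filter.Eventually.of_forall (fun γ => ?_))
  simp only [Real.exp_sum]

lemma hasDerivAt_pdf (y : ℝ) :
    HasDerivAt (gaussianPDFReal 0 1) (-y * gaussianPDFReal 0 1 y) y := by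
  have e : gaussianPDFReal 0 1 = fun x : ℝ =>
      (Real.sqrt (2 * Real.pi * ((1 : ℝ≥0) : ℝ)))⁻¹ * Real.exp (-(x - 0) ^ 2 / (2 * ((1 : ℝ≥0) : ℝ))) := by
    funext x
    simp [gaussianPDFReal]
  rw [e]
  have h1 : HasDerivAt (fun x : ℝ => -(x - 0) ^ 2 / (2 * ((1 : ℝ≥0) : ℝ))) (-y) y := by
    have h0 : HasDerivAt (fun x : ℝ => x - 0) 1 y := (hasDerivAt_id y).sub_const 0
    have h2 := (h0.pow 2).neg.div_const (2 * ((1 : ℝ≥0) : ℝ))
    refine h2.congr_deriv ?_
    simp
    ring
  have h3 := (h1.exp).const_mul (Real.sqrt (2 * Real.pi * ((1 : ℝ≥0) : ℝ)))⁻¹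
  refine h3.congr_deriv ?_
  ring

lemma integrable_pdf_mul {g : ℝ → ℝ} (hg : Integrable g N01) :
    Integrable (fun y => gaussianPDFReal 0 1 y * g y) := by
  have hv : (1 : ℝ≥0) ≠ 0 := one_ne_zero
  have h : Integrable g ((volume : Measure ℝ).withDensity (gaussianPDF 0 1)) := by
    have := gaussianReal_of_var_ne_zero 0 hv
    rwa [N01, this] at hg
  rw [integrable_withDensity_iff_integrable_smul' (measurable_gaussianPDF 0 1)
    (ae_of_all _ fun _ => gaussianPDF_lt_top)] at h
  refine h.congr (Filter.Eventually.of_forall (fun y => ?_))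
  simp [toReal_gaussianPDF]

lemma integral_N01_eq (g : ℝ → ℝ) : ∫ y, g y ∂N01 = ∫ y, gaussianPDFReal 0 1 y * g y := by
  have hv : (1 : ℝ≥0) ≠ 0 := one_ne_zero
  simpa [smul_eq_mul] using integral_gaussianReal_eq_integral_smul (μ := 0) (f := g) hv

lemma abs_le_exp_abs (y : ℝ) : |y| ≤ Real.exp |y| := by
  have := Real.add_one_le_exp |y|
  linarith

/-- Gaussian integration by parts on the line. -/
lemma gauss_ibp {f f' : ℝ → ℝ} (hf : ∀ y, HasDerivAt f (f' y) y) (hc : Continuous f') {C L : ℝ}
    (hb : ∀ y, |f y| ≤ C * Real.exp (L * |y|)) (hb' : ∀ y, |f' y| ≤ C * Real.exp (L * |y|)) :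
    ∫ y, y * f y ∂N01 = ∫ y, f' y ∂N01 := by
  have hfc : Continuous f := continuous_iff_continuousAt.2 (fun y => (hf y).continuousAt)
  have hC : 0 ≤ C := by
    have h0 := (abs_nonneg _).trans (hb 0)
    have hp := Real.exp_pos (L * |(0:ℝ)|)
    by_contra hneg
    push Not at hneg
    have := mul_neg_of_neg_of_pos hneg hp
    linarith
  have i1 : Integrable f' N01 := by
    refine ((integrable_exp_abs L).const_mul C).mono' hc.aestronglyMeasurable ?_
    filter_upwards with y
    simpa [Real.norm_eq_abs] using hb' y
  have i0 : Integrable f N01 := by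
    refine ((integrable_exp_abs L).const_mul C).mono' hfc.aestronglyMeasurable ?_
    filter_upwards with y
    simpa [Real.norm_eq_abs] using hb y
  have i2 : Integrable (fun y => y * f y) N01 := by
    refine ((integrable_exp_abs (L + 1)).const_mul C).mono'
      (continuous_id.mul hfc).aestronglyMeasurable ?_
    filter_upwards with y
    rw [Real.norm_eq_abs, abs_mul]
    have h1 := abs_le_exp_abs y
    have h2 := hb y
    have e : C * Real.exp ((L + 1) * |y|) = Real.exp |y| * (C * Real.exp (L * |y|)) := by
      rw [add_mul, one_mul, Real.exp_add]; ring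
    rw [e]
    exact mul_le_mul h1 h2 (abs_nonneg _) (Real.exp_pos _).le
  have j1 := integrable_pdf_mul i1
  have j2 := integrable_pdf_mul i2
  have j0 := integrable_pdf_mul i0
  have hd : ∀ y, HasDerivAt (fun y => gaussianPDFReal 0 1 y * f y)
      (gaussianPDFReal 0 1 y * f' y - gaussianPDFReal 0 1 y * (y * f y)) y := by
    intro y
    have := (hasDerivAt_pdf y).mul (hf y)
    refine this.congr_deriv ?_
    ring
  have key := integral_eq_zero_of_hasDerivAt_of_integrable hd (j1.sub j2) j0
  rw [integral_N01_eq, integral_N01_eq]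
  have := integral_sub j1 j2
  linarith

/-- The resampling map on `(m → ℝ) × ℝ` preserves the Gaussian. -/
lemma map_update_stdG {m : Type*} [Fintype m] [DecidableEq m] (k : m) :
    ((stdG m).prod N01).map (fun p : (m → ℝ) × ℝ => Function.update p.1 k p.2) = stdG m := by
  symm
  refine Measure.pi_eq (fun s hs => ?_)
  have hmeas : Measurable (fun p : (m → ℝ) × ℝ => Function.update p.1 k p.2) :=
    measurable_update'
  have hbox : MeasurableSet (Set.univ.pi s) := MeasurableSet.univ_pi hs
  rw [Measure.map_apply hmeas hbox]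
  have hpre : (fun p : (m → ℝ) × ℝ => Function.update p.1 k p.2) ⁻¹' (Set.univ.pi s)
      = (Set.univ.pi (Function.update s k Set.univ)) ×ˢ (s k) := by
    ext ⟨γ, y⟩
    simp only [Set.mem_preimage, Set.mem_pi, Set.mem_univ, true_implies, Set.mem_prod]
    constructor
    · intro h
      refine ⟨fun j => ?_, ?_⟩
      · by_cases hj : j = k
        · subst hj; simp
        · have := h j
          simpa [Function.update_of_ne hj] using this
      · simpa using h k
    · rintro ⟨h1, h2⟩ j
      by_cases hj : j = k
      · subst hj; simpa using h2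
      · have := h1 j
        simpa [Function.update_of_ne hj] using this
  rw [hpre, Measure.prod_prod, Measure.pi_pi]
  classical
  rw [← Finset.mul_prod_erase Finset.univ _ (Finset.mem_univ k),
    ← Finset.mul_prod_erase Finset.univ (fun i => N01 (s i)) (Finset.mem_univ k)]
  have e : ∏ x ∈ Finset.univ.erase k, N01 (Function.update s k Set.univ x)
      = ∏ x ∈ Finset.univ.erase k, N01 (s x) := by
    refine Finset.prod_congr rfl (fun x hx => ?_)
    rw [Function.update_of_ne (Finset.ne_of_mem_erase hx)]
  rw [e]
  simp only [Function.update_self, measure_univ, one_mul]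
  ring

/-- Resampling formula for integrals. -/
lemma integral_stdG_update {m : Type*} [Fintype m] [DecidableEq m] (k : m)
    {F : (m → ℝ) → ℝ} (hF : Integrable F (stdG m)) :
    ∫ γ, F γ ∂(stdG m) = ∫ γ, ∫ y, F (Function.update γ k y) ∂N01 ∂(stdG m) := by
  have hmeas : Measurable (fun p : (m → ℝ) × ℝ => Function.update p.1 k p.2) :=
    measurable_update'
  have hmap := map_update_stdG k
  have hF' : Integrable F (((stdG m).prod N01).map
      (fun p : (m → ℝ) × ℝ => Function.update p.1 k p.2)) := by rw [hmap]; exact hF
  have hint : Integrable (fun p : (m → ℝ) × ℝ => F (Function.update p.1 k p.2))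
      ((stdG m).prod N01) := hF'.comp_measurable hmeas
  calc ∫ γ, F γ ∂(stdG m)
      = ∫ γ, F γ ∂(((stdG m).prod N01).map
          (fun p : (m → ℝ) × ℝ => Function.update p.1 k p.2)) := by rw [hmap]
    _ = ∫ p, F (Function.update p.1 k p.2) ∂((stdG m).prod N01) :=
        integral_map hmeas.aemeasurable hF'.aestronglyMeasurable
    _ = ∫ γ, ∫ y, F (Function.update γ k y) ∂N01 ∂(stdG m) := integral_prod _ hint

lemma sum_update_abs {m : Type*} [Fintype m] [DecidableEq m] (L : m → ℝ) (k : m) (γ : m → ℝ)
    (y : ℝ) : ∑ j, L j * |Function.update γ k y j|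
      = (∑ j, L j * |Function.update γ k 0 j|) + L k * |y| := by
  classical
  rw [← Finset.add_sum_erase Finset.univ _ (Finset.mem_univ k),
    ← Finset.add_sum_erase Finset.univ (fun j => L j * |Function.update γ k 0 j|) (Finset.mem_univ k)]
  have e : ∑ x ∈ Finset.univ.erase k, L x * |Function.update γ k y x|
      = ∑ x ∈ Finset.univ.erase k, L x * |Function.update γ k 0 x| := by
    refine Finset.sum_congr rfl (fun x hx => ?_)
    rw [Function.update_of_ne (Finset.ne_of_mem_erase hx), Function.update_of_ne (Finset.ne_of_mem_erase hx)]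
  rw [e]
  simp
  ring

/-- Multi-dimensional Gaussian integration by parts in the coordinate `k`. -/
lemma stdG_ibp {m : Type*} [Fintype m] [DecidableEq m] (k : m) {H H' : (m → ℝ) → ℝ}
    (hH : Continuous H) (hH' : Continuous H')
    (hd : ∀ γ y, HasDerivAt (fun y => H (Function.update γ k y)) (H' (Function.update γ k y)) y)
    {C : ℝ} {L : m → ℝ}
    (hb : ∀ γ, |H γ| ≤ C * Real.exp (∑ j, L j * |γ j|))
    (hb' : ∀ γ, |H' γ| ≤ C * Real.exp (∑ j, L j * |γ j|)) :
    ∫ γ, γ k * H γ ∂(stdG m) = ∫ γ, H' γ ∂(stdG m) := by
  have hint' : Integrable H' (stdG m) := by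
    refine ((integrable_stdG_exp L).const_mul C).mono' hH'.aestronglyMeasurable ?_
    filter_upwards with γ
    simpa [Real.norm_eq_abs] using hb' γ
  have hint : Integrable (fun γ : m → ℝ => γ k * H γ) (stdG m) := by
    refine ((integrable_stdG_exp (fun j => L j + if j = k then 1 else 0)).const_mul C).mono'
      ((continuous_apply k).mul hH).aestronglyMeasurable ?_
    filter_upwards with γ
    rw [Real.norm_eq_abs, abs_mul]
    have h1 := abs_le_exp_abs (γ k)
    have h2 := hb γ
    have e : C * Real.exp (∑ j, (L j + if j = k then 1 else 0) * |γ j|)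
        = Real.exp |γ k| * (C * Real.exp (∑ j, L j * |γ j|)) := by
      have : ∑ j, (L j + if j = k then 1 else 0) * |γ j| = |γ k| + ∑ j, L j * |γ j| := by
        simp only [add_mul, Finset.sum_add_distrib, ite_mul, one_mul, zero_mul,
          Finset.sum_ite_eq', Finset.mem_univ, if_true]
        ring
      rw [this, Real.exp_add]; ring
    rw [e]
    exact mul_le_mul h1 h2 (abs_nonneg _) (Real.exp_pos _).le
  rw [integral_stdG_update k hint, integral_stdG_update k hint']
  refine integral_congr_ae (Filter.Eventually.of_forall (fun γ => ?_))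
  have e : (fun y => Function.update γ k y k * H (Function.update γ k y))
      = fun y => y * H (Function.update γ k y) := by
    funext y; simp
  simp only [e]
  have hcont' : Continuous (fun y => H' (Function.update γ k y)) :=
    hH'.comp (continuous_const.update k continuous_id)
  refine gauss_ibp (f := fun y => H (Function.update γ k y))
    (f' := fun y => H' (Function.update γ k y)) (hd γ) hcont'
    (C := C * Real.exp (∑ j, L j * |Function.update γ k 0 j|)) (L := L k) ?_ ?_
  · intro y
    have := hb (Function.update γ k y)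
    rw [sum_update_abs, Real.exp_add] at this
    simpa [mul_assoc] using this
  · intro y
    have := hb' (Function.update γ k y)
    rw [sum_update_abs, Real.exp_add] at this
    simpa [mul_assoc] using this

end Vale.Agent.Lib.P150
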