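import Vale.Agent.Lib.P150.SoftMax

/-!
Gaussian interpolation: comparison of `E (∑_a exp (θ X_a))^p` for Gaussian processes.
-/

open MeasureTheory ProbabilityTheory
open scoped BigOperators

set_option linter.unusedSectionVars false
set_option linter.unusedSimpArgs false
set_option linter.unusedVariables false

noncomputable section

namespace Vale.Agent.Lib.P150

variable {A m : Type*} [Fintype A] [DecidableEq A] [Nonempty A] [Fintype m] [DecidableEq m]

/-- Application of a coefficient matrix. -/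
def apM (M : A → m → ℝ) (γ : m → ℝ) : A → ℝ := fun a => ∑ k, M a k * γ k

/-- Interpolation of coefficient matrices. -/
def mixM (MX MY : A → m → ℝ) (φ : ℝ) : A → m → ℝ :=
  fun a k => Real.sin φ * MX a k + Real.cos φ * MY a k

/-- Derivative of the interpolation. -/
def dmixM (MX MY : A → m → ℝ) (φ : ℝ) : A → m → ℝ :=
  fun a k => Real.cos φ * MX a k - Real.sin φ * MY a k

/-- Total weight of the coordinate `k`. -/
def wtM (MX MY : A → m → ℝ) (k : m) : ℝ := ∑ a, (|MX a k| + |MY a k|)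

omit [DecidableEq A] [Nonempty A] [DecidableEq m] in
lemma continuous_apM (M : A → m → ℝ) : Continuous (apM M) := by
  unfold apM
  fun_prop

lemma continuous_softZ (θ : ℝ) : Continuous (softZ (A := A) θ) := by
  unfold softZ
  fun_prop

lemma continuous_softG (θ p : ℝ) : Continuous (softG (A := A) θ p) := by
  unfold softG
  exact (continuous_softZ θ).rpow_const (fun x => Or.inl (softZ_pos θ x).ne')

lemma continuous_softG1 (θ p : ℝ) (a : A) : Continuous (softG1 θ p a) := by
  unfold softG1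
  have h := (continuous_softZ (A := A) θ).rpow_const (p := p - 1) (fun x => Or.inl (softZ_pos θ x).ne')
  fun_prop

lemma continuous_softG2 (θ p : ℝ) (a b : A) : Continuous (softG2 θ p a b) := by
  unfold softG2
  have h := (continuous_softZ (A := A) θ).rpow_const (p := p - 1) (fun x => Or.inl (softZ_pos θ x).ne')
  have h' := (continuous_softZ (A := A) θ).rpow_const (p := p - 2) (fun x => Or.inl (softZ_pos θ x).ne')
  fun_prop

omit [DecidableEq A] [Nonempty A] [DecidableEq m] in
lemma wtM_nonneg (MX MY : A → m → ℝ) (k : m) : 0 ≤ wtM MX MY k :=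
  Finset.sum_nonneg (fun a _ => add_nonneg (abs_nonneg _) (abs_nonneg _))

omit [Fintype A] [DecidableEq A] [Nonempty A] [Fintype m] [DecidableEq m] in
lemma abs_mixM_le (MX MY : A → m → ℝ) (φ : ℝ) (a : A) (k : m) :
    |mixM MX MY φ a k| ≤ |MX a k| + |MY a k| := by
  unfold mixM
  refine (abs_add_le _ _).trans (add_le_add ?_ ?_)
  · rw [abs_mul]
    exact mul_le_of_le_one_left (abs_nonneg _) (Real.abs_sin_le_one φ)
  · rw [abs_mul]
    exact mul_le_of_le_one_left (abs_nonneg _) (Real.abs_cos_le_one φ)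

omit [Fintype A] [DecidableEq A] [Nonempty A] [Fintype m] [DecidableEq m] in
lemma abs_dmixM_le (MX MY : A → m → ℝ) (φ : ℝ) (a : A) (k : m) :
    |dmixM MX MY φ a k| ≤ |MX a k| + |MY a k| := by
  unfold dmixM
  refine (abs_sub _ _).trans (add_le_add ?_ ?_)
  · rw [abs_mul]
    exact mul_le_of_le_one_left (abs_nonneg _) (Real.abs_cos_le_one φ)
  · rw [abs_mul]
    exact mul_le_of_le_one_left (abs_nonneg _) (Real.abs_sin_le_one φ)

omit [DecidableEq A] [Nonempty A] [DecidableEq m] in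
lemma single_le_wtM (MX MY : A → m → ℝ) (a : A) (k : m) : |MX a k| + |MY a k| ≤ wtM MX MY k :=
  Finset.single_le_sum (f := fun a => |MX a k| + |MY a k|)
    (fun a _ => add_nonneg (abs_nonneg _) (abs_nonneg _)) (Finset.mem_univ a)

omit [DecidableEq A] [Nonempty A] [DecidableEq m] in
/-- A pointwise bound on a mixed application. -/
lemma abs_ap_le {M : A → m → ℝ} {MX MY : A → m → ℝ}
    (hM : ∀ a k, |M a k| ≤ |MX a k| + |MY a k|) (γ : m → ℝ) (a : A) :
    |apM M γ a| ≤ ∑ k, wtM MX MY k * |γ k| := by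
  unfold apM
  refine (Finset.abs_sum_le_sum_abs _ _).trans (Finset.sum_le_sum (fun k _ => ?_))
  rw [abs_mul]
  exact mul_le_mul_of_nonneg_right ((hM a k).trans (single_le_wtM MX MY a k)) (abs_nonneg _)

omit [DecidableEq A] [Nonempty A] [DecidableEq m] in
lemma sum_abs_mix_le (MX MY : A → m → ℝ) (φ : ℝ) (θ : ℝ) (hθ : 0 ≤ θ) (γ : m → ℝ) :
    θ * ∑ a, |apM (mixM MX MY φ) γ a| ≤ ∑ k, (θ * wtM MX MY k) * |γ k| := by
  have h : ∑ a, |apM (mixM MX MY φ) γ a| ≤ ∑ k, wtM MX MY k * |γ k| := by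
    calc ∑ a, |apM (mixM MX MY φ) γ a|
        ≤ ∑ a, ∑ k, (|MX a k| + |MY a k|) * |γ k| := by
          refine Finset.sum_le_sum (fun a _ => ?_)
          unfold apM
          refine (Finset.abs_sum_le_sum_abs _ _).trans (Finset.sum_le_sum (fun k _ => ?_))
          rw [abs_mul]
          exact mul_le_mul_of_nonneg_right (abs_mixM_le MX MY φ a k) (abs_nonneg _)
      _ = ∑ k, wtM MX MY k * |γ k| := by
          rw [Finset.sum_comm]
          refine Finset.sum_congr rfl (fun k _ => ?_)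
          unfold wtM
          rw [Finset.sum_mul]
  calc θ * ∑ a, |apM (mixM MX MY φ) γ a| ≤ θ * ∑ k, wtM MX MY k * |γ k| :=
        mul_le_mul_of_nonneg_left h hθ
    _ = _ := by
        rw [Finset.mul_sum]
        exact Finset.sum_congr rfl (fun k _ => by ring)

lemma softG_mix_le {θ p : ℝ} (hθ : 0 ≤ θ) (hp : 0 ≤ p) (hp1 : p ≤ 1) (MX MY : A → m → ℝ)
    (φ : ℝ) (γ : m → ℝ) :
    softG θ p (apM (mixM MX MY φ) γ)
      ≤ (1 + Fintype.card A) * Real.exp (∑ k, (θ * wtM MX MY k) * |γ k|) := by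
  refine (softG_le_expSum hθ hp hp1 _).trans ?_
  refine mul_le_mul_of_nonneg_left (Real.exp_le_exp.2 (sum_abs_mix_le MX MY φ θ hθ γ)) ?_
  positivity

/-- The integrand of the derivative of the interpolation. -/
def derivIntegrand (θ p : ℝ) (MX MY : A → m → ℝ) (φ : ℝ) (γ : m → ℝ) : ℝ :=
  ∑ a, softG1 θ p a (apM (mixM MX MY φ) γ) * apM (dmixM MX MY φ) γ a

omit [DecidableEq A] [Nonempty A] [DecidableEq m] in
lemma hasDerivAt_apM_mix (MX MY : A → m → ℝ) (γ : m → ℝ) (φ : ℝ) (a : A) :
    HasDerivAt (fun s => apM (mixM MX MY s) γ a) (apM (dmixM MX MY φ) γ a) φ := by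
  unfold apM
  refine HasDerivAt.fun_sum (fun k _ => ?_)
  unfold mixM dmixM
  have h := (((Real.hasDerivAt_sin φ).mul_const (MX a k)).add
    ((Real.hasDerivAt_cos φ).mul_const (MY a k))).mul_const (γ k)
  refine h.congr_deriv ?_
  ring

lemma abs_derivIntegrand_le {θ p : ℝ} (hθ : 0 ≤ θ) (hp : 0 ≤ p) (hp1 : p ≤ 1)
    (MX MY : A → m → ℝ) (φ : ℝ) (γ : m → ℝ) :
    |derivIntegrand θ p MX MY φ γ|
      ≤ (Fintype.card A * (p * θ * ((1 + Fintype.card A) * ∑ k, wtM MX MY k)))
        * Real.exp (∑ k, (θ * wtM MX MY k + 1) * |γ k|) := by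
  have hW : 0 ≤ ∑ k, wtM MX MY k := Finset.sum_nonneg (fun k _ => wtM_nonneg MX MY k)
  set x := apM (mixM MX MY φ) γ with hx
  have hE : Real.exp (∑ k, (θ * wtM MX MY k + 1) * |γ k|)
      = Real.exp (∑ k, (θ * wtM MX MY k) * |γ k|) * Real.exp (∑ k, |γ k|) := by
    rw [← Real.exp_add, ← Finset.sum_add_distrib]
    congr 1
    exact Finset.sum_congr rfl (fun k _ => by ring)
  have hS : ∀ k, |γ k| ≤ Real.exp (∑ j, |γ j|) := by
    intro k
    refine (abs_le_exp_abs (γ k)).trans (Real.exp_le_exp.2 ?_)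
    exact Finset.single_le_sum (f := fun j => |γ j|) (fun j _ => abs_nonneg _) (Finset.mem_univ k)
  have hD : ∀ a, |apM (dmixM MX MY φ) γ a| ≤ (∑ k, wtM MX MY k) * Real.exp (∑ j, |γ j|) := by
    intro a
    refine (abs_ap_le (abs_dmixM_le MX MY φ) γ a).trans ?_
    rw [Finset.sum_mul]
    exact Finset.sum_le_sum (fun k _ => mul_le_mul_of_nonneg_left (hS k) (wtM_nonneg _ _ k))
  have hG := softG_mix_le hθ hp hp1 MX MY φ γ
  have h1 : ∀ a, |softG1 θ p a x * apM (dmixM MX MY φ) γ a|
      ≤ (p * θ * ((1 + Fintype.card A) * ∑ k, wtM MX MY k))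
        * Real.exp (∑ k, (θ * wtM MX MY k + 1) * |γ k|) := by
    intro a
    rw [abs_mul, abs_of_nonneg (softG1_nonneg hθ hp a x), hE]
    have h2 : softG1 θ p a x
        ≤ p * θ * ((1 + Fintype.card A) * Real.exp (∑ k, (θ * wtM MX MY k) * |γ k|)) :=
      (softG1_le hθ hp a x).trans (mul_le_mul_of_nonneg_left hG (mul_nonneg hp hθ))
    calc softG1 θ p a x * |apM (dmixM MX MY φ) γ a|
        ≤ (p * θ * ((1 + Fintype.card A) * Real.exp (∑ k, (θ * wtM MX MY k) * |γ k|)))
            * ((∑ k, wtM MX MY k) * Real.exp (∑ j, |γ j|)) :=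
          mul_le_mul h2 (hD a) (abs_nonneg _)
            (mul_nonneg (mul_nonneg hp hθ) (by positivity))
      _ = _ := by ring
  unfold derivIntegrand
  refine (Finset.abs_sum_le_sum_abs _ _).trans ?_
  refine (Finset.sum_le_sum (fun a _ => h1 a)).trans ?_
  rw [Finset.sum_const, Finset.card_univ, nsmul_eq_mul]
  exact le_of_eq (by ring)

omit [DecidableEq A] [Nonempty A] [DecidableEq m] in
lemma continuous_apM_mix (MX MY : A → m → ℝ) (φ : ℝ) :
    Continuous (fun γ : m → ℝ => apM (mixM MX MY φ) γ) := continuous_apM _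

lemma continuous_derivIntegrand (θ p : ℝ) (MX MY : A → m → ℝ) (φ : ℝ) :
    Continuous (derivIntegrand θ p MX MY φ) := by
  unfold derivIntegrand
  refine continuous_finsetSum _ (fun a _ => ?_)
  refine ((continuous_softG1 θ p a).comp (continuous_apM _)).mul ?_
  exact (continuous_apply a).comp (continuous_apM _)

/-- Derivative of the interpolation functional. -/
lemma hasDerivAt_interp {θ p : ℝ} (hθ : 0 ≤ θ) (hp : 0 ≤ p) (hp1 : p ≤ 1)
    (MX MY : A → m → ℝ) (φ : ℝ) :
    HasDerivAt (fun s => ∫ γ, softG θ p (apM (mixM MX MY s) γ) ∂(stdG m))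
      (∫ γ, derivIntegrand θ p MX MY φ γ ∂(stdG m)) φ := by
  have hint : Integrable (fun γ => softG θ p (apM (mixM MX MY φ) γ)) (stdG m) := by
    refine ((integrable_stdG_exp (fun k => θ * wtM MX MY k)).const_mul
      (1 + (Fintype.card A : ℝ))).mono'
      ((continuous_softG θ p).comp (continuous_apM _)).aestronglyMeasurable ?_
    filter_upwards with γ
    rw [Real.norm_eq_abs, abs_of_nonneg (softG_nonneg θ p _)]
    exact softG_mix_le hθ hp hp1 MX MY φ γ
  have key := hasDerivAt_integral_of_dominated_loc_of_deriv_le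
    (μ := stdG m) (s := Set.univ) (x₀ := φ)
    (F := fun s γ => softG θ p (apM (mixM MX MY s) γ))
    (F' := fun s γ => derivIntegrand θ p MX MY s γ)
    (bound := fun γ => (Fintype.card A * (p * θ * ((1 + Fintype.card A) * ∑ k, wtM MX MY k)))
        * Real.exp (∑ k, (θ * wtM MX MY k + 1) * |γ k|))
    Filter.univ_mem
    (Filter.Eventually.of_forall (fun s =>
      ((continuous_softG θ p).comp (continuous_apM _)).aestronglyMeasurable))
    hint
    (continuous_derivIntegrand θ p MX MY φ).aestronglyMeasurable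
    (Filter.Eventually.of_forall (fun γ s _ => by
      rw [Real.norm_eq_abs]
      exact abs_derivIntegrand_le hθ hp hp1 MX MY s γ))
    ((integrable_stdG_exp _).const_mul _)
    (Filter.Eventually.of_forall (fun γ s _ => by
      exact hasDerivAt_softG (fun a => hasDerivAt_apM_mix MX MY γ s a)))
  exact key.2

omit [Fintype A] [DecidableEq A] [Nonempty A] in
lemma hasDerivAt_update_sum (c : m → ℝ) (γ : m → ℝ) (k : m) (y : ℝ) :
    HasDerivAt (fun y => ∑ j, c j * Function.update γ k y j) (c k) y := by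
  have e : (fun y => ∑ j, c j * Function.update γ k y j)
      = fun y => (∑ j, c j * Function.update γ k 0 j) + c k * y := by
    funext z
    rw [← Finset.add_sum_erase Finset.univ _ (Finset.mem_univ k),
      ← Finset.add_sum_erase Finset.univ (fun j => c j * Function.update γ k 0 j) (Finset.mem_univ k)]
    have e2 : ∑ x ∈ Finset.univ.erase k, c x * Function.update γ k z x
        = ∑ x ∈ Finset.univ.erase k, c x * Function.update γ k 0 x := by
      refine Finset.sum_congr rfl (fun x hx => ?_)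
      rw [Function.update_of_ne (Finset.ne_of_mem_erase hx),
        Function.update_of_ne (Finset.ne_of_mem_erase hx)]
    rw [e2]
    simp
    ring
  rw [e]
  have := ((hasDerivAt_id y).const_mul (c k)).const_add (∑ j, c j * Function.update γ k 0 j)
  simpa using this

/-- Integration by parts for the first derivative along `γ ↦ apM M γ`. -/
lemma ibp_softG1 {θ p : ℝ} (hθ : 0 ≤ θ) (hp : 0 ≤ p) (hp1 : p ≤ 1)
    (MX MY : A → m → ℝ) (φ : ℝ) (a : A) (k : m) :
    ∫ γ, γ k * softG1 θ p a (apM (mixM MX MY φ) γ) ∂(stdG m)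
      = ∫ γ, ∑ b, softG2 θ p a b (apM (mixM MX MY φ) γ) * mixM MX MY φ b k ∂(stdG m) := by
  set M := mixM MX MY φ with hM
  have hcG : ∀ γ, softG θ p (apM M γ)
      ≤ (1 + Fintype.card A) * Real.exp (∑ j, (θ * wtM MX MY j) * |γ j|) :=
    fun γ => softG_mix_le hθ hp hp1 MX MY φ γ
  have hc0 : (0:ℝ) ≤ (1 + Fintype.card A) := by positivity
  have hpθ : 0 ≤ p * θ := mul_nonneg hp hθ
  have hpθθ : 0 ≤ 2 * p * (θ * θ) := by positivity
  have hWk := wtM_nonneg MX MY k
  refine stdG_ibp k (H := fun γ => softG1 θ p a (apM M γ))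
    (H' := fun γ => ∑ b, softG2 θ p a b (apM M γ) * M b k)
    ((continuous_softG1 θ p a).comp (continuous_apM _))
    (continuous_finsetSum _ (fun b _ =>
      ((continuous_softG2 θ p a b).comp (continuous_apM _)).mul continuous_const))
    ?_ (C := (p * θ + Fintype.card A * (2 * p * (θ * θ) * wtM MX MY k)) * (1 + Fintype.card A))
    (L := fun j => θ * wtM MX MY j) ?_ ?_
  · intro γ y
    have hx : ∀ b, HasDerivAt (fun s => apM M (Function.update γ k s) b) (M b k) y := by
      intro b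
      exact hasDerivAt_update_sum (M b) γ k y
    exact hasDerivAt_softG1 a hx
  · intro γ
    rw [abs_of_nonneg (softG1_nonneg hθ hp a _)]
    have h1 := softG1_le (θ := θ) (p := p) hθ hp a (apM M γ)
    have h2 := hcG γ
    have hE := Real.exp_pos (∑ j, (θ * wtM MX MY j) * |γ j|)
    have h3 : p * θ * softG θ p (apM M γ)
        ≤ p * θ * ((1 + Fintype.card A) * Real.exp (∑ j, (θ * wtM MX MY j) * |γ j|)) :=
      mul_le_mul_of_nonneg_left h2 hpθ
    have h4 : 0 ≤ (Fintype.card A * (2 * p * (θ * θ) * wtM MX MY k)) * ((1 + Fintype.card A) * Real.exp (∑ j, (θ * wtM MX MY j) * |γ j|)) := by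
      positivity
    nlinarith
  · intro γ
    have hb : ∀ b, |softG2 θ p a b (apM M γ) * M b k|
        ≤ (2 * p * (θ * θ) * wtM MX MY k) * ((1 + Fintype.card A) * Real.exp (∑ j, (θ * wtM MX MY j) * |γ j|)) := by
      intro b
      rw [abs_mul]
      have h1 := abs_softG2_le (θ := θ) hp hp1 a b (apM M γ)
      have h2 := hcG γ
      have h3 : |M b k| ≤ wtM MX MY k := (abs_mixM_le MX MY φ b k).trans (single_le_wtM MX MY b k)
      have h4 := mul_le_mul_of_nonneg_left h2 hpθθ
      calc |softG2 θ p a b (apM M γ)| * |M b k|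
          ≤ (2 * p * (θ * θ) * ((1 + Fintype.card A) * Real.exp (∑ j, (θ * wtM MX MY j) * |γ j|))) * wtM MX MY k :=
            mul_le_mul (h1.trans h4) h3 (abs_nonneg _) (by positivity)
        _ = _ := by ring
    refine (Finset.abs_sum_le_sum_abs _ _).trans ((Finset.sum_le_sum (fun b _ => hb b)).trans ?_)
    rw [Finset.sum_const, Finset.card_univ, nsmul_eq_mul]
    have hE := Real.exp_pos (∑ j, (θ * wtM MX MY j) * |γ j|)
    have h5 : 0 ≤ (p * θ) * ((1 + Fintype.card A) * Real.exp (∑ j, (θ * wtM MX MY j) * |γ j|)) := by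
      positivity
    nlinarith

lemma integrable_softG2_mix {θ p : ℝ} (hθ : 0 ≤ θ) (hp : 0 ≤ p) (hp1 : p ≤ 1)
    (MX MY : A → m → ℝ) (φ : ℝ) (a b : A) :
    Integrable (fun γ => softG2 θ p a b (apM (mixM MX MY φ) γ)) (stdG m) := by
  refine ((integrable_stdG_exp (fun j => θ * wtM MX MY j)).const_mul
      (2 * p * (θ * θ) * (1 + (Fintype.card A : ℝ)))).mono'
      ((continuous_softG2 θ p a b).comp (continuous_apM _)).aestronglyMeasurable ?_
  filter_upwards with γ
  rw [Real.norm_eq_abs]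
  have h1 := abs_softG2_le (θ := θ) hp hp1 a b (apM (mixM MX MY φ) γ)
  have h2 := softG_mix_le hθ hp hp1 MX MY φ γ
  have h3 : 0 ≤ 2 * p * (θ * θ) := by positivity
  calc _ ≤ _ := h1
    _ ≤ 2 * p * (θ * θ) * ((1 + Fintype.card A) * Real.exp (∑ j, (θ * wtM MX MY j) * |γ j|)) :=
        mul_le_mul_of_nonneg_left h2 h3
    _ = _ := by ring

lemma integrable_coord_softG1_mix {θ p : ℝ} (hθ : 0 ≤ θ) (hp : 0 ≤ p) (hp1 : p ≤ 1)
    (MX MY : A → m → ℝ) (φ : ℝ) (a : A) (k : m) :
    Integrable (fun γ : m → ℝ => γ k * softG1 θ p a (apM (mixM MX MY φ) γ)) (stdG m) := by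
  refine ((integrable_stdG_exp (fun j => θ * wtM MX MY j + 1)).const_mul
      (p * θ * (1 + (Fintype.card A : ℝ)))).mono'
      ((continuous_apply k).mul ((continuous_softG1 θ p a).comp (continuous_apM _))).aestronglyMeasurable ?_
  filter_upwards with γ
  rw [Real.norm_eq_abs, abs_mul, abs_of_nonneg (softG1_nonneg hθ hp a _)]
  have h1 := softG1_le (θ := θ) (p := p) hθ hp a (apM (mixM MX MY φ) γ)
  have h2 := softG_mix_le hθ hp hp1 MX MY φ γ
  have h3 : 0 ≤ p * θ := mul_nonneg hp hθ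
  have hE : Real.exp (∑ k, (θ * wtM MX MY k + 1) * |γ k|)
      = Real.exp (∑ k, (θ * wtM MX MY k) * |γ k|) * Real.exp (∑ k, |γ k|) := by
    rw [← Real.exp_add, ← Finset.sum_add_distrib]
    congr 1
    exact Finset.sum_congr rfl (fun k _ => by ring)
  have hS : |γ k| ≤ Real.exp (∑ j, |γ j|) := by
    refine (abs_le_exp_abs (γ k)).trans (Real.exp_le_exp.2 ?_)
    exact Finset.single_le_sum (f := fun j => |γ j|) (fun j _ => abs_nonneg _) (Finset.mem_univ k)
  rw [hE]
  have h4 : softG1 θ p a (apM (mixM MX MY φ) γ)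
      ≤ p * θ * ((1 + Fintype.card A) * Real.exp (∑ j, (θ * wtM MX MY j) * |γ j|)) :=
    h1.trans (mul_le_mul_of_nonneg_left h2 h3)
  calc |γ k| * softG1 θ p a (apM (mixM MX MY φ) γ)
      ≤ Real.exp (∑ j, |γ j|) * (p * θ * ((1 + Fintype.card A) * Real.exp (∑ j, (θ * wtM MX MY j) * |γ j|))) :=
        mul_le_mul hS h4 (softG1_nonneg hθ hp a _) (Real.exp_pos _).le
    _ = _ := by ring

/-- The covariance difference. -/
def covD (MX MY : A → m → ℝ) (a b : A) : ℝ :=
  ∑ k, MX a k * MX b k - ∑ k, MY a k * MY b k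

omit [DecidableEq A] [Nonempty A] [DecidableEq m] in
lemma sum_dmix_mix (MX MY : A → m → ℝ) (horth : ∀ a b, ∑ k, MX a k * MY b k = 0) (φ : ℝ)
    (a b : A) :
    ∑ k, dmixM MX MY φ a k * mixM MX MY φ b k = Real.sin φ * Real.cos φ * covD MX MY a b := by
  unfold dmixM mixM covD
  have e : ∀ k, (Real.cos φ * MX a k - Real.sin φ * MY a k) * (Real.sin φ * MX b k + Real.cos φ * MY b k)
      = Real.sin φ * Real.cos φ * (MX a k * MX b k) - Real.sin φ * Real.cos φ * (MY a k * MY b k)
        + Real.cos φ * Real.cos φ * (MX a k * MY b k)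
        - Real.sin φ * Real.sin φ * (MX b k * MY a k) := by
    intro k; ring
  simp only [e, Finset.sum_sub_distrib, Finset.sum_add_distrib, ← Finset.mul_sum, horth]
  ring

/-- The derivative formula. -/
lemma integral_derivIntegrand {θ p : ℝ} (hθ : 0 ≤ θ) (hp : 0 ≤ p) (hp1 : p ≤ 1)
    (MX MY : A → m → ℝ) (horth : ∀ a b, ∑ k, MX a k * MY b k = 0) (φ : ℝ) :
    ∫ γ, derivIntegrand θ p MX MY φ γ ∂(stdG m)
      = Real.sin φ * Real.cos φ *
        ∫ γ, ∑ a, ∑ b, covD MX MY a b * softG2 θ p a b (apM (mixM MX MY φ) γ) ∂(stdG m) := by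
  set M := mixM MX MY φ with hM
  set Md := dmixM MX MY φ with hMd
  have i1 := integrable_coord_softG1_mix hθ hp hp1 MX MY φ
  have i2 := integrable_softG2_mix hθ hp hp1 MX MY φ
  have e1 : ∀ γ : m → ℝ, derivIntegrand θ p MX MY φ γ
      = ∑ a, ∑ k, Md a k * (γ k * softG1 θ p a (apM M γ)) := by
    intro γ
    unfold derivIntegrand apM
    refine Finset.sum_congr rfl (fun a _ => ?_)
    rw [Finset.mul_sum]
    refine Finset.sum_congr rfl (fun k _ => ?_)
    ring
  have e2 : ∫ γ, derivIntegrand θ p MX MY φ γ ∂(stdG m)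
      = ∑ a, ∑ k, Md a k * ∫ γ, γ k * softG1 θ p a (apM M γ) ∂(stdG m) := by
    simp_rw [e1]
    rw [integral_finsetSum _ (fun a _ => integrable_finsetSum _
      (fun k _ => (i1 a k).const_mul _))]
    refine Finset.sum_congr rfl (fun a _ => ?_)
    rw [integral_finsetSum _ (fun k _ => (i1 a k).const_mul _)]
    refine Finset.sum_congr rfl (fun k _ => ?_)
    rw [integral_const_mul]
  rw [e2]
  have e3 : ∀ a k, ∫ γ, γ k * softG1 θ p a (apM M γ) ∂(stdG m)
      = ∑ b, (∫ γ, softG2 θ p a b (apM M γ) ∂(stdG m)) * M b k := by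
    intro a k
    rw [hM, ibp_softG1 hθ hp hp1 MX MY φ a k,
      integral_finsetSum _ (fun b _ => (i2 a b).mul_const _)]
    refine Finset.sum_congr rfl (fun b _ => ?_)
    rw [integral_mul_const]
  simp_rw [e3]
  have e4 : ∫ γ, ∑ a, ∑ b, covD MX MY a b * softG2 θ p a b (apM M γ) ∂(stdG m)
      = ∑ a, ∑ b, covD MX MY a b * ∫ γ, softG2 θ p a b (apM M γ) ∂(stdG m) := by
    rw [integral_finsetSum _ (fun a _ => integrable_finsetSum _
      (fun b _ => (i2 a b).const_mul _))]
    refine Finset.sum_congr rfl (fun a _ => ?_)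
    rw [integral_finsetSum _ (fun b _ => (i2 a b).const_mul _)]
    refine Finset.sum_congr rfl (fun b _ => ?_)
    rw [integral_const_mul]
  rw [e4, Finset.mul_sum]
  refine Finset.sum_congr rfl (fun a _ => ?_)
  rw [Finset.mul_sum]
  have e5 : ∑ k, Md a k * ∑ b, (∫ γ, softG2 θ p a b (apM M γ) ∂(stdG m)) * M b k
      = ∑ b, (∑ k, Md a k * M b k) * ∫ γ, softG2 θ p a b (apM M γ) ∂(stdG m) := by
    simp_rw [Finset.mul_sum, Finset.sum_mul]
    rw [Finset.sum_comm]
    refine Finset.sum_congr rfl (fun b _ => Finset.sum_congr rfl (fun k _ => ?_))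
    ring
  rw [e5]
  refine Finset.sum_congr rfl (fun b _ => ?_)
  rw [hMd, hM, sum_dmix_mix MX MY horth φ a b]
  ring

/-- **Gaussian comparison**: if the variances and the increments of the Gaussian process
`X_a = ∑_k MX a k γ_k` are dominated by those of `Y_a = ∑_k MY a k γ_k`, where `X` and `Y` are
independent, then `E (∑_a exp (θ X_a))^p ≤ E (∑_a exp (θ Y_a))^p` for `0 ≤ p ≤ 1`. -/
theorem gauss_compare {θ p : ℝ} (hθ : 0 ≤ θ) (hp : 0 ≤ p) (hp1 : p ≤ 1) (MX MY : A → m → ℝ)
    (horth : ∀ a b, ∑ k, MX a k * MY b k = 0)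
    (hvar : ∀ a, ∑ k, MX a k ^ 2 ≤ ∑ k, MY a k ^ 2)
    (hinc : ∀ a b, ∑ k, (MX a k - MX b k) ^ 2 ≤ ∑ k, (MY a k - MY b k) ^ 2) :
    ∫ γ, softG θ p (apM MX γ) ∂(stdG m) ≤ ∫ γ, softG θ p (apM MY γ) ∂(stdG m) := by
  set F : ℝ → ℝ := fun s => ∫ γ, softG θ p (apM (mixM MX MY s) γ) ∂(stdG m) with hF
  have hd := fun φ => hasDerivAt_interp (m := m) hθ hp hp1 MX MY φ
  have hD1 : ∀ a, covD MX MY a a ≤ 0 := by
    intro a
    have := hvar a
    unfold covD
    have e1 : ∑ k, MX a k * MX a k = ∑ k, MX a k ^ 2 :=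
      Finset.sum_congr rfl (fun k _ => by ring)
    have e2 : ∑ k, MY a k * MY a k = ∑ k, MY a k ^ 2 :=
      Finset.sum_congr rfl (fun k _ => by ring)
    rw [e1, e2]
    linarith
  have hD2 : ∀ a b, covD MX MY a a + covD MX MY b b - 2 * covD MX MY a b ≤ 0 := by
    intro a b
    have := hinc a b
    have e : covD MX MY a a + covD MX MY b b - 2 * covD MX MY a b
        = ∑ k, (MX a k - MX b k) ^ 2 - ∑ k, (MY a k - MY b k) ^ 2 := by
      unfold covD
      have e1 : ∑ k, (MX a k - MX b k) ^ 2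
          = ∑ k, MX a k * MX a k + ∑ k, MX b k * MX b k - 2 * ∑ k, MX a k * MX b k := by
        rw [Finset.mul_sum, ← Finset.sum_add_distrib, ← Finset.sum_sub_distrib]
        exact Finset.sum_congr rfl (fun k _ => by ring)
      have e2 : ∑ k, (MY a k - MY b k) ^ 2
          = ∑ k, MY a k * MY a k + ∑ k, MY b k * MY b k - 2 * ∑ k, MY a k * MY b k := by
        rw [Finset.mul_sum, ← Finset.sum_add_distrib, ← Finset.sum_sub_distrib]
        exact Finset.sum_congr rfl (fun k _ => by ring)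
      rw [e1, e2]
      ring
    rw [e]
    linarith
  have hanti : AntitoneOn F (Set.Icc 0 (Real.pi / 2)) := by
    refine antitoneOn_of_deriv_nonpos (convex_Icc _ _)
      (fun x _ => (hd x).continuousAt.continuousWithinAt)
      (fun x _ => (hd x).differentiableAt.differentiableWithinAt) ?_
    intro φ hφ
    rw [interior_Icc] at hφ
    rw [(hd φ).deriv, integral_derivIntegrand hθ hp hp1 MX MY horth φ]
    have hs : 0 ≤ Real.sin φ := Real.sin_nonneg_of_nonneg_of_le_pi hφ.1.le
      (by linarith [hφ.2, Real.pi_pos])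
    have hc : 0 ≤ Real.cos φ := Real.cos_nonneg_of_mem_Icc ⟨by linarith [hφ.1, Real.pi_pos], hφ.2.le⟩
    refine mul_nonpos_of_nonneg_of_nonpos (mul_nonneg hs hc) ?_
    refine integral_nonpos (fun γ => ?_)
    exact hessian_pairing_nonpos hθ hp hp1 _ hD1 hD2 _
  have hend := hanti (Set.left_mem_Icc.2 (by positivity)) (Set.right_mem_Icc.2 (by positivity))
    (by positivity : (0:ℝ) ≤ Real.pi / 2)
  have e0 : mixM MX MY 0 = MY := by
    funext a k; simp [mixM]
  have e1 : mixM MX MY (Real.pi / 2) = MX := by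
    funext a k; simp [mixM]
  simp only [hF, e0, e1] at hend
  exact hend

end Vale.Agent.Lib.P150
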