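import Mathlib

open scoped BigOperators Matrix.Norms.Operator

set_option linter.unusedSectionVars false
set_option linter.unusedSimpArgs false
set_option linter.unusedVariables false

noncomputable section

namespace Vale.Agent.Lib.P150

variable {Ω : Type*} [Fintype Ω] [DecidableEq Ω]

/-- The matrix semigroup. -/
def sg (L : Matrix Ω Ω ℝ) (t : ℝ) : Matrix Ω Ω ℝ := NormedSpace.exp (t • L)

lemma sg_zero (L : Matrix Ω Ω ℝ) : sg L 0 = 1 := by
  simp [sg, NormedSpace.exp_zero]

lemma sg_add (L : Matrix Ω Ω ℝ) (s t : ℝ) : sg L (s + t) = sg L s * sg L t := by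
  unfold sg
  rw [add_smul]
  exact Matrix.exp_add_of_commute _ _ ((Commute.refl L).smul_left s |>.smul_right t)

lemma sg_hasDerivAt (L : Matrix Ω Ω ℝ) (t : ℝ) :
    HasDerivAt (fun s : ℝ => sg L s) (sg L t * L) t :=
  hasDerivAt_exp_smul_const L t

lemma sg_hasDerivAt' (L : Matrix Ω Ω ℝ) (t : ℝ) :
    HasDerivAt (fun s : ℝ => sg L s) (L * sg L t) t :=
  hasDerivAt_exp_smul_const' L t

/-- The continuous linear functional `M ↦ (M *ᵥ v) x` on matrices. -/
def evalCLM (v : Ω → ℝ) (x : Ω) : Matrix Ω Ω ℝ →L[ℝ] ℝ :=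
  LinearMap.toContinuousLinearMap
    { toFun := fun M => M.mulVec v x
      map_add' := fun A B => by simp [Matrix.add_mulVec]
      map_smul' := fun c A => by simp [Matrix.smul_mulVec] }

@[simp] lemma evalCLM_apply (v : Ω → ℝ) (x : Ω) (M : Matrix Ω Ω ℝ) :
    evalCLM v x M = M.mulVec v x := rfl

/-- Semigroup action on functions. -/
def act (L : Matrix Ω Ω ℝ) (t : ℝ) (v : Ω → ℝ) : Ω → ℝ := (sg L t).mulVec v

lemma act_hasDerivAt (L : Matrix Ω Ω ℝ) (v : Ω → ℝ) (x : Ω) (t : ℝ) :
    HasDerivAt (fun s : ℝ => act L s v x) (L.mulVec (act L t v) x) t := by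
  have h := (evalCLM v x).hasFDerivAt.comp_hasDerivAt t (sg_hasDerivAt' L t)
  have e : (fun s : ℝ => act L s v x) = (evalCLM v x) ∘ (fun s : ℝ => sg L s) := by
    funext s; rfl
  have h2 : (evalCLM v x) (L * sg L t) = L.mulVec (act L t v) x := by
    simp [act, Matrix.mulVec_mulVec]
  rw [e, ← h2]
  exact h

lemma act_hasDerivAt' (L : Matrix Ω Ω ℝ) (v : Ω → ℝ) (x : Ω) (t : ℝ) :
    HasDerivAt (fun s : ℝ => act L s v x) (act L t (L.mulVec v) x) t := by
  have h := (evalCLM v x).hasFDerivAt.comp_hasDerivAt t (sg_hasDerivAt L t)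
  have e : (fun s : ℝ => act L s v x) = (evalCLM v x) ∘ (fun s : ℝ => sg L s) := by
    funext s; rfl
  have h2 : (evalCLM v x) (sg L t * L) = act L t (L.mulVec v) x := by
    simp [act, Matrix.mulVec_mulVec]
  rw [e, ← h2]
  exact h

lemma act_comm (L : Matrix Ω Ω ℝ) (t : ℝ) (v : Ω → ℝ) :
    L.mulVec (act L t v) = act L t (L.mulVec v) := by
  funext x
  exact (act_hasDerivAt L v x t).unique (act_hasDerivAt' L v x t)

lemma act_zero (L : Matrix Ω Ω ℝ) (v : Ω → ℝ) : act L 0 v = v := by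
  simp [act, sg_zero]

lemma act_add (L : Matrix Ω Ω ℝ) (s t : ℝ) (v : Ω → ℝ) : act L (s + t) v = act L s (act L t v) := by
  simp [act, sg_add, Matrix.mulVec_mulVec]

lemma act_linear_add (L : Matrix Ω Ω ℝ) (t : ℝ) (v w : Ω → ℝ) :
    act L t (v + w) = act L t v + act L t w := by
  simp [act, Matrix.mulVec_add]

lemma act_smul (L : Matrix Ω Ω ℝ) (t : ℝ) (c : ℝ) (v : Ω → ℝ) :
    act L t (c • v) = c • act L t v := by
  simp [act, Matrix.mulVec_smul]

lemma act_one (L : Matrix Ω Ω ℝ) (hL : L.mulVec 1 = 0) (t : ℝ) : act L t 1 = 1 := by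
  funext x
  have hd : ∀ s : ℝ, HasDerivAt (fun s : ℝ => act L s 1 x) 0 s := by
    intro s
    have := act_hasDerivAt' L (1 : Ω → ℝ) x s
    rw [hL] at this
    simpa [act] using this
  have hc : (fun s : ℝ => act L s 1 x) t = (fun s : ℝ => act L s 1 x) 0 :=
    is_const_of_deriv_eq_zero (fun s => (hd s).differentiableAt) (fun s => (hd s).deriv) t 0
  simpa [act_zero] using hc

/-- Entrywise nonnegativity of the exponential of an entrywise nonnegative matrix. -/
lemma exp_nonneg_of_nonneg (M : Matrix Ω Ω ℝ) (hM : ∀ x y, 0 ≤ M x y) (x y : Ω) :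
    0 ≤ NormedSpace.exp M x y := by
  have hpow : ∀ n : ℕ, ∀ x y, 0 ≤ (M ^ n) x y := by
    intro n
    induction n with
    | zero =>
      intro x y
      simp only [pow_zero, Matrix.one_apply]
      split_ifs <;> norm_num
    | succ n ih =>
      intro x y
      rw [pow_succ, Matrix.mul_apply]
      exact Finset.sum_nonneg (fun z _ => mul_nonneg (ih x z) (hM z y))
  have hs := NormedSpace.exp_series_hasSum_exp' (𝕂 := ℝ) M
  have hcl : Matrix Ω Ω ℝ →L[ℝ] ℝ := evalCLM (fun z => if z = y then 1 else 0) x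
  have hE := (evalCLM (fun z => if z = y then (1 : ℝ) else 0) x).hasSum hs
  have hval : ∀ A : Matrix Ω Ω ℝ, evalCLM (fun z => if z = y then (1 : ℝ) else 0) x A = A x y := by
    intro A
    simp [evalCLM_apply, Matrix.mulVec, dotProduct]
  rw [hval] at hE
  refine hE.nonneg (fun n => ?_)
  rw [hval]
  simp only [Matrix.smul_apply, smul_eq_mul]
  exact mul_nonneg (by positivity) (hpow n x y)

/-- Positivity of the semigroup for a generator with nonnegative off-diagonal entries. -/
lemma sg_nonneg (L : Matrix Ω Ω ℝ) (hL : ∀ x y, x ≠ y → 0 ≤ L x y) {t : ℝ} (ht : 0 ≤ t) (x y : Ω) :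
    0 ≤ sg L t x y := by
  obtain ⟨c, hc⟩ : ∃ c : ℝ, 0 ≤ c ∧ ∀ x, 0 ≤ L x x + c := by
    refine ⟨∑ x, |L x x|, Finset.sum_nonneg (fun _ _ => abs_nonneg _), fun x => ?_⟩
    have h1 : |L x x| ≤ ∑ x, |L x x| :=
      Finset.single_le_sum (f := fun x => |L x x|) (fun _ _ => abs_nonneg _) (Finset.mem_univ x)
    have h2 := neg_abs_le (L x x)
    linarith
  set M : Matrix Ω Ω ℝ := t • L + (t * c) • (1 : Matrix Ω Ω ℝ) with hMdef
  have hMnn : ∀ x y, 0 ≤ M x y := by
    intro x y
    simp only [hMdef, Matrix.add_apply, Matrix.smul_apply, smul_eq_mul, Matrix.one_apply]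
    by_cases h : x = y
    · subst h
      simp only [if_true, mul_one]
      nlinarith [hc.2 x, mul_nonneg ht (hc.2 x)]
    · simp only [if_neg h, mul_zero, add_zero]
      exact mul_nonneg ht (hL x y h)
  have hdec : t • L = M + (-(t * c)) • (1 : Matrix Ω Ω ℝ) := by
    simp [hMdef]
  have hcomm : Commute M ((-(t * c)) • (1 : Matrix Ω Ω ℝ)) :=
    (Commute.one_right M).smul_right _
  have hexp : sg L t = NormedSpace.exp M * NormedSpace.exp ((-(t * c)) • (1 : Matrix Ω Ω ℝ)) := by
    unfold sg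
    rw [hdec]
    exact Matrix.exp_add_of_commute _ _ hcomm
  have hsc : NormedSpace.exp ((-(t * c)) • (1 : Matrix Ω Ω ℝ))
      = (Real.exp (-(t * c))) • (1 : Matrix Ω Ω ℝ) := by
    have : ((-(t * c)) • (1 : Matrix Ω Ω ℝ)) = Matrix.diagonal (fun _ => -(t * c)) := by
      ext a b
      simp [Matrix.one_apply, Matrix.diagonal_apply]
    rw [this, Matrix.exp_diagonal]
    ext a b
    simp [Matrix.one_apply, Matrix.diagonal_apply]
    split_ifs with h
    · rw [Real.exp_eq_exp_ℝ]
    · rfl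
  rw [hexp, hsc]
  simp only [Matrix.mul_smul, mul_one, Matrix.smul_apply, smul_eq_mul]
  exact mul_nonneg (Real.exp_pos _).le (exp_nonneg_of_nonneg M hMnn x y)


lemma sg_entry_hasDerivAt (L : Matrix Ω Ω ℝ) (x y : Ω) (t : ℝ) :
    HasDerivAt (fun s : ℝ => sg L s x y) ((sg L t * L) x y) t := by
  have h := (evalCLM (fun z => if z = y then (1 : ℝ) else 0) x).hasFDerivAt.comp_hasDerivAt t
    (sg_hasDerivAt L t)
  have hval : ∀ A : Matrix Ω Ω ℝ, evalCLM (fun z => if z = y then (1 : ℝ) else 0) x A = A x y := by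
    intro A
    simp [evalCLM_apply, Matrix.mulVec, dotProduct]
  have e : (fun s : ℝ => sg L s x y)
      = (evalCLM (fun z => if z = y then (1 : ℝ) else 0) x) ∘ (fun s : ℝ => sg L s) := by
    funext s; simp [hval]
  have h2 : (evalCLM (fun z => if z = y then (1 : ℝ) else 0) x) (sg L t * L) = (sg L t * L) x y :=
    hval _
  rw [e, ← h2]
  exact h

lemma act_mono (L : Matrix Ω Ω ℝ) (hL : ∀ x y, x ≠ y → 0 ≤ L x y) {t : ℝ} (ht : 0 ≤ t)
    {v w : Ω → ℝ} (hvw : ∀ y, v y ≤ w y) (x : Ω) : act L t v x ≤ act L t w x := by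
  simp only [act, Matrix.mulVec, dotProduct]
  exact Finset.sum_le_sum (fun y _ => mul_le_mul_of_nonneg_left (hvw y) (sg_nonneg L hL ht x y))

lemma act_const (L : Matrix Ω Ω ℝ) (hL1 : L.mulVec 1 = 0) (t c : ℝ) (x : Ω) :
    act L t (fun _ => c) x = c := by
  have e : (fun _ : Ω => c) = c • (1 : Ω → ℝ) := by funext y; simp
  rw [e, act_smul, act_one L hL1]
  simp

lemma act_le_const (L : Matrix Ω Ω ℝ) (hL : ∀ x y, x ≠ y → 0 ≤ L x y) (hL1 : L.mulVec 1 = 0)
    {t : ℝ} (ht : 0 ≤ t) {v : Ω → ℝ} {c : ℝ} (hv : ∀ y, v y ≤ c) (x : Ω) : act L t v x ≤ c := by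
  have := act_mono L hL ht hv x
  rwa [act_const L hL1] at this

/-- Comparison principle: a subsolution of the backward equation lies below the semigroup
applied to its initial value. -/
lemma max_principle (L : Matrix Ω Ω ℝ) (hL : ∀ x y, x ≠ y → 0 ≤ L x y)
    (W W' : ℝ → Ω → ℝ) (hW : ∀ s x, HasDerivAt (fun r => W r x) (W' s x) s)
    (hle : ∀ s, 0 ≤ s → ∀ x, W' s x ≤ L.mulVec (W s) x) {T : ℝ} (hT : 0 ≤ T) (x : Ω) :
    W T x ≤ act L T (W 0) x := by
  set G : ℝ → ℝ := fun s => ∑ y, sg L (T - s) x y * W s y with hG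
  set G' : ℝ → ℝ := fun s => ∑ y, (-(sg L (T - s) * L) x y * W s y + sg L (T - s) x y * W' s y)
    with hG'
  have hd : ∀ s, HasDerivAt G (G' s) s := by
    intro s
    refine HasDerivAt.fun_sum (fun y _ => ?_)
    have h1 : HasDerivAt (fun r : ℝ => sg L (T - r) x y) (-(sg L (T - s) * L) x y) s := by
      have h0 := sg_entry_hasDerivAt L x y (T - s)
      have h2 : HasDerivAt (fun r : ℝ => T - r) (-1) s := by
        simpa using (hasDerivAt_id s).const_sub T
      have := HasDerivAt.comp s h0 h2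
      simpa [Function.comp_def, mul_comm] using this
    exact h1.mul (hW s y)
  have hG'eq : ∀ s, G' s = ∑ y, sg L (T - s) x y * (W' s y - L.mulVec (W s) y) := by
    intro s
    have h1 : ∑ y, (sg L (T - s) * L) x y * W s y
        = ∑ z, sg L (T - s) x z * L.mulVec (W s) z := by
      have := congrFun (Matrix.mulVec_mulVec (W s) (sg L (T - s)) L) x
      simpa [Matrix.mulVec, dotProduct] using this.symm
    simp only [hG', mul_sub, Finset.sum_sub_distrib, Finset.sum_add_distrib, neg_mul,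
      Finset.sum_neg_distrib, h1]
    ring
  have hanti : AntitoneOn G (Set.Icc 0 T) := by
    refine antitoneOn_of_deriv_nonpos (convex_Icc 0 T)
      (fun s _ => (hd s).continuousAt.continuousWithinAt)
      (fun s _ => (hd s).differentiableAt.differentiableWithinAt) ?_
    intro s hs
    rw [(hd s).deriv, hG'eq]
    rw [interior_Icc] at hs
    refine Finset.sum_nonpos (fun y _ => ?_)
    exact mul_nonpos_of_nonneg_of_nonpos (sg_nonneg L hL (by linarith [hs.2]) x y)
      (by linarith [hle s hs.1.le y])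
  have h0 : (0 : ℝ) ∈ Set.Icc 0 T := ⟨le_refl _, hT⟩
  have h1 : T ∈ Set.Icc 0 T := ⟨hT, le_refl _⟩
  have := hanti h0 h1 hT
  simp only [hG] at this
  have e1 : (∑ y, sg L (T - T) x y * W T y) = W T x := by
    simp [sg_zero, Matrix.one_apply]
  have e2 : (∑ y, sg L (T - 0) x y * W 0 y) = act L T (W 0) x := by
    simp [act, Matrix.mulVec, dotProduct]
  rw [e1, e2] at this
  exact this

/-- Exponential lower bound from log-convexity. -/
lemma logconvex_lower {φ φ' φ'' : ℝ → ℝ} (h1 : ∀ t, HasDerivAt φ (φ' t) t)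
    (h2 : ∀ t, HasDerivAt φ' (φ'' t) t) (hpos : ∀ t, 0 < φ t)
    (hcs : ∀ t, φ' t ^ 2 ≤ φ t * φ'' t) {t : ℝ} (ht : 0 ≤ t) :
    φ 0 * Real.exp (t * (φ' 0 / φ 0)) ≤ φ t := by
  have hψd : ∀ s, HasDerivAt (fun r => φ' r / φ r)
      ((φ'' s * φ s - φ' s * φ' s) / φ s ^ 2) s := by
    intro s
    exact (h2 s).div (h1 s) (hpos s).ne'
  have hψmono : Monotone (fun r => φ' r / φ r) := by
    refine monotone_of_deriv_nonneg (fun s => (hψd s).differentiableAt) (fun s => ?_)
    rw [(hψd s).deriv]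
    apply div_nonneg _ (by positivity)
    have := hcs s
    nlinarith
  set c := φ' 0 / φ 0 with hc
  have hξd : ∀ s, HasDerivAt (fun r => φ r * Real.exp (-(r * c)))
      (φ' s * Real.exp (-(s * c)) + φ s * (Real.exp (-(s * c)) * (-c))) s := by
    intro s
    have h3 : HasDerivAt (fun r : ℝ => -(r * c)) (-c) s := by
      simpa using ((hasDerivAt_id' s).mul_const c).fun_neg
    exact (h1 s).mul (h3.exp)
  have hξmono : MonotoneOn (fun r => φ r * Real.exp (-(r * c))) (Set.Ici 0) := by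
    refine monotoneOn_of_deriv_nonneg (convex_Ici 0)
      (fun s _ => (hξd s).continuousAt.continuousWithinAt)
      (fun s _ => (hξd s).differentiableAt.differentiableWithinAt) ?_
    intro s hs
    rw [(hξd s).deriv]
    rw [interior_Ici] at hs
    have hmon := hψmono (le_of_lt hs)
    simp only at hmon
    have hp := hpos s
    have : c ≤ φ' s / φ s := hmon
    have h4 : c * φ s ≤ φ' s := by
      rwa [le_div_iff₀ hp] at this
    have h5 : 0 < Real.exp (-(s * c)) := Real.exp_pos _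
    nlinarith
  have h0 := hξmono (Set.mem_Ici.mpr (le_refl (0:ℝ))) (Set.mem_Ici.mpr ht) ht
  simp only [zero_mul, neg_zero, Real.exp_zero, mul_one] at h0
  have h5 : Real.exp (t * c) * Real.exp (-(t * c)) = 1 := by
    rw [← Real.exp_add]; simp
  calc φ 0 * Real.exp (t * c) ≤ (φ t * Real.exp (-(t * c))) * Real.exp (t * c) :=
        mul_le_mul_of_nonneg_right h0 (Real.exp_pos _).le
    _ = φ t * (Real.exp (t * c) * Real.exp (-(t * c))) := by ring
    _ = φ t := by rw [h5, mul_one]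

/-- Weighted inner product. -/
def ip (π f g : Ω → ℝ) : ℝ := ∑ x, π x * (f x * g x)

lemma ip_comm (π f g : Ω → ℝ) : ip π f g = ip π g f := by
  unfold ip; exact Finset.sum_congr rfl (fun x _ => by ring)

lemma ip_hasDerivAt (π : Ω → ℝ) {f g : ℝ → Ω → ℝ} {f' g' : Ω → ℝ} {t : ℝ}
    (hf : ∀ x, HasDerivAt (fun s => f s x) (f' x) t)
    (hg : ∀ x, HasDerivAt (fun s => g s x) (g' x) t) :
    HasDerivAt (fun s => ip π (f s) (g s)) (ip π f' (g t) + ip π (f t) g') t := by
  unfold ip
  rw [← Finset.sum_add_distrib]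
  refine HasDerivAt.fun_sum (fun x _ => ?_)
  exact (((hf x).mul (hg x)).const_mul (π x)).congr_deriv (by ring)

/-- Self-adjointness passes from the generator to the semigroup. -/
lemma ip_act_symm (L : Matrix Ω Ω ℝ) (π : Ω → ℝ)
    (hsym : ∀ f g, ip π f (L.mulVec g) = ip π (L.mulVec f) g) (t : ℝ) (f g : Ω → ℝ) :
    ip π f (act L t g) = ip π (act L t f) g := by
  have hd : ∀ s, HasDerivAt (fun r => ip π (act L r f) (act L (t - r) g)) 0 s := by
    intro s
    have h1 : ∀ x, HasDerivAt (fun r => act L r f x) (L.mulVec (act L s f) x) s :=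
      fun x => act_hasDerivAt L f x s
    have h2 : ∀ x, HasDerivAt (fun r => act L (t - r) g x) (-(L.mulVec (act L (t - s) g) x)) s := by
      intro x
      have h0 := act_hasDerivAt L g x (t - s)
      have h3 : HasDerivAt (fun r : ℝ => t - r) (-1) s := by
        simpa using (hasDerivAt_id s).const_sub t
      have := HasDerivAt.comp s h0 h3
      simpa [Function.comp_def, mul_comm] using this
    have e : ip π (act L s f) (fun x => -(L.mulVec (act L (t - s) g) x))
        = - ip π (act L s f) (L.mulVec (act L (t - s) g)) := by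
      unfold ip
      rw [← Finset.sum_neg_distrib]
      exact Finset.sum_congr rfl (fun x _ => by ring)
    refine (ip_hasDerivAt π h1 h2).congr_deriv ?_
    rw [e, hsym]; ring
  have hc := is_const_of_deriv_eq_zero (fun s => (hd s).differentiableAt)
    (fun s => (hd s).deriv) t 0
  simp only [sub_self, sub_zero] at hc
  rw [act_zero, act_zero] at hc
  exact hc.symm

lemma ip_self_nonneg (π f : Ω → ℝ) (hπ : ∀ x, 0 < π x) : 0 ≤ ip π f f :=
  Finset.sum_nonneg (fun x _ => mul_nonneg (hπ x).le (mul_self_nonneg _))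

lemma ip_cs (π f g : Ω → ℝ) (hπ : ∀ x, 0 < π x) :
    ip π f g ^ 2 ≤ ip π f f * ip π g g := by
  have h := Finset.sum_mul_sq_le_sq_mul_sq Finset.univ
    (fun x => Real.sqrt (π x) * f x) (fun x => Real.sqrt (π x) * g x)
  have hs : ∀ x, Real.sqrt (π x) * Real.sqrt (π x) = π x :=
    fun x => Real.mul_self_sqrt (hπ x).le
  have e1 : ∑ x, (Real.sqrt (π x) * f x) * (Real.sqrt (π x) * g x) = ip π f g := by
    unfold ip
    refine Finset.sum_congr rfl (fun x _ => ?_)
    calc _ = (Real.sqrt (π x) * Real.sqrt (π x)) * (f x * g x) := by ring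
      _ = _ := by rw [hs]
  have e2 : ∀ h : Ω → ℝ, ∑ x, (Real.sqrt (π x) * h x) ^ 2 = ip π h h := by
    intro h
    unfold ip
    refine Finset.sum_congr rfl (fun x _ => ?_)
    calc _ = (Real.sqrt (π x) * Real.sqrt (π x)) * (h x * h x) := by ring
      _ = _ := by rw [hs]
  rw [e1, e2, e2] at h
  exact h

lemma act_ne_zero (L : Matrix Ω Ω ℝ) (t : ℝ) {f : Ω → ℝ} (hf : f ≠ 0) : act L t f ≠ 0 := by
  intro h
  apply hf
  have h1 := act_add L (-t) t f
  rw [h] at h1
  simp only [neg_add_cancel, act_zero] at h1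
  rw [h1]
  simp [act]

lemma ip_self_pos (π f : Ω → ℝ) (hπ : ∀ x, 0 < π x) (hf : f ≠ 0) : 0 < ip π f f := by
  obtain ⟨x, hx⟩ := Function.ne_iff.mp hf
  refine Finset.sum_pos' (fun y _ => mul_nonneg (hπ y).le (mul_self_nonneg _))
    ⟨x, Finset.mem_univ x, mul_pos (hπ x) (mul_self_pos.mpr hx)⟩

/-- The `L²` norm of `P_t f` is log-convex in `t`: exponential lower bound. -/
lemma norm_act_lower (L : Matrix Ω Ω ℝ) (π : Ω → ℝ) (hπ : ∀ x, 0 < π x)
    (hsym : ∀ f g, ip π f (L.mulVec g) = ip π (L.mulVec f) g) {f : Ω → ℝ} (hf : f ≠ 0)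
    {t : ℝ} (ht : 0 ≤ t) :
    ip π f f * Real.exp (t * (2 * ip π f (L.mulVec f) / ip π f f))
      ≤ ip π (act L t f) (act L t f) := by
  set g := fun s => act L s f with hg
  set g' := fun s => act L s (L.mulVec f) with hg'
  have hLg : ∀ s, L.mulVec (g s) = g' s := fun s => act_comm L s f
  have hdg : ∀ s x, HasDerivAt (fun r => g r x) (g' s x) s := by
    intro s x
    have := act_hasDerivAt L f x s
    rwa [hLg s] at this
  have hdg' : ∀ s x, HasDerivAt (fun r => g' r x) (L.mulVec (g' s) x) s :=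
    fun s x => act_hasDerivAt L (L.mulVec f) x s
  have h1 : ∀ s, HasDerivAt (fun r => ip π (g r) (g r)) (2 * ip π (g s) (g' s)) s := by
    intro s
    refine (ip_hasDerivAt π (hdg s) (hdg s)).congr_deriv ?_
    rw [ip_comm π (g' s) (g s)]; ring
  have h2 : ∀ s, HasDerivAt (fun r => 2 * ip π (g r) (g' r)) (4 * ip π (g' s) (g' s)) s := by
    intro s
    refine ((ip_hasDerivAt π (hdg s) (hdg' s)).const_mul 2).congr_deriv ?_
    rw [hsym, hLg s]; ring
  have hpos : ∀ s, 0 < ip π (g s) (g s) := fun s =>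
    ip_self_pos π _ hπ (act_ne_zero L s hf)
  have hcs : ∀ s, (2 * ip π (g s) (g' s)) ^ 2 ≤ ip π (g s) (g s) * (4 * ip π (g' s) (g' s)) := by
    intro s
    have := ip_cs π (g s) (g' s) hπ
    nlinarith
  have := logconvex_lower h1 h2 hpos hcs ht
  have e0 : g 0 = f := act_zero L f
  have e0' : g' 0 = L.mulVec f := act_zero L _
  simp only [e0, e0'] at this
  exact this

end Vale.Agent.Lib.P150
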