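import Vale.Agent.Lib.P150.Cube
import Vale.Agent.Lib.P150.Semigroup

open scoped BigOperators
open Function

set_option linter.unusedSectionVars false
set_option linter.unusedSimpArgs false
set_option linter.unusedVariables false

noncomputable section

namespace Vale.Agent.Lib.P150

variable {ι : Type*} [Fintype ι] [DecidableEq ι]

/-- Curvature hypothesis at a configuration. -/
def CurvAt (t : (ι → Bool) → ι → ℝ) (κ : ℝ) (x : ι → Bool) : Prop :=
  ∀ v : ι → ℝ,
    ∑ j, ∑ i, v j * D j (fun y => t y i) x * v i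
      + ∑ j, ∑ i, v j ^ 2 * ((D j (fun y => t y i) x) ^ 2 / (1 - spin (x i) * t x i))
    ≤ (1 - κ) * ∑ j, v j ^ 2

lemma spin_mul_lt_one {b : Bool} {a : ℝ} (h : |a| < 1) : spin b * a < 1 := by
  have h' := abs_lt.mp h
  cases b <;> simp <;> linarith [h'.1, h'.2]

lemma bochner_le (t : (ι → Bool) → ι → ℝ) (ht : ∀ x i b, t (update x i b) i = t x i)
    (htlt : ∀ x i, |t x i| < 1) {κ : ℝ} {x : ι → Bool} (hC : CurvAt t κ x)
    (u : (ι → Bool) → ℝ) :
    2 * ∑ j, D j u x * D j (gen t u) x - gen t (gradSq u) x ≤ -2 * κ * gradSq u x := by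
  rw [bochner_identity t ht u x]
  have hterm : ∀ j i, -(4 * (spin (x j) * D j u x * D j (fun y => t y i) x * D j (D i u) x))
      - 2 * ((1 - spin (x i) * t x i) * (D j (D i u) x) ^ 2)
      ≤ 2 * (D j u x ^ 2 * ((D j (fun y => t y i) x) ^ 2 / (1 - spin (x i) * t x i))) := by
    intro j i
    have hc : 0 < 1 - spin (x i) * t x i := by
      have := spin_mul_lt_one (b := x i) (htlt x i)
      linarith
    set c := 1 - spin (x i) * t x i with hcdef
    set B := D j (fun y => t y i) x
    set w := D j (D i u) x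
    set a := D j u x
    have hs : spin (x j) ^ 2 = 1 := spin_sq _
    have key : 0 ≤ (c * w + spin (x j) * a * B) ^ 2 / c := by positivity
    have e : (c * w + spin (x j) * a * B) ^ 2 / c
        = c * w ^ 2 + 2 * (spin (x j) * a * B * w) + a ^ 2 * (B ^ 2 / c) := by
      field_simp
      rw [show (c * w + spin (x j) * a * B) ^ 2
          = c ^ 2 * w ^ 2 + 2 * c * (spin (x j) * a * B * w) + spin (x j) ^ 2 * (a ^ 2 * B ^ 2) by ring, hs]
      ring
    rw [e] at key
    nlinarith
  have hsum : -(4 * ∑ j, ∑ i, spin (x j) * D j u x * D j (fun y => t y i) x * D j (D i u) x)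
      - 2 * ∑ j, ∑ i, (1 - spin (x i) * t x i) * (D j (D i u) x) ^ 2
      ≤ 2 * ∑ j, ∑ i, (D j u x ^ 2 * ((D j (fun y => t y i) x) ^ 2 / (1 - spin (x i) * t x i))) := by
    simp only [Finset.mul_sum, ← Finset.sum_neg_distrib, ← Finset.sum_sub_distrib]
    exact Finset.sum_le_sum (fun j _ => Finset.sum_le_sum (fun i _ => hterm j i))
  have hcurv := hC (fun j => D j u x)
  simp only [gradSq] at *
  have e : ∑ j, ∑ i, D j u x * D j (fun y => t y i) x * D i u x
      = ∑ j, ∑ i, D j u x * D j (fun y => t y i) x * D i u x := rfl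
  nlinarith

lemma gen_const (t : (ι → Bool) → ι → ℝ) (c : ℝ) (x : ι → Bool) : gen t (fun _ => c) x = 0 := by
  simp [gen, D]

lemma D_gen_linear (t : (ι → Bool) → ι → ℝ) (c : ℝ) (u : (ι → Bool) → ℝ) (x : ι → Bool) :
    gen t (fun y => c * u y) x = c * gen t u x := by
  simp only [gen, D_const_mul, Finset.mul_sum]
  exact Finset.sum_congr rfl (fun i _ => by ring)

/-- `L (u²) = 2 u L u + 2 ∑_i (1 - x_i t_i) (D_i u)²`. -/
lemma gen_sq (t : (ι → Bool) → ι → ℝ) (u : (ι → Bool) → ℝ) (x : ι → Bool) :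
    gen t (fun y => u y ^ 2) x
      = 2 * u x * gen t u x + 2 * ∑ i, (1 - spin (x i) * t x i) * (D i u x) ^ 2 := by
  simp only [gen, D_sq, Finset.mul_sum, ← Finset.sum_add_distrib]
  refine Finset.sum_congr rfl (fun i _ => ?_)
  have hs := spin_mul_self (x i)
  linear_combination (2 * (D i u x) ^ 2) * hs

/-- A generator acting as `gen t`, with the properties of a Markov generator. -/
structure IsGlauber (L : Matrix (ι → Bool) (ι → Bool) ℝ) (t : (ι → Bool) → ι → ℝ) : Prop where
  mulVec_eq : ∀ u, L.mulVec u = gen t u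
  offdiag : ∀ x y, x ≠ y → 0 ≤ L x y
  indep : ∀ x i b, t (update x i b) i = t x i
  lt_one : ∀ x i, |t x i| < 1

lemma IsGlauber.mulVec_one {L : Matrix (ι → Bool) (ι → Bool) ℝ} {t : (ι → Bool) → ι → ℝ}
    (h : IsGlauber L t) : L.mulVec 1 = 0 := by
  rw [h.mulVec_eq]
  funext x
  exact gen_const t 1 x

lemma D_hasDerivAt {u : ℝ → (ι → Bool) → ℝ} {u' : (ι → Bool) → ℝ} {s : ℝ}
    (hu : ∀ x, HasDerivAt (fun r => u r x) (u' x) s) (j : ι) (x : ι → Bool) :
    HasDerivAt (fun r => D j (u r) x) (D j u' x) s := by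
  unfold D
  exact ((hu _).sub (hu _)).div_const 2

lemma gradSq_hasDerivAt {u : ℝ → (ι → Bool) → ℝ} {u' : (ι → Bool) → ℝ} {s : ℝ}
    (hu : ∀ x, HasDerivAt (fun r => u r x) (u' x) s) (x : ι → Bool) :
    HasDerivAt (fun r => gradSq (u r) x) (2 * ∑ j, D j (u s) x * D j u' x) s := by
  unfold gradSq
  rw [Finset.mul_sum]
  refine HasDerivAt.fun_sum (fun j _ => ?_)
  have := (D_hasDerivAt hu j x).pow 2
  exact this.congr_deriv (by simp; ring)

/-- **Gradient contraction**: `|∇ P_s f|²(x) ≤ e^{-2κ s} P_s (|∇ f|²)(x)`. -/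
lemma grad_contraction {L : Matrix (ι → Bool) (ι → Bool) ℝ} {t : (ι → Bool) → ι → ℝ}
    (hG : IsGlauber L t) {κ : ℝ} (hC : ∀ x, CurvAt t κ x) (f : (ι → Bool) → ℝ)
    {s : ℝ} (hs : 0 ≤ s) (x : ι → Bool) :
    Real.exp (2 * κ * s) * gradSq (act L s f) x ≤ act L s (gradSq f) x := by
  set W : ℝ → (ι → Bool) → ℝ := fun r y => Real.exp (2 * κ * r) * gradSq (act L r f) y with hW
  set W' : ℝ → (ι → Bool) → ℝ := fun r y =>
    Real.exp (2 * κ * r) * (2 * κ) * gradSq (act L r f) y
      + Real.exp (2 * κ * r) * (2 * ∑ j, D j (act L r f) y * D j (L.mulVec (act L r f)) y) with hW'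
  have hd : ∀ r y, HasDerivAt (fun q => W q y) (W' r y) r := by
    intro r y
    have h1 : HasDerivAt (fun q : ℝ => Real.exp (2 * κ * q)) (Real.exp (2 * κ * r) * (2 * κ)) r := by
      have : HasDerivAt (fun q : ℝ => 2 * κ * q) (2 * κ) r := by
        simpa using (hasDerivAt_id' r).const_mul (2 * κ)
      exact this.exp
    have h2 := gradSq_hasDerivAt (u := fun q => act L q f) (u' := L.mulVec (act L r f)) (s := r)
      (fun z => act_hasDerivAt L f z r) y
    exact h1.mul h2
  have hle : ∀ r, 0 ≤ r → ∀ y, W' r y ≤ L.mulVec (W r) y := by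
    intro r _ y
    have e1 : L.mulVec (W r) y = Real.exp (2 * κ * r) * gen t (gradSq (act L r f)) y := by
      rw [hG.mulVec_eq]
      exact D_gen_linear t _ _ y
    have hb := bochner_le t hG.indep hG.lt_one (hC y) (act L r f)
    have e2 : L.mulVec (act L r f) = gen t (act L r f) := hG.mulVec_eq _
    rw [e1]
    simp only [hW', e2]
    have hpos : 0 < Real.exp (2 * κ * r) := Real.exp_pos _
    calc _ = Real.exp (2 * κ * r) * ((2 * κ) * gradSq (act L r f) y
          + 2 * ∑ j, D j (act L r f) y * D j (gen t (act L r f)) y) := by ring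
      _ ≤ _ := mul_le_mul_of_nonneg_left (by linarith) hpos.le
  have hm := max_principle L hG.offdiag W W' hd hle hs x
  have e0 : W 0 = gradSq f := by
    funext y
    simp [hW, act_zero]
  rw [e0] at hm
  exact hm

/-- Uniform gradient decay. -/
lemma grad_decay {L : Matrix (ι → Bool) (ι → Bool) ℝ} {t : (ι → Bool) → ι → ℝ}
    (hG : IsGlauber L t) {κ : ℝ} (hC : ∀ x, CurvAt t κ x) (f : (ι → Bool) → ℝ)
    {C : ℝ} (hf : ∀ y, gradSq f y ≤ C) {s : ℝ} (hs : 0 ≤ s) (x : ι → Bool) :
    gradSq (act L s f) x ≤ C * Real.exp (-(2 * κ * s)) := by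
  have h1 := grad_contraction hG hC f hs x
  have h2 := act_le_const L hG.offdiag hG.mulVec_one hs hf x
  have h3 : Real.exp (-(2 * κ * s)) * Real.exp (2 * κ * s) = 1 := by
    rw [← Real.exp_add]; simp
  have h4 : 0 < Real.exp (-(2 * κ * s)) := Real.exp_pos _
  calc gradSq (act L s f) x
      = Real.exp (-(2 * κ * s)) * (Real.exp (2 * κ * s) * gradSq (act L s f) x) := by
        rw [← mul_assoc, h3, one_mul]
    _ ≤ Real.exp (-(2 * κ * s)) * C := by
        apply mul_le_mul_of_nonneg_left (h1.trans h2) h4.le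
    _ = C * Real.exp (-(2 * κ * s)) := by ring

lemma abs_D_le_sqrt (u : (ι → Bool) → ℝ) (j : ι) (x : ι → Bool) :
    |D j u x| ≤ Real.sqrt (gradSq u x) := by
  apply Real.abs_le_sqrt
  exact Finset.single_le_sum (f := fun j => (D j u x) ^ 2) (fun _ _ => sq_nonneg _)
    (Finset.mem_univ j)

/-- Oscillation bounded by coordinate differences, along a path in the cube. -/
lemma abs_sub_le_path (g : (ι → Bool) → ℝ) {B : ℝ} (hB : ∀ j z, |D j g z| ≤ B) (x y : ι → Bool) :
    |g x - g y| ≤ 2 * (Fintype.card ι : ℝ) * B := by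
  have hB0 : ∀ j, 0 ≤ B := fun j => (abs_nonneg _).trans (hB j x)
  let z : Finset ι → ι → Bool := fun S i => if i ∈ S then y i else x i
  have hz : ∀ S : Finset ι, |g (z S) - g x| ≤ 2 * (S.card : ℝ) * B := by
    intro S
    induction S using Finset.induction_on with
    | empty =>
      have : z ∅ = x := by funext i; simp [z]
      simp [this]
    | insert a S ha ih =>
      have hup : z (insert a S) = update (z S) a (y a) := by
        funext i
        by_cases hi : i = a
        · subst hi; simp [z]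
        · simp [z, hi, update_of_ne hi]
      have hv := value_update g (z S) a (y a)
      have hsp : |spin (y a) - spin (z S a)| ≤ 2 := by
        cases y a <;> cases z S a <;> simp <;> norm_num
      have h1 : |g (z (insert a S)) - g (z S)| ≤ 2 * B := by
        rw [hup, hv]
        have : g (z S) + (spin (y a) - spin (z S a)) * D a g (z S) - g (z S)
            = (spin (y a) - spin (z S a)) * D a g (z S) := by ring
        rw [this, abs_mul]
        exact mul_le_mul hsp (hB a _) (abs_nonneg _) (by norm_num)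
      have h2 : g (z (insert a S)) - g x = (g (z (insert a S)) - g (z S)) + (g (z S) - g x) := by
        ring
      rw [h2, Finset.card_insert_of_notMem ha]
      refine (abs_add_le _ _).trans ?_
      push_cast
      nlinarith
  have h := hz Finset.univ
  have : z Finset.univ = y := by funext i; simp [z]
  rw [this, Finset.card_univ, abs_sub_comm] at h
  exact h

end Vale.Agent.Lib.P150
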