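import Vale.Agent.Lib.P150.Tilt

/-!
The integrated Bochner identity: integrating by parts with respect to the Gibbs measure removes
the spin from the cross term between gradient and Hessian.
-/

open scoped BigOperators
open Function

set_option linter.unusedSectionVars false
set_option linter.unusedSimpArgs false
set_option linter.unusedVariables false

noncomputable section

namespace Vale.Agent.Lib.P150

variable {ι : Type*} [Fintype ι] [DecidableEq ι]

/-- The derivative of the conditional mean `t_i` in direction `j`. -/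
def Bt (t : (ι → Bool) → ι → ℝ) (j i : ι) (x : ι → Bool) : ℝ := D j (fun y => t y i) x

/-- The part of `t_i` that does not depend on `x_j`. -/
def tbar (t : (ι → Bool) → ι → ℝ) (j i : ι) (x : ι → Bool) : ℝ := Ei j (fun y => t y i) x

/-- The coefficient of `x_j` in `B_ji - J_ij (1 - t_i²)`. -/
def alphaT (J : ι → ι → ℝ) (t : (ι → Bool) → ι → ℝ) (j i : ι) (x : ι → Bool) : ℝ :=
  2 * J i j * tbar t j i x * Bt t j i x

/-- The even part of `B_ji - J_ij (1 - t_i²)`. -/
def betaT (J : ι → ι → ℝ) (t : (ι → Bool) → ι → ℝ) (j i : ι) (x : ι → Bool) : ℝ :=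
  Bt t j i x - J i j * (1 - tbar t j i x ^ 2 - Bt t j i x ^ 2)

lemma Bt_update (t : (ι → Bool) → ι → ℝ) (j i : ι) (x : ι → Bool) (b : Bool) :
    Bt t j i (update x j b) = Bt t j i x := D_update _ _ _ _

lemma tbar_update (t : (ι → Bool) → ι → ℝ) (j i : ι) (x : ι → Bool) (b : Bool) :
    tbar t j i (update x j b) = tbar t j i x := Ei_update _ _ _ _

lemma alphaT_update (J : ι → ι → ℝ) (t : (ι → Bool) → ι → ℝ) (j i : ι) (x : ι → Bool) (b : Bool) :
    alphaT J t j i (update x j b) = alphaT J t j i x := by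
  unfold alphaT
  rw [Bt_update, tbar_update]

lemma Bt_split (J : ι → ι → ℝ) (t : (ι → Bool) → ι → ℝ) (j i : ι) (x : ι → Bool) :
    Bt t j i x = J i j * (1 - t x i ^ 2) + betaT J t j i x + spin (x j) * alphaT J t j i x := by
  have hs := spin_mul_self (x j)
  have ht : t x i = tbar t j i x + spin (x j) * Bt t j i x := by
    unfold tbar Bt Ei
    ring
  unfold betaT alphaT
  rw [ht]
  linear_combination (J i j * (Bt t j i x) ^ 2) * hs

/-- Integration by parts: `E[x_j F] = E[t_j F]` if `F` does not depend on `x_j`. -/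
lemma ibp_spin {π : (ι → Bool) → ℝ} {t : (ι → Bool) → ι → ℝ} (hR : IsRev π t) (j : ι)
    {F : (ι → Bool) → ℝ} (hF : ∀ x b, F (update x j b) = F x) :
    ∑ x, π x * (spin (x j) * F x) = ∑ x, π x * (t x j * F x) := by
  have h := hR.ibp j F hF
  have e : ∑ x, π x * ((t x j - spin (x j)) * F x)
      = ∑ x, π x * (t x j * F x) - ∑ x, π x * (spin (x j) * F x) := by
    rw [← Finset.sum_sub_distrib]
    exact Finset.sum_congr rfl (fun x _ => by ring)
  rw [e] at h
  linarith

lemma sum_gen_eq_zero {π : (ι → Bool) → ℝ} {t : (ι → Bool) → ι → ℝ} (hR : IsRev π t)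
    (w : (ι → Bool) → ℝ) : ∑ x, π x * gen t w x = 0 := by
  unfold gen
  simp only [Finset.mul_sum]
  rw [Finset.sum_comm]
  refine Finset.sum_eq_zero (fun i _ => ?_)
  exact hR.ibp i (D i w) (fun x b => D_update i w x b)

lemma DD_update_left (u : (ι → Bool) → ℝ) (j i : ι) (x : ι → Bool) (b : Bool) :
    D j (D i u) (update x j b) = D j (D i u) x := D_update _ _ _ _

lemma DD_update_right (u : (ι → Bool) → ℝ) (j i : ι) (x : ι → Bool) (b : Bool) :
    D j (D i u) (update x i b) = D j (D i u) x := by
  rw [D_comm j i u, D_comm j i u]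
  exact D_update _ _ _ _

/-- The integrand of the integrated Bochner formula, summed over ordered pairs. -/
def Pterm (J : ι → ι → ℝ) (t : (ι → Bool) → ι → ℝ) (u : (ι → Bool) → ℝ) (x : ι → Bool)
    (j i : ι) : ℝ :=
  (1 - t x i ^ 2) * (D j (D i u) x) ^ 2
    + (2 * t x j * Bt t j i x - (1 - t x j ^ 2) * alphaT J t j i x) * D j u x * D j (D i u) x
    - J i j * (1 - t x i ^ 2) * D i u x * D j u x
    - (betaT J t j i x + t x j * alphaT J t j i x) * D i u x * D j u x

/-- One ordered pair of the first-order term. -/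
lemma first_order_pair (J : ι → ι → ℝ) {π : (ι → Bool) → ℝ} {t : (ι → Bool) → ι → ℝ}
    (hR : IsRev π t) (ht : ∀ x i b, t (update x i b) i = t x i) (u : (ι → Bool) → ℝ) (j i : ι) :
    ∑ x, π x * (D j u x * Bt t j i x * D i u x)
      = ∑ x, π x * ((J i j * (1 - t x i ^ 2) + betaT J t j i x + t x j * alphaT J t j i x)
            * D i u x * D j u x
          + (1 - t x j ^ 2) * alphaT J t j i x * D j u x * D j (D i u) x) := by
  set a : (ι → Bool) → ℝ := Ei j (D i u) with ha
  set z : (ι → Bool) → ℝ := D j (D i u) with hz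
  have hyi : ∀ x, D i u x = a x + spin (x j) * z x := by
    intro x
    simp only [ha, hz, Ei]
    ring
  set F1 : (ι → Bool) → ℝ := fun x => alphaT J t j i x * D j u x * a x with hF1
  have hF1u : ∀ x b, F1 (update x j b) = F1 x := by
    intro x b
    simp only [hF1]
    rw [alphaT_update, D_update, ha, Ei_update]
  set F2 : (ι → Bool) → ℝ := fun x => t x j * alphaT J t j i x * D j u x * z x with hF2
  have hF2u : ∀ x b, F2 (update x j b) = F2 x := by
    intro x b
    simp only [hF2]
    rw [ht, alphaT_update, D_update, hz, DD_update_left]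
  have h1 := ibp_spin hR j hF1u
  have h2 := ibp_spin hR j hF2u
  -- pointwise expansions
  have e0 : ∀ x, π x * (D j u x * Bt t j i x * D i u x)
      = π x * ((J i j * (1 - t x i ^ 2) + betaT J t j i x) * D i u x * D j u x)
        + π x * (spin (x j) * F1 x) + π x * (alphaT J t j i x * D j u x * z x) := by
    intro x
    have hs := spin_mul_self (x j)
    rw [Bt_split J t j i x]
    simp only [hF1]
    rw [hyi x]
    linear_combination (π x * alphaT J t j i x * D j u x * z x) * hs
  have e1 : ∀ x, π x * (t x j * F1 x)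
      = π x * (t x j * alphaT J t j i x * D i u x * D j u x) - π x * (spin (x j) * F2 x) := by
    intro x
    simp only [hF1, hF2]
    rw [hyi x]
    ring
  have e2 : ∀ x, π x * (t x j * F2 x)
      = π x * (t x j ^ 2 * alphaT J t j i x * D j u x * z x) := by
    intro x
    simp only [hF2]
    ring
  have s0 := Finset.sum_congr (rfl : (Finset.univ : Finset (ι → Bool)) = Finset.univ) (fun x _ => e0 x)
  have s1 := Finset.sum_congr (rfl : (Finset.univ : Finset (ι → Bool)) = Finset.univ) (fun x _ => e1 x)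
  have s2 := Finset.sum_congr (rfl : (Finset.univ : Finset (ι → Bool)) = Finset.univ) (fun x _ => e2 x)
  rw [Finset.sum_add_distrib, Finset.sum_add_distrib] at s0
  rw [Finset.sum_sub_distrib] at s1
  rw [s0, h1, s1, h2, s2]
  have goal_e : ∑ x, π x * ((J i j * (1 - t x i ^ 2) + betaT J t j i x + t x j * alphaT J t j i x)
            * D i u x * D j u x
          + (1 - t x j ^ 2) * alphaT J t j i x * D j u x * D j (D i u) x)
      = ∑ x, π x * ((J i j * (1 - t x i ^ 2) + betaT J t j i x) * D i u x * D j u x)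
        + ∑ x, π x * (t x j * alphaT J t j i x * D i u x * D j u x)
        - ∑ x, π x * (t x j ^ 2 * alphaT J t j i x * D j u x * z x)
        + ∑ x, π x * (alphaT J t j i x * D j u x * z x) := by
    rw [← Finset.sum_add_distrib, ← Finset.sum_sub_distrib, ← Finset.sum_add_distrib]
    refine Finset.sum_congr rfl (fun x _ => ?_)
    simp only [hz]
    ring
  rw [goal_e]
  ring

/-- **The integrated Bochner identity.** -/
theorem int_bochner (J : ι → ι → ℝ) {π : (ι → Bool) → ℝ} {t : (ι → Bool) → ι → ℝ}
    (hR : IsRev π t) (ht : ∀ x i b, t (update x i b) i = t x i) (u : (ι → Bool) → ℝ) :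
    -∑ x, π x * ∑ j, D j u x * D j (gen t u) x
      = ∑ x, π x * (gradSq u x + ∑ j, ∑ i, Pterm J t u x j i) := by
  -- the pointwise identity integrated
  have h0 : ∀ x, π x * (2 * ∑ j, D j u x * D j (gen t u) x)
      = π x * gen t (gradSq u) x
        + π x * (-2 * gradSq u x
        + 2 * ∑ j, ∑ i, D j u x * D j (fun y => t y i) x * D i u x
        - 4 * ∑ j, ∑ i, spin (x j) * D j u x * D j (fun y => t y i) x * D j (D i u) x
        - 2 * ∑ j, ∑ i, (1 - spin (x i) * t x i) * (D j (D i u) x) ^ 2) := by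
    intro x
    rw [← mul_add, ← bochner_identity t ht u x]
    ring
  have h1 := Finset.sum_congr (rfl : (Finset.univ : Finset (ι → Bool)) = Finset.univ) (fun x _ => h0 x)
  rw [Finset.sum_add_distrib, sum_gen_eq_zero hR, zero_add] at h1
  -- termwise integrations
  have hT2 : ∀ j i, ∑ x, π x * (spin (x j) * D j u x * D j (fun y => t y i) x * D j (D i u) x)
      = ∑ x, π x * (t x j * D j u x * Bt t j i x * D j (D i u) x) := by
    intro j i
    have := ibp_spin hR j (F := fun x => D j u x * Bt t j i x * D j (D i u) x) (by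
      intro x b
      simp only [D_update j u, Bt_update, DD_update_left])
    calc _ = ∑ x, π x * (spin (x j) * (D j u x * Bt t j i x * D j (D i u) x)) :=
          Finset.sum_congr rfl (fun x _ => by unfold Bt; ring)
      _ = ∑ x, π x * (t x j * (D j u x * Bt t j i x * D j (D i u) x)) := this
      _ = _ := Finset.sum_congr rfl (fun x _ => by ring)
  have hT3 : ∀ j i, ∑ x, π x * ((1 - spin (x i) * t x i) * (D j (D i u) x) ^ 2)
      = ∑ x, π x * ((1 - t x i ^ 2) * (D j (D i u) x) ^ 2) := by
    intro j i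
    have := ibp_spin hR i (F := fun x => t x i * (D j (D i u) x) ^ 2) (by
      intro x b
      simp only [ht, DD_update_right])
    have e1 : ∀ x, π x * ((1 - spin (x i) * t x i) * (D j (D i u) x) ^ 2)
        = π x * (D j (D i u) x) ^ 2 - π x * (spin (x i) * (t x i * (D j (D i u) x) ^ 2)) := by
      intro x; ring
    have e2 : ∀ x, π x * ((1 - t x i ^ 2) * (D j (D i u) x) ^ 2)
        = π x * (D j (D i u) x) ^ 2 - π x * (t x i * (t x i * (D j (D i u) x) ^ 2)) := by
      intro x; ring
    simp only [e1, e2, Finset.sum_sub_distrib]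
    rw [this]
  have hT1 := fun j i => first_order_pair J hR ht u j i
  -- assemble
  have sw : ∀ F : (ι → Bool) → ι → ι → ℝ,
      ∑ x, π x * ∑ j, ∑ i, F x j i = ∑ j, ∑ i, ∑ x, π x * F x j i := by
    intro F
    simp only [Finset.mul_sum]
    rw [Finset.sum_comm]
    refine Finset.sum_congr rfl (fun j _ => ?_)
    rw [Finset.sum_comm]
  have hA : ∑ x, π x * (gradSq u x + ∑ j, ∑ i, Pterm J t u x j i)
      = ∑ x, π x * gradSq u x + ∑ j, ∑ i, ∑ x, π x * Pterm J t u x j i := by
    rw [← sw, ← Finset.sum_add_distrib]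
    exact Finset.sum_congr rfl (fun x _ => by ring)
  have hS : ∑ x, π x * (-2 * gradSq u x
        + 2 * ∑ j, ∑ i, D j u x * D j (fun y => t y i) x * D i u x
        - 4 * ∑ j, ∑ i, spin (x j) * D j u x * D j (fun y => t y i) x * D j (D i u) x
        - 2 * ∑ j, ∑ i, (1 - spin (x i) * t x i) * (D j (D i u) x) ^ 2)
      = -2 * ∑ x, π x * gradSq u x
        + 2 * ∑ j, ∑ i, ∑ x, π x * (D j u x * Bt t j i x * D i u x)
        - 4 * ∑ j, ∑ i, ∑ x, π x * (spin (x j) * D j u x * D j (fun y => t y i) x * D j (D i u) x)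
        - 2 * ∑ j, ∑ i, ∑ x, π x * ((1 - spin (x i) * t x i) * (D j (D i u) x) ^ 2) := by
    have e1 : ∑ j, ∑ i, ∑ x, π x * (D j u x * Bt t j i x * D i u x)
        = ∑ x, π x * ∑ j, ∑ i, D j u x * D j (fun y => t y i) x * D i u x := by
      rw [sw]
      rfl
    rw [e1, ← sw, ← sw, Finset.mul_sum, Finset.mul_sum, Finset.mul_sum, Finset.mul_sum,
      ← Finset.sum_add_distrib, ← Finset.sum_sub_distrib, ← Finset.sum_sub_distrib]
    exact Finset.sum_congr rfl (fun x _ => by ring)
  rw [hS] at h1
  rw [hA]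
  have hterm : ∀ j i, ∑ x, π x * Pterm J t u x j i
      = ∑ x, π x * ((1 - t x i ^ 2) * (D j (D i u) x) ^ 2)
        + 2 * ∑ x, π x * (t x j * D j u x * Bt t j i x * D j (D i u) x)
        - ∑ x, π x * (D j u x * Bt t j i x * D i u x) := by
    intro j i
    rw [hT1 j i, Finset.mul_sum, ← Finset.sum_add_distrib, ← Finset.sum_sub_distrib]
    refine Finset.sum_congr rfl (fun x _ => ?_)
    unfold Pterm
    ring
  simp only [hterm, Finset.sum_sub_distrib, Finset.sum_add_distrib, ← Finset.mul_sum]
  simp only [hT2, hT3] at h1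
  have h2 : ∑ x, π x * (2 * ∑ j, D j u x * D j (gen t u) x)
      = 2 * ∑ x, π x * ∑ j, D j u x * D j (gen t u) x := by
    rw [Finset.mul_sum]
    exact Finset.sum_congr rfl (fun x _ => by ring)
  rw [h2] at h1
  linarith

end Vale.Agent.Lib.P150
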