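import Vale.Agent.Lib.P150.IntBochner

/-!
Pointwise lower bound on the integrand of the integrated Bochner formula for Ising models.
-/

open scoped BigOperators
open Function

set_option linter.unusedSectionVars false
set_option linter.unusedSimpArgs false
set_option linter.unusedVariables false

noncomputable section

namespace Vale.Agent.Lib.P150

variable {ι : Type*} [Fintype ι] [DecidableEq ι]

lemma pb_B {e d v E B : ℝ} (he0 : 0 ≤ e) (hd0 : 0 < d) (hv0 : 0 < v) (hv : v ≤ 1 + 3 * e)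
    (hE : |E| ≤ 2 * e) (hB : B = (E / 2) * d * v) : |B| ≤ e * d * (1 + 3 * e) := by
  rw [hB, abs_mul, abs_mul, abs_of_pos hd0, abs_of_pos hv0, abs_div,
    abs_of_pos (by norm_num : (0:ℝ) < 2)]
  have h1 : |E| / 2 ≤ e := by linarith
  have h2 : 0 ≤ |E| / 2 := by positivity
  exact mul_le_mul (mul_le_mul_of_nonneg_right h1 hd0.le) hv hv0.le (by positivity)

lemma pb_tb {e T s B tb : ℝ} (he0 : 0 ≤ e) (he : e ≤ 1 / 200) (hT : |T| < 1) (hs1 : |s| = 1)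
    (hs : s * s = 1) (hB : |B| ≤ 1.015 * e) (htb : tb = T - s * B) :
    |tb| ≤ 1.01 ∧ tb ^ 2 ≤ T ^ 2 + 2.1 * e := by
  constructor
  · rw [htb]
    refine (abs_sub _ _).trans ?_
    rw [abs_mul, hs1, one_mul]
    have : 1.015 * e ≤ 0.01 := by linarith
    linarith [hB, hT.le]
  · rw [htb]
    have h1 : (T - s * B) ^ 2 = T ^ 2 - 2 * (T * (s * B)) + (s * s) * B ^ 2 := by ring
    rw [h1, hs, one_mul]
    have h2 : |T * (s * B)| ≤ 1.015 * e := by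
      rw [abs_mul, abs_mul, hs1, one_mul]
      calc |T| * |B| ≤ 1 * |B| := mul_le_mul_of_nonneg_right hT.le (abs_nonneg _)
        _ ≤ _ := by linarith
    have h3 := neg_abs_le (T * (s * B))
    have hBsq : B ^ 2 ≤ (1.015 * e) ^ 2 := by
      rw [← sq_abs B]
      exact pow_le_pow_left₀ (abs_nonneg _) hB 2
    have h4 : (1.015 * e) ^ 2 ≤ 0.05 * e := by nlinarith
    nlinarith

lemma pb_be_form {T s δ E d v B tb be : ℝ} (hs : s * s = 1) (hd : d = 1 - T ^ 2)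
    (hv : (1 - s * T * E) * v = 1) (hB : B = (E / 2) * d * v) (htb : tb = T - s * B)
    (hbe : be = B - δ * (1 - tb ^ 2 - B ^ 2)) :
    be = (E / 2 - δ) * d * v + 2 * δ * B ^ 2 := by
  have a1 : d * v = d + 2 * (s * T * B) := by
    rw [hB]
    linear_combination d * hv
  have a2 : B = (E / 2) * d + s * T * E * B := by
    have : B * (1 - s * T * E) = (E / 2) * d := by
      rw [hB]
      linear_combination (E / 2 * d) * hv
    linear_combination this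
  rw [hbe, htb]
  have e1 : (E / 2 - δ) * d * v = (E / 2 - δ) * (d * v) := by ring
  rw [e1, a1, hd]
  rw [hd] at a2
  linear_combination a2 + (δ * B ^ 2) * hs

lemma pb_be {e δ E d v B be : ℝ} (he0 : 0 ≤ e) (he : e ≤ 1 / 200) (hδ : |δ| = e)
    (hd0 : 0 < d) (hd1 : d ≤ 1) (hv0 : 0 < v) (hv : v ≤ 1.015)
    (hE3 : |E / 2 - δ| ≤ 4 / 3 * e ^ 3) (hB : B ^ 2 ≤ (1.015 * e) ^ 2)
    (hbe : be = (E / 2 - δ) * d * v + 2 * δ * B ^ 2) : |be| ≤ 4 * e ^ 3 := by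
  rw [hbe]
  refine (abs_add_le _ _).trans ?_
  rw [abs_mul, abs_mul, abs_mul, abs_mul, abs_of_pos hd0, abs_of_pos hv0,
    abs_of_nonneg (sq_nonneg B), hδ, abs_of_pos (by norm_num : (0:ℝ) < 2)]
  have h1 : |E / 2 - δ| * d * v ≤ (4 / 3 * e ^ 3) * 1 * 1.015 :=
    mul_le_mul (mul_le_mul hE3 hd1 hd0.le (by positivity)) hv hv0.le (by positivity)
  have h2 : 2 * e * B ^ 2 ≤ 2 * e * (1.015 * e) ^ 2 :=
    mul_le_mul_of_nonneg_left hB (by positivity)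
  have h3 : 0 ≤ e ^ 3 := by positivity
  have e1 : 2 * e * (1.015 * e) ^ 2 = 2 * 1.015 ^ 2 * e ^ 3 := by ring
  rw [e1] at h2
  have e2 : (4 / 3 * e ^ 3) * 1 * 1.015 = 4 / 3 * 1.015 * e ^ 3 := by ring
  rw [e2] at h1
  have h4 : (4 / 3 * 1.015 + 2 * 1.015 ^ 2 : ℝ) ≤ 4 := by norm_num
  nlinarith

lemma pb_talpha {e δ d T τ tb B al y1 y2 : ℝ} (he0 : 0 ≤ e) (he : e ≤ 1 / 200) (hδ : |δ| = e)
    (hd0 : 0 < d) (hd1 : d ≤ 1) (hT2 : T ^ 2 ≤ 1) (hτ2 : τ ^ 2 ≤ 1)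
    (hBabs : |B| ≤ e * d * (1 + 3 * e))
    (htbsq : tb ^ 2 ≤ T ^ 2 + 2.1 * e) (hal : al = 2 * δ * tb * B) :
    |τ * al * (y1 * y2)|
      ≤ e ^ 2 * ((τ ^ 2 + 3 * e) * y2 ^ 2 + (d ^ 2 * T ^ 2 + 5.2 * e) * y1 ^ 2) := by
  have hal2 : |al| ≤ 2 * e ^ 2 * (1 + 3 * e) * (d * |tb|) := by
    rw [hal, abs_mul, abs_mul, abs_mul, abs_of_pos (by norm_num : (0:ℝ) < 2), hδ]
    calc 2 * e * |tb| * |B| ≤ 2 * e * |tb| * (e * d * (1 + 3 * e)) :=
          mul_le_mul_of_nonneg_left hBabs (by positivity)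
      _ = _ := by ring
  have h1 : |τ * al * (y1 * y2)| = |al| * (|τ| * |y2| * |y1|) := by
    rw [abs_mul, abs_mul, abs_mul]; ring
  rw [h1]
  have h2 : |al| * (|τ| * |y2| * |y1|)
      ≤ (2 * e ^ 2 * (1 + 3 * e) * (d * |tb|)) * (|τ| * |y2| * |y1|) :=
    mul_le_mul_of_nonneg_right hal2 (by positivity)
  refine h2.trans ?_
  have h3 : 2 * (d * |tb| * |y1|) * (|τ| * |y2|) ≤ (d * |tb| * |y1|) ^ 2 + (|τ| * |y2|) ^ 2 := by
    nlinarith [sq_nonneg (d * |tb| * |y1| - |τ| * |y2|)]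
  have h4 : (d * |tb| * |y1|) ^ 2 = d ^ 2 * tb ^ 2 * y1 ^ 2 := by
    rw [mul_pow, mul_pow, sq_abs, sq_abs]
  have h5 : (|τ| * |y2|) ^ 2 = τ ^ 2 * y2 ^ 2 := by
    rw [mul_pow, sq_abs, sq_abs]
  rw [h4, h5] at h3
  have hy1 := sq_nonneg y1
  have hy2 := sq_nonneg y2
  have hd2 : d ^ 2 ≤ 1 := by nlinarith
  have h6 : d ^ 2 * tb ^ 2 ≤ d ^ 2 * T ^ 2 + 2.1 * e := by
    have h8 : d ^ 2 * tb ^ 2 ≤ d ^ 2 * (T ^ 2 + 2.1 * e) :=
      mul_le_mul_of_nonneg_left htbsq (sq_nonneg d)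
    have h9 : d ^ 2 * (2.1 * e) ≤ 1 * (2.1 * e) :=
      mul_le_mul_of_nonneg_right hd2 (by positivity)
    linarith
  have h11 : d ^ 2 * T ^ 2 ≤ 1 := by
    have : d ^ 2 * T ^ 2 ≤ 1 * 1 := mul_le_mul hd2 hT2 (sq_nonneg _) (by norm_num)
    linarith
  have h9 : (1 + 3 * e) * (d ^ 2 * tb ^ 2) ≤ d ^ 2 * T ^ 2 + 5.2 * e := by
    have h10 : (1 + 3 * e) * (d ^ 2 * tb ^ 2) ≤ (1 + 3 * e) * (d ^ 2 * T ^ 2 + 2.1 * e) :=
      mul_le_mul_of_nonneg_left h6 (by positivity)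
    have h12 : 3 * e * (d ^ 2 * T ^ 2) ≤ 3 * e * 1 := mul_le_mul_of_nonneg_left h11 (by positivity)
    have h13 : 3 * e * (2.1 * e) ≤ 0.1 * e := by nlinarith
    nlinarith
  have h12 : (1 + 3 * e) * τ ^ 2 ≤ τ ^ 2 + 3 * e := by
    have : 3 * e * τ ^ 2 ≤ 3 * e * 1 := mul_le_mul_of_nonneg_left hτ2 (by positivity)
    linarith
  have hE : (2 * e ^ 2 * (1 + 3 * e) * (d * |tb|)) * (|τ| * |y2| * |y1|)
      = e ^ 2 * (1 + 3 * e) * (2 * (d * |tb| * |y1|) * (|τ| * |y2|)) := by ring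
  rw [hE]
  have hk : 0 ≤ e ^ 2 * (1 + 3 * e) := by positivity
  have h14 := mul_le_mul_of_nonneg_left h3 hk
  have h15 : e ^ 2 * (1 + 3 * e) * (d ^ 2 * tb ^ 2 * y1 ^ 2 + τ ^ 2 * y2 ^ 2)
      = e ^ 2 * ((1 + 3 * e) * (d ^ 2 * tb ^ 2) * y1 ^ 2 + (1 + 3 * e) * τ ^ 2 * y2 ^ 2) := by ring
  rw [h15] at h14
  refine h14.trans (mul_le_mul_of_nonneg_left ?_ (sq_nonneg e))
  have h16 := mul_le_mul_of_nonneg_right h9 hy1
  have h17 := mul_le_mul_of_nonneg_right h12 hy2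
  linarith

lemma pb_square {e d c B w τ z y2 : ℝ} (he0 : 0 ≤ e) (he : e ≤ 1 / 200)
    (hd0 : 0 < d) (hd1 : d ≤ 1) (hτ2 : τ ^ 2 ≤ 1)
    (hc : |c| ≤ e * (1 + 3 * e)) (hB : B = c * d) (hw : w ^ 2 ≤ τ ^ 2 + 3 * e) :
    -(e ^ 2 * (τ ^ 2 + 11 * e) * y2 ^ 2) ≤ d * z ^ 2 + 2 * B * w * y2 * z := by
  have h1 : d * z ^ 2 + 2 * B * w * y2 * z = d * (z + c * w * y2) ^ 2 - c ^ 2 * d * w ^ 2 * y2 ^ 2 := by
    rw [hB]; ring
  rw [h1]
  have h2 : c ^ 2 ≤ e ^ 2 * (1 + 7 * e) := by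
    have h3 : c ^ 2 ≤ (e * (1 + 3 * e)) ^ 2 := by
      rw [← sq_abs c]
      exact pow_le_pow_left₀ (abs_nonneg _) hc 2
    have h4 : (e * (1 + 3 * e)) ^ 2 = e ^ 2 * (1 + 6 * e + 9 * e ^ 2) := by ring
    have h5 : 1 + 6 * e + 9 * e ^ 2 ≤ 1 + 7 * e := by nlinarith
    have h6 := mul_le_mul_of_nonneg_left h5 (sq_nonneg e)
    linarith
  have h3 : c ^ 2 * d * w ^ 2 ≤ e ^ 2 * (τ ^ 2 + 11 * e) := by
    have h4 : c ^ 2 * d ≤ e ^ 2 * (1 + 7 * e) := by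
      have : c ^ 2 * d ≤ c ^ 2 * 1 := mul_le_mul_of_nonneg_left hd1 (sq_nonneg _)
      linarith
    have h5 : c ^ 2 * d * w ^ 2 ≤ e ^ 2 * (1 + 7 * e) * (τ ^ 2 + 3 * e) :=
      mul_le_mul h4 hw (sq_nonneg _) (by positivity)
    refine h5.trans ?_
    have e1 : e ^ 2 * (1 + 7 * e) * (τ ^ 2 + 3 * e) = e ^ 2 * ((1 + 7 * e) * (τ ^ 2 + 3 * e)) := by ring
    rw [e1]
    refine mul_le_mul_of_nonneg_left ?_ (sq_nonneg e)
    have h6 : 7 * e * τ ^ 2 ≤ 7 * e * 1 := mul_le_mul_of_nonneg_left hτ2 (by positivity)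
    nlinarith
  have h4 := mul_nonneg hd0.le (sq_nonneg (z + c * w * y2))
  have h5 := mul_le_mul_of_nonneg_right h3 (sq_nonneg y2)
  linarith

lemma pb_w {e δ τ tb : ℝ} (he0 : 0 ≤ e) (he : e ≤ 1 / 200) (hδ : |δ| = e) (hτ : |τ| < 1)
    (htb : |tb| ≤ 1.01) :
    (τ - (1 - τ ^ 2) * δ * tb) ^ 2 ≤ τ ^ 2 + 3 * e := by
  have hτ2 : τ ^ 2 ≤ 1 := by
    have := (sq_lt_one_iff_abs_lt_one τ).mpr hτ
    linarith
  have hd : |1 - τ ^ 2| ≤ 1 := by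
    rw [abs_of_nonneg (by linarith)]
    nlinarith [sq_nonneg τ]
  set a := (1 - τ ^ 2) * δ * tb with ha
  have habs : |a| ≤ 1.01 * e := by
    rw [ha, abs_mul, abs_mul, hδ]
    calc |1 - τ ^ 2| * e * |tb| ≤ 1 * e * 1.01 :=
          mul_le_mul (mul_le_mul_of_nonneg_right hd he0) htb (abs_nonneg _) (by positivity)
      _ = _ := by ring
  have h1 : (τ - a) ^ 2 = τ ^ 2 - 2 * (τ * a) + a ^ 2 := by ring
  rw [h1]
  have h2 : |τ * a| ≤ 1.01 * e := by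
    rw [abs_mul]
    calc |τ| * |a| ≤ 1 * |a| := mul_le_mul_of_nonneg_right hτ.le (abs_nonneg _)
      _ ≤ _ := by linarith
  have h3 := neg_abs_le (τ * a)
  have h4 : a ^ 2 ≤ (1.01 * e) ^ 2 := by
    rw [← sq_abs a]
    exact pow_le_pow_left₀ (abs_nonneg _) habs 2
  nlinarith

/-- The real-variable pair bound. -/
lemma pair_real {δ E T τ s v y1 y2 z : ℝ} (hδ : |δ| ≤ 1 / 200) (hT : |T| < 1) (hτ : |τ| < 1)
    (hs1 : |s| = 1) (hs : s * s = 1) (hE2 : |E| ≤ 2 * |δ|) (hE3 : |E / 2 - δ| ≤ 4 / 3 * |δ| ^ 3)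
    (hv : (1 - s * T * E) * v = 1) (hv0 : 0 < v) (hv1 : v ≤ 1 + 3 * |δ|) :
    let d := 1 - T ^ 2
    let B := E / 2 * d * v
    let tb := T - s * B
    let al := 2 * δ * tb * B
    let be := B - δ * (1 - tb ^ 2 - B ^ 2);
    -(δ ^ 2 * ((2 * τ ^ 2 + 16 * |δ|) * y2 ^ 2 + (d ^ 2 * T ^ 2 + 9 * |δ|) * y1 ^ 2))
      ≤ d * z ^ 2 + (2 * τ * B - (1 - τ ^ 2) * al) * y2 * z - (be + τ * al) * y1 * y2 := by
  intro d B tb al be
  set e := |δ| with he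
  have he0 : 0 ≤ e := abs_nonneg _
  have he1 : e ≤ 1 / 200 := hδ
  have hT2 : T ^ 2 ≤ 1 := by
    have := (sq_lt_one_iff_abs_lt_one T).mpr hT
    linarith
  have hτ2 : τ ^ 2 ≤ 1 := by
    have := (sq_lt_one_iff_abs_lt_one τ).mpr hτ
    linarith
  have hd0 : 0 < d := by
    have := (sq_lt_one_iff_abs_lt_one T).mpr hT
    simp only [d]; linarith
  have hd1 : d ≤ 1 := by
    simp only [d]; nlinarith [sq_nonneg T]
  have hB0 : |B| ≤ e * d * (1 + 3 * e) := pb_B he0 hd0 hv0 hv1 hE2 rfl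
  have hB1 : |B| ≤ 1.015 * e := by
    have h1 : e * d ≤ e * 1 := mul_le_mul_of_nonneg_left hd1 he0
    have h2 : e * d * (1 + 3 * e) ≤ e * 1 * (1 + 3 * e) :=
      mul_le_mul_of_nonneg_right h1 (by positivity)
    have h3 : e * 1 * (1 + 3 * e) ≤ 1.015 * e := by nlinarith
    linarith
  obtain ⟨htb, htbsq⟩ := pb_tb (tb := tb) he0 he1 hT hs1 hs hB1 rfl
  have hBsq : B ^ 2 ≤ (1.015 * e) ^ 2 := by
    rw [← sq_abs B]
    exact pow_le_pow_left₀ (abs_nonneg _) hB1 2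
  have hbe0 : be = (E / 2 - δ) * d * v + 2 * δ * B ^ 2 :=
    pb_be_form (T := T) (s := s) (E := E) hs rfl hv rfl rfl rfl
  have hbe : |be| ≤ 4 * e ^ 3 :=
    pb_be he0 he1 rfl hd0 hd1 hv0 (by nlinarith) hE3 hBsq hbe0
  have hal := pb_talpha (y1 := y1) (y2 := y2) he0 he1 rfl hd0 hd1 hT2 hτ2 hB0 htbsq
    (rfl : al = 2 * δ * tb * B)
  have hta := (le_abs_self _).trans hal
  have hc : |E / 2 * v| ≤ e * (1 + 3 * e) := by
    rw [abs_mul, abs_of_pos hv0, abs_div, abs_of_pos (by norm_num : (0:ℝ) < 2)]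
    exact mul_le_mul (by linarith) hv1 hv0.le he0
  have hsq := pb_square (z := z) (y2 := y2) he0 he1 hd0 hd1 hτ2 hc
    (by simp only [B]; ring : B = E / 2 * v * d) (pb_w he0 he1 rfl hτ htb)
  have hrw : 2 * τ * B - (1 - τ ^ 2) * al = 2 * B * (τ - (1 - τ ^ 2) * δ * tb) := by
    simp only [al]; ring
  rw [hrw]
  have hbey : be * y1 * y2 ≤ 2 * e ^ 3 * (y1 ^ 2 + y2 ^ 2) := by
    have h1 : be * y1 * y2 ≤ |be| * (|y1| * |y2|) := by
      calc be * y1 * y2 ≤ |be * y1 * y2| := le_abs_self _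
        _ = _ := by rw [abs_mul, abs_mul]; ring
    have h2 : |y1| * |y2| ≤ (y1 ^ 2 + y2 ^ 2) / 2 := by
      have := sq_nonneg (|y1| - |y2|)
      rw [sub_sq, sq_abs, sq_abs] at this
      linarith
    have h3 : |be| * (|y1| * |y2|) ≤ (4 * e ^ 3) * ((y1 ^ 2 + y2 ^ 2) / 2) :=
      mul_le_mul hbe h2 (by positivity) (by positivity)
    linarith
  have hδ2 : δ ^ 2 = e ^ 2 := (sq_abs δ).symm
  rw [hδ2]
  have hy1 := sq_nonneg y1
  have hy2 := sq_nonneg y2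
  have hfin : -(e ^ 2 * ((2 * τ ^ 2 + 16 * e) * y2 ^ 2 + (d ^ 2 * T ^ 2 + 9 * e) * y1 ^ 2))
      ≤ -(e ^ 2 * (τ ^ 2 + 11 * e) * y2 ^ 2)
        - e ^ 2 * ((τ ^ 2 + 3 * e) * y2 ^ 2 + (d ^ 2 * T ^ 2 + 5.2 * e) * y1 ^ 2)
        - 2 * e ^ 3 * (y1 ^ 2 + y2 ^ 2) := by
    have h0 : 0 ≤ e ^ 3 * y1 ^ 2 := by positivity
    have : -(e ^ 2 * ((2 * τ ^ 2 + 16 * e) * y2 ^ 2 + (d ^ 2 * T ^ 2 + 9 * e) * y1 ^ 2))
        = -(e ^ 2 * (τ ^ 2 + 11 * e) * y2 ^ 2)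
          - e ^ 2 * ((τ ^ 2 + 3 * e) * y2 ^ 2 + (d ^ 2 * T ^ 2 + 5.2 * e) * y1 ^ 2)
          - 2 * e ^ 3 * (y1 ^ 2 + y2 ^ 2) - 1.8 * (e ^ 3 * y1 ^ 2) := by ring
    rw [this]
    linarith
  have hexp : (be + τ * al) * y1 * y2 = be * y1 * y2 + τ * al * (y1 * y2) := by ring
  rw [hexp]
  linarith

lemma tanh_pair_facts {δ T s : ℝ} (hδ : |δ| ≤ 1 / 200) (hT : |T| < 1) (hs1 : |s| = 1) :
    ∃ v, (1 - s * T * Real.tanh (2 * δ)) * v = 1 ∧ 0 < v ∧ v ≤ 1 + 3 * |δ| ∧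
      |Real.tanh (2 * δ)| ≤ 2 * |δ| ∧ |Real.tanh (2 * δ) / 2 - δ| ≤ 4 / 3 * |δ| ^ 3 := by
  set E := Real.tanh (2 * δ) with hE
  have hE2 : |E| ≤ 2 * |δ| := by simpa [abs_mul] using abs_tanh_le_abs (2 * δ)
  have hE3 : |E / 2 - δ| ≤ 4 / 3 * |δ| ^ 3 := by
    have h0 := abs_tanh_sub_self_le (2 * δ)
    have e0 : E / 2 - δ = (E - 2 * δ) / 2 := by ring
    rw [e0, abs_div, abs_of_pos (by norm_num : (0:ℝ) < 2)]
    have e3 : |2 * δ| = 2 * |δ| := by simp [abs_mul]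
    rw [e3] at h0
    have e4 : (2 * |δ|) ^ 3 / 3 = 8 / 3 * |δ| ^ 3 := by ring
    rw [e4] at h0
    calc |E - 2 * δ| / 2 ≤ (8 / 3 * |δ| ^ 3) / 2 := div_le_div_of_nonneg_right h0 (by norm_num)
      _ = _ := by ring
  set q := s * T * E with hq
  have hq1 : |q| ≤ 2 * |δ| := by
    rw [hq, abs_mul, abs_mul, hs1, one_mul]
    calc |T| * |E| ≤ 1 * |E| := mul_le_mul_of_nonneg_right hT.le (abs_nonneg _)
      _ ≤ _ := by linarith
  have hq2 := le_abs_self q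
  have hpos : 0 < 1 - q := by linarith
  refine ⟨(1 - q)⁻¹, mul_inv_cancel₀ hpos.ne', inv_pos.mpr hpos, ?_, hE2, hE3⟩
  rw [inv_le_iff_one_le_mul₀ hpos]
  have h0 := abs_nonneg δ
  have : (1 - 2 * |δ|) * (1 + 3 * |δ|) ≤ (1 - q) * (1 + 3 * |δ|) :=
    mul_le_mul_of_nonneg_right (by linarith) (by positivity)
  nlinarith

lemma pair_bound (J : ι → ι → ℝ) (h : ι → ℝ) (u : (ι → Bool) → ℝ) (x : ι → Bool) (j i : ι)
    (hη : |J i j| ≤ 1 / 200) :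
    -(J i j ^ 2 * ((2 * tfh J h x j ^ 2 + 16 * |J i j|) * D j u x ^ 2
        + ((1 - tfh J h x i ^ 2) ^ 2 * tfh J h x i ^ 2 + 9 * |J i j|) * D i u x ^ 2))
      ≤ Pterm J (tfh J h) u x j i + J i j * (1 - tfh J h x i ^ 2) * D i u x * D j u x := by
  have hs1 : |spin (x j)| = 1 := by
    cases x j <;> simp
  obtain ⟨v, hv, hv0, hv1, hE2, hE3⟩ := tanh_pair_facts (T := tfh J h x i) (s := spin (x j)) hη
    (abs_tfh_lt J h x i) hs1
  have key := pair_real (y1 := D i u x) (y2 := D j u x) (z := D j (D i u) x) (τ := tfh J h x j) hη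
    (abs_tfh_lt J h x i) (abs_tfh_lt J h x j) hs1 (spin_mul_self _) hE2 hE3 hv hv0 hv1
  have hBt : Bt (tfh J h) j i x
      = Real.tanh (2 * J i j) / 2 * (1 - tfh J h x i ^ 2) * v := by
    unfold Bt
    rw [D_tfh]
    have hvinv : v = (1 - spin (x j) * tfh J h x i * Real.tanh (2 * J i j))⁻¹ :=
      eq_inv_of_mul_eq_one_right hv
    rw [hvinv, div_eq_mul_inv]
  simp only at key
  have htb : tbar (tfh J h) j i x = tfh J h x i - spin (x j) * Bt (tfh J h) j i x := rfl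
  unfold Pterm betaT alphaT
  rw [htb, hBt]
  linarith

/-- **The pointwise lower bound on the integrated Bochner integrand.** -/
theorem int_curv (J : ι → ι → ℝ) (hsym : ∀ i j, J i j = J j i) (h : ι → ℝ)
    {ρ r2 η : ℝ} (hρ0 : 0 ≤ ρ)
    (hρ : ∀ v : ι → ℝ, ∑ i, (∑ j, J i j * v j) ^ 2 ≤ ρ ^ 2 * ∑ i, v i ^ 2)
    (hr : ∀ j, ∑ i, J i j ^ 2 ≤ r2) (hη : ∀ i j, |J i j| ≤ η) (hη1 : η ≤ 1 / 200)
    (hρr : 4 * r2 ≤ ρ) (u : (ι → Bool) → ℝ) (x : ι → Bool) :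
    (1 - ρ - 25 * η * r2) * gradSq u x ≤ gradSq u x + ∑ j, ∑ i, Pterm J (tfh J h) u x j i := by
  set y : ι → ℝ := fun i => D i u x with hy
  set T : ι → ℝ := fun i => tfh J h x i with hT
  set d : ι → ℝ := fun i => 1 - T i ^ 2 with hd
  have hT2 : ∀ i, T i ^ 2 ≤ 1 := fun i => by
    have := (sq_lt_one_iff_abs_lt_one (T i)).mpr (abs_tfh_lt J h x i)
    linarith
  have hd0 : ∀ i, 0 ≤ d i := fun i => by
    have := hT2 i
    simp only [hd]; linarith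
  have hd1 : ∀ i, d i ≤ 1 := fun i => by
    simp only [hd]; nlinarith [sq_nonneg (T i)]
  have hη0 : ∀ i j, 0 ≤ η := fun i j => (abs_nonneg _).trans (hη i j)
  have hrs : ∀ i, ∑ j, J i j ^ 2 ≤ r2 := by
    intro i
    have e : ∑ j, J i j ^ 2 = ∑ j, J j i ^ 2 :=
      Finset.sum_congr rfl (fun j _ => by rw [hsym i j])
    rw [e]; exact hr i
  -- termwise
  have hterm : ∀ j i, -(J i j * d i * y i * y j)
      - J i j ^ 2 * ((2 * T j ^ 2 + 16 * η) * y j ^ 2 + (d i ^ 2 * T i ^ 2 + 9 * η) * y i ^ 2)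
      ≤ Pterm J (tfh J h) u x j i := by
    intro j i
    have h1 := pair_bound J h u x j i ((hη i j).trans hη1)
    have h2 := hη i j
    have hk : J i j ^ 2 * ((2 * T j ^ 2 + 16 * |J i j|) * y j ^ 2
        + (d i ^ 2 * T i ^ 2 + 9 * |J i j|) * y i ^ 2)
        ≤ J i j ^ 2 * ((2 * T j ^ 2 + 16 * η) * y j ^ 2 + (d i ^ 2 * T i ^ 2 + 9 * η) * y i ^ 2) := by
      refine mul_le_mul_of_nonneg_left ?_ (sq_nonneg _)
      have a1 : (2 * T j ^ 2 + 16 * |J i j|) * y j ^ 2 ≤ (2 * T j ^ 2 + 16 * η) * y j ^ 2 :=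
        mul_le_mul_of_nonneg_right (by linarith) (sq_nonneg _)
      have a2 : (d i ^ 2 * T i ^ 2 + 9 * |J i j|) * y i ^ 2 ≤ (d i ^ 2 * T i ^ 2 + 9 * η) * y i ^ 2 :=
        mul_le_mul_of_nonneg_right (by linarith) (sq_nonneg _)
      linarith
    simp only [hy, hT, hd] at hk ⊢
    linarith
  have hsum := Finset.sum_le_sum (fun j (_ : j ∈ Finset.univ) =>
    Finset.sum_le_sum (fun i (_ : i ∈ Finset.univ) => hterm j i))
  set N := ∑ i, y i ^ 2 with hN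
  have hgrad : gradSq u x = N := rfl
  -- cross term
  have hcross : ∑ j, ∑ i, J i j * d i * y i * y j ≤ ρ / 2 * ∑ i, (d i ^ 2 + 1) * y i ^ 2 := by
    have e : ∑ j, ∑ i, J i j * d i * y i * y j = ∑ i, (d i * y i) * (∑ j, J i j * y j) := by
      rw [Finset.sum_comm]
      refine Finset.sum_congr rfl (fun i _ => ?_)
      rw [Finset.mul_sum]
      exact Finset.sum_congr rfl (fun j _ => by ring)
    rw [e]
    set A := ∑ i, (d i * y i) ^ 2 with hA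
    have hA0 : 0 ≤ A := Finset.sum_nonneg (fun _ _ => sq_nonneg _)
    have hN0 : 0 ≤ N := Finset.sum_nonneg (fun _ _ => sq_nonneg _)
    have e2 : ∑ i, (d i ^ 2 + 1) * y i ^ 2 = A + N := by
      rw [hA, hN, ← Finset.sum_add_distrib]
      exact Finset.sum_congr rfl (fun i _ => by ring)
    rw [e2]
    have hcs := Finset.sum_mul_sq_le_sq_mul_sq Finset.univ (fun i => d i * y i)
      (fun i => ∑ j, J i j * y j)
    have h3 : (∑ i, (d i * y i) * (∑ j, J i j * y j)) ^ 2 ≤ (ρ / 2 * (A + N)) ^ 2 := by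
      calc _ ≤ A * ∑ i, (∑ j, J i j * y j) ^ 2 := hcs
        _ ≤ A * (ρ ^ 2 * N) := mul_le_mul_of_nonneg_left (hρ y) hA0
        _ ≤ _ := by nlinarith [sq_nonneg (A - N), sq_nonneg ρ, mul_nonneg (sq_nonneg ρ) (sq_nonneg (A - N))]
    exact abs_le_of_sq_le_sq' h3 (by positivity) |>.2
  -- row bounds
  have hrow1 : ∑ j, ∑ i, J i j ^ 2 * ((2 * T j ^ 2 + 16 * η) * y j ^ 2)
      ≤ r2 * ∑ j, (2 * T j ^ 2 + 16 * η) * y j ^ 2 := by
    rw [Finset.mul_sum]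
    refine Finset.sum_le_sum (fun j _ => ?_)
    rw [← Finset.sum_mul, mul_comm r2]
    refine (mul_le_mul_of_nonneg_right (hr j) ?_).trans_eq (mul_comm _ _)
    have := sq_nonneg (T j)
    have := hη0 j j
    positivity
  have hrow2 : ∑ j, ∑ i, J i j ^ 2 * ((d i ^ 2 * T i ^ 2 + 9 * η) * y i ^ 2)
      ≤ r2 * ∑ i, (d i ^ 2 * T i ^ 2 + 9 * η) * y i ^ 2 := by
    rw [Finset.sum_comm, Finset.mul_sum]
    refine Finset.sum_le_sum (fun i _ => ?_)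
    rw [← Finset.sum_mul, mul_comm r2]
    refine (mul_le_mul_of_nonneg_right (hrs i) ?_).trans_eq (mul_comm _ _)
    have := hη0 i i
    positivity
  have hsplit : ∑ j, ∑ i, (-(J i j * d i * y i * y j)
      - J i j ^ 2 * ((2 * T j ^ 2 + 16 * η) * y j ^ 2 + (d i ^ 2 * T i ^ 2 + 9 * η) * y i ^ 2))
      = -∑ j, ∑ i, J i j * d i * y i * y j
        - ∑ j, ∑ i, J i j ^ 2 * ((2 * T j ^ 2 + 16 * η) * y j ^ 2)
        - ∑ j, ∑ i, J i j ^ 2 * ((d i ^ 2 * T i ^ 2 + 9 * η) * y i ^ 2) := by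
    rw [← Finset.sum_neg_distrib, ← Finset.sum_sub_distrib, ← Finset.sum_sub_distrib]
    refine Finset.sum_congr rfl (fun j _ => ?_)
    rw [← Finset.sum_neg_distrib, ← Finset.sum_sub_distrib, ← Finset.sum_sub_distrib]
    exact Finset.sum_congr rfl (fun i _ => by ring)
  rw [hsplit] at hsum
  -- per coordinate
  have hcoord : ∀ i, ρ / 2 * ((d i ^ 2 + 1) * y i ^ 2) + r2 * ((2 * T i ^ 2 + 16 * η) * y i ^ 2)
      + r2 * ((d i ^ 2 * T i ^ 2 + 9 * η) * y i ^ 2) ≤ (ρ + 25 * η * r2) * y i ^ 2 := by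
    intro i
    have hr0 : 0 ≤ r2 := (Finset.sum_nonneg (fun _ _ => sq_nonneg _)).trans (hr i)
    have hθ : T i ^ 2 = 1 - d i := by simp only [hd]; ring
    have key : ρ / 2 * (d i ^ 2 + 1) + r2 * (2 * T i ^ 2 + 16 * η) + r2 * (d i ^ 2 * T i ^ 2 + 9 * η)
        ≤ ρ + 25 * η * r2 := by
      rw [hθ]
      have h1 := hd0 i
      have h2 := hd1 i
      have h3 : r2 * ((1 - d i) * (2 + d i ^ 2)) ≤ ρ / 4 * ((1 - d i) * (2 + d i ^ 2)) :=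
        mul_le_mul_of_nonneg_right (by linarith)
          (mul_nonneg (by linarith) (by positivity))
      have h4 : ρ / 4 * ((1 - d i) * (2 + d i ^ 2)) ≤ ρ / 2 * (1 - d i ^ 2) := by
        have : (1 - d i) * (2 + d i ^ 2) ≤ 2 * (1 - d i ^ 2) := by
          have h5 : 0 ≤ (1 - d i) * (d i * (2 - d i)) :=
            mul_nonneg (by linarith) (mul_nonneg h1 (by linarith))
          nlinarith
        have h6 := mul_le_mul_of_nonneg_left this (by positivity : 0 ≤ ρ / 4)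
        calc _ ≤ ρ / 4 * (2 * (1 - d i ^ 2)) := h6
          _ = _ := by ring
      nlinarith
    have := mul_le_mul_of_nonneg_right key (sq_nonneg (y i))
    nlinarith
  have hcsum := Finset.sum_le_sum (fun i (_ : i ∈ Finset.univ) => hcoord i)
  rw [Finset.sum_add_distrib, Finset.sum_add_distrib, ← Finset.mul_sum, ← Finset.mul_sum,
    ← Finset.mul_sum] at hcsum
  have hconst : ∑ i : ι, (ρ + 25 * η * r2) * y i ^ 2 = (ρ + 25 * η * r2) * N := by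
    rw [hN, Finset.mul_sum]
  rw [hgrad]
  have e3 : (1 - ρ - 25 * η * r2) * N = N - (ρ + 25 * η * r2) * N := by ring
  rw [e3]
  rw [hconst] at hcsum
  linarith

end Vale.Agent.Lib.P150
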