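import Vale.Agent.Lib.P150.DomAlg

/-!
Gaussian interpolation: the exponential martingale weights and their derivatives.
-/

open MeasureTheory ProbabilityTheory
open scoped BigOperators

set_option linter.unusedSectionVars false
set_option linter.unusedSimpArgs false
set_option linter.unusedVariables false

noncomputable section

namespace Vale.Agent.Lib.P150

variable {Ω : Type*} [Fintype Ω] {m : Type*} [Fintype m]

/-- The inner product of the feature vector with `z`. -/
def dotA (a : Ω → m → ℝ) (x : Ω) (z : m → ℝ) : ℝ := ∑ k, a x k * z k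

/-- The squared norm of the feature vector. -/
def sqA (a : Ω → m → ℝ) (x : Ω) : ℝ := ∑ k, a x k ^ 2

/-- The exponential martingale weight. -/
def WW (a : Ω → m → ℝ) (x : Ω) (z : m → ℝ) (τ : ℝ) : ℝ :=
  Real.exp (τ * dotA a x z - τ ^ 2 / 2 * sqA a x)

/-- The `g`-weighted partition function. -/
def qq (π : Ω → ℝ) (a : Ω → m → ℝ) (g : Ω → ℝ) (z : m → ℝ) (τ : ℝ) : ℝ :=
  ∑ x, π x * g x * WW a x z τ

/-- The `g`-weighted first moment of the feature `k`. -/
def QQ (π : Ω → ℝ) (a : Ω → m → ℝ) (g : Ω → ℝ) (k : m) (z : m → ℝ) (τ : ℝ) : ℝ :=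
  ∑ x, π x * g x * a x k * WW a x z τ

/-- The derivative of `qq` in the time variable. -/
def dq (π : Ω → ℝ) (a : Ω → m → ℝ) (g : Ω → ℝ) (z : m → ℝ) (τ : ℝ) : ℝ :=
  ∑ x, π x * g x * ((dotA a x z - τ * sqA a x) * WW a x z τ)

lemma WW_pos (a : Ω → m → ℝ) (x : Ω) (z : m → ℝ) (τ : ℝ) : 0 < WW a x z τ := Real.exp_pos _

lemma WW_hasDerivAt_time (a : Ω → m → ℝ) (x : Ω) (z : m → ℝ) (τ : ℝ) :
    HasDerivAt (fun r => WW a x z r) ((dotA a x z - τ * sqA a x) * WW a x z τ) τ := by
  unfold WW
  have h1 : HasDerivAt (fun r : ℝ => r * dotA a x z) (dotA a x z) τ := by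
    simpa using (hasDerivAt_id' τ).mul_const (dotA a x z)
  have h2 : HasDerivAt (fun r : ℝ => r ^ 2 / 2 * sqA a x) (τ * sqA a x) τ := by
    have := (((hasDerivAt_id' τ).pow 2).div_const 2).mul_const (sqA a x)
    refine this.congr_deriv ?_
    simp
  have h3 := (h1.fun_sub h2).exp
  refine h3.congr_deriv ?_
  ring

lemma dotA_update [DecidableEq m] (a : Ω → m → ℝ) (x : Ω) (z : m → ℝ) (k : m) (y : ℝ) :
    HasDerivAt (fun y => dotA a x (Function.update z k y)) (a x k) y := by
  unfold dotA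
  have h : ∀ j, HasDerivAt (fun y => a x j * Function.update z k y j)
      (if j = k then a x k else 0) y := by
    intro j
    by_cases hj : j = k
    · subst hj
      simp only [Function.update_self, if_true]
      simpa using (hasDerivAt_id' y).const_mul (a x j)
    · simp only [Function.update_of_ne hj, hj, if_false]
      exact hasDerivAt_const _ _
  have := HasDerivAt.fun_sum (u := Finset.univ) (fun j _ => h j)
  simpa using this

lemma WW_hasDerivAt_coord [DecidableEq m] (a : Ω → m → ℝ) (x : Ω) (z : m → ℝ) (k : m) (τ y : ℝ) :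
    HasDerivAt (fun y => WW a x (Function.update z k y) τ)
      (τ * a x k * WW a x (Function.update z k y) τ) y := by
  unfold WW
  have h1 := ((dotA_update a x z k y).const_mul τ).sub_const (τ ^ 2 / 2 * sqA a x)
  have h3 := h1.exp
  refine h3.congr_deriv ?_
  ring

lemma continuous_dotA (a : Ω → m → ℝ) (x : Ω) : Continuous (fun z => dotA a x z) := by
  unfold dotA
  fun_prop

lemma continuous_WW (a : Ω → m → ℝ) (x : Ω) (τ : ℝ) : Continuous (fun z => WW a x z τ) := by
  unfold WW
  have := continuous_dotA a x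
  fun_prop

/-- The Gaussian mean of the exponential martingale weight. -/
lemma integral_WW (a : Ω → m → ℝ) (x : Ω) (τ : ℝ) : ∫ z, WW a x z τ ∂(stdG m) = 1 := by
  have e : ∀ z : m → ℝ, WW a x z τ
      = ∏ k, Real.exp (τ * a x k * z k - (τ * a x k) ^ 2 / 2) := by
    intro z
    unfold WW dotA sqA
    rw [← Real.exp_sum]
    congr 1
    rw [Finset.sum_sub_distrib, Finset.mul_sum, Finset.mul_sum]
    congr 1
    · exact Finset.sum_congr rfl (fun k _ => by ring)
    · exact Finset.sum_congr rfl (fun k _ => by ring)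
  simp_rw [e]
  rw [integral_fintype_prod_eq_prod (fun k y => Real.exp (τ * a x k * y - (τ * a x k) ^ 2 / 2))]
  refine Finset.prod_eq_one (fun k _ => ?_)
  have h := mgf_fun_id_gaussianReal (μ := 0) (v := 1)
  have h2 := congrFun h (τ * a x k)
  unfold mgf at h2
  have e2 : ∀ y : ℝ, Real.exp (τ * a x k * y - (τ * a x k) ^ 2 / 2)
      = Real.exp (-((τ * a x k) ^ 2 / 2)) * Real.exp (τ * a x k * y) := by
    intro y
    rw [← Real.exp_add]
    congr 1
    ring
  simp_rw [e2]
  rw [integral_const_mul, h2, ← Real.exp_add]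
  simp

/-- Domination of the weight, uniformly in bounded time. -/
lemma dom_WW (a : Ω → m → ℝ) (x : Ω) (R : ℝ) :
    Dom (m := m) (T := {τ : ℝ // |τ| ≤ R}) (fun t z => WW a x z t) := by
  refine ⟨1, fun j => |R| * |a x j|, zero_le_one, fun j => by positivity, fun t z => ?_⟩
  rw [abs_of_pos (WW_pos a x z t), one_mul]
  unfold WW
  apply Real.exp_le_exp.2
  have hsq : 0 ≤ (t : ℝ) ^ 2 / 2 * sqA a x := by
    unfold sqA
    have : 0 ≤ ∑ k, a x k ^ 2 := Finset.sum_nonneg (fun _ _ => sq_nonneg _)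
    positivity
  have h1 : (t : ℝ) * dotA a x z ≤ ∑ j, |R| * |a x j| * |z j| := by
    unfold dotA
    rw [Finset.mul_sum]
    refine Finset.sum_le_sum (fun j _ => ?_)
    calc (t : ℝ) * (a x j * z j) ≤ |(t : ℝ) * (a x j * z j)| := le_abs_self _
      _ = |(t : ℝ)| * (|a x j| * |z j|) := by rw [abs_mul, abs_mul]
      _ ≤ |R| * (|a x j| * |z j|) :=
          mul_le_mul_of_nonneg_right (t.2.trans (le_abs_self R)) (by positivity)
      _ = _ := by ring
  linarith

lemma dom_dotA (a : Ω → m → ℝ) [DecidableEq m] (x : Ω) {T : Type*} :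
    Dom (m := m) (T := T) (fun _ z => dotA a x z) := by
  unfold dotA
  exact Dom.sum Finset.univ (fun k _ => (Dom.coord k).const_mul (a x k))

/-- The derivative of the weight in time is dominated. -/
lemma dom_dWW [DecidableEq m] (a : Ω → m → ℝ) (x : Ω) (R : ℝ) :
    Dom (m := m) (T := {τ : ℝ // |τ| ≤ R})
      (fun t z => (dotA a x z - t * sqA a x) * WW a x z t) := by
  refine Dom.mul (Dom.sub (dom_dotA a x) ?_) (dom_WW a x R)
  refine Dom.of_bdd (B := |R| * |sqA a x|) (fun t z => ?_) (by positivity)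
  rw [abs_mul]
  exact mul_le_mul_of_nonneg_right (t.2.trans (le_abs_self R)) (abs_nonneg _)

lemma qq_pos {π : Ω → ℝ} (hπ : ∀ x, 0 < π x) [Nonempty Ω] (a : Ω → m → ℝ) {g : Ω → ℝ}
    (hg : ∀ x, 0 < g x) (z : m → ℝ) (τ : ℝ) : 0 < qq π a g z τ := by
  unfold qq
  refine Finset.sum_pos (fun x _ => ?_) Finset.univ_nonempty
  have := hπ x
  have := hg x
  have := WW_pos a x z τ
  positivity

lemma qq_hasDerivAt_time (π : Ω → ℝ) (a : Ω → m → ℝ) (g : Ω → ℝ) (z : m → ℝ) (τ : ℝ) :
    HasDerivAt (fun r => qq π a g z r) (dq π a g z τ) τ := by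
  unfold qq dq
  exact HasDerivAt.fun_sum (fun x _ => (WW_hasDerivAt_time a x z τ).const_mul (π x * g x))

lemma qq_hasDerivAt_coord [DecidableEq m] (π : Ω → ℝ) (a : Ω → m → ℝ) (g : Ω → ℝ) (z : m → ℝ)
    (k : m) (τ y : ℝ) :
    HasDerivAt (fun y => qq π a g (Function.update z k y) τ)
      (τ * QQ π a g k (Function.update z k y) τ) y := by
  unfold qq QQ
  rw [Finset.mul_sum]
  refine HasDerivAt.fun_sum (fun x _ => ?_)
  refine ((WW_hasDerivAt_coord a x z k τ y).const_mul (π x * g x)).congr_deriv ?_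
  ring

lemma continuous_qq (π : Ω → ℝ) (a : Ω → m → ℝ) (g : Ω → ℝ) (τ : ℝ) :
    Continuous (fun z => qq π a g z τ) := by
  unfold qq
  have := fun x => continuous_WW a x τ
  fun_prop

lemma continuous_QQ (π : Ω → ℝ) (a : Ω → m → ℝ) (g : Ω → ℝ) (k : m) (τ : ℝ) :
    Continuous (fun z => QQ π a g k z τ) := by
  unfold QQ
  have := fun x => continuous_WW a x τ
  fun_prop

lemma continuous_dq (π : Ω → ℝ) (a : Ω → m → ℝ) (g : Ω → ℝ) (τ : ℝ) :
    Continuous (fun z => dq π a g z τ) := by
  unfold dq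
  have := fun x => continuous_WW a x τ
  have := fun x => continuous_dotA a x
  fun_prop

end Vale.Agent.Lib.P150
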