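import Vale.Agent.Lib.P150.Interp

/-!
Gaussian interpolation: integration by parts against the time derivative of the partition
function.
-/

open MeasureTheory ProbabilityTheory
open scoped BigOperators

set_option linter.unusedSectionVars false
set_option linter.unusedSimpArgs false
set_option linter.unusedVariables false

noncomputable section

namespace Vale.Agent.Lib.P150

variable {Ω : Type*} [Fintype Ω] {m : Type*} [Fintype m] [DecidableEq m]

lemma Dom.common {T : Type*} {F G : T → (m → ℝ) → ℝ} (hF : Dom F) (hG : Dom G) :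
    ∃ (C : ℝ) (L : m → ℝ), ∀ t z, |F t z| ≤ C * Real.exp (∑ j, L j * |z j|) ∧
      |G t z| ≤ C * Real.exp (∑ j, L j * |z j|) := by
  obtain ⟨C1, L1, hC1, hL1, h1⟩ := hF
  obtain ⟨C2, L2, hC2, hL2, h2⟩ := hG
  refine ⟨C1 + C2, fun j => L1 j + L2 j, fun t z => ?_⟩
  have a1 := exp_sum_le_add L1 L2 hL2 z
  have a2 := exp_sum_le_add L2 L1 hL1 z
  have e : ∑ j, (L2 j + L1 j) * |z j| = ∑ j, (L1 j + L2 j) * |z j| :=
    Finset.sum_congr rfl (fun j _ => by ring)
  rw [e] at a2
  have hp := Real.exp_pos (∑ j, (L1 j + L2 j) * |z j|)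
  constructor
  · refine (h1 t z).trans ((mul_le_mul_of_nonneg_left a1 hC1).trans ?_)
    nlinarith
  · refine (h2 t z).trans ((mul_le_mul_of_nonneg_left a2 hC2).trans ?_)
    nlinarith

/-- Domination of the weight at a fixed time. -/
lemma dom_WW_fixed (a : Ω → m → ℝ) (x : Ω) (τ : ℝ) :
    Dom (m := m) (T := Unit) (fun _ z => WW a x z τ) :=
  (dom_WW a x |τ|).comp_param (fun _ : Unit => (⟨τ, le_rfl⟩ : {τ' : ℝ // |τ'| ≤ |τ|}))

/-- Gaussian integration by parts against one exponential martingale weight. -/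
lemma ibp_W (a : Ω → m → ℝ) (x : Ω) (τ : ℝ) {G : (m → ℝ) → ℝ} {Gd : m → (m → ℝ) → ℝ}
    (hGc : Continuous G) (hGdc : ∀ k, Continuous (Gd k))
    (hGd : ∀ k z y, HasDerivAt (fun y => G (Function.update z k y)) (Gd k (Function.update z k y)) y)
    (hGb : Dom (m := m) (T := Unit) (fun _ => G)) (hGdb : ∀ k, Dom (m := m) (T := Unit) (fun _ => Gd k)) :
    ∫ z, (dotA a x z - τ * sqA a x) * WW a x z τ * G z ∂(stdG m)
      = ∑ k, a x k * ∫ z, WW a x z τ * Gd k z ∂(stdG m) := by
  have hW := dom_WW_fixed a x τ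
  have hWc := continuous_WW a x τ
  have domH : Dom (m := m) (T := Unit) (fun _ z => WW a x z τ * G z) := hW.mul hGb
  have domK : ∀ k, Dom (m := m) (T := Unit) (fun _ z => WW a x z τ * Gd k z) := fun k => hW.mul (hGdb k)
  have intH : Integrable (fun z => WW a x z τ * G z) (stdG m) :=
    domH.integrable () (hWc.mul hGc)
  have intK : ∀ k, Integrable (fun z => WW a x z τ * Gd k z) (stdG m) :=
    fun k => (domK k).integrable () (hWc.mul (hGdc k))
  have hk : ∀ k, ∫ z, z k * (WW a x z τ * G z) ∂(stdG m)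
      = τ * a x k * ∫ z, WW a x z τ * G z ∂(stdG m) + ∫ z, WW a x z τ * Gd k z ∂(stdG m) := by
    intro k
    have domH' : Dom (m := m) (T := Unit)
        (fun _ z => τ * a x k * (WW a x z τ * G z) + WW a x z τ * Gd k z) :=
      (domH.const_mul _).add (domK k)
    obtain ⟨C, L, hCL⟩ := domH.common domH'
    have h := stdG_ibp k (H := fun z => WW a x z τ * G z)
      (H' := fun z => τ * a x k * (WW a x z τ * G z) + WW a x z τ * Gd k z)
      (hWc.mul hGc) ((continuous_const.mul (hWc.mul hGc)).add (hWc.mul (hGdc k))) ?_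
      (C := C) (L := L) (fun z => (hCL () z).1) (fun z => (hCL () z).2)
    · rw [h, integral_add ((intH).const_mul _) (intK k), integral_const_mul]
    · intro z y
      have h1 := WW_hasDerivAt_coord a x z k τ y
      have h2 := hGd k z y
      refine (h1.mul h2).congr_deriv ?_
      ring
  have intZ : ∀ k, Integrable (fun z => z k * (WW a x z τ * G z)) (stdG m) := by
    intro k
    exact ((Dom.coord (T := Unit) k).mul domH).integrable ()
      ((continuous_apply k).mul (hWc.mul hGc))
  have e1 : ∀ z, (dotA a x z - τ * sqA a x) * WW a x z τ * G z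
      = ∑ k, a x k * (z k * (WW a x z τ * G z)) - (τ * sqA a x) * (WW a x z τ * G z) := by
    intro z
    have : dotA a x z * (WW a x z τ * G z) = ∑ k, a x k * (z k * (WW a x z τ * G z)) := by
      unfold dotA
      rw [Finset.sum_mul]
      exact Finset.sum_congr rfl (fun k _ => by ring)
    rw [← this]
    ring
  simp_rw [e1]
  rw [integral_sub (integrable_finsetSum _ (fun k _ => (intZ k).const_mul _)) (intH.const_mul _),
    integral_finsetSum _ (fun k _ => (intZ k).const_mul _), integral_const_mul]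
  simp_rw [integral_const_mul, hk]
  simp only [mul_add, Finset.sum_add_distrib]
  have : ∑ k, a x k * (τ * a x k * ∫ z, WW a x z τ * G z ∂(stdG m))
      = τ * sqA a x * ∫ z, WW a x z τ * G z ∂(stdG m) := by
    unfold sqA
    rw [Finset.mul_sum, Finset.sum_mul]
    exact Finset.sum_congr rfl (fun k _ => by ring)
  rw [this]
  ring

/-- Integration by parts against `dq`. -/
lemma ibp_dq (π : Ω → ℝ) (a : Ω → m → ℝ) (g : Ω → ℝ) (τ : ℝ) {G : (m → ℝ) → ℝ}
    {Gd : m → (m → ℝ) → ℝ}
    (hGc : Continuous G) (hGdc : ∀ k, Continuous (Gd k))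
    (hGd : ∀ k z y, HasDerivAt (fun y => G (Function.update z k y)) (Gd k (Function.update z k y)) y)
    (hGb : Dom (m := m) (T := Unit) (fun _ => G)) (hGdb : ∀ k, Dom (m := m) (T := Unit) (fun _ => Gd k)) :
    ∫ z, dq π a g z τ * G z ∂(stdG m) = ∑ k, ∫ z, QQ π a g k z τ * Gd k z ∂(stdG m) := by
  have e1 : ∀ z, dq π a g z τ * G z
      = ∑ x, π x * g x * ((dotA a x z - τ * sqA a x) * WW a x z τ * G z) := by
    intro z
    unfold dq
    rw [Finset.sum_mul]
    exact Finset.sum_congr rfl (fun x _ => by ring)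
  have e2 : ∀ k z, QQ π a g k z τ * Gd k z
      = ∑ x, π x * g x * (a x k * (WW a x z τ * Gd k z)) := by
    intro k z
    unfold QQ
    rw [Finset.sum_mul]
    exact Finset.sum_congr rfl (fun x _ => by ring)
  have hW := fun x => dom_WW_fixed a x τ
  have hWc := fun x => continuous_WW a x τ
  have int1 : ∀ x, Integrable (fun z => (dotA a x z - τ * sqA a x) * WW a x z τ * G z) (stdG m) := by
    intro x
    have d1 : Dom (m := m) (T := Unit) (fun _ z => (dotA a x z - τ * sqA a x) * WW a x z τ * G z) :=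
      (((dom_dotA a x).sub (Dom.const _)).mul (hW x)).mul hGb
    refine d1.integrable () ?_
    exact (((continuous_dotA a x).sub continuous_const).mul (hWc x)).mul hGc
  have int2 : ∀ x k, Integrable (fun z => WW a x z τ * Gd k z) (stdG m) := fun x k =>
    ((hW x).mul (hGdb k)).integrable () ((hWc x).mul (hGdc k))
  simp_rw [e1, e2]
  rw [integral_finsetSum _ (fun x _ => (int1 x).const_mul _)]
  simp_rw [integral_const_mul, ibp_W a _ τ hGc hGdc hGd hGb hGdb, Finset.mul_sum]
  rw [Finset.sum_comm]
  refine Finset.sum_congr rfl (fun k _ => ?_)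
  rw [integral_finsetSum _ (fun x _ => ((int2 x k).const_mul _).const_mul _)]
  refine Finset.sum_congr rfl (fun x _ => ?_)
  rw [integral_const_mul, integral_const_mul]

end Vale.Agent.Lib.P150
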