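import Vale.Agent.Lib.P150.Interp2

/-!
Gaussian interpolation: the entropy along the interpolation decays slowly.
-/

open MeasureTheory ProbabilityTheory
open scoped BigOperators Topology

set_option linter.unusedSectionVars false
set_option linter.unusedSimpArgs false
set_option linter.unusedVariables false

noncomputable section

namespace Vale.Agent.Lib.P150

variable {Ω : Type*} [Fintype Ω] [Nonempty Ω] {m : Type*} [Fintype m] [DecidableEq m]

/-- The ratio of partition functions. -/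
def Rr (π : Ω → ℝ) (a : Ω → m → ℝ) (f : Ω → ℝ) (z : m → ℝ) (τ : ℝ) : ℝ :=
  qq π a f z τ / qq π a (fun _ => 1) z τ

/-- The difference of posterior means of feature `k`. -/
def Dl (π : Ω → ℝ) (a : Ω → m → ℝ) (f : Ω → ℝ) (k : m) (z : m → ℝ) (τ : ℝ) : ℝ :=
  QQ π a f k z τ / qq π a f z τ - QQ π a (fun _ => 1) k z τ / qq π a (fun _ => 1) z τ

section

variable {π : Ω → ℝ} (hπ : ∀ x, 0 < π x) (a : Ω → m → ℝ) {f : Ω → ℝ} (hf : ∀ x, 0 < f x)
  {lo hi : ℝ} (hlo : 0 < lo) (hflo : ∀ x, lo ≤ f x) (hfhi : ∀ x, f x ≤ hi)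

include hπ hf in
lemma Rr_pos (z : m → ℝ) (τ : ℝ) : 0 < Rr π a f z τ :=
  div_pos (qq_pos hπ a hf z τ) (qq_pos hπ a (fun _ => one_pos) z τ)

include hπ hflo in
lemma Rr_ge (z : m → ℝ) (τ : ℝ) : lo ≤ Rr π a f z τ := by
  unfold Rr
  have hq1 := qq_pos hπ a (g := fun _ => 1) (fun _ => one_pos) z τ
  rw [le_div_iff₀ hq1]
  unfold qq
  rw [Finset.mul_sum]
  refine Finset.sum_le_sum (fun x _ => ?_)
  have := WW_pos a x z τ
  have h2 := hπ x
  have h3 := mul_le_mul_of_nonneg_left (hflo x) (mul_pos h2 this).le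
  nlinarith

include hπ hfhi in
lemma Rr_le (z : m → ℝ) (τ : ℝ) : Rr π a f z τ ≤ hi := by
  unfold Rr
  have hq1 := qq_pos hπ a (g := fun _ => 1) (fun _ => one_pos) z τ
  rw [div_le_iff₀ hq1]
  unfold qq
  rw [Finset.mul_sum]
  refine Finset.sum_le_sum (fun x _ => ?_)
  have := WW_pos a x z τ
  have h2 := hπ x
  have h3 := mul_le_mul_of_nonneg_left (hfhi x) (mul_pos h2 this).le
  nlinarith

include hπ hf hlo hflo hfhi in
lemma abs_log_Rr_le (z : m → ℝ) (τ : ℝ) :
    |Real.log (Rr π a f z τ)| ≤ |Real.log lo| + |Real.log hi| := by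
  have h1 := Rr_ge hπ a hflo z τ
  have h2 := Rr_le hπ a hfhi z τ
  have h3 : Real.log lo ≤ Real.log (Rr π a f z τ) := Real.log_le_log hlo h1
  have h4 : Real.log (Rr π a f z τ) ≤ Real.log hi := Real.log_le_log (Rr_pos hπ a hf z τ) h2
  rw [abs_le]
  constructor
  · have := neg_abs_le (Real.log lo)
    have := abs_nonneg (Real.log hi)
    linarith
  · have := le_abs_self (Real.log hi)
    have := abs_nonneg (Real.log lo)
    linarith

include hπ in
/-- Posterior means of a feature are bounded. -/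
lemma abs_QQ_div_le {g : Ω → ℝ} (hg : ∀ x, 0 < g x) (k : m) (z : m → ℝ) (τ : ℝ) :
    |QQ π a g k z τ / qq π a g z τ| ≤ ∑ x, |a x k| := by
  have hq := qq_pos hπ a hg z τ
  rw [abs_div, abs_of_pos hq, div_le_iff₀ hq]
  unfold QQ qq
  refine (Finset.abs_sum_le_sum_abs _ _).trans ?_
  rw [Finset.mul_sum]
  refine Finset.sum_le_sum (fun x _ => ?_)
  have hW := WW_pos a x z τ
  have h1 := hπ x
  have h2 := hg x
  have e : |π x * g x * a x k * WW a x z τ| = (π x * g x * WW a x z τ) * |a x k| := by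
    rw [abs_mul, abs_mul, abs_of_pos (mul_pos h1 h2), abs_of_pos hW]
    ring
  rw [e, mul_comm]
  refine mul_le_mul_of_nonneg_right ?_ (by positivity)
  exact Finset.single_le_sum (f := fun x => |a x k|) (fun _ _ => abs_nonneg _) (Finset.mem_univ x)

include hπ hf in
lemma abs_Dl_le (k : m) (z : m → ℝ) (τ : ℝ) : |Dl π a f k z τ| ≤ 2 * ∑ x, |a x k| := by
  unfold Dl
  refine (abs_sub _ _).trans ?_
  have h1 := abs_QQ_div_le hπ a hf k z τ
  have h2 := abs_QQ_div_le hπ a (g := fun _ => 1) (fun _ => one_pos) k z τ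
  linarith

include hπ hf in
lemma continuous_Rr (τ : ℝ) : Continuous (fun z => Rr π a f z τ) :=
  (continuous_qq π a f τ).div (continuous_qq π a _ τ)
    (fun z => (qq_pos hπ a (fun _ => one_pos) z τ).ne')

include hπ hf in
lemma continuous_log_Rr (τ : ℝ) : Continuous (fun z => Real.log (Rr π a f z τ)) :=
  (continuous_Rr hπ a hf τ).log (fun z => (Rr_pos hπ a hf z τ).ne')

include hπ hf in
lemma continuous_Dl (k : m) (τ : ℝ) : Continuous (fun z => Dl π a f k z τ) := by
  unfold Dl
  refine ((continuous_QQ π a f k τ).div (continuous_qq π a f τ)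
    (fun z => (qq_pos hπ a hf z τ).ne')).sub ((continuous_QQ π a _ k τ).div (continuous_qq π a _ τ)
    (fun z => (qq_pos hπ a (fun _ => one_pos) z τ).ne'))

include hπ hf in
/-- Derivative of the log-ratio along a coordinate. -/
lemma log_Rr_hasDerivAt_coord (k : m) (z : m → ℝ) (τ y : ℝ) :
    HasDerivAt (fun y => Real.log (Rr π a f (Function.update z k y) τ) + 1)
      (τ * Dl π a f k (Function.update z k y) τ) y := by
  have h1 := qq_hasDerivAt_coord π a f z k τ y
  have h2 := qq_hasDerivAt_coord π a (fun _ => 1) z k τ y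
  have p1 := qq_pos hπ a hf (Function.update z k y) τ
  have p2 := qq_pos hπ a (g := fun _ => 1) (fun _ => one_pos) (Function.update z k y) τ
  have e : (fun y => Real.log (Rr π a f (Function.update z k y) τ) + 1)
      = fun y => Real.log (qq π a f (Function.update z k y) τ)
          - Real.log (qq π a (fun _ => 1) (Function.update z k y) τ) + 1 := by
    funext y'
    unfold Rr
    rw [Real.log_div (qq_pos hπ a hf _ τ).ne' (qq_pos hπ a (fun _ => one_pos) _ τ).ne']
  rw [e]
  refine ((h1.log p1.ne').sub (h2.log p2.ne')).add_const 1 |>.congr_deriv ?_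
  unfold Dl
  ring

include hπ hf in
/-- Derivative of the ratio along a coordinate. -/
lemma Rr_hasDerivAt_coord (k : m) (z : m → ℝ) (τ y : ℝ) :
    HasDerivAt (fun y => Rr π a f (Function.update z k y) τ)
      (Rr π a f (Function.update z k y) τ * (τ * Dl π a f k (Function.update z k y) τ)) y := by
  have h1 := qq_hasDerivAt_coord π a f z k τ y
  have h2 := qq_hasDerivAt_coord π a (fun _ => 1) z k τ y
  have p1 := qq_pos hπ a hf (Function.update z k y) τ
  have p2 := qq_pos hπ a (g := fun _ => 1) (fun _ => one_pos) (Function.update z k y) τ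
  unfold Rr
  refine (h1.div h2 p2.ne').congr_deriv ?_
  unfold Dl
  field_simp

/-- The interpolating functional. -/
def Psi (π : Ω → ℝ) (a : Ω → m → ℝ) (f : Ω → ℝ) (τ : ℝ) : ℝ :=
  ∫ z, qq π a f z τ * Real.log (Rr π a f z τ) ∂(stdG m)

/-- The pointwise time derivative of the integrand of `Psi`. -/
def dPsi (π : Ω → ℝ) (a : Ω → m → ℝ) (f : Ω → ℝ) (z : m → ℝ) (τ : ℝ) : ℝ :=
  dq π a f z τ * (Real.log (Rr π a f z τ) + 1) - Rr π a f z τ * dq π a (fun _ => 1) z τ

include hπ hf in
lemma integrand_hasDerivAt_time (z : m → ℝ) (τ : ℝ) :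
    HasDerivAt (fun r => qq π a f z r * Real.log (Rr π a f z r)) (dPsi π a f z τ) τ := by
  have h1 := qq_hasDerivAt_time π a f z τ
  have h2 := qq_hasDerivAt_time π a (fun _ => 1) z τ
  have p1 := qq_pos hπ a hf z τ
  have p2 := qq_pos hπ a (g := fun _ => 1) (fun _ => one_pos) z τ
  have e : (fun r => qq π a f z r * Real.log (Rr π a f z r))
      = fun r => qq π a f z r * (Real.log (qq π a f z r) - Real.log (qq π a (fun _ => 1) z r)) := by
    funext r
    unfold Rr
    rw [Real.log_div (qq_pos hπ a hf _ r).ne' (qq_pos hπ a (fun _ => one_pos) _ r).ne']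
  rw [e]
  refine (h1.mul ((h1.log p1.ne').fun_sub (h2.log p2.ne'))).congr_deriv ?_
  unfold dPsi Rr
  rw [Real.log_div p1.ne' p2.ne']
  field_simp
  ring

lemma dom_qq_time (π : Ω → ℝ) (a : Ω → m → ℝ) (g : Ω → ℝ) (R : ℝ) :
    Dom (m := m) (T := {τ : ℝ // |τ| ≤ R}) (fun t z => qq π a g z t) := by
  unfold qq
  exact Dom.sum Finset.univ (fun x _ => (dom_WW a x R).const_mul _)

lemma dom_dq_time (π : Ω → ℝ) (a : Ω → m → ℝ) (g : Ω → ℝ) (R : ℝ) :
    Dom (m := m) (T := {τ : ℝ // |τ| ≤ R}) (fun t z => dq π a g z t) := by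
  unfold dq
  exact Dom.sum Finset.univ (fun x _ => (dom_dWW a x R).const_mul _)

include hπ hf hlo hflo hfhi in
lemma dom_dPsi (R : ℝ) :
    Dom (m := m) (T := {τ : ℝ // |τ| ≤ R}) (fun t z => dPsi π a f z t) := by
  have hhi : 0 ≤ hi := (hf (Classical.arbitrary Ω)).le.trans (hfhi _)
  have d1 : Dom (m := m) (T := {τ : ℝ // |τ| ≤ R}) (fun t z => Real.log (Rr π a f z t) + 1) :=
    (Dom.of_bdd (F := fun (t : {τ : ℝ // |τ| ≤ R}) z => Real.log (Rr π a f z t))
      (B := |Real.log lo| + |Real.log hi|)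
      (fun t z => abs_log_Rr_le hπ a hf hlo hflo hfhi z t) (by positivity)).add (Dom.const 1)
  have d2 : Dom (m := m) (T := {τ : ℝ // |τ| ≤ R}) (fun t z => Rr π a f z t) := by
    refine Dom.of_bdd (B := hi) (fun t z => ?_) hhi
    rw [abs_of_pos (Rr_pos hπ a hf z t)]
    exact Rr_le hπ a hfhi z t
  exact ((dom_dq_time π a f R).mul d1).sub (d2.mul (dom_dq_time π a _ R))

include hπ hf in
lemma continuous_dPsi (τ : ℝ) : Continuous (fun z => dPsi π a f z τ) := by
  unfold dPsi
  exact ((continuous_dq π a f τ).mul ((continuous_log_Rr hπ a hf τ).add continuous_const)).sub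
    ((continuous_Rr hπ a hf τ).mul (continuous_dq π a _ τ))

include hπ hf hlo hflo hfhi in
lemma dom_integrand (R : ℝ) :
    Dom (m := m) (T := {τ : ℝ // |τ| ≤ R}) (fun t z => qq π a f z t * Real.log (Rr π a f z t)) :=
  (dom_qq_time π a f R).mul (Dom.of_bdd (F := fun (t : {τ : ℝ // |τ| ≤ R}) z => Real.log (Rr π a f z t))
      (B := |Real.log lo| + |Real.log hi|)
      (fun t z => abs_log_Rr_le hπ a hf hlo hflo hfhi z t) (by positivity))

include hπ hf in
lemma continuous_integrand (τ : ℝ) :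
    Continuous (fun z => qq π a f z τ * Real.log (Rr π a f z τ)) :=
  (continuous_qq π a f τ).mul (continuous_log_Rr hπ a hf τ)

include hπ hf hlo hflo hfhi in
/-- Differentiation of `Psi` under the integral sign. -/
lemma Psi_hasDerivAt (τ₀ : ℝ) :
    HasDerivAt (Psi π a f) (∫ z, dPsi π a f z τ₀ ∂(stdG m)) τ₀ := by
  set R := |τ₀| + 1 with hR
  obtain ⟨b, hb, hbd⟩ := (dom_dPsi hπ a hf hlo hflo hfhi R).bound
  have hball : ∀ τ ∈ Metric.ball τ₀ 1, |τ| ≤ R := by
    intro τ hτ
    rw [Metric.mem_ball, Real.dist_eq] at hτ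
    have := abs_sub_abs_le_abs_sub τ τ₀
    simp only [hR]
    linarith
  have h := hasDerivAt_integral_of_dominated_loc_of_deriv_le (μ := stdG m) (𝕜 := ℝ)
    (F := fun τ z => qq π a f z τ * Real.log (Rr π a f z τ))
    (F' := fun τ z => dPsi π a f z τ) (x₀ := τ₀) (s := Metric.ball τ₀ 1) (bound := b)
    (Metric.ball_mem_nhds τ₀ one_pos)
    (Filter.Eventually.of_forall (fun τ => (continuous_integrand hπ a hf τ).aestronglyMeasurable))
    ((dom_integrand hπ a hf hlo hflo hfhi R).integrable ⟨τ₀, by simp only [hR]; linarith⟩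
      (continuous_integrand hπ a hf τ₀))
    (continuous_dPsi hπ a hf τ₀).aestronglyMeasurable
    (Filter.Eventually.of_forall (fun z τ hτ => by
      simpa [Real.norm_eq_abs] using hbd ⟨τ, hball τ hτ⟩ z))
    hb
    (Filter.Eventually.of_forall (fun z τ hτ => integrand_hasDerivAt_time hπ a hf z τ))
  exact h.2

include hπ hf hlo hflo hfhi in
/-- Integration by parts evaluates the derivative of `Psi`. -/
lemma integral_dPsi (τ : ℝ) :
    ∫ z, dPsi π a f z τ ∂(stdG m)
      = τ * ∫ z, qq π a f z τ * ∑ k, Dl π a f k z τ ^ 2 ∂(stdG m) := by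
  have hhi : 0 ≤ hi := (hf (Classical.arbitrary Ω)).le.trans (hfhi _)
  have b1 : Dom (m := m) (T := Unit) (fun _ z => Real.log (Rr π a f z τ)) :=
    Dom.of_bdd (B := |Real.log lo| + |Real.log hi|)
      (fun t z => abs_log_Rr_le hπ a hf hlo hflo hfhi z τ) (by positivity)
  have b2 : Dom (m := m) (T := Unit) (fun _ z => Rr π a f z τ) := by
    refine Dom.of_bdd (B := hi) (fun t z => ?_) hhi
    rw [abs_of_pos (Rr_pos hπ a hf z τ)]
    exact Rr_le hπ a hfhi z τ
  have b3 : ∀ k, Dom (m := m) (T := Unit) (fun _ z => Dl π a f k z τ) := fun k =>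
    Dom.of_bdd (B := 2 * ∑ x, |a x k|) (fun t z => abs_Dl_le hπ a hf k z τ)
      (by positivity)
  have c1 := continuous_log_Rr hπ a hf τ
  have c2 := continuous_Rr hπ a hf τ
  have c3 := fun k => continuous_Dl hπ a hf k τ
  have ib1 := ibp_dq π a f τ (G := fun z => Real.log (Rr π a f z τ) + 1)
    (Gd := fun k z => τ * Dl π a f k z τ) (c1.add continuous_const)
    (fun k => continuous_const.mul (c3 k))
    (fun k z y => log_Rr_hasDerivAt_coord hπ a hf k z τ y)
    (b1.add (Dom.const 1)) (fun k => (b3 k).const_mul τ)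
  have ib2 := ibp_dq π a (fun _ => 1) τ (G := fun z => Rr π a f z τ)
    (Gd := fun k z => Rr π a f z τ * (τ * Dl π a f k z τ)) c2
    (fun k => c2.mul (continuous_const.mul (c3 k)))
    (fun k z y => Rr_hasDerivAt_coord hπ a hf k z τ y)
    b2 (fun k => b2.mul ((b3 k).const_mul τ))
  have dq1 : Dom (m := m) (T := Unit) (fun _ z => dq π a f z τ) :=
    (dom_dq_time π a f |τ|).comp_param (fun _ : Unit => (⟨τ, le_rfl⟩ : {τ' : ℝ // |τ'| ≤ |τ|}))
  have dq2 : Dom (m := m) (T := Unit) (fun _ z => dq π a (fun _ => 1) z τ) :=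
    (dom_dq_time π a _ |τ|).comp_param (fun _ : Unit => (⟨τ, le_rfl⟩ : {τ' : ℝ // |τ'| ≤ |τ|}))
  have i1 : Integrable (fun z => dq π a f z τ * (Real.log (Rr π a f z τ) + 1)) (stdG m) :=
    (dq1.mul (b1.add (Dom.const 1))).integrable ()
      ((continuous_dq π a f τ).mul (c1.add continuous_const))
  have i2 : Integrable (fun z => dq π a (fun _ => 1) z τ * Rr π a f z τ) (stdG m) :=
    (dq2.mul b2).integrable () ((continuous_dq π a _ τ).mul c2)
  have e1 : ∀ z, dPsi π a f z τ
      = dq π a f z τ * (Real.log (Rr π a f z τ) + 1) - dq π a (fun _ => 1) z τ * Rr π a f z τ := by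
    intro z
    unfold dPsi
    ring
  simp_rw [e1]
  rw [integral_sub i1 i2, ib1, ib2]
  -- integrability of the summands
  have domQ : ∀ (g : Ω → ℝ) k, Dom (m := m) (T := Unit) (fun _ z => QQ π a g k z τ) := by
    intro g k
    unfold QQ
    exact Dom.sum Finset.univ (fun x _ => (dom_WW_fixed a x τ).const_mul _)
  have domq : Dom (m := m) (T := Unit) (fun _ z => qq π a f z τ) := by
    unfold qq
    exact Dom.sum Finset.univ (fun x _ => (dom_WW_fixed a x τ).const_mul _)
  have ii1 : ∀ k, Integrable (fun z => QQ π a f k z τ * (τ * Dl π a f k z τ)) (stdG m) := fun k =>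
    ((domQ f k).mul ((b3 k).const_mul τ)).integrable ()
      ((continuous_QQ π a f k τ).mul (continuous_const.mul (c3 k)))
  have ii2 : ∀ k, Integrable
      (fun z => QQ π a (fun _ => 1) k z τ * (Rr π a f z τ * (τ * Dl π a f k z τ))) (stdG m) := fun k =>
    ((domQ _ k).mul (b2.mul ((b3 k).const_mul τ))).integrable ()
      ((continuous_QQ π a _ k τ).mul (c2.mul (continuous_const.mul (c3 k))))
  have ii3 : ∀ k, Integrable (fun z => qq π a f z τ * Dl π a f k z τ ^ 2) (stdG m) := by
    intro k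
    have d : Dom (m := m) (T := Unit) (fun _ z => qq π a f z τ * Dl π a f k z τ ^ 2) := by
      simpa only [pow_two] using domq.mul ((b3 k).mul (b3 k))
    exact d.integrable () ((continuous_qq π a f τ).mul ((c3 k).pow 2))
  rw [← Finset.sum_sub_distrib]
  have e2 : ∫ z, qq π a f z τ * ∑ k, Dl π a f k z τ ^ 2 ∂(stdG m)
      = ∑ k, ∫ z, qq π a f z τ * Dl π a f k z τ ^ 2 ∂(stdG m) := by
    simp_rw [Finset.mul_sum]
    rw [integral_finsetSum _ (fun k _ => ii3 k)]
  rw [e2, Finset.mul_sum]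
  refine Finset.sum_congr rfl (fun k _ => ?_)
  rw [← integral_sub (ii1 k) (ii2 k), ← integral_const_mul]
  refine integral_congr_ae (Filter.Eventually.of_forall (fun z => ?_))
  have p1 := qq_pos hπ a hf z τ
  have p2 := qq_pos hπ a (g := fun _ => 1) (fun _ => one_pos) z τ
  simp only
  have e3 : QQ π a f k z τ - QQ π a (fun _ => 1) k z τ * Rr π a f z τ
      = qq π a f z τ * Dl π a f k z τ := by
    unfold Dl Rr
    field_simp
  calc _ = (QQ π a f k z τ - QQ π a (fun _ => 1) k z τ * Rr π a f z τ) * (τ * Dl π a f k z τ) := by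
        ring
    _ = _ := by rw [e3]; ring

end

end Vale.Agent.Lib.P150
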