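import Vale.Agent.Lib.P150.Interp3

/-!
Gaussian interpolation: the main abstract theorem.
-/

open MeasureTheory ProbabilityTheory
open scoped BigOperators Topology

set_option linter.unusedSectionVars false
set_option linter.unusedSimpArgs false
set_option linter.unusedVariables false

noncomputable section

namespace Vale.Agent.Lib.P150

variable {Ω : Type*} [Fintype Ω] [Nonempty Ω] {m : Type*} [Fintype m] [DecidableEq m]

/-- The (unnormalized) conditional entropy of `f` under the localized measure. -/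
def EntZ (π : Ω → ℝ) (a : Ω → m → ℝ) (f : Ω → ℝ) (z : m → ℝ) (τ : ℝ) : ℝ :=
  qq π a (fun x => f x * Real.log (f x)) z τ - qq π a f z τ * Real.log (Rr π a f z τ)

lemma dom_qq_fixed (π : Ω → ℝ) (a : Ω → m → ℝ) (g : Ω → ℝ) (τ : ℝ) :
    Dom (m := m) (T := Unit) (fun _ z => qq π a g z τ) :=
  (dom_qq_time π a g |τ|).comp_param (fun _ : Unit => (⟨τ, le_rfl⟩ : {τ' : ℝ // |τ'| ≤ |τ|}))

lemma integrable_qq (π : Ω → ℝ) (a : Ω → m → ℝ) (g : Ω → ℝ) (τ : ℝ) :
    Integrable (fun z => qq π a g z τ) (stdG m) :=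
  (dom_qq_fixed π a g τ).integrable () (continuous_qq π a g τ)

lemma integral_qq (π : Ω → ℝ) (a : Ω → m → ℝ) (g : Ω → ℝ) (τ : ℝ) :
    ∫ z, qq π a g z τ ∂(stdG m) = ∑ x, π x * g x := by
  unfold qq
  rw [integral_finsetSum]
  · refine Finset.sum_congr rfl (fun x _ => ?_)
    rw [integral_const_mul, integral_WW, mul_one]
  · intro x _
    exact ((dom_WW_fixed a x τ).const_mul _).integrable ()
      (continuous_const.mul (continuous_WW a x τ))

section

variable {π : Ω → ℝ} (hπ : ∀ x, 0 < π x) (a : Ω → m → ℝ) {f : Ω → ℝ} (hf : ∀ x, 0 < f x)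
  {lo hi : ℝ} (hlo : 0 < lo) (hflo : ∀ x, lo ≤ f x) (hfhi : ∀ x, f x ≤ hi)

include hπ hf hlo hflo hfhi in
lemma integrable_integrand (τ : ℝ) :
    Integrable (fun z => qq π a f z τ * Real.log (Rr π a f z τ)) (stdG m) :=
  ((dom_integrand hπ a hf hlo hflo hfhi |τ|).comp_param
    (fun _ : Unit => (⟨τ, le_rfl⟩ : {τ' : ℝ // |τ'| ≤ |τ|}))).integrable ()
    (continuous_integrand hπ a hf τ)

include hπ hf hlo hflo hfhi in
lemma integrable_EntZ (τ : ℝ) : Integrable (fun z => EntZ π a f z τ) (stdG m) :=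
  (integrable_qq π a _ τ).sub (integrable_integrand hπ a hf hlo hflo hfhi τ)

include hπ hf hlo hflo hfhi in
lemma integral_EntZ (τ : ℝ) :
    ∫ z, EntZ π a f z τ ∂(stdG m) = ∑ x, π x * (f x * Real.log (f x)) - Psi π a f τ := by
  unfold EntZ Psi
  rw [integral_sub (integrable_qq π a _ τ) (integrable_integrand hπ a hf hlo hflo hfhi τ),
    integral_qq]

include hπ hf in
lemma Psi_zero (hπ1 : ∑ x, π x = 1) (hf1 : ∑ x, π x * f x = 1) : Psi π a f 0 = 0 := by
  have hW : ∀ x z, WW a x z 0 = 1 := by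
    intro x z
    simp [WW]
  have hq : ∀ (g : Ω → ℝ) z, qq π a g z 0 = ∑ x, π x * g x := by
    intro g z
    unfold qq
    exact Finset.sum_congr rfl (fun x _ => by rw [hW, mul_one])
  have hR : ∀ z, Rr π a f z 0 = 1 := by
    intro z
    unfold Rr
    rw [hq, hq, hf1]
    simp [hπ1]
  unfold Psi
  simp [hR]

include hπ hf in
/-- **The interpolation theorem**: if the localized posterior mean shift is controlled by the
localized entropy along the whole path, then the entropy at the end of the path is a fixed fraction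
of the initial entropy. -/
theorem interp_main (hπ1 : ∑ x, π x = 1) (hf1 : ∑ x, π x * f x = 1) {C : ℝ}
    (hstab : ∀ τ, 0 ≤ τ → τ ≤ 1 → ∀ z,
      qq π a f z τ * ∑ k, Dl π a f k z τ ^ 2 ≤ C * EntZ π a f z τ) :
    ∑ x, π x * (f x * Real.log (f x)) ≤ Real.exp (C / 2) * ∫ z, EntZ π a f z 1 ∂(stdG m) := by
  obtain ⟨x1, -, hx1⟩ := Finset.exists_min_image Finset.univ f Finset.univ_nonempty
  obtain ⟨x2, -, hx2⟩ := Finset.exists_max_image Finset.univ f Finset.univ_nonempty
  have hlo : 0 < f x1 := hf x1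
  have hflo : ∀ x, f x1 ≤ f x := fun x => hx1 x (Finset.mem_univ x)
  have hfhi : ∀ x, f x ≤ f x2 := fun x => hx2 x (Finset.mem_univ x)
  set E0 := ∑ x, π x * (f x * Real.log (f x)) with hE0
  set D : ℝ → ℝ := fun τ => ∫ z, qq π a f z τ * ∑ k, Dl π a f k z τ ^ 2 ∂(stdG m) with hD
  set Y : ℝ → ℝ := fun τ => Real.exp (C * τ ^ 2 / 2) * (E0 - Psi π a f τ) with hY
  have hPsi : ∀ τ, HasDerivAt (Psi π a f) (τ * D τ) τ := by
    intro τ
    have := Psi_hasDerivAt hπ a hf hlo hflo hfhi τ
    rwa [integral_dPsi hπ a hf hlo hflo hfhi τ] at this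
  have hYd : ∀ τ, HasDerivAt Y (Real.exp (C * τ ^ 2 / 2) * (C * τ) * (E0 - Psi π a f τ)
      + Real.exp (C * τ ^ 2 / 2) * (-(τ * D τ))) τ := by
    intro τ
    have h1 : HasDerivAt (fun r : ℝ => Real.exp (C * r ^ 2 / 2))
        (Real.exp (C * τ ^ 2 / 2) * (C * τ)) τ := by
      have : HasDerivAt (fun r : ℝ => C * r ^ 2 / 2) (C * τ) τ := by
        have h0 := ((hasDerivAt_id' τ).pow 2).const_mul C
        refine (h0.div_const 2).congr_deriv ?_
        simp
        ring
      exact this.exp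
    have h2 := (hPsi τ).const_sub E0
    exact h1.mul h2
  have hint : ∀ τ, Integrable (fun z => qq π a f z τ * ∑ k, Dl π a f k z τ ^ 2) (stdG m) := by
    intro τ
    have b3 : ∀ k, Dom (m := m) (T := Unit) (fun _ z => Dl π a f k z τ) := fun k =>
      Dom.of_bdd (B := 2 * ∑ x, |a x k|) (fun t z => abs_Dl_le hπ a hf k z τ) (by positivity)
    have d : Dom (m := m) (T := Unit) (fun _ z => qq π a f z τ * ∑ k, Dl π a f k z τ ^ 2) := by
      refine (dom_qq_fixed π a f τ).mul (Dom.sum Finset.univ (fun k _ => ?_))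
      simpa only [pow_two] using (b3 k).mul (b3 k)
    refine d.integrable () ((continuous_qq π a f τ).mul (continuous_finsetSum _ (fun k _ => ?_)))
    exact (continuous_Dl hπ a hf k τ).pow 2
  have hmono : MonotoneOn Y (Set.Icc 0 1) := by
    refine monotoneOn_of_deriv_nonneg (convex_Icc 0 1) ?_ ?_ ?_
    · exact fun τ _ => (hYd τ).continuousAt.continuousWithinAt
    · exact fun τ _ => (hYd τ).differentiableAt.differentiableWithinAt
    · intro τ hτ
      rw [interior_Icc] at hτ
      rw [(hYd τ).deriv]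
      have h0 : 0 ≤ τ := hτ.1.le
      have h1 : D τ ≤ C * (E0 - Psi π a f τ) := by
        rw [← integral_EntZ hπ a hf hlo hflo hfhi τ, ← integral_const_mul]
        exact integral_mono (hint τ) ((integrable_EntZ hπ a hf hlo hflo hfhi τ).const_mul C)
          (fun z => hstab τ h0 hτ.2.le z)
      have hp := Real.exp_pos (C * τ ^ 2 / 2)
      have e : Real.exp (C * τ ^ 2 / 2) * (C * τ) * (E0 - Psi π a f τ)
          + Real.exp (C * τ ^ 2 / 2) * (-(τ * D τ))
          = Real.exp (C * τ ^ 2 / 2) * τ * (C * (E0 - Psi π a f τ) - D τ) := by ring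
      rw [e]
      exact mul_nonneg (mul_nonneg hp.le h0) (by linarith)
  have h3 := hmono (Set.left_mem_Icc.2 zero_le_one) (Set.right_mem_Icc.2 zero_le_one) zero_le_one
  simp only [hY] at h3
  rw [Psi_zero hπ a hf hπ1 hf1] at h3
  simp only [ne_eq, OfNat.ofNat_ne_zero, not_false_eq_true, zero_pow, mul_zero, zero_div,
    Real.exp_zero, sub_zero, one_mul, one_pow, mul_one] at h3
  rw [integral_EntZ hπ a hf hlo hflo hfhi 1]
  exact h3

end

end Vale.Agent.Lib.P150
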