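import Mathlib

open Real

set_option linter.unusedSectionVars false
set_option linter.unusedSimpArgs false
set_option linter.unusedVariables false

namespace Vale.Agent.Lib.P150

lemma tanh_add' (a b : ℝ) : tanh (a + b) = (tanh a + tanh b) / (1 + tanh a * tanh b) := by
  have ha : cosh a ≠ 0 := (cosh_pos a).ne'
  have hb : cosh b ≠ 0 := (cosh_pos b).ne'
  have hab : cosh (a + b) ≠ 0 := (cosh_pos _).ne'
  rw [tanh_eq_sinh_div_cosh, tanh_eq_sinh_div_cosh, tanh_eq_sinh_div_cosh]
  rw [cosh_add] at hab ⊢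
  rw [sinh_add]
  field_simp

lemma one_sub_tanh_sq (x : ℝ) : 1 - tanh x ^ 2 = 1 / cosh x ^ 2 := by
  have h : cosh x ≠ 0 := (cosh_pos x).ne'
  rw [tanh_eq_sinh_div_cosh]
  field_simp
  have := cosh_sq x
  nlinarith

lemma tanh_hasDerivAt (x : ℝ) : HasDerivAt tanh (1 - tanh x ^ 2) x := by
  have h : cosh x ≠ 0 := (cosh_pos x).ne'
  have h1 := (hasDerivAt_sinh x).div (hasDerivAt_cosh x) h
  have e : tanh = fun y => sinh y / cosh y := by
    funext y; exact tanh_eq_sinh_div_cosh y
  rw [e]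
  refine h1.congr_deriv ?_
  simp only
  field_simp

lemma tanh_nonneg_of_nonneg {y : ℝ} (hy : 0 ≤ y) : 0 ≤ tanh y := by
  rw [tanh_eq_sinh_div_cosh]
  exact div_nonneg (sinh_nonneg_iff.mpr hy) (cosh_pos y).le

lemma tanh_le_self {y : ℝ} (hy : 0 ≤ y) : tanh y ≤ y := by
  have hm : Monotone (fun z => z - tanh z) := by
    refine monotone_of_deriv_nonneg
      (fun z => ((hasDerivAt_id' z).fun_sub (tanh_hasDerivAt z)).differentiableAt) (fun z => ?_)
    rw [((hasDerivAt_id' z).fun_sub (tanh_hasDerivAt z)).deriv]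
    nlinarith [sq_nonneg (tanh z)]
  have := hm hy
  simp at this
  linarith

lemma self_sub_tanh_le {y : ℝ} (hy : 0 ≤ y) : y - tanh y ≤ y ^ 3 / 3 := by
  have hd : ∀ z, HasDerivAt (fun z : ℝ => z ^ 3 / 3 - z + tanh z) (z ^ 2 - 1 + (1 - tanh z ^ 2)) z := by
    intro z
    have h1 : HasDerivAt (fun z : ℝ => z ^ 3 / 3) (z ^ 2) z := by
      have := ((hasDerivAt_id' z).pow 3).div_const 3
      exact this.congr_deriv (by simp)
    exact (h1.sub (hasDerivAt_id' z)).add (tanh_hasDerivAt z)
  have hm : MonotoneOn (fun z : ℝ => z ^ 3 / 3 - z + tanh z) (Set.Ici 0) := by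
    refine monotoneOn_of_deriv_nonneg (convex_Ici 0)
      (fun z _ => (hd z).continuousAt.continuousWithinAt)
      (fun z _ => (hd z).differentiableAt.differentiableWithinAt) (fun z hz => ?_)
    rw [(hd z).deriv]
    rw [interior_Ici] at hz
    have hz0 : 0 ≤ z := le_of_lt hz
    have h1 := tanh_le_self hz0
    have h2 := tanh_nonneg_of_nonneg hz0
    nlinarith
  have := hm (Set.mem_Ici.mpr (le_refl (0:ℝ))) (Set.mem_Ici.mpr hy) hy
  simp at this
  linarith

lemma abs_tanh_le_abs (y : ℝ) : |tanh y| ≤ |y| := by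
  rcases le_total 0 y with hy | hy
  · rw [abs_of_nonneg (tanh_nonneg_of_nonneg hy), abs_of_nonneg hy]
    exact tanh_le_self hy
  · have h := tanh_le_self (y := -y) (by linarith)
    have h2 := tanh_nonneg_of_nonneg (y := -y) (by linarith)
    rw [tanh_neg] at h h2
    rw [abs_of_nonpos (by linarith), abs_of_nonpos hy]
    linarith

lemma abs_tanh_sub_self_le (y : ℝ) : |tanh y - y| ≤ |y| ^ 3 / 3 := by
  rcases le_total 0 y with hy | hy
  · have h1 := tanh_le_self hy
    have h2 := self_sub_tanh_le hy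
    rw [abs_of_nonpos (by linarith), abs_of_nonneg hy]
    linarith
  · have h1 := tanh_le_self (y := -y) (by linarith)
    have h2 := self_sub_tanh_le (y := -y) (by linarith)
    rw [tanh_neg] at h1 h2
    rw [abs_of_nonneg (by linarith), abs_of_nonpos hy]
    linarith

/-- Exact formula for the symmetric difference of `tanh`. -/
lemma tanh_diff_plus (h δ : ℝ) :
    (tanh h - tanh (h - 2 * δ)) / 2
      = tanh (2 * δ) / 2 * (1 - tanh h ^ 2) / (1 - tanh h * tanh (2 * δ)) := by
  set T := tanh h with hT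
  set E := tanh (2 * δ) with hE
  have hE1 : |E| < 1 := abs_tanh_lt_one _
  have hT1 : |T| < 1 := abs_tanh_lt_one _
  have hpos : 0 < 1 - T * E := by
    have := abs_mul T E
    have h2 : |T * E| < 1 := by
      rw [abs_mul]
      nlinarith [abs_nonneg T, abs_nonneg E]
    linarith [le_abs_self (T * E)]
  have e : tanh (h - 2 * δ) = (T - E) / (1 - T * E) := by
    rw [sub_eq_add_neg, tanh_add', tanh_neg]
    congr 1
    ring
  rw [e]
  field_simp
  ring

lemma tanh_diff_minus (h δ : ℝ) :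
    (tanh (h + 2 * δ) - tanh h) / 2
      = tanh (2 * δ) / 2 * (1 - tanh h ^ 2) / (1 + tanh h * tanh (2 * δ)) := by
  set T := tanh h with hT
  set E := tanh (2 * δ) with hE
  have hE1 : |E| < 1 := abs_tanh_lt_one _
  have hT1 : |T| < 1 := abs_tanh_lt_one _
  have hpos : 0 < 1 + T * E := by
    have h2 : |T * E| < 1 := by
      rw [abs_mul]
      nlinarith [abs_nonneg T, abs_nonneg E]
    linarith [neg_abs_le (T * E)]
  have e : tanh (h + 2 * δ) = (T + E) / (1 + T * E) := by
    rw [tanh_add']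
  rw [e]
  field_simp
  ring

end Vale.Agent.Lib.P150
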