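import Vale.Agent.Lib.P150.Mixing
import Vale.Agent.Lib.P150.Tanh

open scoped BigOperators
open Function

set_option linter.unusedSectionVars false
set_option linter.unusedSimpArgs false
set_option linter.unusedVariables false

noncomputable section

namespace Vale.Agent.Lib.P150

variable {ι : Type*} [Fintype ι] [DecidableEq ι]

/-- The conditional mean of spin `i`. -/
def tf (J : ι → ι → ℝ) (x : ι → Bool) (i : ι) : ℝ := Real.tanh (field J x i)

lemma spin_update_apply (x : ι → Bool) (j k : ι) (b : Bool) :
    spin (update x j b k) = spin (x k) + if k = j then spin b - spin (x j) else 0 := by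
  by_cases h : k = j
  · subst h; simp
  · simp [h, update_of_ne h]

lemma field_update (J : ι → ι → ℝ) (x : ι → Bool) (i j : ι) (b : Bool) :
    field J (update x j b) i = field J x i + J i j * (spin b - spin (x j)) := by
  unfold field
  simp only [spin_update_apply, mul_add, Finset.sum_add_distrib]
  congr 1
  simp

lemma hbProb_true (J : ι → ι → ℝ) (x : ι → Bool) (i : ι) :
    hbProb J x i true = (1 + tf J x i) / 2 := by
  unfold hbProb tf
  rw [Real.tanh_eq_sinh_div_cosh]
  have hc : Real.cosh (field J x i) ≠ 0 := (Real.cosh_pos _).ne'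
  simp only [spin_true, one_mul]
  rw [← Real.cosh_add_sinh (field J x i)]
  field_simp

lemma hbProb_false (J : ι → ι → ℝ) (x : ι → Bool) (i : ι) :
    hbProb J x i false = (1 - tf J x i) / 2 := by
  unfold hbProb tf
  rw [Real.tanh_eq_sinh_div_cosh]
  have hc : Real.cosh (field J x i) ≠ 0 := (Real.cosh_pos _).ne'
  simp only [spin_false, neg_mul, one_mul]
  rw [← Real.cosh_sub_sinh (field J x i)]
  field_simp

lemma hbProb_pos (J : ι → ι → ℝ) (x : ι → Bool) (i : ι) (b : Bool) : 0 < hbProb J x i b := by
  unfold hbProb
  have := Real.cosh_pos (field J x i)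
  have := Real.exp_pos (spin b * field J x i)
  positivity

lemma generator_mulVec (J : ι → ι → ℝ) (u : (ι → Bool) → ℝ) :
    (generator J).mulVec u = gen (tf J) u := by
  funext x
  simp only [Matrix.mulVec, dotProduct, generator, Finset.sum_mul, gen]
  rw [Finset.sum_comm]
  refine Finset.sum_congr rfl (fun i _ => ?_)
  simp only [add_mul, sub_mul, ite_mul, zero_mul, one_mul, Finset.sum_add_distrib,
    Finset.sum_sub_distrib, Finset.sum_ite_eq', Finset.mem_univ, if_true]
  rw [value_update u x i true, value_update u x i false, hbProb_true, hbProb_false]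
  simp only [spin_true, spin_false]
  ring

lemma generator_offdiag (J : ι → ι → ℝ) (x y : ι → Bool) (h : x ≠ y) : 0 ≤ generator J x y := by
  unfold generator
  refine Finset.sum_nonneg (fun i _ => ?_)
  have hne : ¬ y = x := fun e => h e.symm
  simp only [hne, if_false, sub_zero]
  have h1 := hbProb_pos J x i true
  have h2 := hbProb_pos J x i false
  split_ifs <;> linarith

lemma tf_indep (J : ι → ι → ℝ) (hdiag : ∀ i, J i i = 0) (x : ι → Bool) (i : ι) (b : Bool) :
    tf J (update x i b) i = tf J x i := by
  unfold tf
  rw [field_update, hdiag]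
  simp

/-- The Ising heat-bath generator is of Glauber form. -/
lemma isGlauber (J : ι → ι → ℝ) (hdiag : ∀ i, J i i = 0) : IsGlauber (generator J) (tf J) where
  mulVec_eq := generator_mulVec J
  offdiag := generator_offdiag J
  indep := tf_indep J hdiag
  lt_one := fun x i => Real.abs_tanh_lt_one _

lemma gibbsWeight_pos (J : ι → ι → ℝ) (x : ι → Bool) : 0 < gibbsWeight J x := Real.exp_pos _

lemma gibbs_pos (J : ι → ι → ℝ) (x : ι → Bool) : 0 < gibbs J x := by
  unfold gibbs
  apply div_pos (gibbsWeight_pos J x)
  exact Finset.sum_pos (fun y _ => gibbsWeight_pos J y) Finset.univ_nonempty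

lemma gibbs_sum (J : ι → ι → ℝ) : ∑ x, gibbs J x = 1 := by
  unfold gibbs
  rw [← Finset.sum_div]
  apply div_self
  exact (Finset.sum_pos (fun y _ => gibbsWeight_pos J y) Finset.univ_nonempty).ne'

/-- The single-spin flip. -/
def flipAt (i : ι) (x : ι → Bool) : ι → Bool := update x i (!x i)

lemma flipAt_invol (i : ι) (x : ι → Bool) : flipAt i (flipAt i x) = x := by
  unfold flipAt
  simp [update_idem]

/-- Energy difference under a single flip. -/
lemma energy_flip (J : ι → ι → ℝ) (hsym : ∀ i j, J i j = J j i) (hdiag : ∀ i, J i i = 0)
    (x : ι → Bool) (i : ι) :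
    ∑ a, ∑ b, J a b * spin (flipAt i x a) * spin (flipAt i x b)
      = ∑ a, ∑ b, J a b * spin (x a) * spin (x b) - 4 * (spin (x i) * field J x i) := by
  have hs : ∀ a, spin (flipAt i x a) = spin (x a) + if a = i then -2 * spin (x i) else 0 := by
    intro a
    unfold flipAt
    rw [spin_update_apply]
    congr 1
    split_ifs
    · cases x i <;> simp <;> norm_num
    · rfl
  have hterm : ∀ a b, J a b * spin (flipAt i x a) * spin (flipAt i x b)
      = J a b * spin (x a) * spin (x b)
        - (if a = i then 2 * spin (x i) * (J i b * spin (x b)) else 0)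
        - (if b = i then 2 * spin (x i) * (J i a * spin (x a)) else 0) := by
    intro a b
    rw [hs, hs]
    by_cases ha : a = i <;> by_cases hb : b = i
    · subst ha; subst hb
      simp [hdiag]
    · subst ha
      simp [hb]
      ring
    · subst hb
      simp [ha, hsym a b]
      ring
    · simp [ha, hb]
  simp only [hterm, Finset.sum_sub_distrib]
  have h1 : ∑ a, ∑ b, (if a = i then 2 * spin (x i) * (J i b * spin (x b)) else 0)
      = 2 * (spin (x i) * field J x i) := by
    simp [field, Finset.mul_sum]
    refine Finset.sum_congr rfl (fun b _ => ?_)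
    ring
  have h2 : ∑ a, ∑ b, (if b = i then 2 * spin (x i) * (J i a * spin (x a)) else 0)
      = 2 * (spin (x i) * field J x i) := by
    simp [field, Finset.mul_sum]
    refine Finset.sum_congr rfl (fun b _ => ?_)
    ring
  rw [h1, h2]
  ring

lemma gibbs_flip (J : ι → ι → ℝ) (hsym : ∀ i j, J i j = J j i) (hdiag : ∀ i, J i i = 0)
    (x : ι → Bool) (i : ι) :
    gibbs J (flipAt i x) = gibbs J x * Real.exp (-(2 * (spin (x i) * field J x i))) := by
  unfold gibbs
  have : gibbsWeight J (flipAt i x)
      = gibbsWeight J x * Real.exp (-(2 * (spin (x i) * field J x i))) := by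
    unfold gibbsWeight
    rw [← Real.exp_add, energy_flip J hsym hdiag]
    congr 1
    ring
  rw [this]
  ring

/-- Reversibility of the Gibbs measure. -/
lemma isRev (J : ι → ι → ℝ) (hsym : ∀ i j, J i j = J j i) (hdiag : ∀ i, J i i = 0) :
    IsRev (gibbs J) (tf J) where
  pos := gibbs_pos J
  sum_one := gibbs_sum J
  ibp := by
    intro i g hg
    set F : (ι → Bool) → ℝ := fun x => gibbs J x * ((tf J x i - spin (x i)) * g x) with hF
    have hinv : ∑ x, F (flipAt i x) = ∑ x, F x := by
      let e : (ι → Bool) ≃ (ι → Bool) :=
        { toFun := flipAt i, invFun := flipAt i,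
          left_inv := flipAt_invol i, right_inv := flipAt_invol i }
      exact Equiv.sum_comp e F
    have hzero : ∀ x, F x + F (flipAt i x) = 0 := by
      intro x
      simp only [hF]
      rw [gibbs_flip J hsym hdiag]
      have h1 : g (flipAt i x) = g x := hg x _
      have h2 : tf J (flipAt i x) i = tf J x i := tf_indep J hdiag x i _
      have h3 : spin (flipAt i x i) = -spin (x i) := by
        unfold flipAt
        simp
        cases x i <;> simp
      rw [h1, h2, h3]
      have hbr : (tf J x i - spin (x i))
          + Real.exp (-(2 * (spin (x i) * field J x i))) * (tf J x i + spin (x i)) = 0 := by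
        unfold tf
        set h := field J x i
        have hc : Real.cosh h ≠ 0 := (Real.cosh_pos _).ne'
        rw [Real.tanh_eq_sinh_div_cosh]
        have hE1 : Real.sinh h - Real.cosh h = -Real.exp (-h) := by
          rw [← Real.cosh_sub_sinh]; ring
        have hE2 : Real.sinh h + Real.cosh h = Real.exp h := by
          rw [← Real.cosh_add_sinh]; ring
        cases x i
        · simp only [spin_false, mul_neg, neg_mul, one_mul, neg_neg]
          have e1 : Real.sinh h / Real.cosh h - -1 = Real.exp h / Real.cosh h := by
            rw [← hE2]; field_simp; ring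
          have e2 : Real.sinh h / Real.cosh h + -1 = -Real.exp (-h) / Real.cosh h := by
            rw [← hE1]; field_simp; ring
          rw [e1, e2]
          have : Real.exp (2 * h) * Real.exp (-h) = Real.exp h := by
            rw [← Real.exp_add]; congr 1; ring
          have e3 : Real.exp h / Real.cosh h + Real.exp (2 * h) * (-Real.exp (-h) / Real.cosh h)
              = (Real.exp h - Real.exp (2 * h) * Real.exp (-h)) / Real.cosh h := by ring
          rw [e3, this, sub_self, zero_div]
        · simp only [spin_true, one_mul]
          have e1 : Real.sinh h / Real.cosh h - 1 = -Real.exp (-h) / Real.cosh h := by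
            rw [← hE1]; field_simp
          have e2 : Real.sinh h / Real.cosh h + 1 = Real.exp h / Real.cosh h := by
            rw [← hE2]; field_simp
          rw [e1, e2]
          have : Real.exp (-(2 * h)) * Real.exp h = Real.exp (-h) := by
            rw [← Real.exp_add]; congr 1; ring
          have e3 : -Real.exp (-h) / Real.cosh h + Real.exp (-(2 * h)) * (Real.exp h / Real.cosh h)
              = (Real.exp (-(2 * h)) * Real.exp h - Real.exp (-h)) / Real.cosh h := by ring
          rw [e3, this, sub_self, zero_div]
      calc _ = gibbs J x * g x * ((tf J x i - spin (x i))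
            + Real.exp (-(2 * (spin (x i) * field J x i))) * (tf J x i + spin (x i))) := by ring
        _ = 0 := by rw [hbr, mul_zero]
    have h2 : 2 * ∑ x, F x = 0 := by
      have : ∑ x, (F x + F (flipAt i x)) = 0 := Finset.sum_eq_zero (fun x _ => hzero x)
      rw [Finset.sum_add_distrib, hinv] at this
      linarith
    simpa [hF] using (by linarith : ∑ x, F x = 0)

/-- Zero mean of each spin, by the global flip symmetry. -/
lemma gibbs_mean_zero (J : ι → ι → ℝ) (i : ι) : ∑ x, gibbs J x * spin (x i) = 0 := by
  set F : (ι → Bool) → ℝ := fun x => gibbs J x * spin (x i) with hF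
  let neg : (ι → Bool) → (ι → Bool) := fun x j => !x j
  have hneg : ∀ x, neg (neg x) = x := by
    intro x; funext j; simp [neg]
  have hinv : ∑ x, F (neg x) = ∑ x, F x := by
    let e : (ι → Bool) ≃ (ι → Bool) :=
      { toFun := neg, invFun := neg, left_inv := hneg, right_inv := hneg }
    exact Equiv.sum_comp e F
  have hsp : ∀ (b : Bool), spin (!b) = -spin b := by
    intro b; cases b <;> simp
  have hW : ∀ x, gibbsWeight J (neg x) = gibbsWeight J x := by
    intro x
    unfold gibbsWeight
    congr 2
    refine Finset.sum_congr rfl (fun a _ => Finset.sum_congr rfl (fun b _ => ?_))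
    simp only [neg, hsp]
    ring
  have hzero : ∀ x, F x + F (neg x) = 0 := by
    intro x
    simp only [hF, gibbs, hW]
    simp only [neg, hsp]
    ring
  have : ∑ x, (F x + F (neg x)) = 0 := Finset.sum_eq_zero (fun x _ => hzero x)
  rw [Finset.sum_add_distrib, hinv] at this
  simp only [hF] at this ⊢
  linarith

end Vale.Agent.Lib.P150
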