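import Vale.Agent.Lib.P150.Tensor
import Vale.Agent.Lib.P150.Interp4

/-!
The localization path of an Ising measure: the tilted measures are Ising measures with a shrunken
coupling matrix and a shifted field.
-/

open MeasureTheory ProbabilityTheory
open scoped BigOperators
open Function

set_option linter.unusedSectionVars false
set_option linter.unusedSimpArgs false
set_option linter.unusedVariables false

noncomputable section

namespace Vale.Agent.Lib.P150

variable {ι : Type*} [Fintype ι] [DecidableEq ι]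

/-- The spin features attached to a root of the shifted coupling matrix. -/
def aF (R : ι → ι → ℝ) (x : ι → Bool) (k : ι) : ℝ := ∑ i, R i k * spin (x i)

/-- The shrunken coupling. -/
def Jt (J : ι → ι → ℝ) (τ : ℝ) : ι → ι → ℝ := fun i j => (1 - τ ^ 2) * J i j

/-- The shifted field. -/
def ht (h0 : ι → ℝ) (R : ι → ι → ℝ) (τ : ℝ) (z : ι → ℝ) : ι → ℝ :=
  fun i => h0 i + τ * ∑ k, R i k * z k

/-- `R` is a root of `J + ρ I`. -/
def IsRoot (J R : ι → ι → ℝ) (ρ : ℝ) : Prop :=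
  ∀ i j, ∑ k, R i k * R j k = J i j + if i = j then ρ else 0

lemma sqA_aF {J R : ι → ι → ℝ} {ρ : ℝ} (hR : IsRoot J R ρ) (x : ι → Bool) :
    sqA (aF R) x = ∑ i, ∑ j, J i j * spin (x i) * spin (x j) + ρ * (Fintype.card ι : ℝ) := by
  unfold sqA aF
  have e1 : ∀ k, (∑ i, R i k * spin (x i)) ^ 2
      = ∑ i, ∑ j, (R i k * R j k) * (spin (x i) * spin (x j)) := by
    intro k
    rw [pow_two, Finset.sum_mul_sum]
    exact Finset.sum_congr rfl (fun i _ => Finset.sum_congr rfl (fun j _ => by ring))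
  simp_rw [e1]
  rw [Finset.sum_comm]
  have e2 : ∀ i, ∑ k, ∑ j, (R i k * R j k) * (spin (x i) * spin (x j))
      = ∑ j, (∑ k, R i k * R j k) * (spin (x i) * spin (x j)) := by
    intro i
    rw [Finset.sum_comm]
    exact Finset.sum_congr rfl (fun j _ => by rw [Finset.sum_mul])
  simp_rw [e2, hR _ _, add_mul, Finset.sum_add_distrib]
  congr 1
  · exact Finset.sum_congr rfl (fun i _ => Finset.sum_congr rfl (fun j _ => by ring))
  · have : ∀ i, ∑ j, (if i = j then ρ else 0) * (spin (x i) * spin (x j)) = ρ := by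
      intro i
      simp only [ite_mul, zero_mul, Finset.sum_ite_eq, Finset.mem_univ, if_true, spin_mul_self,
        mul_one]
    simp_rw [this]
    simp [mul_comm]

lemma dotA_aF (R : ι → ι → ℝ) (x : ι → Bool) (z : ι → ℝ) :
    dotA (aF R) x z = ∑ i, (∑ k, R i k * z k) * spin (x i) := by
  unfold dotA aF
  simp only [Finset.sum_mul]
  rw [Finset.sum_comm]
  exact Finset.sum_congr rfl (fun i _ => Finset.sum_congr rfl (fun k _ => by ring))

/-- The localized Gibbs weight. -/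
lemma weight_WW {J R : ι → ι → ℝ} {ρ : ℝ} (hR : IsRoot J R ρ) (h0 : ι → ℝ) (x : ι → Bool)
    (z : ι → ℝ) (τ : ℝ) :
    gibbsWeightH J h0 x * WW (aF R) x z τ
      = Real.exp (-(τ ^ 2 / 2 * (ρ * (Fintype.card ι : ℝ))))
        * gibbsWeightH (Jt J τ) (ht h0 R τ z) x := by
  unfold gibbsWeightH WW Jt ht
  rw [← Real.exp_add, ← Real.exp_add, sqA_aF hR, dotA_aF]
  congr 1
  have e1 : ∑ i, ∑ j, (1 - τ ^ 2) * J i j * spin (x i) * spin (x j)
      = (1 - τ ^ 2) * ∑ i, ∑ j, J i j * spin (x i) * spin (x j) := by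
    rw [Finset.mul_sum]
    refine Finset.sum_congr rfl (fun i _ => ?_)
    rw [Finset.mul_sum]
    exact Finset.sum_congr rfl (fun j _ => by ring)
  have e2 : ∑ i, (h0 i + τ * ∑ k, R i k * z k) * spin (x i)
      = ∑ i, h0 i * spin (x i) + τ * ∑ i, (∑ k, R i k * z k) * spin (x i) := by
    rw [Finset.mul_sum, ← Finset.sum_add_distrib]
    exact Finset.sum_congr rfl (fun i _ => by ring)
  rw [e1, e2]
  ring

section

variable {J R : ι → ι → ℝ} {ρ : ℝ} (hR : IsRoot J R ρ) (h0 : ι → ℝ)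

/-- The partition function at the shifted parameters. -/
abbrev q1 (J R : ι → ι → ℝ) (h0 : ι → ℝ) (z : ι → ℝ) (τ : ℝ) : ℝ :=
  qq (gibbsH J h0) (aF R) (fun _ => 1) z τ

include hR in
/-- The product of the Gibbs measure and the weight is the localized Gibbs measure. -/
lemma gibbs_WW (x : ι → Bool) (z : ι → ℝ) (τ : ℝ) :
    gibbsH J h0 x * WW (aF R) x z τ
      = q1 J R h0 z τ * gibbsH (Jt J τ) (ht h0 R τ z) x := by
  set K := Real.exp (-(τ ^ 2 / 2 * (ρ * (Fintype.card ι : ℝ)))) / ∑ y, gibbsWeightH J h0 y with hK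
  have h1 : ∀ y, gibbsH J h0 y * WW (aF R) y z τ = K * gibbsWeightH (Jt J τ) (ht h0 R τ z) y := by
    intro y
    unfold gibbsH
    rw [hK, div_mul_eq_mul_div, weight_WW hR]
    ring
  have h2 : q1 J R h0 z τ = K * ∑ y, gibbsWeightH (Jt J τ) (ht h0 R τ z) y := by
    unfold q1 qq
    rw [Finset.mul_sum]
    refine Finset.sum_congr rfl (fun y _ => ?_)
    rw [mul_one, h1]
  rw [h1, h2]
  unfold gibbsH
  have := sum_gibbsWeightH_pos (Jt J τ) (ht h0 R τ z)
  field_simp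

include hR in
lemma qq_eq (g : (ι → Bool) → ℝ) (z : ι → ℝ) (τ : ℝ) :
    qq (gibbsH J h0) (aF R) g z τ
      = q1 J R h0 z τ * ∑ x, gibbsH (Jt J τ) (ht h0 R τ z) x * g x := by
  unfold qq
  rw [Finset.mul_sum]
  refine Finset.sum_congr rfl (fun x _ => ?_)
  have := gibbs_WW hR h0 x z τ
  calc _ = (gibbsH J h0 x * WW (aF R) x z τ) * g x := by ring
    _ = _ := by rw [this]; ring

include hR in
lemma QQ_eq (g : (ι → Bool) → ℝ) (k : ι) (z : ι → ℝ) (τ : ℝ) :
    QQ (gibbsH J h0) (aF R) g k z τ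
      = q1 J R h0 z τ * ∑ x, gibbsH (Jt J τ) (ht h0 R τ z) x * (g x * aF R x k) := by
  unfold QQ
  rw [Finset.mul_sum]
  refine Finset.sum_congr rfl (fun x _ => ?_)
  have := gibbs_WW hR h0 x z τ
  calc _ = (gibbsH J h0 x * WW (aF R) x z τ) * (g x * aF R x k) := by ring
    _ = _ := by rw [this]; ring

end

/-- The quadratic form of `R Rᵀ`. -/
lemma sum_sq_root {J R : ι → ι → ℝ} {ρ : ℝ} (hR : IsRoot J R ρ) (v : ι → ℝ) :
    ∑ k, (∑ i, R i k * v i) ^ 2 = ∑ i, v i * (∑ j, J i j * v j) + ρ * ∑ i, v i ^ 2 := by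
  have e1 : ∀ k, (∑ i, R i k * v i) ^ 2 = ∑ i, ∑ j, (R i k * R j k) * (v i * v j) := by
    intro k
    rw [pow_two, Finset.sum_mul_sum]
    exact Finset.sum_congr rfl (fun i _ => Finset.sum_congr rfl (fun j _ => by ring))
  simp_rw [e1]
  rw [Finset.sum_comm]
  have e2 : ∀ i, ∑ k, ∑ j, (R i k * R j k) * (v i * v j)
      = ∑ j, (∑ k, R i k * R j k) * (v i * v j) := by
    intro i
    rw [Finset.sum_comm]
    exact Finset.sum_congr rfl (fun j _ => by rw [Finset.sum_mul])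
  simp_rw [e2, hR _ _, add_mul, Finset.sum_add_distrib]
  congr 1
  · refine Finset.sum_congr rfl (fun i _ => ?_)
    rw [Finset.mul_sum]
    exact Finset.sum_congr rfl (fun j _ => by ring)
  · rw [Finset.mul_sum]
    refine Finset.sum_congr rfl (fun i _ => ?_)
    simp only [ite_mul, zero_mul, Finset.sum_ite_eq, Finset.mem_univ, if_true]
    ring

/-- The quadratic form is bounded by the norm. -/
lemma quad_le_norm {J : ι → ι → ℝ} {ρ : ℝ} (hρ0 : 0 ≤ ρ)
    (hρ : ∀ v : ι → ℝ, ∑ i, (∑ j, J i j * v j) ^ 2 ≤ ρ ^ 2 * ∑ i, v i ^ 2) (v : ι → ℝ) :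
    |∑ i, v i * (∑ j, J i j * v j)| ≤ ρ * ∑ i, v i ^ 2 := by
  have hcs := Finset.sum_mul_sq_le_sq_mul_sq Finset.univ v (fun i => ∑ j, J i j * v j)
  have hN : 0 ≤ ∑ i, v i ^ 2 := Finset.sum_nonneg (fun _ _ => sq_nonneg _)
  refine abs_le_of_sq_le_sq ?_ (by positivity)
  calc _ ≤ (∑ i, v i ^ 2) * ∑ i, (∑ j, J i j * v j) ^ 2 := hcs
    _ ≤ (∑ i, v i ^ 2) * (ρ ^ 2 * ∑ i, v i ^ 2) := mul_le_mul_of_nonneg_left (hρ v) hN
    _ = _ := by ring

end Vale.Agent.Lib.P150
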