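import Vale.Agent.Lib.P150.Loc

/-!
The localization path of an Ising measure: stability along the path and the endpoint.
-/

open MeasureTheory ProbabilityTheory
open scoped BigOperators
open Function

set_option linter.unusedSectionVars false
set_option linter.unusedSimpArgs false
set_option linter.unusedVariables false

noncomputable section

namespace Vale.Agent.Lib.P150

variable {ι : Type*} [Fintype ι] [DecidableEq ι]

section

variable {J R : ι → ι → ℝ} {ρ : ℝ} (hR : IsRoot J R ρ) (h0 : ι → ℝ)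

include hR in
/-- Stability of the posterior mean along the localization path. -/
theorem path_stab (hρ0 : 0 ≤ ρ)
    (hρ : ∀ v : ι → ℝ, ∑ i, (∑ j, J i j * v j) ^ 2 ≤ ρ ^ 2 * ∑ i, v i ^ 2)
    {κ : ℝ} (hκ : 0 < κ) {τ : ℝ} (hcov : CovBound (Jt J τ) κ) {f : (ι → Bool) → ℝ}
    (hf : ∀ x, 0 < f x) (z : ι → ℝ) :
    qq (gibbsH J h0) (aF R) f z τ * ∑ k, Dl (gibbsH J h0) (aF R) f k z τ ^ 2
      ≤ (4 * ρ / κ) * EntZ (gibbsH J h0) (aF R) f z τ := by
  set π := gibbsH J h0 with hπdef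
  set a := aF R with ha
  set ν := gibbsH (Jt J τ) (ht h0 R τ z) with hν
  have hπ : ∀ x, 0 < π x := gibbsH_pos J h0
  have hν0 : ∀ x, 0 < ν x := gibbsH_pos _ _
  have hν1 : ∑ x, ν x = 1 := gibbsH_sum _ _
  set Q := q1 J R h0 z τ with hQ
  have hQ0 : 0 < Q := qq_pos hπ a (fun _ => one_pos) z τ
  set mm := ∑ x, ν x * f x with hmm
  have hmm0 : 0 < mm := Finset.sum_pos (fun x _ => mul_pos (hν0 x) (hf x)) Finset.univ_nonempty
  have hqf : qq π a f z τ = Q * mm := qq_eq hR h0 f z τ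
  have hq1 : qq π a (fun _ => 1) z τ = Q := rfl
  have hQf : ∀ k, QQ π a f k z τ = Q * ∑ x, ν x * (f x * a x k) := fun k => QQ_eq hR h0 f k z τ
  have hQ1 : ∀ k, QQ π a (fun _ => 1) k z τ = Q * ∑ x, ν x * a x k := by
    intro k
    have := QQ_eq hR h0 (fun _ => 1) k z τ
    simpa [one_mul] using this
  set ft : (ι → Bool) → ℝ := fun x => f x / mm with hft
  have hft0 : ∀ x, 0 < ft x := fun x => div_pos (hf x) hmm0
  have hft1 : ∑ x, ν x * ft x = 1 := by
    have : ∑ x, ν x * ft x = mm / mm := by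
      rw [hmm, Finset.sum_div]
      exact Finset.sum_congr rfl (fun x _ => by simp only [hft]; ring)
    rw [this, div_self hmm0.ne']
  set v : ι → ℝ := fun i => ∑ x, ν x * (ft x * spin (x i)) - ∑ x, ν x * spin (x i) with hv
  have hDl : ∀ k, Dl π a f k z τ = ∑ i, R i k * v i := by
    intro k
    unfold Dl
    rw [hqf, hq1, hQf, hQ1]
    have e1 : (Q * ∑ x, ν x * (f x * a x k)) / (Q * mm)
        = ∑ x, ν x * (ft x * a x k) := by
      rw [mul_div_mul_left _ _ hQ0.ne', Finset.sum_div]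
      exact Finset.sum_congr rfl (fun x _ => by simp only [hft]; ring)
    have e2 : (Q * ∑ x, ν x * a x k) / Q = ∑ x, ν x * a x k := by
      field_simp
    rw [e1, e2]
    have e3 : ∀ w : (ι → Bool) → ℝ, ∑ x, ν x * (w x * a x k)
        = ∑ i, R i k * ∑ x, ν x * (w x * spin (x i)) := by
      intro w
      simp only [ha, aF, Finset.mul_sum]
      rw [Finset.sum_comm]
      exact Finset.sum_congr rfl (fun i _ => Finset.sum_congr rfl (fun x _ => by ring))
    have e4 : ∑ x, ν x * a x k = ∑ i, R i k * ∑ x, ν x * spin (x i) := by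
      have := e3 (fun _ => 1)
      simpa [one_mul] using this
    rw [e3 ft, e4, ← Finset.sum_sub_distrib]
    exact Finset.sum_congr rfl (fun i _ => by simp only [hv]; ring)
  have hsq : ∑ k, Dl π a f k z τ ^ 2 ≤ 2 * ρ * ∑ i, v i ^ 2 := by
    simp_rw [hDl]
    rw [sum_sq_root hR]
    have := (abs_le.mp (quad_le_norm hρ0 hρ v)).2
    linarith
  have hstab := ent_stab hκ hcov (ht h0 R τ z) hft0 hft1
  rw [← hν] at hstab
  have hEnt : EntZ π a f z τ = Q * mm * ∑ x, ν x * (ft x * Real.log (ft x)) := by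
    unfold EntZ
    have e1 : qq π a (fun x => f x * Real.log (f x)) z τ
        = Q * ∑ x, ν x * (f x * Real.log (f x)) := qq_eq hR h0 _ z τ
    have e2 : Rr π a f z τ = mm := by
      unfold Rr
      rw [hqf, hq1]
      field_simp
    rw [e1, e2, hqf]
    have e3 : mm * ∑ x, ν x * (ft x * Real.log (ft x))
        = ∑ x, ν x * (f x * Real.log (f x)) - mm * Real.log mm := by
      rw [Finset.mul_sum, hmm, Finset.sum_mul, ← hmm, ← Finset.sum_sub_distrib]
      refine Finset.sum_congr rfl (fun x _ => ?_)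
      simp only [hft]
      rw [Real.log_div (hf x).ne' hmm0.ne']
      field_simp
    have e4 : Q * mm * ∑ x, ν x * (ft x * Real.log (ft x))
        = Q * (mm * ∑ x, ν x * (ft x * Real.log (ft x))) := by ring
    rw [e4, e3]
    ring
  rw [hqf, hEnt]
  have hQm : 0 < Q * mm := mul_pos hQ0 hmm0
  have hE : κ / 2 * ∑ i, v i ^ 2 ≤ ∑ x, ν x * (ft x * Real.log (ft x)) := hstab
  have h4 : 2 * ρ * ∑ i, v i ^ 2 ≤ 4 * ρ / κ * ∑ x, ν x * (ft x * Real.log (ft x)) := by
    have h5 : 4 * ρ / κ * (κ / 2 * ∑ i, v i ^ 2) = 2 * ρ * ∑ i, v i ^ 2 := by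
      field_simp
      ring
    rw [← h5]
    exact mul_le_mul_of_nonneg_left hE (by positivity)
  calc Q * mm * ∑ k, Dl π a f k z τ ^ 2 ≤ Q * mm * (4 * ρ / κ * ∑ x, ν x * (ft x * Real.log (ft x))) :=
        mul_le_mul_of_nonneg_left (hsq.trans h4) hQm.le
    _ = _ := by ring

end

/-- The variational principle for the one-coordinate entropy. -/
lemma entropy_variational {ν : (ι → Bool) → ℝ} {t : (ι → Bool) → ι → ℝ} (hR : IsRev ν t)
    (hlt : ∀ x i, |t x i| < 1) (i : ι) {f c : (ι → Bool) → ℝ} (hf : ∀ x, 0 < f x)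
    (hc : ∀ x, 0 < c x) (hci : ∀ x b, c (update x i b) = c x) :
    ∑ x, ν x * (Phi (f x) - Phi (Qt t i f x))
      ≤ ∑ x, ν x * (f x * (Real.log (f x) - Real.log (c x)) - f x + c x) := by
  have h1 := sum_mul_indep hR i f (F := fun x => Real.log (c x)) (fun x b => by simp only [hci])
  have h2 := sum_Qt hR i f
  have e : ∑ x, ν x * (f x * (Real.log (f x) - Real.log (c x)) - f x + c x)
      = ∑ x, ν x * Phi (f x) - ∑ x, ν x * (f x * Real.log (c x)) - ∑ x, ν x * f x
        + ∑ x, ν x * c x := by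
    rw [← Finset.sum_sub_distrib, ← Finset.sum_sub_distrib, ← Finset.sum_add_distrib]
    refine Finset.sum_congr rfl (fun x _ => ?_)
    unfold Phi
    ring
  rw [e, h1, ← h2, Finset.sum_congr rfl (fun x _ => mul_sub (ν x) _ _), Finset.sum_sub_distrib]
  have key : ∀ x, ν x * Qt t i f x * (1 - Real.log (Qt t i f x)) - ν x * c x
      ≤ - (ν x * (Qt t i f x * Real.log (c x))) := by
    intro x
    have hq := Qt_pos hlt i hf x
    have hcx := hc x
    have hν := hR.pos x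
    have hu : 0 < c x / Qt t i f x := by positivity
    have h3 := Real.log_le_sub_one_of_pos hu
    rw [Real.log_div hcx.ne' hq.ne'] at h3
    have h4 := mul_le_mul_of_nonneg_left h3 (mul_pos hν hq).le
    have h5 : ν x * Qt t i f x * (c x / Qt t i f x - 1) = ν x * c x - ν x * Qt t i f x := by
      field_simp
    rw [h5] at h4
    nlinarith
  have hs := Finset.sum_le_sum (fun x (_ : x ∈ Finset.univ) => key x)
  have e2 : ∑ x, (ν x * Qt t i f x * (1 - Real.log (Qt t i f x)) - ν x * c x)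
      = ∑ x, ν x * Qt t i f x - ∑ x, ν x * Phi (Qt t i f x) - ∑ x, ν x * c x := by
    rw [← Finset.sum_sub_distrib, ← Finset.sum_sub_distrib]
    refine Finset.sum_congr rfl (fun x _ => ?_)
    unfold Phi
    ring
  rw [e2, Finset.sum_neg_distrib] at hs
  linarith

/-- Expectation of the variational functional at the conditional expectation. -/
lemma sum_variational {π : (ι → Bool) → ℝ} {t : (ι → Bool) → ι → ℝ} (hR : IsRev π t)
    (ht : ∀ x i b, t (update x i b) i = t x i) (i : ι) (f : (ι → Bool) → ℝ) :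
    ∑ x, π x * (f x * (Real.log (f x) - Real.log (Qt t i f x)) - f x + Qt t i f x)
      = ∑ x, π x * (Phi (f x) - Phi (Qt t i f x)) := by
  have h1 := sum_mul_indep hR i f (F := fun x => Real.log (Qt t i f x))
    (fun x b => by simp only [Qt_update ht])
  have h2 := sum_Qt hR i f
  have e : ∑ x, π x * (f x * (Real.log (f x) - Real.log (Qt t i f x)) - f x + Qt t i f x)
      = ∑ x, π x * Phi (f x) - ∑ x, π x * (f x * Real.log (Qt t i f x)) - ∑ x, π x * f x
        + ∑ x, π x * Qt t i f x := by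
    rw [← Finset.sum_sub_distrib, ← Finset.sum_sub_distrib, ← Finset.sum_add_distrib]
    refine Finset.sum_congr rfl (fun x _ => ?_)
    unfold Phi
    ring
  rw [e, h1, h2]
  simp only [mul_sub, Finset.sum_sub_distrib]
  unfold Phi
  ring

lemma Jt_symm {J : ι → ι → ℝ} (hsym : ∀ i j, J i j = J j i) (τ : ℝ) (i j : ι) :
    Jt J τ i j = Jt J τ j i := by
  unfold Jt
  rw [hsym]

lemma Jt_diag {J : ι → ι → ℝ} (hdiag : ∀ i, J i i = 0) (τ : ℝ) (i : ι) : Jt J τ i i = 0 := by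
  unfold Jt
  rw [hdiag, mul_zero]

/-- The covariance bound along the path. -/
lemma covBound_Jt (J : ι → ι → ℝ) (hsym : ∀ i j, J i j = J j i) (hdiag : ∀ i, J i i = 0)
    {ρ r2 η : ℝ} (hρ0 : 0 ≤ ρ)
    (hρ : ∀ v : ι → ℝ, ∑ i, (∑ j, J i j * v j) ^ 2 ≤ ρ ^ 2 * ∑ i, v i ^ 2)
    (hr : ∀ j, ∑ i, J i j ^ 2 ≤ r2) (hη : ∀ i j, |J i j| ≤ η) (hη1 : η ≤ 1 / 200)
    (hρr : 4 * r2 ≤ ρ) (hκ : 0 < 1 - ρ - 25 * η * r2) {τ : ℝ} (h0 : 0 ≤ τ) (h1 : τ ≤ 1) :
    CovBound (Jt J τ) (1 - ρ - 25 * η * r2) := by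
  have hs0 : 0 ≤ 1 - τ ^ 2 := by nlinarith
  have hs1 : 1 - τ ^ 2 ≤ 1 := by nlinarith [sq_nonneg τ]
  have hs2 : (1 - τ ^ 2) ^ 2 ≤ 1 := by nlinarith
  refine covBound_of_params (Jt J τ) (Jt_symm hsym τ) (Jt_diag hdiag τ) hρ0 ?_ ?_ ?_ hη1 hρr hκ
  · intro v
    have e : ∀ i, ∑ j, Jt J τ i j * v j = (1 - τ ^ 2) * ∑ j, J i j * v j := by
      intro i
      unfold Jt
      rw [Finset.mul_sum]
      exact Finset.sum_congr rfl (fun j _ => by ring)
    simp_rw [e, mul_pow]
    rw [← Finset.mul_sum]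
    have hn : 0 ≤ ∑ i, (∑ j, J i j * v j) ^ 2 := Finset.sum_nonneg (fun _ _ => sq_nonneg _)
    have : (1 - τ ^ 2) ^ 2 * ∑ i, (∑ j, J i j * v j) ^ 2 ≤ 1 * ∑ i, (∑ j, J i j * v j) ^ 2 :=
      mul_le_mul_of_nonneg_right hs2 hn
    have h3 := hρ v
    linarith
  · intro j
    have e : ∑ i, Jt J τ i j ^ 2 = (1 - τ ^ 2) ^ 2 * ∑ i, J i j ^ 2 := by
      unfold Jt
      rw [Finset.mul_sum]
      exact Finset.sum_congr rfl (fun i _ => by ring)
    rw [e]
    have hn : 0 ≤ ∑ i, J i j ^ 2 := Finset.sum_nonneg (fun _ _ => sq_nonneg _)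
    have : (1 - τ ^ 2) ^ 2 * ∑ i, J i j ^ 2 ≤ 1 * ∑ i, J i j ^ 2 :=
      mul_le_mul_of_nonneg_right hs2 hn
    have h3 := hr j
    linarith
  · intro i j
    unfold Jt
    rw [abs_mul, abs_of_nonneg hs0]
    have : (1 - τ ^ 2) * |J i j| ≤ 1 * |J i j| := mul_le_mul_of_nonneg_right hs1 (abs_nonneg _)
    have h3 := hη i j
    linarith

section

variable {J R : ι → ι → ℝ} {ρ : ℝ} (hR : IsRoot J R ρ) (h0 : ι → ℝ)

include hR in
/-- At the end of the path the measure is a product measure. -/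
theorem path_end (hsym : ∀ i j, J i j = J j i) (hdiag : ∀ i, J i i = 0)
    {f : (ι → Bool) → ℝ} (hf : ∀ x, 0 < f x) (z : ι → ℝ) :
    EntZ (gibbsH J h0) (aF R) f z 1
      ≤ ∑ i, qq (gibbsH J h0) (aF R)
          (fun x => f x * (Real.log (f x) - Real.log (Qt (tfh J h0) i f x)) - f x
            + Qt (tfh J h0) i f x) z 1 := by
  set π := gibbsH J h0 with hπdef
  set a := aF R with ha
  set hh := ht h0 R 1 z with hhh
  set ν := gibbsH (Jt J 1) hh with hν
  have hπ : ∀ x, 0 < π x := gibbsH_pos J h0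
  have hν0 : ∀ x, 0 < ν x := gibbsH_pos _ _
  set Q := q1 J R h0 z 1 with hQ
  have hQ0 : 0 < Q := qq_pos hπ a (fun _ => one_pos) z 1
  set T : ι → ℝ := fun i => Real.tanh (hh i) with hT
  have hTt : tfh (Jt J 1) hh = ct T := by
    funext x i
    simp [tfh, field, Jt, hT]
  have hRν : IsRev ν (ct T) := by
    rw [← hTt]
    exact isRevH (Jt J 1) (Jt_symm hsym 1) (Jt_diag hdiag 1) hh
  have hTlt : ∀ i, |T i| < 1 := fun i => Real.abs_tanh_lt_one _
  set mm := ∑ x, ν x * f x with hmm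
  have hmm0 : 0 < mm := Finset.sum_pos (fun x _ => mul_pos (hν0 x) (hf x)) Finset.univ_nonempty
  have hqf : qq π a f z 1 = Q * mm := qq_eq hR h0 f z 1
  have hEnt : EntZ π a f z 1 = Q * (∑ x, ν x * Phi (f x) - Phi mm) := by
    unfold EntZ
    have e1 : qq π a (fun x => f x * Real.log (f x)) z 1
        = Q * ∑ x, ν x * (f x * Real.log (f x)) := qq_eq hR h0 _ z 1
    have e2 : Rr π a f z 1 = mm := by
      unfold Rr
      have hq1 : qq π a (fun _ => 1) z 1 = Q := rfl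
      rw [hqf, hq1]
      field_simp
    rw [e1, e2, hqf]
    unfold Phi
    ring
  rw [hEnt]
  have ht1 := tensorization T hRν hTlt hf
  have hc0 : ∀ i x, 0 < Qt (tfh J h0) i f x := fun i x => Qt_pos (abs_tfh_lt J h0) i hf x
  have hci : ∀ i x b, Qt (tfh J h0) i f (update x i b) = Qt (tfh J h0) i f x :=
    fun i x b => Qt_update (tfh_indep J hdiag h0) i f x b
  have hv : ∀ i, ∑ x, ν x * (Phi (f x) - Phi (Qt (ct T) i f x))
      ≤ ∑ x, ν x * (f x * (Real.log (f x) - Real.log (Qt (tfh J h0) i f x)) - f x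
            + Qt (tfh J h0) i f x) := fun i =>
    entropy_variational hRν (fun _ i => hTlt i) i hf (hc0 i) (hci i)
  have hq : ∀ i, qq π a
      (fun x => f x * (Real.log (f x) - Real.log (Qt (tfh J h0) i f x)) - f x
            + Qt (tfh J h0) i f x) z 1
      = Q * ∑ x, ν x * (f x * (Real.log (f x) - Real.log (Qt (tfh J h0) i f x)) - f x
            + Qt (tfh J h0) i f x) := fun i => qq_eq hR h0 _ z 1
  simp_rw [hq]
  rw [← Finset.mul_sum]
  refine mul_le_mul_of_nonneg_left (ht1.trans (Finset.sum_le_sum (fun i _ => hv i))) hQ0.le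

include hR in
/-- **Approximate tensorization of entropy** for the Ising measure. -/
theorem ent_factor (hsym : ∀ i j, J i j = J j i) (hdiag : ∀ i, J i i = 0) (hρ0 : 0 ≤ ρ)
    (hρ : ∀ v : ι → ℝ, ∑ i, (∑ j, J i j * v j) ^ 2 ≤ ρ ^ 2 * ∑ i, v i ^ 2)
    {κ : ℝ} (hκ : 0 < κ) (hcov : ∀ τ : ℝ, 0 ≤ τ → τ ≤ 1 → CovBound (Jt J τ) κ)
    {f : (ι → Bool) → ℝ} (hf : ∀ x, 0 < f x) (hf1 : ∑ x, gibbsH J h0 x * f x = 1) :
    ∑ x, gibbsH J h0 x * (f x * Real.log (f x))
      ≤ Real.exp (2 * ρ / κ)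
        * ∑ i, ∑ x, gibbsH J h0 x * (Phi (f x) - Phi (Qt (tfh J h0) i f x)) := by
  set π := gibbsH J h0 with hπdef
  have hπ : ∀ x, 0 < π x := gibbsH_pos J h0
  have hπ1 : ∑ x, π x = 1 := gibbsH_sum J h0
  have hR' : IsRev π (tfh J h0) := isRevH J hsym hdiag h0
  have hstab : ∀ τ, 0 ≤ τ → τ ≤ 1 → ∀ z : ι → ℝ,
      qq π (aF R) f z τ * ∑ k, Dl π (aF R) f k z τ ^ 2 ≤ (4 * ρ / κ) * EntZ π (aF R) f z τ :=
    fun τ h1 h2 z => path_stab hR h0 hρ0 hρ hκ (hcov τ h1 h2) hf z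
  have hmain := interp_main hπ (aF R) hf hπ1 hf1 hstab
  have e0 : 4 * ρ / κ / 2 = 2 * ρ / κ := by ring
  rw [e0] at hmain
  refine hmain.trans (mul_le_mul_of_nonneg_left ?_ (Real.exp_pos _).le)
  obtain ⟨x1, -, hx1⟩ := Finset.exists_min_image Finset.univ f Finset.univ_nonempty
  obtain ⟨x2, -, hx2⟩ := Finset.exists_max_image Finset.univ f Finset.univ_nonempty
  have hEi : Integrable (fun z => EntZ π (aF R) f z 1) (stdG ι) :=
    integrable_EntZ hπ (aF R) hf (hf x1) (fun x => hx1 x (Finset.mem_univ x))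
      (fun x => hx2 x (Finset.mem_univ x)) 1
  have hsum_int : Integrable (fun z => ∑ i, qq π (aF R)
      (fun x => f x * (Real.log (f x) - Real.log (Qt (tfh J h0) i f x)) - f x
            + Qt (tfh J h0) i f x) z 1) (stdG ι) :=
    integrable_finsetSum _ (fun i _ => integrable_qq π (aF R) _ 1)
  have h1 := integral_mono hEi hsum_int (fun z => path_end hR h0 hsym hdiag hf z)
  refine h1.trans (le_of_eq ?_)
  rw [integral_finsetSum _ (fun i _ => integrable_qq π (aF R) _ 1)]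
  refine Finset.sum_congr rfl (fun i _ => ?_)
  rw [integral_qq]
  exact sum_variational hR' (tfh_indep J hdiag h0) i f

end

end Vale.Agent.Lib.P150
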