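import Vale.Agent.Lib.P150.Curv

open scoped BigOperators
open Function

set_option linter.unusedSectionVars false
set_option linter.unusedSimpArgs false
set_option linter.unusedVariables false

noncomputable section

namespace Vale.Agent.Lib.P150

variable {ι : Type*} [Fintype ι] [DecidableEq ι]

lemma dirichlet_spin_le {L : Matrix (ι → Bool) (ι → Bool) ℝ} {t : (ι → Bool) → ι → ℝ}
    (hG : IsGlauber L t) {π : (ι → Bool) → ℝ} (hR : IsRev π t) (i : ι) :
    -ip π (fun x => spin (x i)) (L.mulVec (fun x => spin (x i))) ≤ 1 := by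
  set σ : (ι → Bool) → ℝ := fun x => spin (x i) with hσ
  have hLσ : L.mulVec σ = fun x => t x i - spin (x i) := by
    rw [hG.mulVec_eq]
    funext x
    simp only [gen, hσ, D_spin]
    simp
  have hib := hR.ibp i (fun x => t x i) (fun x b => hG.indep x i b)
  have hst : 0 ≤ ∑ x, π x * (spin (x i) * t x i) := by
    have e : ∑ x, π x * (spin (x i) * t x i) = ∑ x, π x * (t x i) ^ 2 := by
      have : ∑ x, π x * (spin (x i) * t x i)
          = ∑ x, π x * (t x i) ^ 2 - ∑ x, π x * ((t x i - spin (x i)) * t x i) := by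
        rw [← Finset.sum_sub_distrib]
        exact Finset.sum_congr rfl (fun x _ => by ring)
      rw [this, hib]; ring
    rw [e]
    exact Finset.sum_nonneg (fun x _ => mul_nonneg (hR.pos x).le (sq_nonneg _))
  rw [hLσ]
  have e : ip π σ (fun x => t x i - spin (x i))
      = ∑ x, π x * (spin (x i) * t x i) - ∑ x, π x := by
    unfold ip
    rw [← Finset.sum_sub_distrib]
    refine Finset.sum_congr rfl (fun x _ => ?_)
    simp only [hσ]
    have hs := spin_mul_self (x i)
    linear_combination (-(π x)) * hs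
  rw [e, hR.sum_one]
  linarith

/-- The deterministic main theorem: for an Ising model with symmetric zero-diagonal couplings
of spectral norm at most `ρ`, squared row norms at most `r2`, small entries and `κ = 1 - ρ - 2 r2 > 0`,
spectral gap and mixing time are controlled. -/
theorem ising_main [Nonempty ι] (J : ι → ι → ℝ) (hsym : ∀ i j, J i j = J j i)
    (hdiag : ∀ i, J i i = 0) {ρ r2 : ℝ} (hρ0 : 0 ≤ ρ)
    (hρ : ∀ v : ι → ℝ, ∑ i, (∑ j, J i j * v j) ^ 2 ≤ ρ ^ 2 * ∑ i, v i ^ 2)
    (hr : ∀ j, ∑ i, J i j ^ 2 ≤ r2) (hη : ∀ i j, |J i j| ≤ 1 / 200)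
    {κ : ℝ} (hκdef : κ = 1 - ρ - 2 * r2) (hκ : 0 < κ) :
    κ ≤ spectralGap J ∧ spectralGap J ≤ 1 ∧
      mixingTime J ≤ (1 / κ) * Real.log (4 * (Fintype.card ι : ℝ) * Real.sqrt (Fintype.card ι)) ∧
      (1 / 2) * Real.log (κ * (Fintype.card ι : ℝ) / 16) ≤ mixingTime J := by
  have hG := isGlauber J hdiag
  have hR := isRev J hsym hdiag
  have hC : ∀ x, CurvAt (tf J) κ x := by
    intro x
    rw [hκdef]
    exact curv_ising J hsym hρ0 hρ hr hη x
  set n : ℝ := (Fintype.card ι : ℝ) with hn
  have hn1 : 1 ≤ n := by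
    have : 0 < Fintype.card ι := Fintype.card_pos
    simp only [hn]
    exact_mod_cast this
  obtain ⟨i0⟩ := (inferInstance : Nonempty ι)
  set σ : (ι → Bool) → ℝ := fun x => spin (x i0) with hσ
  have hvarσ : gibbsVar J σ = 1 := by
    unfold gibbsVar
    have h1 : ∑ x, gibbs J x * σ x ^ 2 = 1 := by
      simp only [hσ, spin_sq, mul_one, gibbs_sum]
    rw [h1, gibbs_mean_zero J i0]
    norm_num
  have hdirσ : dirichletForm J σ ≤ 1 := dirichlet_spin_le hG hR i0
  have hPoin : ∀ f, κ * gibbsVar J f ≤ dirichletForm J f := fun f => poincare hG hR hκ hC f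
  have hlower : ∀ r ∈ {r : ℝ | ∃ f, 0 < gibbsVar J f ∧ r = dirichletForm J f / gibbsVar J f},
      κ ≤ r := by
    rintro r ⟨f, hf, rfl⟩
    rw [le_div_iff₀ hf]
    exact hPoin f
  have hmem : dirichletForm J σ / gibbsVar J σ
      ∈ {r : ℝ | ∃ f, 0 < gibbsVar J f ∧ r = dirichletForm J f / gibbsVar J f} :=
    ⟨σ, by rw [hvarσ]; norm_num, rfl⟩
  refine ⟨?_, ?_, ?_, ?_⟩
  · exact le_csInf ⟨_, hmem⟩ hlower
  · refine (csInf_le ⟨κ, hlower⟩ hmem).trans ?_
    rw [hvarσ, div_one]
    exact hdirσ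
  · -- upper bound on the mixing time
    set T := (1 / κ) * Real.log (4 * n * Real.sqrt n) with hT
    have hsq : 1 ≤ Real.sqrt n := by
      rw [Real.one_le_sqrt]; exact hn1
    have harg : 1 ≤ 4 * n * Real.sqrt n := by nlinarith
    have hargpos : 0 < 4 * n * Real.sqrt n := by linarith
    have hT0 : 0 ≤ T := by
      apply mul_nonneg (by positivity) (Real.log_nonneg harg)
    have hmemT : T ∈ {t : ℝ | 0 ≤ t ∧ ∀ x, tvDist (semigroup J t x) (gibbs J) ≤ 1 / 4} := by
      refine ⟨hT0, fun x => ?_⟩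
      have h1 := tv_le hG hR hC hT0 x
      rw [← hn] at h1
      have h2 : κ * T = Real.log (4 * n * Real.sqrt n) := by
        rw [hT]; field_simp
      have h3 : Real.exp (-(κ * T)) = (4 * n * Real.sqrt n)⁻¹ := by
        rw [h2, Real.exp_neg, Real.exp_log hargpos]
      refine h1.trans (le_of_eq ?_)
      rw [h3]
      field_simp
    exact csInf_le ⟨0, fun t ht => ht.1⟩ hmemT
  · -- lower bound on the mixing time
    have hne : {t : ℝ | 0 ≤ t ∧ ∀ x, tvDist (semigroup J t x) (gibbs J) ≤ 1 / 4}.Nonempty := by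
      set T := (1 / κ) * Real.log (4 * n * Real.sqrt n) with hT
      have hsq : 1 ≤ Real.sqrt n := by
        rw [Real.one_le_sqrt]; exact hn1
      have harg : 1 ≤ 4 * n * Real.sqrt n := by nlinarith
      have hargpos : 0 < 4 * n * Real.sqrt n := by linarith
      have hT0 : 0 ≤ T := by
        apply mul_nonneg (by positivity) (Real.log_nonneg harg)
      refine ⟨T, hT0, fun x => ?_⟩
      have h1 := tv_le hG hR hC hT0 x
      rw [← hn] at h1
      have h2 : κ * T = Real.log (4 * n * Real.sqrt n) := by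
        rw [hT]; field_simp
      have h3 : Real.exp (-(κ * T)) = (4 * n * Real.sqrt n)⁻¹ := by
        rw [h2, Real.exp_neg, Real.exp_log hargpos]
      refine h1.trans (le_of_eq ?_)
      rw [h3]
      field_simp
    refine le_csInf hne ?_
    rintro t ⟨ht0, htv⟩
    have h1 := mix_lower hG hR hκ hC (gibbs_mean_zero J) ht0 htv
    have hpos : 0 < κ * n / 16 := by positivity
    have h2 : Real.log (κ * n / 16) ≤ 2 * t := by
      rw [Real.log_le_iff_le_exp hpos]
      linarith
    linarith

end Vale.Agent.Lib.P150
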