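import Vale.Agent.Lib.P150.Mixing2

/-!
The deterministic main theorem under the sharp spectral condition.
-/

open scoped BigOperators
open Function

set_option linter.unusedSectionVars false
set_option linter.unusedSimpArgs false
set_option linter.unusedVariables false

noncomputable section

namespace Vale.Agent.Lib.P150

variable {ι : Type*} [Fintype ι] [DecidableEq ι]

lemma gibbsH_zero (J : ι → ι → ℝ) : gibbsH J (fun _ => 0) = gibbs J := by
  funext x
  simp [gibbsH, gibbs, gibbsWeightH, gibbsWeight]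

lemma tfh_zero (J : ι → ι → ℝ) : tfh J (fun _ => 0) = tf J := by
  funext x i
  simp [tfh, tf]

lemma curvAt_mono {t : (ι → Bool) → ι → ℝ} {κ κ' : ℝ} (h : κ' ≤ κ) {x : ι → Bool}
    (hC : CurvAt t κ x) : CurvAt t κ' x := by
  intro v
  refine (hC v).trans (mul_le_mul_of_nonneg_right (by linarith) ?_)
  exact Finset.sum_nonneg (fun _ _ => sq_nonneg _)

/-- A bound on the Gibbs probabilities from below. -/
lemma log_inv_gibbs_le (J : ι → ι → ℝ) {ρ : ℝ} (hρ0 : 0 ≤ ρ)
    (hρ : ∀ v : ι → ℝ, ∑ i, (∑ j, J i j * v j) ^ 2 ≤ ρ ^ 2 * ∑ i, v i ^ 2) (x : ι → Bool) :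
    Real.log (gibbs J x)⁻¹ ≤ (Fintype.card ι : ℝ) * (Real.log 2 + ρ) := by
  set n : ℝ := (Fintype.card ι : ℝ) with hn
  have hn0 : 0 ≤ n := by simp [hn]
  have hq : ∀ y : ι → Bool, |∑ i, ∑ j, J i j * spin (y i) * spin (y j)| ≤ ρ * n := by
    intro y
    have h1 := quad_le_norm hρ0 hρ (fun i => spin (y i))
    have e1 : ∑ i, spin (y i) * ∑ j, J i j * spin (y j)
        = ∑ i, ∑ j, J i j * spin (y i) * spin (y j) := by
      refine Finset.sum_congr rfl (fun i _ => ?_)
      rw [Finset.mul_sum]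
      exact Finset.sum_congr rfl (fun j _ => by ring)
    have e2 : ∑ i, spin (y i) ^ 2 = n := by
      simp [spin_sq, hn]
    rw [e1, e2] at h1
    exact h1
  have hup : ∀ y, gibbsWeight J y ≤ Real.exp (ρ * n / 2) := by
    intro y
    unfold gibbsWeight
    apply Real.exp_le_exp.2
    have := (abs_le.mp (hq y)).2
    linarith
  have hlo : Real.exp (-(ρ * n / 2)) ≤ gibbsWeight J x := by
    unfold gibbsWeight
    apply Real.exp_le_exp.2
    have := (abs_le.mp (hq x)).1
    linarith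
  have hZ : ∑ y, gibbsWeight J y ≤ 2 ^ Fintype.card ι * Real.exp (ρ * n / 2) := by
    calc _ ≤ ∑ y : ι → Bool, Real.exp (ρ * n / 2) := Finset.sum_le_sum (fun y _ => hup y)
      _ = _ := by
        simp [Fintype.card_fun]
  have hw0 : 0 < gibbsWeight J x := Real.exp_pos _
  have hZ0 : 0 < ∑ y, gibbsWeight J y :=
    Finset.sum_pos (fun y _ => Real.exp_pos _) Finset.univ_nonempty
  have hinv : (gibbs J x)⁻¹ ≤ 2 ^ Fintype.card ι * Real.exp (ρ * n) := by
    unfold gibbs
    rw [inv_div, div_le_iff₀ hw0]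
    refine hZ.trans ?_
    have h1 : Real.exp (ρ * n) * Real.exp (-(ρ * n / 2)) = Real.exp (ρ * n / 2) := by
      rw [← Real.exp_add]; congr 1; ring
    have h2 := mul_le_mul_of_nonneg_left hlo (Real.exp_pos (ρ * n)).le
    rw [h1] at h2
    have h3 : (0:ℝ) < 2 ^ Fintype.card ι := by positivity
    calc (2:ℝ) ^ Fintype.card ι * Real.exp (ρ * n / 2)
        ≤ 2 ^ Fintype.card ι * (Real.exp (ρ * n) * gibbsWeight J x) :=
          mul_le_mul_of_nonneg_left h2 h3.le
      _ = _ := by ring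
  have hpos : 0 < (gibbs J x)⁻¹ := by
    unfold gibbs
    rw [inv_div]
    exact div_pos hZ0 hw0
  have h5 := Real.log_le_log hpos hinv
  rw [Real.log_mul (by positivity) (Real.exp_pos _).ne', Real.log_exp, Real.log_pow] at h5
  rw [← hn] at h5
  nlinarith

/-- **The deterministic main theorem.** Symmetric zero-diagonal couplings with spectral norm at
most `ρ`, squared row norms at most `r2`, entries at most `η ≤ 1/200`, `4 r2 ≤ ρ` and
`κ = 1 - ρ - 25 η r2 > 0`. -/
theorem ising_main2 [Nonempty ι] (J : ι → ι → ℝ) (hsym : ∀ i j, J i j = J j i)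
    (hdiag : ∀ i, J i i = 0) {ρ r2 η : ℝ} (hρ0 : 0 ≤ ρ)
    (hρ : ∀ v : ι → ℝ, ∑ i, (∑ j, J i j * v j) ^ 2 ≤ ρ ^ 2 * ∑ i, v i ^ 2)
    (hr : ∀ j, ∑ i, J i j ^ 2 ≤ r2) (hη : ∀ i j, |J i j| ≤ η) (hη1 : η ≤ 1 / 200)
    (hρr : 4 * r2 ≤ ρ) {κ : ℝ} (hκdef : κ = 1 - ρ - 25 * η * r2) (hκ : 0 < κ) :
    κ ≤ spectralGap J ∧ spectralGap J ≤ 1 ∧
      mixingTime J ≤ Real.exp (2 * ρ / κ) * Real.log (128 * (Fintype.card ι : ℝ)) ∧
      (1 / 3) * Real.log (3 * κ * (Fintype.card ι : ℝ) / 80) ≤ mixingTime J := by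
  have hG := isGlauber J hdiag
  have hR := isRev J hsym hdiag
  set n : ℝ := (Fintype.card ι : ℝ) with hn
  have hn1 : 1 ≤ n := by
    have : 0 < Fintype.card ι := Fintype.card_pos
    simp only [hn]
    exact_mod_cast this
  obtain ⟨i0⟩ := (inferInstance : Nonempty ι)
  have hη0 : 0 ≤ η := (abs_nonneg _).trans (hη i0 i0)
  have hr0 : 0 ≤ r2 := (Finset.sum_nonneg (fun _ _ => sq_nonneg _)).trans (hr i0)
  have hρ1 : ρ < 1 := by
    have : 0 ≤ 25 * η * r2 := by positivity
    linarith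
  have hκ1 : κ ≤ 1 := by
    rw [hκdef]
    have : 0 ≤ 25 * η * r2 := by positivity
    linarith
  -- the integrated curvature bound
  have hB : IntCurvBound (gibbs J) (tf J) κ := by
    have := intCurvBound_tfh J hsym hdiag (fun _ => 0) hρ0 hρ hr hη hη1 hρr
    rwa [gibbsH_zero, tfh_zero, ← hκdef] at this
  -- the pointwise curvature bound
  have hC : ∀ x, CurvAt (tf J) (-(1 / 2)) x := by
    intro x
    have h1 := curv_ising J hsym hρ0 hρ hr (fun i j => (hη i j).trans hη1) x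
    refine curvAt_mono ?_ h1
    linarith
  -- the entropy factorization
  set C := Real.exp (2 * ρ / κ) with hCdef
  have hC0 : 0 < C := Real.exp_pos _
  have hF : EntFactor (gibbs J) (tf J) C := by
    intro f hf hf1
    obtain ⟨R, hRoot⟩ := exists_root J hsym hρ0 hρ
    have hcov : ∀ τ : ℝ, 0 ≤ τ → τ ≤ 1 → CovBound (Jt J τ) κ := by
      intro τ h0 h1
      rw [hκdef]
      exact covBound_Jt J hsym hdiag hρ0 hρ hr hη hη1 hρr (by rw [← hκdef]; exact hκ) h0 h1
    have := ent_factor hRoot (fun _ => 0) hsym hdiag hρ0 hρ hκ hcov hf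
      (by rw [gibbsH_zero]; exact hf1)
    rw [gibbsH_zero, tfh_zero] at this
    exact this
  -- the mixing time bound
  set B := n * (Real.log 2 + ρ) with hBdef
  have hBb : ∀ x, Real.log (gibbs J x)⁻¹ ≤ B := fun x => log_inv_gibbs_le J hρ0 hρ x
  have hlog2 : (1 / 2 : ℝ) < Real.log 2 := by
    have := Real.log_two_gt_d9
    norm_num at this ⊢
    linarith
  have hlog2' : Real.log 2 ≤ 1 := by
    have := Real.log_two_lt_d9
    norm_num at this ⊢
    linarith
  have hB0 : 0 < B := by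
    rw [hBdef]
    have : 0 < Real.log 2 + ρ := by linarith
    positivity
  have hB1 : B ≤ 2 * n := by
    rw [hBdef]
    nlinarith
  have hB2 : 1 ≤ 64 * B := by
    rw [hBdef]
    nlinarith
  set T := C * Real.log (128 * n) with hT
  have h128 : 1 ≤ 128 * n := by linarith
  have hT0 : 0 ≤ T := mul_nonneg hC0.le (Real.log_nonneg h128)
  have hmemT : T ∈ {t : ℝ | 0 ≤ t ∧ ∀ x, tvDist (semigroup J t x) (gibbs J) ≤ 1 / 4} := by
    refine ⟨hT0, fun x => ?_⟩
    have h1 := tv_le_of_ent hG hR hC0 hF hBb hT0 x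
    have h2 : T / C = Real.log (128 * n) := by
      rw [hT]; field_simp
    have h3 : Real.exp (-(T / C)) = (128 * n)⁻¹ := by
      rw [h2, Real.exp_neg, Real.exp_log (by linarith)]
    rw [h3] at h1
    refine h1.trans ?_
    have hbound : (128 * n)⁻¹ * B ≤ (1 / 8) ^ 2 * 1 := by
      rw [inv_mul_le_iff₀ (by linarith)]
      nlinarith
    have h4 : Real.sqrt ((128 * n)⁻¹ * B) ≤ 1 / 8 := by
      rw [show (1 / 8 : ℝ) = Real.sqrt ((1 / 8) ^ 2) by
        rw [Real.sqrt_sq (by norm_num)]]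
      exact Real.sqrt_le_sqrt (by linarith)
    linarith
  have hPoin : ∀ f, κ * gibbsVar J f ≤ dirichletForm J f := fun f => poincare_int hG hR hκ hB f
  set σ : (ι → Bool) → ℝ := fun x => spin (x i0) with hσ
  have hvarσ : gibbsVar J σ = 1 := by
    unfold gibbsVar
    have h1 : ∑ x, gibbs J x * σ x ^ 2 = 1 := by
      simp only [hσ, spin_sq, mul_one, gibbs_sum]
    rw [h1, gibbs_mean_zero J i0]
    norm_num
  have hdirσ : dirichletForm J σ ≤ 1 := dirichlet_spin_le hG hR i0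
  have hlower : ∀ r ∈ {r : ℝ | ∃ f, 0 < gibbsVar J f ∧ r = dirichletForm J f / gibbsVar J f},
      κ ≤ r := by
    rintro r ⟨f, hf, rfl⟩
    rw [le_div_iff₀ hf]
    exact hPoin f
  have hmem : dirichletForm J σ / gibbsVar J σ
      ∈ {r : ℝ | ∃ f, 0 < gibbsVar J f ∧ r = dirichletForm J f / gibbsVar J f} :=
    ⟨σ, by rw [hvarσ]; norm_num, rfl⟩
  refine ⟨?_, ?_, ?_, ?_⟩
  · exact le_csInf ⟨_, hmem⟩ hlower
  · refine (csInf_le ⟨κ, hlower⟩ hmem).trans ?_
    rw [hvarσ, div_one]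
    exact hdirσ
  · exact csInf_le ⟨0, fun t ht => ht.1⟩ hmemT
  · refine le_csInf ⟨T, hmemT⟩ ?_
    rintro t ⟨ht0, htv⟩
    have h1 := mix_lower_neg hG hR hκ hB hC (gibbs_mean_zero J) ht0 htv
    rw [← hn] at h1
    have hpos : 0 < 3 * κ * n / 80 := by positivity
    have h2 : Real.log (3 * κ * n / 80) ≤ 3 * t := by
      rw [Real.log_le_iff_le_exp hpos]
      have hexp := Real.exp_pos (3 * t)
      have : (64 * κ + 16) * Real.exp (3 * t) ≤ 80 * Real.exp (3 * t) :=
        mul_le_mul_of_nonneg_right (by linarith) hexp.le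
      linarith
    linarith

end Vale.Agent.Lib.P150
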