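import Vale.Agent.Lib.P150.Reversible

open scoped BigOperators
open Function

set_option linter.unusedSectionVars false
set_option linter.unusedSimpArgs false
set_option linter.unusedVariables false

noncomputable section

namespace Vale.Agent.Lib.P150

variable {ι : Type*} [Fintype ι] [DecidableEq ι]

lemma act_apply {Ω : Type*} [Fintype Ω] [DecidableEq Ω] (L : Matrix Ω Ω ℝ) (s : ℝ) (f : Ω → ℝ)
    (x : Ω) : act L s f x = ∑ y, sg L s x y * f y := by
  simp [act, Matrix.mulVec, dotProduct]

lemma sg_row_sum {L : Matrix (ι → Bool) (ι → Bool) ℝ} {t : (ι → Bool) → ι → ℝ}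
    (hG : IsGlauber L t) (s : ℝ) (x : ι → Bool) : ∑ y, sg L s x y = 1 := by
  have h := act_const L hG.mulVec_one s 1 x
  rw [act_apply] at h
  simpa using h

/-- Upper bound on the total variation distance. -/
theorem tv_le {L : Matrix (ι → Bool) (ι → Bool) ℝ} {t : (ι → Bool) → ι → ℝ}
    (hG : IsGlauber L t) {π : (ι → Bool) → ℝ} (hR : IsRev π t) {κ : ℝ}
    (hC : ∀ x, CurvAt t κ x) {s : ℝ} (hs : 0 ≤ s) (x : ι → Bool) :
    tvDist (sg L s x) π
      ≤ (Fintype.card ι : ℝ) * Real.sqrt (Fintype.card ι) * Real.exp (-(κ * s)) := by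
  set n : ℝ := (Fintype.card ι : ℝ) with hn
  have hn0 : 0 ≤ n := by simp [hn]
  set p := sg L s x with hp
  -- the test function
  set g : (ι → Bool) → ℝ := fun y => if π y < p y then 1 else 0 with hg
  have hg01 : ∀ y, g y = 0 ∨ g y = 1 := by
    intro y; simp only [hg]; split_ifs <;> simp
  have hgrad : ∀ y, gradSq g y ≤ n / 4 := by
    intro y
    have hD : ∀ j, (D j g y) ^ 2 ≤ 1 / 4 := by
      intro j
      unfold D
      rcases hg01 (update y j true) with h1 | h1 <;> rcases hg01 (update y j false) with h2 | h2 <;>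
        rw [h1, h2] <;> norm_num
    calc gradSq g y ≤ ∑ j : ι, (1 / 4 : ℝ) := Finset.sum_le_sum (fun j _ => hD j)
      _ = n / 4 := by simp [hn]; ring
  have hTV : tvDist p π = ∑ y, (p y - π y) * g y := by
    have hsum : ∑ y, (p y - π y) = 0 := by
      rw [Finset.sum_sub_distrib, hR.sum_one, hp, sg_row_sum hG]; ring
    have habs : ∀ y, |p y - π y| = 2 * ((p y - π y) * g y) - (p y - π y) := by
      intro y
      simp only [hg]
      split_ifs with h
      · rw [abs_of_pos (by linarith)]; ring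
      · rw [abs_of_nonpos (by linarith)]; ring
    unfold tvDist
    simp only [habs, Finset.sum_sub_distrib, ← Finset.mul_sum]
    rw [Finset.sum_sub_distrib] at hsum
    linarith
  have hgact : ∑ y, (p y - π y) * g y = ∑ z, π z * (act L s g x - act L s g z) := by
    have h1 : ∑ y, p y * g y = act L s g x := by
      rw [act_apply]
    have h2 : ∑ z, π z * act L s g z = ∑ y, π y * g y := sum_act hG hR s g
    have h3 : ∑ z, π z * (act L s g x - act L s g z)
        = act L s g x * ∑ z, π z - ∑ z, π z * act L s g z := by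
      rw [Finset.mul_sum, ← Finset.sum_sub_distrib]
      exact Finset.sum_congr rfl (fun y _ => by ring)
    rw [h3, hR.sum_one, h2, mul_one, ← h1, ← Finset.sum_sub_distrib]
    exact Finset.sum_congr rfl (fun y _ => by ring)
  set B := Real.sqrt (n / 4 * Real.exp (-(2 * κ * s))) with hB
  have hDact : ∀ j z, |D j (act L s g) z| ≤ B := by
    intro j z
    refine (abs_D_le_sqrt _ j z).trans (Real.sqrt_le_sqrt ?_)
    exact grad_decay hG hC g hgrad hs z
  have hosc : ∀ a b, |act L s g a - act L s g b| ≤ 2 * n * B := abs_sub_le_path _ hDact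
  have hBeq : 2 * n * B = n * Real.sqrt n * Real.exp (-(κ * s)) := by
    have e : n / 4 * Real.exp (-(2 * κ * s)) = (Real.sqrt n / 2 * Real.exp (-(κ * s))) ^ 2 := by
      rw [mul_pow, div_pow, Real.sq_sqrt hn0, ← Real.exp_nat_mul]
      congr 2
      · norm_num
      · push_cast; ring
    rw [hB, e, Real.sqrt_sq (by positivity)]
    ring
  rw [hTV, hgact, ← hBeq]
  calc ∑ z, π z * (act L s g x - act L s g z) ≤ ∑ z, π z * (2 * n * B) := by
        refine Finset.sum_le_sum (fun z _ => mul_le_mul_of_nonneg_left ?_ (hR.pos z).le)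
        exact (le_abs_self _).trans (hosc x z)
    _ = 2 * n * B := by rw [← Finset.sum_mul, hR.sum_one, one_mul]

/-- The mean-zero correlation bound `⟨x_i, P_s x_i⟩ ≥ e^{-s}`. -/
lemma corr_lower {L : Matrix (ι → Bool) (ι → Bool) ℝ} {t : (ι → Bool) → ι → ℝ}
    (hG : IsGlauber L t) {π : (ι → Bool) → ℝ} (hR : IsRev π t) (i : ι) {s : ℝ} (hs : 0 ≤ s) :
    Real.exp (-s) ≤ ip π (fun x => spin (x i)) (act L s (fun x => spin (x i))) := by
  set σ : (ι → Bool) → ℝ := fun x => spin (x i) with hσ
  have hσσ : ip π σ σ = 1 := by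
    simp only [ip, hσ, spin_mul_self, mul_one, hR.sum_one]
  have hσ0 : σ ≠ 0 := by
    intro h
    have : ip π σ σ = 0 := by simp [h, ip]
    rw [hσσ] at this
    exact one_ne_zero this
  have hLσ : L.mulVec σ = fun x => t x i - spin (x i) := by
    rw [hG.mulVec_eq]
    funext x
    simp only [gen, hσ, D_spin]
    simp
  have hib := hR.ibp i (fun x => t x i) (fun x b => hG.indep x i b)
  have hst : 0 ≤ ∑ x, π x * (spin (x i) * t x i) := by
    have e : ∑ x, π x * (spin (x i) * t x i) = ∑ x, π x * (t x i) ^ 2 := by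
      have : ∑ x, π x * (spin (x i) * t x i)
          = ∑ x, π x * (t x i) ^ 2 - ∑ x, π x * ((t x i - spin (x i)) * t x i) := by
        rw [← Finset.sum_sub_distrib]
        exact Finset.sum_congr rfl (fun x _ => by ring)
      rw [this, hib]; ring
    rw [e]
    exact Finset.sum_nonneg (fun x _ => mul_nonneg (hR.pos x).le (sq_nonneg _))
  have hE : -1 ≤ ip π σ (L.mulVec σ) := by
    rw [hLσ]
    have e : ip π σ (fun x => t x i - spin (x i))
        = ∑ x, π x * (spin (x i) * t x i) - ∑ x, π x := by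
      unfold ip
      rw [← Finset.sum_sub_distrib]
      refine Finset.sum_congr rfl (fun x _ => ?_)
      simp only [hσ]
      have hs := spin_mul_self (x i)
      linear_combination (-(π x)) * hs
    rw [e, hR.sum_one]
    linarith
  have h1 := norm_act_lower L π hR.pos (Lsymm hG hR) hσ0 (t := s / 2) (by positivity)
  rw [hσσ, one_mul] at h1
  have h2 : ip π (act L (s / 2) σ) (act L (s / 2) σ) = ip π σ (act L s σ) := by
    have e : act L s σ = act L (s / 2) (act L (s / 2) σ) := by
      rw [← act_add]; congr 1; ring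
    rw [e]
    exact (ip_act_symm L π (Lsymm hG hR) (s / 2) σ (act L (s / 2) σ)).symm
  rw [h2] at h1
  refine le_trans (Real.exp_le_exp.mpr ?_) h1
  have : s / 2 * (2 * ip π σ (L.mulVec σ) / 1) = s * ip π σ (L.mulVec σ) := by ring
  rw [this]
  nlinarith

/-- The lower bound on the mixing time: if all distances at time `s` are at most `1/4`,
then `κ n ≤ 16 e^{2 s}`. -/
theorem mix_lower [Nonempty ι] {L : Matrix (ι → Bool) (ι → Bool) ℝ} {t : (ι → Bool) → ι → ℝ}
    (hG : IsGlauber L t) {π : (ι → Bool) → ℝ} (hR : IsRev π t) {κ : ℝ} (hκ : 0 < κ)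
    (hC : ∀ x, CurvAt t κ x) (hmean : ∀ i, ∑ x, π x * spin (x i) = 0)
    {s : ℝ} (hs : 0 ≤ s) (htv : ∀ x, tvDist (sg L s x) π ≤ 1 / 4) :
    κ * (Fintype.card ι : ℝ) ≤ 16 * Real.exp (2 * s) := by
  set n : ℝ := (Fintype.card ι : ℝ) with hn
  have hnpos : 0 < n := by simp [hn, Fintype.card_pos]
  -- the overlap statistic
  set F : (ι → Bool) → (ι → Bool) → ℝ := fun a x => ∑ i, spin (a i) * spin (x i) with hF
  have hactF : ∀ a y, act L s (F a) y = ∑ i, spin (a i) * act L s (fun x => spin (x i)) y := by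
    intro a y
    simp only [act_apply, hF, Finset.mul_sum]
    rw [Finset.sum_comm]
    exact Finset.sum_congr rfl (fun i _ => Finset.sum_congr rfl (fun z _ => by ring))
  -- existence of a good starting point
  have hexists : ∃ a, n * Real.exp (-s) ≤ act L s (F a) a := by
    by_contra hno
    push Not at hno
    have h1 : ∑ a, π a * act L s (F a) a < ∑ a, π a * (n * Real.exp (-s)) :=
      Finset.sum_lt_sum_of_nonempty Finset.univ_nonempty
        (fun a _ => mul_lt_mul_of_pos_left (hno a) (hR.pos a))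
    rw [← Finset.sum_mul, hR.sum_one, one_mul] at h1
    have h2 : ∑ a, π a * act L s (F a) a
        = ∑ i, ip π (fun x => spin (x i)) (act L s (fun x => spin (x i))) := by
      simp only [hactF, ip, Finset.mul_sum]
      rw [Finset.sum_comm]
    have h3 : n * Real.exp (-s)
        ≤ ∑ i, ip π (fun x => spin (x i)) (act L s (fun x => spin (x i))) := by
      calc n * Real.exp (-s) = ∑ i : ι, Real.exp (-s) := by simp [hn]
        _ ≤ _ := Finset.sum_le_sum (fun i _ => corr_lower hG hR i hs)
    linarith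
  obtain ⟨a, ha⟩ := hexists
  set f := F a with hf
  have hDf : ∀ j z, D j f z = spin (a j) := by
    intro j z
    have e : f = fun y => ∑ i, spin (a i) * spin (y i) := rfl
    rw [e, D_sum]
    simp only [D_const_mul, D_spin]
    simp
  have hgradf : ∀ y, gradSq f y ≤ n := by
    intro y
    unfold gradSq
    simp only [hDf, spin_sq]
    simp [hn]
  -- variance from the start `a`
  have hvar := var_bound hG hκ hC f hgradf hs a
  -- variance under the Gibbs measure
  have hmeanf : ∑ x, π x * f x = 0 := by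
    have e : ∀ x, π x * f x = ∑ i, spin (a i) * (π x * spin (x i)) := by
      intro x
      simp only [hf, hF, Finset.mul_sum]
      exact Finset.sum_congr rfl (fun i _ => by ring)
    simp only [e]
    rw [Finset.sum_comm]
    simp only [← Finset.mul_sum, hmean]
    simp
  have hpoin := poincare hG hR hκ hC f
  have hdir : -ip π f (L.mulVec f) ≤ n := by
    rw [hG.mulVec_eq, ip_gen π hR hG.indep, neg_neg]
    simp only [hDf, spin_mul_self, mul_one]
    have h1 : ∀ i, ∑ x, π x * (1 - spin (x i) * t x i) ≤ 1 := by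
      intro i
      have hib := hR.ibp i (fun x => t x i) (fun x b => hG.indep x i b)
      have hst : 0 ≤ ∑ x, π x * (spin (x i) * t x i) := by
        have e : ∑ x, π x * (spin (x i) * t x i) = ∑ x, π x * (t x i) ^ 2 := by
          have : ∑ x, π x * (spin (x i) * t x i)
              = ∑ x, π x * (t x i) ^ 2 - ∑ x, π x * ((t x i - spin (x i)) * t x i) := by
            rw [← Finset.sum_sub_distrib]
            exact Finset.sum_congr rfl (fun x _ => by ring)
          rw [this, hib]; ring
        rw [e]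
        exact Finset.sum_nonneg (fun x _ => mul_nonneg (hR.pos x).le (sq_nonneg _))
      have e : ∑ x, π x * (1 - spin (x i) * t x i) = ∑ x, π x - ∑ x, π x * (spin (x i) * t x i) := by
        rw [← Finset.sum_sub_distrib]
        exact Finset.sum_congr rfl (fun x _ => by ring)
      rw [e, hR.sum_one]; linarith
    calc ∑ i, ∑ x, π x * (1 - spin (x i) * t x i) ≤ ∑ i : ι, (1 : ℝ) :=
          Finset.sum_le_sum (fun i _ => h1 i)
      _ = n := by simp [hn]
  have hπf2 : ∑ x, π x * f x ^ 2 ≤ n / κ := by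
    rw [hmeanf] at hpoin
    rw [le_div_iff₀ hκ]
    nlinarith
  -- the test set
  set b := n / 2 * Real.exp (-s) with hb
  have hbpos : 0 < b := by positivity
  set p := sg L s a with hp
  have hpnn : ∀ z, 0 ≤ p z := fun z => sg_nonneg L hG.offdiag hs a z
  have hpsum : ∑ z, p z = 1 := sg_row_sum hG s a
  set m := act L s f a with hm
  have hm2b : 2 * b ≤ m := by
    have : 2 * b = n * Real.exp (-s) := by rw [hb]; ring
    rw [this]; exact ha
  have hmeq : ∑ z, p z * f z = m := by rw [hm, act_apply]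
  have hm2eq : ∑ z, p z * f z ^ 2 = act L s (fun y => f y ^ 2) a := by rw [act_apply]
  set A : Finset (ι → Bool) := Finset.univ.filter (fun z => b ≤ f z) with hA
  -- Chebyshev for `p`
  have hp1 : (∑ z ∈ Aᶜ, p z) * b ^ 2 ≤ 2 * n / κ := by
    have h1 : ∑ z, p z * (f z - m) ^ 2 = act L s (fun y => f y ^ 2) a - m ^ 2 := by
      have : ∀ z, p z * (f z - m) ^ 2 = p z * f z ^ 2 - 2 * m * (p z * f z) + m ^ 2 * p z := by
        intro z; ring
      simp only [this, Finset.sum_add_distrib, Finset.sum_sub_distrib, ← Finset.mul_sum, hpsum,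
        hmeq, hm2eq]
      ring
    have h2 : (∑ z ∈ Aᶜ, p z) * b ^ 2 ≤ ∑ z, p z * (f z - m) ^ 2 := by
      rw [Finset.sum_mul]
      calc ∑ z ∈ Aᶜ, p z * b ^ 2 ≤ ∑ z ∈ Aᶜ, p z * (f z - m) ^ 2 := by
            refine Finset.sum_le_sum (fun z hz => mul_le_mul_of_nonneg_left ?_ (hpnn z))
            have hz' : f z < b := by
              simpa [hA] using hz
            have : b ≤ m - f z := by linarith
            have h3 : (f z - m) ^ 2 = (m - f z) ^ 2 := by ring
            rw [h3]
            exact pow_le_pow_left₀ hbpos.le this 2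
        _ ≤ ∑ z, p z * (f z - m) ^ 2 :=
            Finset.sum_le_sum_of_subset_of_nonneg (Finset.subset_univ _)
              (fun z _ _ => mul_nonneg (hpnn z) (sq_nonneg _))
    have h3 : act L s (fun y => f y ^ 2) a - m ^ 2 ≤ 2 * n / κ := hvar
    linarith
  -- Markov for `π`
  have hp2 : (∑ z ∈ A, π z) * b ^ 2 ≤ n / κ := by
    refine le_trans ?_ hπf2
    rw [Finset.sum_mul]
    calc ∑ z ∈ A, π z * b ^ 2 ≤ ∑ z ∈ A, π z * f z ^ 2 := by
          refine Finset.sum_le_sum (fun z hz => mul_le_mul_of_nonneg_left ?_ (hR.pos z).le)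
          have hz' : b ≤ f z := by simpa [hA] using hz
          exact pow_le_pow_left₀ hbpos.le hz' 2
      _ ≤ ∑ z, π z * f z ^ 2 :=
          Finset.sum_le_sum_of_subset_of_nonneg (Finset.subset_univ _)
            (fun z _ _ => mul_nonneg (hR.pos z).le (sq_nonneg _))
  -- total variation lower bound
  have htvlow : (∑ z ∈ A, p z) - ∑ z ∈ A, π z ≤ tvDist p π := by
    have hsum0 : ∑ z, (p z - π z) = 0 := by
      rw [Finset.sum_sub_distrib, hR.sum_one, hpsum]; ring
    have hsplit := Finset.sum_add_sum_compl A (fun z => p z - π z)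
    rw [hsum0] at hsplit
    have h1 : ∑ z ∈ A, (p z - π z) ≤ ∑ z ∈ A, |p z - π z| :=
      Finset.sum_le_sum (fun z _ => le_abs_self _)
    have h2 : -∑ z ∈ Aᶜ, (p z - π z) ≤ ∑ z ∈ Aᶜ, |p z - π z| := by
      rw [← Finset.sum_neg_distrib]
      exact Finset.sum_le_sum (fun z _ => neg_le_abs _)
    have h3 := Finset.sum_add_sum_compl A (fun z => |p z - π z|)
    unfold tvDist
    rw [← h3, ← Finset.sum_sub_distrib]
    linarith
  have h4 := htv a
  have hcompl : ∑ z ∈ A, p z = 1 - ∑ z ∈ Aᶜ, p z := by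
    have := Finset.sum_add_sum_compl A p
    rw [hpsum] at this
    linarith
  have hmain : 3 / 4 ≤ (∑ z ∈ Aᶜ, p z) + ∑ z ∈ A, π z := by
    have := htvlow.trans h4
    rw [hcompl] at this
    linarith
  have hb2 : (3 / 4) * b ^ 2 ≤ 3 * n / κ := by
    have h5 : (3 / 4) * b ^ 2 ≤ ((∑ z ∈ Aᶜ, p z) + ∑ z ∈ A, π z) * b ^ 2 :=
      mul_le_mul_of_nonneg_right hmain (sq_nonneg _)
    have e : 3 * n / κ = 2 * n / κ + n / κ := by ring
    rw [e]
    nlinarith
  -- conclude
  have hb2eq : b ^ 2 = n ^ 2 / 4 * Real.exp (-(2 * s)) := by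
    rw [hb, mul_pow, div_pow, ← Real.exp_nat_mul]
    congr 2
    · norm_num
    · push_cast; ring
  rw [hb2eq] at hb2
  have hexp : Real.exp (-(2 * s)) * Real.exp (2 * s) = 1 := by
    rw [← Real.exp_add]; simp
  have hexppos : 0 < Real.exp (2 * s) := Real.exp_pos _
  have h6 : (3 / 4) * (n ^ 2 / 4) ≤ (3 * n / κ) * Real.exp (2 * s) := by
    calc (3 / 4) * (n ^ 2 / 4) = (3 / 4) * (n ^ 2 / 4 * Real.exp (-(2 * s))) * Real.exp (2 * s) := by
          rw [mul_assoc, mul_assoc, hexp]; ring
      _ ≤ _ := mul_le_mul_of_nonneg_right hb2 hexppos.le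
  have h7 : 3 * n / κ * Real.exp (2 * s) = (3 * n * Real.exp (2 * s)) / κ := by ring
  rw [h7, le_div_iff₀ hκ] at h6
  nlinarith

end Vale.Agent.Lib.P150
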