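import Vale.Agent.Lib.P150.EntDecay

/-!
A lower bound on the mixing time that allows a mildly negative pointwise curvature.
-/

open scoped BigOperators
open Function

set_option linter.unusedSectionVars false
set_option linter.unusedSimpArgs false
set_option linter.unusedVariables false

noncomputable section

namespace Vale.Agent.Lib.P150

variable {ι : Type*} [Fintype ι] [DecidableEq ι]

/-- Variance along the semigroup under the curvature bound `-1/2`. -/
theorem var_bound_neg {L : Matrix (ι → Bool) (ι → Bool) ℝ} {t : (ι → Bool) → ι → ℝ}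
    (hG : IsGlauber L t) (hC : ∀ x, CurvAt t (-(1 / 2)) x) (f : (ι → Bool) → ℝ) {G : ℝ}
    (hf : ∀ y, gradSq f y ≤ G) {T : ℝ} (hT : 0 ≤ T) (x : ι → Bool) :
    act L T (fun y => f y ^ 2) x - (act L T f x) ^ 2 ≤ 4 * G * Real.exp T := by
  have hG0 : 0 ≤ G := (Finset.sum_nonneg (fun _ _ => sq_nonneg _)).trans (hf x)
  set c := 4 * G with hc
  have hc0 : 0 ≤ c := by positivity
  set W : ℝ → (ι → Bool) → ℝ := fun r y =>
    act L r (fun z => f z ^ 2) y - (act L r f y) ^ 2 - c * (Real.exp r - 1) with hW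
  set W' : ℝ → (ι → Bool) → ℝ := fun r y =>
    L.mulVec (act L r (fun z => f z ^ 2)) y - 2 * act L r f y * L.mulVec (act L r f) y
      - 4 * G * Real.exp r with hW'
  have hd : ∀ r y, HasDerivAt (fun q => W q y) (W' r y) r := by
    intro r y
    have h1 := act_hasDerivAt L (fun z => f z ^ 2) y r
    have h2 := act_hasDerivAt L f y r
    have h3 := Real.hasDerivAt_exp r
    have h4 : HasDerivAt (fun q : ℝ => c * (Real.exp q - 1)) (c * Real.exp r) r :=
      (h3.sub_const 1).const_mul c
    refine ((h1.sub (h2.pow 2)).sub h4).congr_deriv ?_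
    simp only [hW', hc]
    ring
  have hle : ∀ r, 0 ≤ r → ∀ y, W' r y ≤ L.mulVec (W r) y := by
    intro r hr y
    have hgd := grad_decay hG hC f hf hr y
    have e0 : -(2 * (-(1 / 2 : ℝ)) * r) = r := by ring
    rw [e0] at hgd
    have e1 : L.mulVec (W r) y = gen t (act L r (fun z => f z ^ 2)) y
        - gen t (fun z => (act L r f z) ^ 2) y := by
      rw [hG.mulVec_eq]
      simp only [gen, hW, D_sub, D]
      rw [← Finset.sum_sub_distrib]
      refine Finset.sum_congr rfl (fun i _ => ?_)
      ring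
    rw [e1, gen_sq]
    simp only [hW', hG.mulVec_eq]
    have h5 : ∑ i, (1 - spin (y i) * t y i) * (D i (act L r f) y) ^ 2
        ≤ 2 * gradSq (act L r f) y := by
      unfold gradSq
      rw [Finset.mul_sum]
      exact Finset.sum_le_sum (fun i _ => mul_le_mul_of_nonneg_right
        (one_sub_spin_mul_t_le_two hG.lt_one y i) (sq_nonneg _))
    nlinarith
  have hm := max_principle L hG.offdiag W W' hd hle hT x
  have e0 : W 0 = fun _ => 0 := by
    funext y
    simp [hW, act_zero]
  rw [e0, act_const L hG.mulVec_one] at hm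
  simp only [hW] at hm
  have h6 : c * (Real.exp T - 1) ≤ c * Real.exp T := by nlinarith
  linarith

/-- The lower bound on the mixing time. -/
theorem mix_lower_neg [Nonempty ι] {L : Matrix (ι → Bool) (ι → Bool) ℝ} {t : (ι → Bool) → ι → ℝ}
    (hG : IsGlauber L t) {π : (ι → Bool) → ℝ} (hR : IsRev π t) {κ : ℝ} (hκ : 0 < κ)
    (hB : IntCurvBound π t κ)
    (hC : ∀ x, CurvAt t (-(1 / 2)) x) (hmean : ∀ i, ∑ x, π x * spin (x i) = 0)
    {s : ℝ} (hs : 0 ≤ s) (htv : ∀ x, tvDist (sg L s x) π ≤ 1 / 4) :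
    3 * κ * (Fintype.card ι : ℝ) ≤ (64 * κ + 16) * Real.exp (3 * s) := by
  set n : ℝ := (Fintype.card ι : ℝ) with hn
  have hnpos : 0 < n := by simp [hn, Fintype.card_pos]
  -- the overlap statistic
  set F : (ι → Bool) → (ι → Bool) → ℝ := fun a x => ∑ i, spin (a i) * spin (x i) with hF
  have hactF : ∀ a y, act L s (F a) y = ∑ i, spin (a i) * act L s (fun x => spin (x i)) y := by
    intro a y
    simp only [act_apply, hF, Finset.mul_sum]
    rw [Finset.sum_comm]
    exact Finset.sum_congr rfl (fun i _ => Finset.sum_congr rfl (fun z _ => by ring))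
  -- existence of a good starting point
  have hexists : ∃ a, n * Real.exp (-s) ≤ act L s (F a) a := by
    by_contra hno
    push Not at hno
    have h1 : ∑ a, π a * act L s (F a) a < ∑ a, π a * (n * Real.exp (-s)) :=
      Finset.sum_lt_sum_of_nonempty Finset.univ_nonempty
        (fun a _ => mul_lt_mul_of_pos_left (hno a) (hR.pos a))
    rw [← Finset.sum_mul, hR.sum_one, one_mul] at h1
    have h2 : ∑ a, π a * act L s (F a) a
        = ∑ i, ip π (fun x => spin (x i)) (act L s (fun x => spin (x i))) := by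
      simp only [hactF, ip, Finset.mul_sum]
      rw [Finset.sum_comm]
    have h3 : n * Real.exp (-s)
        ≤ ∑ i, ip π (fun x => spin (x i)) (act L s (fun x => spin (x i))) := by
      calc n * Real.exp (-s) = ∑ i : ι, Real.exp (-s) := by simp [hn]
        _ ≤ _ := Finset.sum_le_sum (fun i _ => corr_lower hG hR i hs)
    linarith
  obtain ⟨a, ha⟩ := hexists
  set f := F a with hf
  have hDf : ∀ j z, D j f z = spin (a j) := by
    intro j z
    have e : f = fun y => ∑ i, spin (a i) * spin (y i) := rfl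
    rw [e, D_sum]
    simp only [D_const_mul, D_spin]
    simp
  have hgradf : ∀ y, gradSq f y ≤ n := by
    intro y
    unfold gradSq
    simp only [hDf, spin_sq]
    simp [hn]
  -- variance from the start `a`
  have hvar := var_bound_neg hG hC f hgradf hs a
  -- variance under the Gibbs measure
  have hmeanf : ∑ x, π x * f x = 0 := by
    have e : ∀ x, π x * f x = ∑ i, spin (a i) * (π x * spin (x i)) := by
      intro x
      simp only [hf, hF, Finset.mul_sum]
      exact Finset.sum_congr rfl (fun i _ => by ring)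
    simp only [e]
    rw [Finset.sum_comm]
    simp only [← Finset.mul_sum, hmean]
    simp
  have hpoin := poincare_int hG hR hκ hB f
  have hdir : -ip π f (L.mulVec f) ≤ n := by
    refine (dirichlet_le_grad hG hR f).trans ?_
    calc _ ≤ ∑ x, π x * n :=
          Finset.sum_le_sum (fun x _ => mul_le_mul_of_nonneg_left (hgradf x) (hR.pos x).le)
      _ = n := by rw [← Finset.sum_mul, hR.sum_one, one_mul]
  have hπf2 : ∑ x, π x * f x ^ 2 ≤ n / κ := by
    rw [hmeanf] at hpoin
    rw [le_div_iff₀ hκ]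
    nlinarith
  -- the test set
  set b := n / 2 * Real.exp (-s) with hb
  have hbpos : 0 < b := by positivity
  set p := sg L s a with hp
  have hpnn : ∀ z, 0 ≤ p z := fun z => sg_nonneg L hG.offdiag hs a z
  have hpsum : ∑ z, p z = 1 := sg_row_sum hG s a
  set m := act L s f a with hm
  have hm2b : 2 * b ≤ m := by
    have : 2 * b = n * Real.exp (-s) := by rw [hb]; ring
    rw [this]; exact ha
  have hmeq : ∑ z, p z * f z = m := by rw [hm, act_apply]
  have hm2eq : ∑ z, p z * f z ^ 2 = act L s (fun y => f y ^ 2) a := by rw [act_apply]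
  set A : Finset (ι → Bool) := Finset.univ.filter (fun z => b ≤ f z) with hA
  -- Chebyshev for `p`
  have hp1 : (∑ z ∈ Aᶜ, p z) * b ^ 2 ≤ 4 * n * Real.exp s := by
    have h1 : ∑ z, p z * (f z - m) ^ 2 = act L s (fun y => f y ^ 2) a - m ^ 2 := by
      have : ∀ z, p z * (f z - m) ^ 2 = p z * f z ^ 2 - 2 * m * (p z * f z) + m ^ 2 * p z := by
        intro z; ring
      simp only [this, Finset.sum_add_distrib, Finset.sum_sub_distrib, ← Finset.mul_sum, hpsum,
        hmeq, hm2eq]
      ring
    have h2 : (∑ z ∈ Aᶜ, p z) * b ^ 2 ≤ ∑ z, p z * (f z - m) ^ 2 := by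
      rw [Finset.sum_mul]
      calc ∑ z ∈ Aᶜ, p z * b ^ 2 ≤ ∑ z ∈ Aᶜ, p z * (f z - m) ^ 2 := by
            refine Finset.sum_le_sum (fun z hz => mul_le_mul_of_nonneg_left ?_ (hpnn z))
            have hz' : f z < b := by
              simpa [hA] using hz
            have : b ≤ m - f z := by linarith
            have h3 : (f z - m) ^ 2 = (m - f z) ^ 2 := by ring
            rw [h3]
            exact pow_le_pow_left₀ hbpos.le this 2
        _ ≤ ∑ z, p z * (f z - m) ^ 2 :=
            Finset.sum_le_sum_of_subset_of_nonneg (Finset.subset_univ _)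
              (fun z _ _ => mul_nonneg (hpnn z) (sq_nonneg _))
    have h3 : act L s (fun y => f y ^ 2) a - m ^ 2 ≤ 4 * n * Real.exp s := hvar
    linarith
  -- Markov for `π`
  have hp2 : (∑ z ∈ A, π z) * b ^ 2 ≤ n / κ := by
    refine le_trans ?_ hπf2
    rw [Finset.sum_mul]
    calc ∑ z ∈ A, π z * b ^ 2 ≤ ∑ z ∈ A, π z * f z ^ 2 := by
          refine Finset.sum_le_sum (fun z hz => mul_le_mul_of_nonneg_left ?_ (hR.pos z).le)
          have hz' : b ≤ f z := by simpa [hA] using hz
          exact pow_le_pow_left₀ hbpos.le hz' 2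
      _ ≤ ∑ z, π z * f z ^ 2 :=
          Finset.sum_le_sum_of_subset_of_nonneg (Finset.subset_univ _)
            (fun z _ _ => mul_nonneg (hR.pos z).le (sq_nonneg _))
  -- total variation lower bound
  have htvlow : (∑ z ∈ A, p z) - ∑ z ∈ A, π z ≤ tvDist p π := by
    have hsum0 : ∑ z, (p z - π z) = 0 := by
      rw [Finset.sum_sub_distrib, hR.sum_one, hpsum]; ring
    have hsplit := Finset.sum_add_sum_compl A (fun z => p z - π z)
    rw [hsum0] at hsplit
    have h1 : ∑ z ∈ A, (p z - π z) ≤ ∑ z ∈ A, |p z - π z| :=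
      Finset.sum_le_sum (fun z _ => le_abs_self _)
    have h2 : -∑ z ∈ Aᶜ, (p z - π z) ≤ ∑ z ∈ Aᶜ, |p z - π z| := by
      rw [← Finset.sum_neg_distrib]
      exact Finset.sum_le_sum (fun z _ => neg_le_abs _)
    have h3 := Finset.sum_add_sum_compl A (fun z => |p z - π z|)
    unfold tvDist
    rw [← h3, ← Finset.sum_sub_distrib]
    linarith
  have h4 := htv a
  have hcompl : ∑ z ∈ A, p z = 1 - ∑ z ∈ Aᶜ, p z := by
    have := Finset.sum_add_sum_compl A p
    rw [hpsum] at this
    linarith
  have hmain : 3 / 4 ≤ (∑ z ∈ Aᶜ, p z) + ∑ z ∈ A, π z := by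
    have := htvlow.trans h4
    rw [hcompl] at this
    linarith
  have hb2 : (3 / 4) * b ^ 2 ≤ 4 * n * Real.exp s + n / κ := by
    have h5 : (3 / 4) * b ^ 2 ≤ ((∑ z ∈ Aᶜ, p z) + ∑ z ∈ A, π z) * b ^ 2 :=
      mul_le_mul_of_nonneg_right hmain (sq_nonneg _)
    nlinarith
  -- conclude
  have hb2eq : b ^ 2 = n ^ 2 / 4 * Real.exp (-(2 * s)) := by
    rw [hb, mul_pow, div_pow, ← Real.exp_nat_mul]
    congr 2
    · norm_num
    · push_cast; ring
  rw [hb2eq] at hb2
  have hexp : Real.exp (-(2 * s)) * Real.exp (2 * s) = 1 := by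
    rw [← Real.exp_add]; simp
  have hexppos : 0 < Real.exp (2 * s) := Real.exp_pos _
  have h6 : (3 / 4) * (n ^ 2 / 4) ≤ (4 * n * Real.exp s + n / κ) * Real.exp (2 * s) := by
    calc (3 / 4) * (n ^ 2 / 4) = (3 / 4) * (n ^ 2 / 4 * Real.exp (-(2 * s))) * Real.exp (2 * s) := by
          rw [mul_assoc, mul_assoc, hexp]; ring
      _ ≤ _ := mul_le_mul_of_nonneg_right hb2 hexppos.le
  have h7 : Real.exp s * Real.exp (2 * s) = Real.exp (3 * s) := by
    rw [← Real.exp_add]; congr 1; ring
  have h8 : Real.exp (2 * s) ≤ Real.exp (3 * s) := Real.exp_le_exp.2 (by linarith)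
  have h9 : (4 * n * Real.exp s + n / κ) * Real.exp (2 * s)
      ≤ n * ((4 + 1 / κ) * Real.exp (3 * s)) := by
    have e : (4 * n * Real.exp s + n / κ) * Real.exp (2 * s)
        = n * (4 * (Real.exp s * Real.exp (2 * s)) + 1 / κ * Real.exp (2 * s)) := by ring
    rw [e, h7]
    refine mul_le_mul_of_nonneg_left ?_ hnpos.le
    have : 1 / κ * Real.exp (2 * s) ≤ 1 / κ * Real.exp (3 * s) :=
      mul_le_mul_of_nonneg_left h8 (by positivity)
    linarith
  have h10 := h6.trans h9
  have h11 : (3 / 16) * n ≤ (4 + 1 / κ) * Real.exp (3 * s) := by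
    have : n * ((3 / 16) * n) ≤ n * ((4 + 1 / κ) * Real.exp (3 * s)) := by
      calc n * ((3 / 16) * n) = (3 / 4) * (n ^ 2 / 4) := by ring
        _ ≤ _ := h10
    exact le_of_mul_le_mul_left this hnpos
  have h12 : (4 + 1 / κ) * κ = 4 * κ + 1 := by field_simp
  have h13 := mul_le_mul_of_nonneg_right h11 hκ.le
  have e2 : (4 + 1 / κ) * Real.exp (3 * s) * κ = (4 * κ + 1) * Real.exp (3 * s) := by
    rw [← h12]; ring
  rw [e2] at h13
  nlinarith

end Vale.Agent.Lib.P150
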