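import Mathlib

/-!
From a quadratic form bound on a finite net of the sphere to an operator norm bound,
for symmetric matrices.
-/

open scoped BigOperators

set_option linter.unusedSectionVars false
set_option linter.unusedSimpArgs false
set_option linter.unusedVariables false

noncomputable section

namespace Vale.Agent.Lib.P150

variable {ι : Type*} [Fintype ι]

/-- The bilinear form of a matrix. -/
def bilin (G : ι → ι → ℝ) (u v : ι → ℝ) : ℝ := ∑ i, ∑ j, G i j * u i * v j

/-- Squared norm. -/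
def nsq (u : ι → ℝ) : ℝ := ∑ i, u i ^ 2

/-- Matrix action. -/
def matAct (G : ι → ι → ℝ) (v : ι → ℝ) : ι → ℝ := fun i => ∑ j, G i j * v j

lemma nsq_nonneg (u : ι → ℝ) : 0 ≤ nsq u := Finset.sum_nonneg (fun i _ => sq_nonneg _)

lemma bilin_eq_act (G : ι → ι → ℝ) (u v : ι → ℝ) : bilin G u v = ∑ i, u i * matAct G v i := by
  unfold bilin matAct
  refine Finset.sum_congr rfl (fun i _ => ?_)
  rw [Finset.mul_sum]
  exact Finset.sum_congr rfl (fun j _ => by ring)

lemma bilin_add_left (G : ι → ι → ℝ) (u u' v : ι → ℝ) :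
    bilin G (u + u') v = bilin G u v + bilin G u' v := by
  unfold bilin
  simp only [Pi.add_apply, mul_add, add_mul, Finset.sum_add_distrib]

lemma bilin_smul_left (G : ι → ι → ℝ) (r : ℝ) (u v : ι → ℝ) :
    bilin G (r • u) v = r * bilin G u v := by
  unfold bilin
  simp only [Pi.smul_apply, smul_eq_mul, Finset.mul_sum]
  exact Finset.sum_congr rfl (fun i _ => Finset.sum_congr rfl (fun j _ => by ring))

lemma bilin_add_right (G : ι → ι → ℝ) (u v v' : ι → ℝ) :
    bilin G u (v + v') = bilin G u v + bilin G u v' := by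
  unfold bilin
  simp only [Pi.add_apply, mul_add, add_mul, Finset.sum_add_distrib]

lemma bilin_smul_right (G : ι → ι → ℝ) (r : ℝ) (u v : ι → ℝ) :
    bilin G u (r • v) = r * bilin G u v := by
  unfold bilin
  simp only [Pi.smul_apply, smul_eq_mul, Finset.mul_sum]
  exact Finset.sum_congr rfl (fun i _ => Finset.sum_congr rfl (fun j _ => by ring))

lemma bilin_symm {G : ι → ι → ℝ} (hG : ∀ i j, G i j = G j i) (u v : ι → ℝ) :
    bilin G u v = bilin G v u := by
  unfold bilin
  rw [Finset.sum_comm]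
  refine Finset.sum_congr rfl (fun i _ => Finset.sum_congr rfl (fun j _ => ?_))
  rw [hG j i]
  ring

lemma nsq_add_sub (u v : ι → ℝ) : nsq (u + v) + nsq (u - v) = 2 * nsq u + 2 * nsq v := by
  unfold nsq
  rw [Finset.mul_sum, Finset.mul_sum, ← Finset.sum_add_distrib, ← Finset.sum_add_distrib]
  exact Finset.sum_congr rfl (fun i _ => by simp only [Pi.add_apply, Pi.sub_apply]; ring)

lemma nsq_smul (r : ℝ) (u : ι → ℝ) : nsq (r • u) = r ^ 2 * nsq u := by
  unfold nsq
  rw [Finset.mul_sum]
  exact Finset.sum_congr rfl (fun i _ => by simp only [Pi.smul_apply, smul_eq_mul]; ring)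

/-- Polarization: a bound on the quadratic form gives a bound on the action. -/
lemma act_le_of_quad {G : ι → ι → ℝ} (hG : ∀ i j, G i j = G j i) {t : ℝ} (ht : 0 ≤ t)
    (hq : ∀ w, |bilin G w w| ≤ t * nsq w) (v : ι → ℝ) :
    nsq (matAct G v) ≤ t ^ 2 * nsq v := by
  set u := matAct G v with hu
  set U := nsq u with hU
  set W := nsq v with hW
  have hU0 : 0 ≤ U := nsq_nonneg u
  have hW0 : 0 ≤ W := nsq_nonneg v
  have huv : bilin G u v = U := by
    rw [bilin_eq_act, hU]
    unfold nsq
    exact Finset.sum_congr rfl (fun i _ => by rw [← hu]; ring)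
  have key : ∀ r : ℝ, 4 * r * U ≤ 2 * t * U + 2 * t * r ^ 2 * W := by
    intro r
    have h1 := hq (u + r • v)
    have h2 := hq (u - r • v)
    have e1 : bilin G (u + r • v) (u + r • v)
        = bilin G u u + 2 * r * bilin G u v + r ^ 2 * bilin G v v := by
      rw [bilin_add_left, bilin_add_right, bilin_add_right, bilin_smul_left, bilin_smul_left,
        bilin_smul_right, bilin_smul_right, bilin_symm hG v u]
      ring
    have e2 : bilin G (u - r • v) (u - r • v)
        = bilin G u u - 2 * r * bilin G u v + r ^ 2 * bilin G v v := by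
      have es : u - r • v = u + (-r) • v := by
        funext i; simp [sub_eq_add_neg]
      rw [es, bilin_add_left, bilin_add_right, bilin_add_right, bilin_smul_left, bilin_smul_left,
        bilin_smul_right, bilin_smul_right, bilin_symm hG v u]
      ring
    have e3 := nsq_add_sub u (r • v)
    rw [nsq_smul] at e3
    have h3 := (abs_le.1 h1).2
    have h4 := (abs_le.1 h2).1
    rw [e1] at h3
    rw [e2] at h4
    rw [huv] at h3 h4
    have h5 : t * nsq (u + r • v) + t * nsq (u - r • v) = t * (2 * U + 2 * (r ^ 2 * W)) := by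
      rw [← mul_add, e3]
    nlinarith
  by_cases hUz : U = 0
  · rw [hUz]
    positivity
  have hUpos : 0 < U := lt_of_le_of_ne hU0 (Ne.symm hUz)
  by_cases htW : t * W = 0
  · exfalso
    have h1 := key (t + 1)
    have h2 : 2 * t * (t + 1) ^ 2 * W = 0 := by
      have : 2 * t * (t + 1) ^ 2 * W = 2 * (t + 1) ^ 2 * (t * W) := by ring
      rw [this, htW]; ring
    rw [h2] at h1
    nlinarith
  have htWpos : 0 < t * W := lt_of_le_of_ne (mul_nonneg ht hW0) (Ne.symm htW)
  have h1 := key (U / (t * W))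
  have h2 : 2 * t * (U / (t * W)) ^ 2 * W = 2 * (U / (t * W)) * U := by
    field_simp
  rw [h2] at h1
  have h3 : U / (t * W) * U ≤ t * U := by nlinarith
  have h4 : U / (t * W) ≤ t := by
    by_contra hc
    push Not at hc
    nlinarith
  rw [div_le_iff₀ htWpos] at h4
  nlinarith

/-- The unit sphere in the Euclidean norm inside `ι → ℝ`. -/
def usphere (ι : Type*) [Fintype ι] : Set (ι → ℝ) := {w | nsq w = 1}

lemma isCompact_usphere : IsCompact (usphere ι) := by
  apply Metric.isCompact_of_isClosed_isBounded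
  · have : Continuous (nsq (ι := ι)) := by
      unfold nsq
      fun_prop
    exact isClosed_eq this continuous_const
  · refine (Metric.isBounded_iff_subset_closedBall (0 : ι → ℝ)).2 ⟨1, fun w hw => ?_⟩
    rw [mem_closedBall_zero_iff, pi_norm_le_iff_of_nonneg zero_le_one]
    intro i
    have h : w i ^ 2 ≤ nsq w :=
      Finset.single_le_sum (f := fun i => w i ^ 2) (fun i _ => sq_nonneg _) (Finset.mem_univ i)
    have h1 : nsq w = 1 := hw
    rw [h1] at h
    rw [Real.norm_eq_abs]
    exact (sq_le_one_iff_abs_le_one _).1 h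

/-- Finite nets exist. -/
lemma exists_net {δ : ℝ} (hδ : 0 < δ) :
    ∃ N : Finset (ι → ℝ), (∀ a ∈ N, nsq a = 1) ∧ ∀ w, nsq w = 1 → ∃ a ∈ N, nsq (w - a) ≤ δ ^ 2 := by
  classical
  set n : ℝ := (Fintype.card ι : ℝ) + 1 with hn
  have hnpos : 0 < n := by positivity
  set ε : ℝ := δ / n with hε
  have hεpos : 0 < ε := by positivity
  obtain ⟨t, hts, htf, hcov⟩ := (isCompact_usphere (ι := ι)).finite_cover_balls hεpos
  refine ⟨htf.toFinset, fun a ha => hts (htf.mem_toFinset.1 ha), fun w hw => ?_⟩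
  have hw' : w ∈ ⋃ x ∈ t, Metric.ball x ε := hcov hw
  simp only [Set.mem_iUnion, Metric.mem_ball, exists_prop] at hw'
  obtain ⟨a, hat, hd⟩ := hw'
  refine ⟨a, htf.mem_toFinset.2 hat, ?_⟩
  rw [dist_pi_lt_iff hεpos] at hd
  have h1 : ∀ i, (w - a) i ^ 2 ≤ ε ^ 2 := by
    intro i
    have := hd i
    rw [Real.dist_eq] at this
    have h2 : |(w - a) i| ≤ ε := by
      simpa using this.le
    calc (w - a) i ^ 2 = |(w - a) i| ^ 2 := (sq_abs _).symm
      _ ≤ ε ^ 2 := pow_le_pow_left₀ (abs_nonneg _) h2 2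
  have h3 : nsq (w - a) ≤ ∑ _i : ι, ε ^ 2 := Finset.sum_le_sum (fun i _ => h1 i)
  rw [Finset.sum_const, Finset.card_univ, nsmul_eq_mul] at h3
  refine h3.trans ?_
  have hc : (Fintype.card ι : ℝ) ≤ n := by simp [hn]
  have hε2 : ε ^ 2 * n ^ 2 = δ ^ 2 := by
    rw [hε]; field_simp
  have hn1 : 1 ≤ n := by
    simp only [hn]
    have : (0:ℝ) ≤ Fintype.card ι := by positivity
    linarith
  have hεn : 0 ≤ ε ^ 2 := by positivity
  calc (Fintype.card ι : ℝ) * ε ^ 2 ≤ n * ε ^ 2 := mul_le_mul_of_nonneg_right hc hεn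
    _ ≤ n ^ 2 * ε ^ 2 := by
        apply mul_le_mul_of_nonneg_right _ hεn
        nlinarith
    _ = δ ^ 2 := by rw [← hε2]; ring

lemma cauchy_sq (u v : ι → ℝ) : (∑ i, u i * v i) ^ 2 ≤ nsq u * nsq v := by
  unfold nsq
  exact Finset.sum_mul_sq_le_sq_mul_sq _ _ _

lemma nsq_add_le_four {a b : ι → ℝ} (ha : nsq a = 1) (hb : nsq b = 1) : nsq (a + b) ≤ 4 := by
  have := nsq_add_sub a b
  rw [ha, hb] at this
  have h := nsq_nonneg (a - b)
  linarith

lemma bilin_sub_add {G : ι → ι → ℝ} (hG : ∀ i j, G i j = G j i) (w a : ι → ℝ) :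
    bilin G w w - bilin G a a = bilin G (w - a) (w + a) := by
  have es : w - a = w + (-1 : ℝ) • a := by
    funext i; simp [sub_eq_add_neg]
  rw [es, bilin_add_left, bilin_add_right, bilin_add_right, bilin_smul_left, bilin_smul_left,
    bilin_symm hG a w]
  ring

/-- Net argument. -/
lemma quad_le_of_net [Nonempty ι] {G : ι → ι → ℝ} (hG : ∀ i j, G i j = G j i) {δ M : ℝ}
    (hδ : 0 < δ) (hδ2 : δ < 1 / 2) (hM : 0 ≤ M) {N : Finset (ι → ℝ)}
    (hnet : ∀ w, nsq w = 1 → ∃ a ∈ N, nsq (w - a) ≤ δ ^ 2) (hN : ∀ a ∈ N, nsq a = 1)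
    (hb : ∀ a ∈ N, |bilin G a a| ≤ M) (w : ι → ℝ) :
    |bilin G w w| ≤ (M / (1 - 2 * δ)) * nsq w := by
  classical
  have hne : (usphere ι).Nonempty := by
    obtain ⟨i0⟩ := (inferInstance : Nonempty ι)
    refine ⟨fun i => if i = i0 then 1 else 0, ?_⟩
    show nsq _ = 1
    unfold nsq
    simp [ite_pow]
  have hcont : Continuous (fun w : ι → ℝ => |bilin G w w|) := by
    unfold bilin
    fun_prop
  obtain ⟨w0, hw0, hmax⟩ := (isCompact_usphere (ι := ι)).exists_isMaxOn hne hcont.continuousOn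
  set t := |bilin G w0 w0| with ht
  have ht0 : 0 ≤ t := abs_nonneg _
  have hall : ∀ w, |bilin G w w| ≤ t * nsq w := by
    intro w
    by_cases hw : nsq w = 0
    · have hw0' : w = 0 := by
        funext i
        have h := (Finset.sum_eq_zero_iff_of_nonneg (fun i _ => sq_nonneg (w i))).1 hw i (Finset.mem_univ i)
        simpa using h
      subst hw0'
      simp [bilin, nsq]
    · have hpos : 0 < nsq w := lt_of_le_of_ne (nsq_nonneg w) (Ne.symm hw)
      set r := Real.sqrt (nsq w) with hr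
      have hrpos : 0 < r := Real.sqrt_pos.2 hpos
      have hr2 : r ^ 2 = nsq w := Real.sq_sqrt hpos.le
      have hs : nsq (r⁻¹ • w) = 1 := by
        rw [nsq_smul, inv_pow, hr2]
        field_simp
      have hmax' : |bilin G (r⁻¹ • w) (r⁻¹ • w)| ≤ t := hmax hs
      rw [bilin_smul_left, bilin_smul_right, abs_mul, abs_mul, abs_of_pos (inv_pos.2 hrpos)] at hmax'
      have : |bilin G w w| = r ^ 2 * (r⁻¹ * (r⁻¹ * |bilin G w w|)) := by
        field_simp
      rw [this, ← hr2]
      rw [hr2]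
      nlinarith
  have hact := act_le_of_quad hG ht0 hall
  obtain ⟨a, haN, hd⟩ := hnet w0 hw0
  have ha1 := hN a haN
  have hw01 : nsq w0 = 1 := hw0
  have hsub : |bilin G w0 w0 - bilin G a a| ≤ 2 * δ * t := by
    rw [bilin_sub_add hG, bilin_eq_act]
    have h1 := cauchy_sq (w0 - a) (matAct G (w0 + a))
    have h2 := hact (w0 + a)
    have h3 := nsq_add_le_four hw01 ha1
    have h4 : (∑ i, (w0 - a) i * matAct G (w0 + a) i) ^ 2 ≤ (2 * δ * t) ^ 2 := by
      calc _ ≤ nsq (w0 - a) * nsq (matAct G (w0 + a)) := h1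
        _ ≤ δ ^ 2 * (t ^ 2 * 4) := by
            apply mul_le_mul hd _ (nsq_nonneg _) (by positivity)
            exact h2.trans (mul_le_mul_of_nonneg_left h3 (by positivity))
        _ = _ := by ring
    exact abs_le_of_sq_le_sq h4 (by positivity)
  have ht2 : t ≤ M + 2 * δ * t := by
    have h1 := abs_sub_abs_le_abs_sub (bilin G w0 w0) (bilin G a a)
    have h2 := hb a haN
    rw [ht] at *
    linarith
  have hpos : 0 < 1 - 2 * δ := by linarith
  have ht3 : t ≤ M / (1 - 2 * δ) := by
    rw [le_div_iff₀ hpos]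
    linarith
  exact (hall w).trans (mul_le_mul_of_nonneg_right ht3 (nsq_nonneg w))

end Vale.Agent.Lib.P150
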