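import Vale.Agent.Lib.P150.IntCurv
import Vale.Agent.Lib.P150.Main

/-!
From the integrated Bochner inequality to the Poincare inequality and the covariance bound, for
all external fields.
-/

open scoped BigOperators
open Function

set_option linter.unusedSectionVars false
set_option linter.unusedSimpArgs false
set_option linter.unusedVariables false

noncomputable section

namespace Vale.Agent.Lib.P150

variable {ι : Type*} [Fintype ι] [DecidableEq ι]

/-- The integrated curvature inequality. -/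
def IntCurvBound (π : (ι → Bool) → ℝ) (t : (ι → Bool) → ι → ℝ) (κ : ℝ) : Prop :=
  ∀ u : (ι → Bool) → ℝ,
    κ * ∑ x, π x * gradSq u x ≤ -∑ x, π x * ∑ j, D j u x * D j (gen t u) x

lemma intCurvBound_tfh (J : ι → ι → ℝ) (hsym : ∀ i j, J i j = J j i) (hdiag : ∀ i, J i i = 0)
    (h : ι → ℝ) {ρ r2 η : ℝ} (hρ0 : 0 ≤ ρ)
    (hρ : ∀ v : ι → ℝ, ∑ i, (∑ j, J i j * v j) ^ 2 ≤ ρ ^ 2 * ∑ i, v i ^ 2)
    (hr : ∀ j, ∑ i, J i j ^ 2 ≤ r2) (hη : ∀ i j, |J i j| ≤ η) (hη1 : η ≤ 1 / 200)
    (hρr : 4 * r2 ≤ ρ) :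
    IntCurvBound (gibbsH J h) (tfh J h) (1 - ρ - 25 * η * r2) := by
  intro u
  have hR := isRevH J hsym hdiag h
  rw [int_bochner J hR (tfh_indep J hdiag h) u, Finset.mul_sum]
  refine Finset.sum_le_sum (fun x _ => ?_)
  have := int_curv J hsym h hρ0 hρ hr hη hη1 hρr u x
  calc _ = gibbsH J h x * ((1 - ρ - 25 * η * r2) * gradSq u x) := by ring
    _ ≤ _ := mul_le_mul_of_nonneg_left this (hR.pos x).le

/-- The integrated gradient energy decays. -/
lemma int_grad_decay {L : Matrix (ι → Bool) (ι → Bool) ℝ} {t : (ι → Bool) → ι → ℝ}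
    (hG : IsGlauber L t) {π : (ι → Bool) → ℝ} (hπ : ∀ x, 0 < π x) {κ : ℝ}
    (hB : IntCurvBound π t κ) (f : (ι → Bool) → ℝ) {s : ℝ} (hs : 0 ≤ s) :
    ∑ x, π x * gradSq (act L s f) x ≤ (∑ x, π x * gradSq f x) * Real.exp (-(2 * κ * s)) := by
  set G : ℝ → ℝ := fun r => ∑ x, π x * gradSq (act L r f) x with hGdef
  set W : ℝ → ℝ := fun r => Real.exp (2 * κ * r) * G r with hW
  have hGd : ∀ r, HasDerivAt G
      (∑ x, π x * (2 * ∑ j, D j (act L r f) x * D j (gen t (act L r f)) x)) r := by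
    intro r
    refine HasDerivAt.fun_sum (fun x _ => ?_)
    have h2 := gradSq_hasDerivAt (u := fun q => act L q f) (u' := L.mulVec (act L r f)) (s := r)
      (fun z => act_hasDerivAt L f z r) x
    rw [hG.mulVec_eq] at h2
    exact h2.const_mul (π x)
  have hWd : ∀ r, HasDerivAt W (Real.exp (2 * κ * r) * (2 * κ) * G r
      + Real.exp (2 * κ * r) * (∑ x, π x * (2 * ∑ j, D j (act L r f) x * D j (gen t (act L r f)) x))) r := by
    intro r
    have h1 : HasDerivAt (fun q : ℝ => Real.exp (2 * κ * q)) (Real.exp (2 * κ * r) * (2 * κ)) r := by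
      have : HasDerivAt (fun q : ℝ => 2 * κ * q) (2 * κ) r := by
        simpa using (hasDerivAt_id' r).const_mul (2 * κ)
      exact this.exp
    exact h1.mul (hGd r)
  have hle : ∀ r, deriv W r ≤ 0 := by
    intro r
    rw [(hWd r).deriv]
    have h1 := hB (act L r f)
    have e : ∑ x, π x * (2 * ∑ j, D j (act L r f) x * D j (gen t (act L r f)) x)
        = 2 * ∑ x, π x * ∑ j, D j (act L r f) x * D j (gen t (act L r f)) x := by
      rw [Finset.mul_sum]
      exact Finset.sum_congr rfl (fun x _ => by ring)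
    rw [e]
    have hpos := Real.exp_pos (2 * κ * r)
    have : Real.exp (2 * κ * r) * (2 * κ) * G r
        + Real.exp (2 * κ * r) * (2 * ∑ x, π x * ∑ j, D j (act L r f) x * D j (gen t (act L r f)) x)
        = 2 * Real.exp (2 * κ * r) * (κ * G r
          + ∑ x, π x * ∑ j, D j (act L r f) x * D j (gen t (act L r f)) x) := by ring
    rw [this]
    refine mul_nonpos_of_nonneg_of_nonpos (by positivity) ?_
    simp only [hGdef]
    linarith
  have hanti : Antitone W := antitone_of_deriv_nonpos (fun r => (hWd r).differentiableAt) hle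
  have h0 := hanti hs
  have e0 : W 0 = G 0 := by simp [hW]
  have hG0 : G 0 = ∑ x, π x * gradSq f x := by simp [hGdef, act_zero]
  rw [e0, hG0] at h0
  have h3 : Real.exp (-(2 * κ * s)) * Real.exp (2 * κ * s) = 1 := by
    rw [← Real.exp_add]; simp
  have h4 : 0 < Real.exp (-(2 * κ * s)) := Real.exp_pos _
  calc G s = Real.exp (-(2 * κ * s)) * W s := by
        simp only [hW]; rw [← mul_assoc, h3, one_mul]
    _ ≤ Real.exp (-(2 * κ * s)) * ∑ x, π x * gradSq f x := mul_le_mul_of_nonneg_left h0 h4.le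
    _ = _ := by ring

/-- Pointwise uniform bound from the integrated one. -/
lemma gradSq_le_of_int {π : (ι → Bool) → ℝ} (hπ : ∀ x, 0 < π x) (u : (ι → Bool) → ℝ)
    (z : ι → Bool) : gradSq u z ≤ (∑ x, π x * gradSq u x) * ∑ y, (π y)⁻¹ := by
  have hnn : ∀ x, 0 ≤ gradSq u x := fun x => Finset.sum_nonneg (fun _ _ => sq_nonneg _)
  have h1 : π z * gradSq u z ≤ ∑ x, π x * gradSq u x :=
    Finset.single_le_sum (f := fun x => π x * gradSq u x)
      (fun x _ => mul_nonneg (hπ x).le (hnn x)) (Finset.mem_univ z)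
  have h2 : (π z)⁻¹ ≤ ∑ y, (π y)⁻¹ :=
    Finset.single_le_sum (f := fun y => (π y)⁻¹)
      (fun y _ => (inv_pos.mpr (hπ y)).le) (Finset.mem_univ z)
  calc gradSq u z = (π z * gradSq u z) * (π z)⁻¹ := by
        have := (hπ z).ne'
        field_simp
    _ ≤ _ := mul_le_mul h1 h2 (inv_pos.mpr (hπ z)).le
        ((mul_nonneg (hπ z).le (hnn z)).trans h1)

/-- **Poincare inequality** from a uniform exponential decay of the gradient of `P_s f`. -/
theorem poincare_of_decay {L : Matrix (ι → Bool) (ι → Bool) ℝ} {t : (ι → Bool) → ι → ℝ}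
    (hG : IsGlauber L t) {π : (ι → Bool) → ℝ} (hR : IsRev π t) {κ : ℝ} (hκ : 0 < κ)
    (f : (ι → Bool) → ℝ) {C : ℝ} (hC0 : 0 ≤ C)
    (hdecay : ∀ s : ℝ, 0 ≤ s → ∀ y,
      gradSq (act L s (fun x => f x - ∑ z, π z * f z)) y ≤ C * Real.exp (-(2 * κ * s))) :
    κ * (∑ x, π x * f x ^ 2 - (∑ x, π x * f x) ^ 2) ≤ -ip π f (L.mulVec f) := by
  set m := ∑ x, π x * f x with hm
  set f0 : (ι → Bool) → ℝ := fun x => f x - m with hf0
  set V := ip π f0 f0 with hV
  have hVeq : V = ∑ x, π x * f x ^ 2 - m ^ 2 := by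
    have : ∀ x, π x * (f0 x * f0 x) = π x * f x ^ 2 - 2 * m * (π x * f x) + m ^ 2 * π x := by
      intro x; simp only [hf0]; ring
    simp only [hV, ip, this, Finset.sum_add_distrib, Finset.sum_sub_distrib, ← Finset.mul_sum,
      hR.sum_one, ← hm]
    ring
  have hDf0 : ∀ j z, D j f0 z = D j f z := by
    intro j z; simp [D, hf0]
  have hLf0 : L.mulVec f0 = L.mulVec f := by
    rw [hG.mulVec_eq, hG.mulVec_eq]
    funext x
    simp [gen, hDf0]
  have hE : ip π f0 (L.mulVec f0) = ip π f (L.mulVec f) := by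
    rw [hLf0]
    have h0 : ip π (fun _ => (1 : ℝ)) (L.mulVec f) = 0 := by
      rw [Lsymm hG hR]
      have : L.mulVec (fun _ => (1 : ℝ)) = 0 := hG.mulVec_one
      rw [this]
      simp [ip]
    have h1 : ip π f0 (L.mulVec f) = ip π f (L.mulVec f) - m * ip π (fun _ => (1 : ℝ)) (L.mulVec f) := by
      simp only [ip, hf0, Finset.mul_sum, ← Finset.sum_sub_distrib]
      refine Finset.sum_congr rfl (fun x _ => ?_)
      ring
    rw [h1, h0]; ring
  rw [← hVeq, ← hE]
  have hEnn : 0 ≤ -ip π f0 (L.mulVec f0) := by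
    rw [hG.mulVec_eq, ip_gen π hR hG.indep, neg_neg]
    refine Finset.sum_nonneg (fun i _ => Finset.sum_nonneg (fun x _ => ?_))
    refine mul_nonneg (hR.pos x).le (mul_nonneg (one_sub_spin_mul_t_nonneg hG.lt_one x i) ?_)
    exact mul_self_nonneg _
  by_cases hf00 : f0 = 0
  · have : V = 0 := by simp [hV, hf00, ip]
    rw [this, mul_zero]
    exact hEnn
  have hVpos : 0 < V := ip_self_pos π f0 hR.pos hf00
  by_contra hcontra
  push Not at hcontra
  set E := -ip π f0 (L.mulVec f0) with hEdef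
  have ha : 0 < 2 * κ - 2 * E / V := by
    have : E / V < κ := by
      rw [div_lt_iff₀ hVpos]; linarith
    have e : 2 * E / V = 2 * (E / V) := by ring
    rw [e]; linarith
  set a := 2 * κ - 2 * E / V with hadef
  set n : ℝ := (Fintype.card ι : ℝ) with hn
  have hn0 : 0 ≤ n := by simp [hn]
  set K := (2 * n) ^ 2 * C with hK
  have hK0 : 0 ≤ K := by positivity
  have hbound : ∀ s : ℝ, 0 ≤ s →
      ip π (act L s f0) (act L s f0) ≤ K * Real.exp (-(2 * κ * s)) := by
    intro s hs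
    set g := act L s f0 with hg
    set B := Real.sqrt (C * Real.exp (-(2 * κ * s))) with hB
    have hB0 : 0 ≤ B := Real.sqrt_nonneg _
    have hDg : ∀ j z, |D j g z| ≤ B := by
      intro j z
      refine (abs_D_le_sqrt g j z).trans (Real.sqrt_le_sqrt ?_)
      exact hdecay s hs z
    have hosc : ∀ x y, |g x - g y| ≤ 2 * n * B := abs_sub_le_path g hDg
    have hmean : ∑ y, π y * g y = 0 := by
      rw [hg, sum_act hG hR]
      simp only [hf0, mul_sub, Finset.sum_sub_distrib, ← Finset.sum_mul, hR.sum_one, ← hm]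
      ring
    have hg_abs : ∀ x, |g x| ≤ 2 * n * B := by
      intro x
      have e : g x = ∑ y, π y * (g x - g y) := by
        have : ∑ y, π y * (g x - g y) = g x * ∑ y, π y - ∑ y, π y * g y := by
          rw [Finset.mul_sum, ← Finset.sum_sub_distrib]
          exact Finset.sum_congr rfl (fun y _ => by ring)
        rw [this, hR.sum_one, hmean]; ring
      rw [e]
      refine (Finset.abs_sum_le_sum_abs _ _).trans ?_
      calc ∑ y, |π y * (g x - g y)| ≤ ∑ y, π y * (2 * n * B) := by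
            refine Finset.sum_le_sum (fun y _ => ?_)
            rw [abs_mul, abs_of_pos (hR.pos y)]
            exact mul_le_mul_of_nonneg_left (hosc x y) (hR.pos y).le
        _ = 2 * n * B := by rw [← Finset.sum_mul, hR.sum_one, one_mul]
    have hB2 : B ^ 2 = C * Real.exp (-(2 * κ * s)) := by
      rw [hB, Real.sq_sqrt (by positivity)]
    calc ip π g g ≤ ∑ x, π x * (2 * n * B) ^ 2 := by
          refine Finset.sum_le_sum (fun x _ => mul_le_mul_of_nonneg_left ?_ (hR.pos x).le)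
          rw [← pow_two, ← sq_abs (g x)]
          exact pow_le_pow_left₀ (abs_nonneg _) (hg_abs x) 2
      _ = (2 * n * B) ^ 2 := by rw [← Finset.sum_mul, hR.sum_one, one_mul]
      _ = K * Real.exp (-(2 * κ * s)) := by
          rw [mul_pow, hB2, hK]; ring
  have hlower : ∀ s : ℝ, 0 ≤ s → V * Real.exp (s * a) ≤ K := by
    intro s hs
    have h1 := norm_act_lower L π hR.pos (Lsymm hG hR) hf00 hs
    have h2 := h1.trans (hbound s hs)
    have h3 : s * a = s * (2 * ip π f0 (L.mulVec f0) / V) + 2 * κ * s := by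
      simp only [hadef, hEdef]
      ring
    rw [h3, Real.exp_add]
    have h4 : Real.exp (-(2 * κ * s)) * Real.exp (2 * κ * s) = 1 := by
      rw [← Real.exp_add]; simp
    calc V * (Real.exp (s * (2 * ip π f0 (L.mulVec f0) / V)) * Real.exp (2 * κ * s))
        = (V * Real.exp (s * (2 * ip π f0 (L.mulVec f0) / V))) * Real.exp (2 * κ * s) := by ring
      _ ≤ (K * Real.exp (-(2 * κ * s))) * Real.exp (2 * κ * s) :=
          mul_le_mul_of_nonneg_right h2 (Real.exp_pos _).le
      _ = K := by rw [mul_assoc, h4, mul_one]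
  have hs0 : 0 ≤ (K + 1) / (V * a) := by positivity
  have h5 := hlower _ hs0
  have h6 : Real.exp ((K + 1) / (V * a) * a) ≥ (K + 1) / (V * a) * a + 1 := by
    have := Real.add_one_le_exp ((K + 1) / (V * a) * a)
    linarith
  have h7 : V * ((K + 1) / (V * a) * a) = K + 1 := by
    field_simp
  have h8 : V * ((K + 1) / (V * a) * a + 1) ≤ V * Real.exp ((K + 1) / (V * a) * a) :=
    mul_le_mul_of_nonneg_left h6 hVpos.le
  nlinarith

/-- **Poincare inequality** from the integrated curvature bound. -/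
theorem poincare_int {L : Matrix (ι → Bool) (ι → Bool) ℝ} {t : (ι → Bool) → ι → ℝ}
    (hG : IsGlauber L t) {π : (ι → Bool) → ℝ} (hR : IsRev π t) {κ : ℝ} (hκ : 0 < κ)
    (hB : IntCurvBound π t κ) (f : (ι → Bool) → ℝ) :
    κ * (∑ x, π x * f x ^ 2 - (∑ x, π x * f x) ^ 2) ≤ -ip π f (L.mulVec f) := by
  set f0 : (ι → Bool) → ℝ := fun x => f x - ∑ z, π z * f z with hf0
  have hnn : ∀ (u : (ι → Bool) → ℝ) x, 0 ≤ gradSq u x :=
    fun u x => Finset.sum_nonneg (fun _ _ => sq_nonneg _)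
  have hnn2 : 0 ≤ ∑ y, (π y)⁻¹ :=
    Finset.sum_nonneg (fun y _ => (inv_pos.mpr (hR.pos y)).le)
  have hnn3 : 0 ≤ ∑ x, π x * gradSq f0 x :=
    Finset.sum_nonneg (fun x _ => mul_nonneg (hR.pos x).le (hnn _ x))
  refine poincare_of_decay hG hR hκ f (C := (∑ x, π x * gradSq f0 x) * ∑ y, (π y)⁻¹)
    (mul_nonneg hnn3 hnn2) ?_
  intro s hs y
  have h1 := gradSq_le_of_int hR.pos (act L s f0) y
  have h2 := int_grad_decay hG hR.pos hB f0 hs
  refine h1.trans ?_
  calc _ ≤ ((∑ x, π x * gradSq f0 x) * Real.exp (-(2 * κ * s))) * ∑ y, (π y)⁻¹ :=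
        mul_le_mul_of_nonneg_right h2 hnn2
    _ = _ := by ring

/-- The Dirichlet form is dominated by the gradient energy. -/
lemma dirichlet_le_grad {L : Matrix (ι → Bool) (ι → Bool) ℝ} {t : (ι → Bool) → ι → ℝ}
    (hG : IsGlauber L t) {π : (ι → Bool) → ℝ} (hR : IsRev π t) (f : (ι → Bool) → ℝ) :
    -ip π f (L.mulVec f) ≤ ∑ x, π x * gradSq f x := by
  rw [hG.mulVec_eq, ip_gen π hR hG.indep, neg_neg]
  have h1 : ∀ i, ∑ x, π x * ((1 - spin (x i) * t x i) * (D i f x * D i f x))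
      ≤ ∑ x, π x * (D i f x) ^ 2 := by
    intro i
    have hib := hR.ibp i (fun x => t x i * (D i f x * D i f x)) (by
      intro x b
      simp only [hG.indep, D_update])
    have e : ∑ x, π x * ((1 - spin (x i) * t x i) * (D i f x * D i f x))
        = ∑ x, π x * ((1 - t x i ^ 2) * (D i f x) ^ 2)
          + ∑ x, π x * ((t x i - spin (x i)) * (t x i * (D i f x * D i f x))) := by
      rw [← Finset.sum_add_distrib]
      exact Finset.sum_congr rfl (fun x _ => by ring)
    rw [e, hib, add_zero]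
    refine Finset.sum_le_sum (fun x _ => mul_le_mul_of_nonneg_left ?_ (hR.pos x).le)
    nlinarith [sq_nonneg (t x i), sq_nonneg (D i f x), mul_nonneg (sq_nonneg (t x i)) (sq_nonneg (D i f x))]
  have e : ∑ x, π x * gradSq f x = ∑ i, ∑ x, π x * (D i f x) ^ 2 := by
    unfold gradSq
    simp only [Finset.mul_sum]
    rw [Finset.sum_comm]
  rw [e]
  exact Finset.sum_le_sum (fun i _ => h1 i)

/-- The covariance bound. -/
def CovBound (J : ι → ι → ℝ) (κ : ℝ) : Prop :=
  ∀ (h b : ι → ℝ), κ * (∑ x, gibbsH J h x * (∑ i, b i * spin (x i)) ^ 2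
    - (∑ x, gibbsH J h x * ∑ i, b i * spin (x i)) ^ 2) ≤ ∑ i, b i ^ 2

lemma D_linear (b : ι → ℝ) (j : ι) (x : ι → Bool) :
    D j (fun y => ∑ i, b i * spin (y i)) x = b j := by
  rw [D_sum]
  simp only [D_const_mul, D_spin]
  simp

lemma covBound_of_params (J : ι → ι → ℝ) (hsym : ∀ i j, J i j = J j i) (hdiag : ∀ i, J i i = 0)
    {ρ r2 η : ℝ} (hρ0 : 0 ≤ ρ)
    (hρ : ∀ v : ι → ℝ, ∑ i, (∑ j, J i j * v j) ^ 2 ≤ ρ ^ 2 * ∑ i, v i ^ 2)
    (hr : ∀ j, ∑ i, J i j ^ 2 ≤ r2) (hη : ∀ i j, |J i j| ≤ η) (hη1 : η ≤ 1 / 200)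
    (hρr : 4 * r2 ≤ ρ) (hκ : 0 < 1 - ρ - 25 * η * r2) :
    CovBound J (1 - ρ - 25 * η * r2) := by
  intro h b
  have hR := isRevH J hsym hdiag h
  have hG := isGlauber_genMat (t := tfh J h) (tfh_indep J hdiag h) (abs_tfh_lt J h)
  have hB := intCurvBound_tfh J hsym hdiag h hρ0 hρ hr hη hη1 hρr
  have h1 := poincare_int hG hR hκ hB (fun x => ∑ i, b i * spin (x i))
  refine h1.trans ((dirichlet_le_grad hG hR _).trans (le_of_eq ?_))
  have e : ∀ x, gradSq (fun y => ∑ i, b i * spin (y i)) x = ∑ i, b i ^ 2 := by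
    intro x
    unfold gradSq
    simp only [D_linear]
  simp only [e]
  rw [← Finset.sum_mul, hR.sum_one, one_mul]

end Vale.Agent.Lib.P150
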