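import Vale.Agent.Lib.P150.Glauber

open scoped BigOperators
open Function

set_option linter.unusedSectionVars false
set_option linter.unusedSimpArgs false
set_option linter.unusedVariables false

noncomputable section

namespace Vale.Agent.Lib.P150

variable {ι : Type*} [Fintype ι] [DecidableEq ι]

/-- The measure `π` is reversible for the conditional means `t`. -/
structure IsRev (π : (ι → Bool) → ℝ) (t : (ι → Bool) → ι → ℝ) : Prop where
  pos : ∀ x, 0 < π x
  sum_one : ∑ x, π x = 1
  ibp : ∀ i (g : (ι → Bool) → ℝ), (∀ x b, g (update x i b) = g x) →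
    ∑ x, π x * ((t x i - spin (x i)) * g x) = 0

/-- The part of `f` that does not depend on coordinate `i`. -/
def Ei (i : ι) (f : (ι → Bool) → ℝ) (x : ι → Bool) : ℝ := f x - spin (x i) * D i f x

lemma Ei_update (i : ι) (f : (ι → Bool) → ℝ) (x : ι → Bool) (b : Bool) :
    Ei i f (update x i b) = Ei i f x := by
  unfold Ei
  rw [value_update f x i b, D_update]
  simp
  ring

/-- Dirichlet form in symmetric form. -/
lemma ip_gen (π : (ι → Bool) → ℝ) {t : (ι → Bool) → ι → ℝ} (hR : IsRev π t)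
    (ht : ∀ x i b, t (update x i b) i = t x i)
    (f g : (ι → Bool) → ℝ) :
    ip π f (gen t g) = -∑ i, ∑ x, π x * ((1 - spin (x i) * t x i) * (D i f x * D i g x)) := by
  have h1 : ip π f (gen t g) = ∑ i, ∑ x, π x * ((t x i - spin (x i)) * (f x * D i g x)) := by
    unfold ip gen
    rw [Finset.sum_comm]
    refine Finset.sum_congr rfl (fun x _ => ?_)
    rw [Finset.mul_sum, Finset.mul_sum]
    refine Finset.sum_congr rfl (fun i _ => ?_)
    ring
  rw [h1, ← Finset.sum_neg_distrib]
  refine Finset.sum_congr rfl (fun i _ => ?_)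
  have h2 := hR.ibp i (fun x => Ei i f x * D i g x) (by
    intro x b
    simp only [Ei_update, D_update])
  have h3 : ∑ x, π x * ((t x i - spin (x i)) * (f x * D i g x))
      = ∑ x, π x * ((t x i - spin (x i)) * (Ei i f x * D i g x))
        + ∑ x, π x * ((t x i - spin (x i)) * spin (x i) * (D i f x * D i g x)) := by
    rw [← Finset.sum_add_distrib]
    refine Finset.sum_congr rfl (fun x _ => ?_)
    unfold Ei; ring
  rw [h3, h2, zero_add, ← Finset.sum_neg_distrib]
  refine Finset.sum_congr rfl (fun x _ => ?_)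
  have hs := spin_mul_self (x i)
  linear_combination (-(π x * (D i f x * D i g x))) * hs

lemma gen_symm (π : (ι → Bool) → ℝ) {t : (ι → Bool) → ι → ℝ} (hR : IsRev π t)
    (ht : ∀ x i b, t (update x i b) i = t x i)
    (f g : (ι → Bool) → ℝ) : ip π f (gen t g) = ip π (gen t f) g := by
  rw [ip_comm π (gen t f) g, ip_gen π hR ht, ip_gen π hR ht]
  refine congrArg _ (Finset.sum_congr rfl (fun i _ => Finset.sum_congr rfl (fun x _ => ?_)))
  ring

lemma Lsymm {L : Matrix (ι → Bool) (ι → Bool) ℝ} {t : (ι → Bool) → ι → ℝ} (hG : IsGlauber L t)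
    {π : (ι → Bool) → ℝ} (hR : IsRev π t) (f g : (ι → Bool) → ℝ) :
    ip π f (L.mulVec g) = ip π (L.mulVec f) g := by
  rw [hG.mulVec_eq, hG.mulVec_eq]
  exact gen_symm π hR hG.indep f g

/-- Stationarity. -/
lemma sum_act {L : Matrix (ι → Bool) (ι → Bool) ℝ} {t : (ι → Bool) → ι → ℝ} (hG : IsGlauber L t)
    {π : (ι → Bool) → ℝ} (hR : IsRev π t) (s : ℝ) (f : (ι → Bool) → ℝ) :
    ∑ x, π x * act L s f x = ∑ x, π x * f x := by
  have h := ip_act_symm L π (Lsymm hG hR) s (fun _ => 1) f
  have e : act L s (fun _ => (1 : ℝ)) = fun _ => 1 := by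
    funext x
    exact act_const L hG.mulVec_one s 1 x
  rw [e] at h
  simpa [ip] using h

lemma one_sub_spin_mul_t_nonneg {t : (ι → Bool) → ι → ℝ} (ht : ∀ x i, |t x i| < 1)
    (x : ι → Bool) (i : ι) : 0 ≤ 1 - spin (x i) * t x i := by
  have := spin_mul_lt_one (b := x i) (ht x i)
  linarith

lemma one_sub_spin_mul_t_le_two {t : (ι → Bool) → ι → ℝ} (ht : ∀ x i, |t x i| < 1)
    (x : ι → Bool) (i : ι) : 1 - spin (x i) * t x i ≤ 2 := by
  have h' := abs_lt.mp (ht x i)
  cases x i <;> simp <;> linarith [h'.1, h'.2]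

/-- **Poincare inequality** from the curvature bound. -/
theorem poincare {L : Matrix (ι → Bool) (ι → Bool) ℝ} {t : (ι → Bool) → ι → ℝ}
    (hG : IsGlauber L t) {π : (ι → Bool) → ℝ} (hR : IsRev π t) {κ : ℝ} (hκ : 0 < κ)
    (hC : ∀ x, CurvAt t κ x) (f : (ι → Bool) → ℝ) :
    κ * (∑ x, π x * f x ^ 2 - (∑ x, π x * f x) ^ 2) ≤ -ip π f (L.mulVec f) := by
  set m := ∑ x, π x * f x with hm
  set f0 : (ι → Bool) → ℝ := fun x => f x - m with hf0
  set V := ip π f0 f0 with hV
  have hVeq : V = ∑ x, π x * f x ^ 2 - m ^ 2 := by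
    have : ∀ x, π x * (f0 x * f0 x) = π x * f x ^ 2 - 2 * m * (π x * f x) + m ^ 2 * π x := by
      intro x; simp only [hf0]; ring
    simp only [hV, ip, this, Finset.sum_add_distrib, Finset.sum_sub_distrib, ← Finset.mul_sum,
      hR.sum_one, ← hm]
    ring
  have hDf0 : ∀ j z, D j f0 z = D j f z := by
    intro j z; simp [D, hf0]
  have hLf0 : L.mulVec f0 = L.mulVec f := by
    rw [hG.mulVec_eq, hG.mulVec_eq]
    funext x
    simp [gen, hDf0]
  have hE : ip π f0 (L.mulVec f0) = ip π f (L.mulVec f) := by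
    rw [hLf0]
    have h0 : ip π (fun _ => (1 : ℝ)) (L.mulVec f) = 0 := by
      rw [Lsymm hG hR]
      have : L.mulVec (fun _ => (1 : ℝ)) = 0 := hG.mulVec_one
      rw [this]
      simp [ip]
    have h1 : ip π f0 (L.mulVec f) = ip π f (L.mulVec f) - m * ip π (fun _ => (1 : ℝ)) (L.mulVec f) := by
      simp only [ip, hf0, Finset.mul_sum, ← Finset.sum_sub_distrib]
      refine Finset.sum_congr rfl (fun x _ => ?_)
      ring
    rw [h1, h0]; ring
  rw [← hVeq, ← hE]
  have hEnn : 0 ≤ -ip π f0 (L.mulVec f0) := by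
    rw [hG.mulVec_eq, ip_gen π hR hG.indep, neg_neg]
    refine Finset.sum_nonneg (fun i _ => Finset.sum_nonneg (fun x _ => ?_))
    refine mul_nonneg (hR.pos x).le (mul_nonneg (one_sub_spin_mul_t_nonneg hG.lt_one x i) ?_)
    exact mul_self_nonneg _
  by_cases hf00 : f0 = 0
  · have : V = 0 := by simp [hV, hf00, ip]
    rw [this, mul_zero]
    exact hEnn
  have hVpos : 0 < V := ip_self_pos π f0 hR.pos hf00
  by_contra hcontra
  push Not at hcontra
  set E := -ip π f0 (L.mulVec f0) with hEdef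
  have ha : 0 < 2 * κ - 2 * E / V := by
    have : E / V < κ := by
      rw [div_lt_iff₀ hVpos]; linarith
    have e : 2 * E / V = 2 * (E / V) := by ring
    rw [e]; linarith
  set a := 2 * κ - 2 * E / V with hadef
  set n : ℝ := (Fintype.card ι : ℝ) with hn
  have hn0 : 0 ≤ n := by simp [hn]
  set C := ∑ x, gradSq f0 x with hCdef
  have hgradnn : ∀ (u : (ι → Bool) → ℝ) x, 0 ≤ gradSq u x := fun u x =>
    Finset.sum_nonneg (fun _ _ => sq_nonneg _)
  have hC0 : 0 ≤ C := Finset.sum_nonneg (fun x _ => hgradnn _ _)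
  have hCle : ∀ y, gradSq f0 y ≤ C := fun y =>
    Finset.single_le_sum (f := fun x => gradSq f0 x) (fun x _ => hgradnn _ _) (Finset.mem_univ y)
  set K := (2 * n) ^ 2 * C with hK
  have hK0 : 0 ≤ K := by positivity
  have hbound : ∀ s : ℝ, 0 ≤ s →
      ip π (act L s f0) (act L s f0) ≤ K * Real.exp (-(2 * κ * s)) := by
    intro s hs
    set g := act L s f0 with hg
    set B := Real.sqrt (C * Real.exp (-(2 * κ * s))) with hB
    have hB0 : 0 ≤ B := Real.sqrt_nonneg _
    have hDg : ∀ j z, |D j g z| ≤ B := by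
      intro j z
      refine (abs_D_le_sqrt g j z).trans (Real.sqrt_le_sqrt ?_)
      exact grad_decay hG hC f0 hCle hs z
    have hosc : ∀ x y, |g x - g y| ≤ 2 * n * B := abs_sub_le_path g hDg
    have hmean : ∑ y, π y * g y = 0 := by
      rw [hg, sum_act hG hR]
      simp only [hf0, mul_sub, Finset.sum_sub_distrib, ← Finset.sum_mul, hR.sum_one, ← hm]
      ring
    have hg_abs : ∀ x, |g x| ≤ 2 * n * B := by
      intro x
      have e : g x = ∑ y, π y * (g x - g y) := by
        have : ∑ y, π y * (g x - g y) = g x * ∑ y, π y - ∑ y, π y * g y := by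
          rw [Finset.mul_sum, ← Finset.sum_sub_distrib]
          exact Finset.sum_congr rfl (fun y _ => by ring)
        rw [this, hR.sum_one, hmean]; ring
      rw [e]
      refine (Finset.abs_sum_le_sum_abs _ _).trans ?_
      calc ∑ y, |π y * (g x - g y)| ≤ ∑ y, π y * (2 * n * B) := by
            refine Finset.sum_le_sum (fun y _ => ?_)
            rw [abs_mul, abs_of_pos (hR.pos y)]
            exact mul_le_mul_of_nonneg_left (hosc x y) (hR.pos y).le
        _ = 2 * n * B := by rw [← Finset.sum_mul, hR.sum_one, one_mul]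
    have hB2 : B ^ 2 = C * Real.exp (-(2 * κ * s)) := by
      rw [hB, Real.sq_sqrt (by positivity)]
    calc ip π g g ≤ ∑ x, π x * (2 * n * B) ^ 2 := by
          refine Finset.sum_le_sum (fun x _ => mul_le_mul_of_nonneg_left ?_ (hR.pos x).le)
          rw [← pow_two, ← sq_abs (g x)]
          exact pow_le_pow_left₀ (abs_nonneg _) (hg_abs x) 2
      _ = (2 * n * B) ^ 2 := by rw [← Finset.sum_mul, hR.sum_one, one_mul]
      _ = K * Real.exp (-(2 * κ * s)) := by
          rw [mul_pow, hB2, hK]; ring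
  have hlower : ∀ s : ℝ, 0 ≤ s → V * Real.exp (s * a) ≤ K := by
    intro s hs
    have h1 := norm_act_lower L π hR.pos (Lsymm hG hR) hf00 hs
    have h2 := h1.trans (hbound s hs)
    have h3 : s * a = s * (2 * ip π f0 (L.mulVec f0) / V) + 2 * κ * s := by
      simp only [hadef, hEdef]
      ring
    rw [h3, Real.exp_add]
    have h4 : Real.exp (-(2 * κ * s)) * Real.exp (2 * κ * s) = 1 := by
      rw [← Real.exp_add]; simp
    calc V * (Real.exp (s * (2 * ip π f0 (L.mulVec f0) / V)) * Real.exp (2 * κ * s))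
        = (V * Real.exp (s * (2 * ip π f0 (L.mulVec f0) / V))) * Real.exp (2 * κ * s) := by ring
      _ ≤ (K * Real.exp (-(2 * κ * s))) * Real.exp (2 * κ * s) :=
          mul_le_mul_of_nonneg_right h2 (Real.exp_pos _).le
      _ = K := by rw [mul_assoc, h4, mul_one]
  have hs0 : 0 ≤ (K + 1) / (V * a) := by positivity
  have h5 := hlower _ hs0
  have h6 : Real.exp ((K + 1) / (V * a) * a) ≥ (K + 1) / (V * a) * a + 1 := by
    have := Real.add_one_le_exp ((K + 1) / (V * a) * a)
    linarith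
  have h7 : V * ((K + 1) / (V * a) * a) = K + 1 := by
    field_simp
  have h8 : V * ((K + 1) / (V * a) * a + 1) ≤ V * Real.exp ((K + 1) / (V * a) * a) :=
    mul_le_mul_of_nonneg_left h6 hVpos.le
  nlinarith

/-- Variance along the semigroup. -/
theorem var_bound {L : Matrix (ι → Bool) (ι → Bool) ℝ} {t : (ι → Bool) → ι → ℝ}
    (hG : IsGlauber L t) {κ : ℝ} (hκ : 0 < κ)
    (hC : ∀ x, CurvAt t κ x) (f : (ι → Bool) → ℝ) {G : ℝ} (hf : ∀ y, gradSq f y ≤ G)
    {T : ℝ} (hT : 0 ≤ T) (x : ι → Bool) :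
    act L T (fun y => f y ^ 2) x - (act L T f x) ^ 2 ≤ 2 * G / κ := by
  have hG0 : 0 ≤ G := (Finset.sum_nonneg (fun _ _ => sq_nonneg _)).trans (hf x)
  set c := 2 * G / κ with hc
  have hc0 : 0 ≤ c := by positivity
  set W : ℝ → (ι → Bool) → ℝ := fun r y =>
    act L r (fun z => f z ^ 2) y - (act L r f y) ^ 2 - c * (1 - Real.exp (-(2 * κ * r))) with hW
  set W' : ℝ → (ι → Bool) → ℝ := fun r y =>
    L.mulVec (act L r (fun z => f z ^ 2)) y - 2 * act L r f y * L.mulVec (act L r f) y
      - 4 * G * Real.exp (-(2 * κ * r)) with hW'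
  have hd : ∀ r y, HasDerivAt (fun q => W q y) (W' r y) r := by
    intro r y
    have h1 := act_hasDerivAt L (fun z => f z ^ 2) y r
    have h2 := act_hasDerivAt L f y r
    have h3 : HasDerivAt (fun q : ℝ => Real.exp (-(2 * κ * q)))
        (Real.exp (-(2 * κ * r)) * (-(2 * κ))) r := by
      have : HasDerivAt (fun q : ℝ => -(2 * κ * q)) (-(2 * κ)) r := by
        simpa using ((hasDerivAt_id' r).const_mul (2 * κ)).fun_neg
      exact this.exp
    have h4 : HasDerivAt (fun q : ℝ => c * (1 - Real.exp (-(2 * κ * q))))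
        (c * (-(Real.exp (-(2 * κ * r)) * (-(2 * κ))))) r :=
      ((h3.const_sub 1).const_mul c)
    refine ((h1.sub (h2.pow 2)).sub h4).congr_deriv ?_
    simp only [hW', hc]
    field_simp
    ring
  have hle : ∀ r, 0 ≤ r → ∀ y, W' r y ≤ L.mulVec (W r) y := by
    intro r hr y
    have hgd := grad_decay hG hC f hf hr y
    have e1 : L.mulVec (W r) y = gen t (act L r (fun z => f z ^ 2)) y
        - gen t (fun z => (act L r f z) ^ 2) y := by
      rw [hG.mulVec_eq]
      simp only [gen, hW, D_sub, D]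
      rw [← Finset.sum_sub_distrib]
      refine Finset.sum_congr rfl (fun i _ => ?_)
      ring
    rw [e1, gen_sq]
    simp only [hW', hG.mulVec_eq]
    have h5 : ∑ i, (1 - spin (y i) * t y i) * (D i (act L r f) y) ^ 2
        ≤ 2 * gradSq (act L r f) y := by
      unfold gradSq
      rw [Finset.mul_sum]
      exact Finset.sum_le_sum (fun i _ => mul_le_mul_of_nonneg_right
        (one_sub_spin_mul_t_le_two hG.lt_one y i) (sq_nonneg _))
    nlinarith
  have hm := max_principle L hG.offdiag W W' hd hle hT x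
  have e0 : W 0 = fun _ => 0 := by
    funext y
    simp [hW, act_zero]
  rw [e0, act_const L hG.mulVec_one] at hm
  have h6 : c * (1 - Real.exp (-(2 * κ * T))) ≤ c := by
    have := Real.exp_pos (-(2 * κ * T))
    nlinarith
  simp only [hW] at hm
  linarith

end Vale.Agent.Lib.P150
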