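import Vale.Agent.Lib.P150.Loc2

/-!
Existence of a root of `J + ρ I`.
-/

open scoped BigOperators MatrixOrder
open Function Matrix

set_option linter.unusedSectionVars false
set_option linter.unusedSimpArgs false
set_option linter.unusedVariables false

noncomputable section

namespace Vale.Agent.Lib.P150

variable {ι : Type*} [Fintype ι] [DecidableEq ι]

theorem exists_root (J : ι → ι → ℝ) (hsym : ∀ i j, J i j = J j i) {ρ : ℝ} (hρ0 : 0 ≤ ρ)
    (hρ : ∀ v : ι → ℝ, ∑ i, (∑ j, J i j * v j) ^ 2 ≤ ρ ^ 2 * ∑ i, v i ^ 2) :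
    ∃ R : ι → ι → ℝ, IsRoot J R ρ := by
  set A : Matrix ι ι ℝ := Matrix.of (fun i j => J i j + if i = j then ρ else 0) with hA
  have hAh : A.IsHermitian := by
    ext i j
    simp only [hA, conjTranspose_apply, of_apply, star_trivial]
    rw [hsym j i]
    by_cases h : i = j
    · subst h; rfl
    · rw [if_neg h, if_neg (Ne.symm h)]
  have hApsd : A.PosSemidef := by
    refine Matrix.PosSemidef.of_dotProduct_mulVec_nonneg hAh (fun x => ?_)
    have e : star x ⬝ᵥ (A *ᵥ x) = ∑ i, x i * (∑ j, J i j * x j) + ρ * ∑ i, x i ^ 2 := by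
      simp only [dotProduct, mulVec, hA, of_apply, star_trivial, add_mul, ite_mul, zero_mul,
        Finset.sum_add_distrib, Finset.sum_ite_eq, Finset.mem_univ, if_true, mul_add]
      rw [Finset.mul_sum]
      congr 1
      exact Finset.sum_congr rfl (fun i _ => by ring)
    rw [e]
    have := (abs_le.mp (quad_le_norm hρ0 hρ x)).1
    linarith
  have hA0 : (0 : Matrix ι ι ℝ) ≤ A := Matrix.nonneg_iff_posSemidef.2 hApsd
  set S := CFC.sqrt A with hS
  have hS0 : (0 : Matrix ι ι ℝ) ≤ S := CFC.sqrt_nonneg A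
  have hSh : S.IsHermitian := (Matrix.nonneg_iff_posSemidef.1 hS0).isHermitian
  have hSS : S * S = A := CFC.sqrt_mul_sqrt_self A hA0
  refine ⟨fun i j => S i j, fun i j => ?_⟩
  have h1 := congrFun (congrFun hSS i) j
  simp only [Matrix.mul_apply, hA, of_apply] at h1
  rw [← h1]
  refine Finset.sum_congr rfl (fun k _ => ?_)
  have := congrFun (congrFun hSh j) k
  simp only [conjTranspose_apply, star_trivial] at this
  rw [this]

end Vale.Agent.Lib.P150
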