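import Vale.Agent.Lib.P150.SKMain
import Vale.Agent.Lib.P150.Main2

/-!
The high-probability statement for the Sherrington-Kirkpatrick disorder for every `β < 1/2`.
-/

open MeasureTheory ProbabilityTheory Filter
open scoped BigOperators NNReal ENNReal Topology

set_option linter.unusedSectionVars false
set_option linter.unusedSimpArgs false
set_option linter.unusedVariables false

noncomputable section

namespace Vale.Agent.Lib.P150

variable {n : ℕ}

/-- The deterministic consequence of the good event. -/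
lemma sk_deterministic2 [NeZero n] {β ε η : ℝ} (hβ0 : 0 ≤ β) (hβ : β ≤ 1 / 2) (hε : 0 < ε)
    (hε1 : ε ≤ 1 / 10) (hη0 : 0 < η) (hη1 : η ≤ 1 / 200)
    {N : Finset (Fin n → ℝ)} (hN : ∀ a ∈ N, nsq a = 1)
    (hnet : ∀ w, nsq w = 1 → ∃ a ∈ N, nsq (w - a) ≤ ε ^ 2)
    {g : Pairs n → ℝ}
    (h1 : ∀ a ∈ N, quadG a g ≤ (2 + ε) * Real.sqrt n)
    (h2 : ∀ a ∈ N, -1 * quadG a g ≤ (2 + ε) * Real.sqrt n)
    (h3 : ∀ j, ∑ i, gMat g i j ^ 2 ≤ (1 + ε) * n)
    (h4 : ∀ p, |g p| ≤ Real.sqrt n * η / (β + 1))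
    (hκ : 0 < 1 - β * (2 + 10 * ε) - 25 * η * (β ^ 2 * (1 + ε))) :
    (1 - β * (2 + 10 * ε) - 25 * η * (β ^ 2 * (1 + ε))) ≤ spectralGap (skCoupling β g) ∧
      spectralGap (skCoupling β g) ≤ 1 ∧
      mixingTime (skCoupling β g)
        ≤ Real.exp (2 * (β * (2 + 10 * ε)) / (1 - β * (2 + 10 * ε) - 25 * η * (β ^ 2 * (1 + ε))))
          * Real.log (128 * (n : ℝ)) ∧
      (1 / 3) * Real.log (3 * (1 - β * (2 + 10 * ε) - 25 * η * (β ^ 2 * (1 + ε))) * (n : ℝ) / 80)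
        ≤ mixingTime (skCoupling β g) := by
  have hnpos : (0:ℝ) < n := by
    have : 0 < n := NeZero.pos n
    exact_mod_cast this
  set r := Real.sqrt n with hr
  have hrpos : 0 < r := Real.sqrt_pos.2 hnpos
  have hr2 : r * r = n := Real.mul_self_sqrt hnpos.le
  have hne : Nonempty (Fin n) := ⟨⟨0, NeZero.pos n⟩⟩
  set G := gMat g with hG
  have hGs : ∀ i j, G i j = G j i := gMat_symm g
  have hqb : ∀ a ∈ N, |bilin G a a| ≤ (2 + ε) * r := by
    intro a ha
    rw [hG, bilin_gMat, abs_le]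
    have := h2 a ha
    exact ⟨by linarith, h1 a ha⟩
  have hM : 0 ≤ (2 + ε) * r := by positivity
  have hδ2 : ε < 1 / 2 := by linarith
  have hquad := quad_le_of_net hGs hε hδ2 hM hnet hN hqb
  have hden : 0 < 1 - 2 * ε := by linarith
  have ht : (2 + ε) * r / (1 - 2 * ε) ≤ (2 + 10 * ε) * r := by
    rw [div_le_iff₀ hden]
    have : (2 + ε) ≤ (2 + 10 * ε) * (1 - 2 * ε) := by nlinarith
    nlinarith
  have ht0 : 0 ≤ (2 + ε) * r / (1 - 2 * ε) := by positivity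
  have hact := act_le_of_quad hGs ht0 hquad
  have hJ : ∀ (v : Fin n → ℝ) i, ∑ j, skCoupling β g i j * v j = β / r * matAct G v i := by
    intro v i
    unfold matAct
    rw [Finset.mul_sum]
    refine Finset.sum_congr rfl (fun j _ => ?_)
    rw [skCoupling_eq]
    ring
  have hρ : ∀ v : Fin n → ℝ, ∑ i, (∑ j, skCoupling β g i j * v j) ^ 2
      ≤ (β * (2 + 10 * ε)) ^ 2 * ∑ i, v i ^ 2 := by
    intro v
    simp_rw [hJ v, mul_pow]
    rw [← Finset.mul_sum]
    have h5 := hact v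
    have h6 : ((2 + ε) * r / (1 - 2 * ε)) ^ 2 ≤ ((2 + 10 * ε) * r) ^ 2 :=
      pow_le_pow_left₀ ht0 ht 2
    have h7 : ∑ i, matAct G v i ^ 2 ≤ ((2 + 10 * ε) * r) ^ 2 * ∑ i, v i ^ 2 :=
      h5.trans (mul_le_mul_of_nonneg_right h6 (nsq_nonneg v))
    have h8 : 0 ≤ (β / r) ^ 2 := by positivity
    calc (β / r) ^ 2 * ∑ i, matAct G v i ^ 2
        ≤ (β / r) ^ 2 * (((2 + 10 * ε) * r) ^ 2 * ∑ i, v i ^ 2) :=
          mul_le_mul_of_nonneg_left h7 h8
      _ = _ := by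
          field_simp
  have hrow : ∀ j, ∑ i, skCoupling β g i j ^ 2 ≤ β ^ 2 * (1 + ε) := by
    intro j
    have e : ∀ i, skCoupling β g i j ^ 2 = (β / r) ^ 2 * gMat g i j ^ 2 := by
      intro i
      rw [skCoupling_eq, mul_pow]
    simp_rw [e]
    rw [← Finset.mul_sum]
    have h5 := h3 j
    have h8 : 0 ≤ (β / r) ^ 2 := by positivity
    calc (β / r) ^ 2 * ∑ i, gMat g i j ^ 2 ≤ (β / r) ^ 2 * ((1 + ε) * n) :=
          mul_le_mul_of_nonneg_left h5 h8
      _ = _ := by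
          rw [← hr2]
          field_simp
  have hentry : ∀ i j, |skCoupling β g i j| ≤ η := by
    intro i j
    rw [skCoupling_eq, abs_mul, abs_of_nonneg (by positivity : 0 ≤ β / r)]
    have hx : 0 ≤ r * η / (β + 1) := by positivity
    have h5 := abs_gMat_le hx h4 i j
    calc β / r * |gMat g i j| ≤ β / r * (r * η / (β + 1)) :=
          mul_le_mul_of_nonneg_left h5 (by positivity)
      _ = β * η / (β + 1) := by
          field_simp
      _ ≤ η := by
          rw [div_le_iff₀ (by positivity)]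
          nlinarith
  have hρr : 4 * (β ^ 2 * (1 + ε)) ≤ β * (2 + 10 * ε) := by
    have h5 : β * (4 * β * (1 + ε)) ≤ β * (2 + 10 * ε) := by
      refine mul_le_mul_of_nonneg_left ?_ hβ0
      nlinarith
    nlinarith
  have hmain := ising_main2 (skCoupling β g) (skCoupling_symm β g) (skCoupling_diag β g)
    (ρ := β * (2 + 10 * ε)) (r2 := β ^ 2 * (1 + ε)) (η := η) (by positivity) hρ hrow hentry hη1
    hρr rfl hκ
  simpa using hmain

/-- The bound on the probability of the bad event. -/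
lemma sk_bad_measure {m : ℕ} (hm : 2 ≤ m) {β ε η : ℝ} (hβ0 : 0 ≤ β) (hε : 0 < ε) (hε1 : ε ≤ 1)
    (hη : 0 < η) {N : Finset (Fin m → ℝ)} (hN : ∀ a ∈ N, nsq a = 1) :
    stdG (Pairs m) (({g : Pairs m → ℝ | ∃ a ∈ N, (2 + ε) * Real.sqrt m < 1 * quadG a g}
        ∪ {g : Pairs m → ℝ | ∃ a ∈ N, (2 + ε) * Real.sqrt m < -1 * quadG a g})
        ∪ (⋃ j : Fin m, {g : Pairs m → ℝ | (1 + ε) * m < ∑ i, gMat g i j ^ 2})
        ∪ (⋃ p : Pairs m, {g : Pairs m → ℝ | Real.sqrt m * η / (β + 1) < |g p|}))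
      ≤ ENNReal.ofReal ((Real.exp 1 * Real.exp (-(ε ^ 2 / 16) * m)
          + Real.exp 1 * Real.exp (-(ε ^ 2 / 16) * m))
        + (m : ℝ) ^ 1 * Real.exp (-(ε ^ 2 / 16) * m)
        + Real.exp (1 / 2) * ((m : ℝ) ^ 2 * Real.exp (-((η / (β + 1)) ^ 2 / 4) * m))) := by
  set c₁ := ε ^ 2 / 16 with hc₁
  set c₂ := (η / (β + 1)) ^ 2 / 4 with hc₂
  have hmR : (2:ℝ) ≤ m := by exact_mod_cast hm
  have hmpos : (0:ℝ) < m := by linarith
  set S1 := {g : Pairs m → ℝ | ∃ a ∈ N, (2 + ε) * Real.sqrt m < 1 * quadG a g} with hS1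
  set S2 := {g : Pairs m → ℝ | ∃ a ∈ N, (2 + ε) * Real.sqrt m < -1 * quadG a g} with hS2
  set S3 := ⋃ j : Fin m, {g : Pairs m → ℝ | (1 + ε) * m < ∑ i, gMat g i j ^ 2} with hS3
  set S4 := ⋃ p : Pairs m, {g : Pairs m → ℝ | Real.sqrt m * η / (β + 1) < |g p|} with hS4
  have b1 : stdG (Pairs m) S1 ≤ ENNReal.ofReal (Real.exp 1 * Real.exp (-c₁ * m)) :=
    quad_tail (by omega) (σ := 1) (by norm_num) hN hε hε1
  have b2 : stdG (Pairs m) S2 ≤ ENNReal.ofReal (Real.exp 1 * Real.exp (-c₁ * m)) :=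
    quad_tail (by omega) (σ := -1) (by norm_num) hN hε hε1
  have b3 : stdG (Pairs m) S3 ≤ ENNReal.ofReal ((m : ℝ) ^ 1 * Real.exp (-c₁ * m)) := by
    refine (measure_iUnion_fintype_le _ _).trans ?_
    refine (Finset.sum_le_sum (fun j _ => row_tail j hε hε1)).trans ?_
    rw [Finset.sum_const, Finset.card_univ, Fintype.card_fin, nsmul_eq_mul, pow_one,
      ENNReal.ofReal_mul hmpos.le, ENNReal.ofReal_natCast]
  have b4 : stdG (Pairs m) S4
      ≤ ENNReal.ofReal (Real.exp (1 / 2) * ((m : ℝ) ^ 2 * Real.exp (-c₂ * m))) := by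
    refine (measure_iUnion_fintype_le _ _).trans ?_
    have hx : 0 ≤ Real.sqrt m * η / (β + 1) := by positivity
    refine (Finset.sum_le_sum (fun p _ => entry_tail p hx)).trans ?_
    rw [Finset.sum_const, Finset.card_univ, nsmul_eq_mul]
    have hcard : ((Fintype.card (Pairs m) : ℕ) : ℝ) ≤ (m : ℝ) ^ 2 := by
      have h1 : Fintype.card (Pairs m) ≤ Fintype.card (Fin m × Fin m) :=
        Fintype.card_subtype_le _
      simp only [Fintype.card_prod, Fintype.card_fin] at h1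
      calc ((Fintype.card (Pairs m) : ℕ) : ℝ) ≤ ((m * m : ℕ) : ℝ) := by exact_mod_cast h1
        _ = (m : ℝ) ^ 2 := by push_cast; ring
    have e : Real.exp (-(( Real.sqrt m * η / (β + 1)) ^ 2 / 4)) = Real.exp (-c₂ * m) := by
      congr 1
      rw [div_pow, mul_pow, Real.sq_sqrt hmpos.le, hc₂]
      field_simp
    rw [e, ← ENNReal.ofReal_natCast, ← ENNReal.ofReal_mul (by positivity)]
    apply ENNReal.ofReal_le_ofReal
    have hpos : 0 ≤ Real.exp (1 / 2) * Real.exp (-c₂ * m) := by positivity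
    calc ((Fintype.card (Pairs m) : ℕ) : ℝ) * (Real.exp (1 / 2) * Real.exp (-c₂ * m))
        ≤ (m : ℝ) ^ 2 * (Real.exp (1 / 2) * Real.exp (-c₂ * m)) :=
          mul_le_mul_of_nonneg_right hcard hpos
      _ = _ := by ring
  have h1 : stdG (Pairs m) (S1 ∪ S2 ∪ S3 ∪ S4)
      ≤ stdG (Pairs m) S1 + stdG (Pairs m) S2 + stdG (Pairs m) S3 + stdG (Pairs m) S4 := by
    refine (measure_union_le _ _).trans ?_
    refine add_le_add_left ?_ _
    refine (measure_union_le _ _).trans ?_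
    refine add_le_add_left ?_ _
    exact measure_union_le _ _
  refine h1.trans ((add_le_add (add_le_add (add_le_add b1 b2) b3) b4).trans ?_)
  rw [← ENNReal.ofReal_add (by positivity) (by positivity),
    ← ENNReal.ofReal_add (by positivity) (by positivity),
    ← ENNReal.ofReal_add (by positivity) (by positivity)]

/-- The final numerical form on the good event. -/
lemma sk_final_bounds {m : ℕ} (hm : 2 ≤ m) {κ₀ κ ρ C : ℝ} (hk0 : 0 < κ₀) (hκ : κ₀ ≤ κ)
    (hρ0 : 0 ≤ ρ) (hρ1 : ρ ≤ 1) (hC : C = 8 * Real.exp (2 / κ₀) + (1 / 3) * Real.log (80 / (3 * κ₀)))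
    (hlog80 : 0 ≤ Real.log (80 / (3 * κ₀))) {T : ℝ}
    (h1 : T ≤ Real.exp (2 * ρ / κ) * Real.log (128 * (m : ℝ)))
    (h2 : (1 / 3) * Real.log (3 * κ * (m : ℝ) / 80) ≤ T) :
    (1 / 3) * Real.log m - C ≤ T ∧ T ≤ C * Real.log m := by
  have hmR : (2:ℝ) ≤ m := by exact_mod_cast hm
  have hmpos : (0:ℝ) < m := by linarith
  have hlogm : 0 < Real.log m := Real.log_pos (by linarith)
  have hlog2 : Real.log 2 ≤ Real.log m := Real.log_le_log (by norm_num) hmR
  have hκ' : 0 < κ := lt_of_lt_of_le hk0 hκ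
  have hexp0 : 0 < Real.exp (2 / κ₀) := Real.exp_pos _
  constructor
  · refine le_trans ?_ h2
    have h3 : 3 * κ₀ * m / 80 ≤ 3 * κ * m / 80 := by
      apply div_le_div_of_nonneg_right _ (by norm_num)
      exact mul_le_mul_of_nonneg_right (by linarith) hmpos.le
    have h4 : 0 < 3 * κ₀ * m / 80 := by positivity
    have h5 := Real.log_le_log h4 h3
    have e : 3 * κ₀ * m / 80 = m / (80 / (3 * κ₀)) := by
      field_simp
    have hpos80 : 0 < 80 / (3 * κ₀) := by positivity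
    rw [e, Real.log_div hmpos.ne' hpos80.ne'] at h5
    rw [hC]
    have : 0 < 8 * Real.exp (2 / κ₀) := by positivity
    linarith
  · refine h1.trans ?_
    have hexp : Real.exp (2 * ρ / κ) ≤ Real.exp (2 / κ₀) := by
      apply Real.exp_le_exp.2
      rw [div_le_div_iff₀ hκ' hk0]
      nlinarith
    have hl : Real.log (128 * (m : ℝ)) ≤ 8 * Real.log m := by
      rw [Real.log_mul (by norm_num) hmpos.ne']
      have : Real.log 128 = 7 * Real.log 2 := by
        rw [show (128:ℝ) = 2 ^ 7 by norm_num, Real.log_pow]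
        norm_num
      rw [this]
      linarith
    have hl0 : 0 ≤ Real.log (128 * (m : ℝ)) := Real.log_nonneg (by linarith)
    calc Real.exp (2 * ρ / κ) * Real.log (128 * (m : ℝ))
        ≤ Real.exp (2 / κ₀) * (8 * Real.log m) := mul_le_mul hexp hl hl0 hexp0.le
      _ = 8 * Real.exp (2 / κ₀) * Real.log m := by ring
      _ ≤ C * Real.log m := by
          apply mul_le_mul_of_nonneg_right _ hlogm.le
          rw [hC]
          linarith

/-- The constants. -/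
lemma sk_half_constants {β ε₂ : ℝ} (hβ0 : 0 ≤ β) (hβ : β < 1 / 2) (hε₂0 : 0 < ε₂)
    (hε₂le : ε₂ ≤ 1 / 2) :
    1 - 2 * β - ε₂ ≤ 1 - β * (2 + 10 * (ε₂ / 10)) - 25 * (ε₂ / 50 * (1 / 2)) * (β ^ 2 * (1 + ε₂ / 10)) := by
  set ε := ε₂ / 10 with hεdef
  set η := ε₂ / 50 * (1 / 2) with hηdef
  have hε : 0 < ε := by positivity
  have hη : 0 < η := by positivity
  have h1 : β * (10 * ε) ≤ ε₂ / 2 := by
    rw [hεdef]
    nlinarith
  have h2 : 25 * η * (β ^ 2 * (1 + ε)) ≤ ε₂ / 2 := by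
    have h3 : β ^ 2 * (1 + ε) ≤ 1 / 4 * 2 := by
      have h4 : β ^ 2 ≤ 1 / 4 := by nlinarith
      have h5 : 1 + ε ≤ 2 := by rw [hεdef]; linarith
      exact mul_le_mul h4 h5 (by positivity) (by norm_num)
    have h6 : 25 * η * (β ^ 2 * (1 + ε)) ≤ 25 * η * (1 / 4 * 2) :=
      mul_le_mul_of_nonneg_left h3 (by positivity)
    have h7 : 25 * η * (1 / 4 * 2) = ε₂ / 8 := by
      rw [hηdef]; ring
    linarith
  have e : β * (2 + 10 * ε) = 2 * β + β * (10 * ε) := by ring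
  rw [e]
  linarith

/-- **The high-probability theorem for every `β < 1/2`.** -/
theorem sk_half {β : ℝ} (hβ0 : 0 ≤ β) (hβ : β < 1 / 2) {ε₁ : ℝ} (hε₁ : 0 < ε₁) :
    ∃ C : ℝ, 0 < C ∧
      Tendsto (fun n : ℕ =>
        (Measure.pi (fun _ : {p : Fin n × Fin n // p.1 < p.2} => gaussianReal 0 1))
          {g | ¬ (1 - 2 * β - ε₁ ≤ spectralGap (skCoupling β g) ∧ spectralGap (skCoupling β g) ≤ 1 ∧
            (1 / 3) * Real.log n - C ≤ mixingTime (skCoupling β g) ∧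
            mixingTime (skCoupling β g) ≤ C * Real.log n)})
        atTop (𝓝 0) := by
  -- reduction to small `ε₂`
  set ε₂ := min ε₁ ((1 - 2 * β) / 2) with hε₂
  have hε₂0 : 0 < ε₂ := lt_min hε₁ (by linarith)
  have hε₂1 : ε₂ ≤ ε₁ := min_le_left _ _
  have hε₂2 : ε₂ ≤ (1 - 2 * β) / 2 := min_le_right _ _
  set κ₀ := 1 - 2 * β - ε₂ with hκ₀
  have hk0 : 0 < κ₀ := by rw [hκ₀]; linarith
  have hk1 : κ₀ ≤ 1 := by rw [hκ₀]; linarith
  have hε₂le : ε₂ ≤ 1 / 2 := by linarith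
  set ε := ε₂ / 10 with hεdef
  have hε : 0 < ε := by positivity
  have hε1 : ε ≤ 1 / 10 := by rw [hεdef]; linarith
  set η := ε₂ / 50 * (1 / 2) with hηdef
  have hη : 0 < η := by positivity
  have hη1 : η ≤ 1 / 200 := by rw [hηdef]; linarith
  have hκ : κ₀ ≤ 1 - β * (2 + 10 * ε) - 25 * η * (β ^ 2 * (1 + ε)) :=
    sk_half_constants hβ0 hβ hε₂0 hε₂le
  set C := 8 * Real.exp (2 / κ₀) + (1 / 3) * Real.log (80 / (3 * κ₀)) with hC
  have hlog80 : 0 ≤ Real.log (80 / (3 * κ₀)) := by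
    apply Real.log_nonneg
    rw [le_div_iff₀ (by positivity)]
    linarith
  have hexp0 : 0 < Real.exp (2 / κ₀) := Real.exp_pos _
  have hC0 : 0 < C := by
    rw [hC]
    positivity
  refine ⟨C, hC0, ?_⟩
  set c₁ := ε ^ 2 / 16 with hc₁
  have hc₁0 : 0 < c₁ := by positivity
  set c₂ := (η / (β + 1)) ^ 2 / 4 with hc₂
  have hc₂0 : 0 < c₂ := by positivity
  -- the bound
  set U : ℕ → ℝ := fun m =>
    (Real.exp 1 * Real.exp (-c₁ * m) + Real.exp 1 * Real.exp (-c₁ * m))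
      + (m : ℝ) ^ 1 * Real.exp (-c₁ * m)
      + Real.exp (1 / 2) * ((m : ℝ) ^ 2 * Real.exp (-c₂ * m)) with hU
  have hUt : Tendsto U atTop (𝓝 0) := by
    have e1 := tendsto_pow_mul_exp_neg hc₁0 0
    have e2 := tendsto_pow_mul_exp_neg hc₁0 1
    have e3 := tendsto_pow_mul_exp_neg hc₂0 2
    simp only [pow_zero, one_mul] at e1
    have h5 := ((((e1.const_mul (Real.exp 1)).add (e1.const_mul (Real.exp 1))).add e2).add
      (e3.const_mul (Real.exp (1 / 2))))
    have h6 : Tendsto U atTop (𝓝 (Real.exp 1 * 0 + Real.exp 1 * 0 + 0 + Real.exp (1 / 2) * 0)) := h5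
    simpa using h6
  have hUt' : Tendsto (fun m => ENNReal.ofReal (U m)) atTop (𝓝 0) := by
    have := ENNReal.tendsto_ofReal hUt
    simpa using this
  refine tendsto_of_tendsto_of_tendsto_of_le_of_le' tendsto_const_nhds hUt'
    (Eventually.of_forall (fun _ => by simp)) ?_
  filter_upwards [eventually_ge_atTop 2] with m hm
  have : NeZero m := ⟨by omega⟩
  obtain ⟨N, hN, hnet⟩ := exists_net (ι := Fin m) hε
  have hAll := sk_bad_measure hm (β := β) (η := η) hβ0 hε (by linarith) hη hN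
  refine (measure_mono ?_).trans hAll
  intro g hg
  by_contra hcon
  apply hg
  simp only [Set.mem_union, not_or] at hcon
  obtain ⟨⟨⟨n1, n2⟩, n3⟩, n4⟩ := hcon
  have g1 : ∀ a ∈ N, quadG a g ≤ (2 + ε) * Real.sqrt m := by
    intro a ha
    by_contra hh
    push Not at hh
    exact n1 ⟨a, ha, by simpa using hh⟩
  have g2 : ∀ a ∈ N, -1 * quadG a g ≤ (2 + ε) * Real.sqrt m := by
    intro a ha
    by_contra hh
    push Not at hh
    exact n2 ⟨a, ha, hh⟩
  have g3 : ∀ j, ∑ i, gMat g i j ^ 2 ≤ (1 + ε) * m := by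
    intro j
    by_contra hh
    push Not at hh
    exact n3 (Set.mem_iUnion.2 ⟨j, hh⟩)
  have g4 : ∀ p, |g p| ≤ Real.sqrt m * η / (β + 1) := by
    intro p
    by_contra hh
    push Not at hh
    exact n4 (Set.mem_iUnion.2 ⟨p, hh⟩)
  have hκ' : 0 < 1 - β * (2 + 10 * ε) - 25 * η * (β ^ 2 * (1 + ε)) := lt_of_lt_of_le hk0 hκ
  obtain ⟨a1, a2, a3, a4⟩ := sk_deterministic2 hβ0 hβ.le hε hε1 hη hη1 hN hnet g1 g2 g3 g4 hκ'
  have hρ1 : β * (2 + 10 * ε) ≤ 1 := by
    have : 0 ≤ 25 * η * (β ^ 2 * (1 + ε)) := by positivity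
    linarith
  obtain ⟨b1, b2⟩ := sk_final_bounds hm hk0 hκ (by positivity) hρ1 hC hlog80 a3 a4
  refine ⟨?_, a2, b1, b2⟩
  refine le_trans ?_ a1
  have : κ₀ = 1 - 2 * β - ε₂ := hκ₀
  linarith

end Vale.Agent.Lib.P150
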