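import Vale.Agent.Lib.P150.SKTail
import Vale.Agent.Lib.P150.Main

/-!
Assembly of the high-probability statement for the Sherrington-Kirkpatrick disorder.
-/

open MeasureTheory ProbabilityTheory Filter
open scoped BigOperators NNReal ENNReal Topology

set_option linter.unusedSectionVars false
set_option linter.unusedSimpArgs false
set_option linter.unusedVariables false

noncomputable section

namespace Vale.Agent.Lib.P150

variable {n : ℕ}

lemma skCoupling_symm (β : ℝ) (g : Pairs n → ℝ) (i j : Fin n) :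
    skCoupling β g i j = skCoupling β g j i := by
  rw [skCoupling_eq, skCoupling_eq, gMat_symm]

lemma skCoupling_diag (β : ℝ) (g : Pairs n → ℝ) (i : Fin n) : skCoupling β g i i = 0 := by
  rw [skCoupling_eq, gMat_diag, mul_zero]

lemma abs_gMat_le {g : Pairs n → ℝ} {x : ℝ} (hx : 0 ≤ x) (h : ∀ p, |g p| ≤ x) (i j : Fin n) :
    |gMat g i j| ≤ x := by
  unfold gMat
  split_ifs
  · exact h _
  · exact h _
  · simpa using hx

/-- The deterministic consequence of the good event. -/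
lemma sk_deterministic [NeZero n] {β ε : ℝ} (hβ0 : 0 ≤ β) (hε : 0 < ε) (hε1 : ε ≤ 1 / 10)
    {N : Finset (Fin n → ℝ)} (hN : ∀ a ∈ N, nsq a = 1)
    (hnet : ∀ w, nsq w = 1 → ∃ a ∈ N, nsq (w - a) ≤ ε ^ 2)
    {g : Pairs n → ℝ}
    (h1 : ∀ a ∈ N, quadG a g ≤ (2 + ε) * Real.sqrt n)
    (h2 : ∀ a ∈ N, -1 * quadG a g ≤ (2 + ε) * Real.sqrt n)
    (h3 : ∀ j, ∑ i, gMat g i j ^ 2 ≤ (1 + ε) * n)
    (h4 : ∀ p, |g p| ≤ Real.sqrt n / (200 * (β + 1)))
    (hκ : 0 < 1 - β * (2 + 10 * ε) - 2 * (β ^ 2 * (1 + ε))) :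
    (1 - β * (2 + 10 * ε) - 2 * (β ^ 2 * (1 + ε))) ≤ spectralGap (skCoupling β g) ∧
      spectralGap (skCoupling β g) ≤ 1 ∧
      mixingTime (skCoupling β g) ≤ (1 / (1 - β * (2 + 10 * ε) - 2 * (β ^ 2 * (1 + ε))))
        * Real.log (4 * (n : ℝ) * Real.sqrt n) ∧
      (1 / 2) * Real.log ((1 - β * (2 + 10 * ε) - 2 * (β ^ 2 * (1 + ε))) * (n : ℝ) / 16)
        ≤ mixingTime (skCoupling β g) := by
  have hnpos : (0:ℝ) < n := by
    have : 0 < n := NeZero.pos n
    exact_mod_cast this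
  set r := Real.sqrt n with hr
  have hrpos : 0 < r := Real.sqrt_pos.2 hnpos
  have hr2 : r * r = n := Real.mul_self_sqrt hnpos.le
  have hne : Nonempty (Fin n) := ⟨⟨0, NeZero.pos n⟩⟩
  set G := gMat g with hG
  have hGs : ∀ i j, G i j = G j i := gMat_symm g
  have hqb : ∀ a ∈ N, |bilin G a a| ≤ (2 + ε) * r := by
    intro a ha
    rw [hG, bilin_gMat, abs_le]
    have := h2 a ha
    exact ⟨by linarith, h1 a ha⟩
  have hM : 0 ≤ (2 + ε) * r := by positivity
  have hδ2 : ε < 1 / 2 := by linarith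
  have hquad := quad_le_of_net hGs hε hδ2 hM hnet hN hqb
  have hden : 0 < 1 - 2 * ε := by linarith
  have ht : (2 + ε) * r / (1 - 2 * ε) ≤ (2 + 10 * ε) * r := by
    rw [div_le_iff₀ hden]
    have : (2 + ε) ≤ (2 + 10 * ε) * (1 - 2 * ε) := by nlinarith
    nlinarith
  have ht0 : 0 ≤ (2 + ε) * r / (1 - 2 * ε) := by positivity
  have hact := act_le_of_quad hGs ht0 hquad
  have hJ : ∀ (v : Fin n → ℝ) i, ∑ j, skCoupling β g i j * v j = β / r * matAct G v i := by
    intro v i
    unfold matAct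
    rw [Finset.mul_sum]
    refine Finset.sum_congr rfl (fun j _ => ?_)
    rw [skCoupling_eq]
    ring
  have hρ : ∀ v : Fin n → ℝ, ∑ i, (∑ j, skCoupling β g i j * v j) ^ 2
      ≤ (β * (2 + 10 * ε)) ^ 2 * ∑ i, v i ^ 2 := by
    intro v
    simp_rw [hJ v, mul_pow]
    rw [← Finset.mul_sum]
    have h5 := hact v
    have h6 : ((2 + ε) * r / (1 - 2 * ε)) ^ 2 ≤ ((2 + 10 * ε) * r) ^ 2 :=
      pow_le_pow_left₀ ht0 ht 2
    have h7 : ∑ i, matAct G v i ^ 2 ≤ ((2 + 10 * ε) * r) ^ 2 * ∑ i, v i ^ 2 :=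
      h5.trans (mul_le_mul_of_nonneg_right h6 (nsq_nonneg v))
    have h8 : 0 ≤ (β / r) ^ 2 := by positivity
    calc (β / r) ^ 2 * ∑ i, matAct G v i ^ 2
        ≤ (β / r) ^ 2 * (((2 + 10 * ε) * r) ^ 2 * ∑ i, v i ^ 2) :=
          mul_le_mul_of_nonneg_left h7 h8
      _ = _ := by
          field_simp
  have hrow : ∀ j, ∑ i, skCoupling β g i j ^ 2 ≤ β ^ 2 * (1 + ε) := by
    intro j
    have e : ∀ i, skCoupling β g i j ^ 2 = (β / r) ^ 2 * gMat g i j ^ 2 := by
      intro i
      rw [skCoupling_eq, mul_pow]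
    simp_rw [e]
    rw [← Finset.mul_sum]
    have h5 := h3 j
    have h8 : 0 ≤ (β / r) ^ 2 := by positivity
    calc (β / r) ^ 2 * ∑ i, gMat g i j ^ 2 ≤ (β / r) ^ 2 * ((1 + ε) * n) :=
          mul_le_mul_of_nonneg_left h5 h8
      _ = _ := by
          rw [← hr2]
          field_simp
  have hentry : ∀ i j, |skCoupling β g i j| ≤ 1 / 200 := by
    intro i j
    rw [skCoupling_eq, abs_mul, abs_of_nonneg (by positivity : 0 ≤ β / r)]
    have hx : 0 ≤ r / (200 * (β + 1)) := by positivity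
    have h5 := abs_gMat_le hx h4 i j
    calc β / r * |gMat g i j| ≤ β / r * (r / (200 * (β + 1))) :=
          mul_le_mul_of_nonneg_left h5 (by positivity)
      _ = β / (200 * (β + 1)) := by
          field_simp
      _ ≤ 1 / 200 := by
          rw [div_le_div_iff₀ (by positivity) (by norm_num)]
          linarith
  have hmain := ising_main (skCoupling β g) (skCoupling_symm β g) (skCoupling_diag β g)
    (ρ := β * (2 + 10 * ε)) (r2 := β ^ 2 * (1 + ε)) (by positivity) hρ hrow hentry rfl hκ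
  simpa using hmain

lemma tendsto_pow_mul_exp_neg {c : ℝ} (hc : 0 < c) (k : ℕ) :
    Tendsto (fun m : ℕ => (m : ℝ) ^ k * Real.exp (-c * m)) atTop (𝓝 0) := by
  have h := tendsto_pow_const_mul_const_pow_of_abs_lt_one k
    (r := Real.exp (-c)) (by
      rw [abs_of_pos (Real.exp_pos _)]
      have := Real.exp_lt_exp.2 (by linarith : -c < 0)
      simpa using this)
  refine h.congr (fun m => ?_)
  rw [← Real.exp_nat_mul]
  congr 2
  ring

/-- The high-probability theorem for the coupling `β g / √n`. -/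
theorem sk_whp {β : ℝ} (hβ0 : 0 ≤ β) (hβ : β < (Real.sqrt 3 - 1) / 2) :
    ∃ c C : ℝ, 0 < c ∧ 0 < C ∧
      Tendsto (fun n : ℕ =>
        (Measure.pi (fun _ : {p : Fin n × Fin n // p.1 < p.2} => gaussianReal 0 1))
          {g | ¬ (c ≤ spectralGap (skCoupling β g) ∧ spectralGap (skCoupling β g) ≤ 1 ∧
            (1 / 2) * Real.log n - C ≤ mixingTime (skCoupling β g) ∧
            mixingTime (skCoupling β g) ≤ C * Real.log n)})
        atTop (𝓝 0) := by
  have h3 : (Real.sqrt 3) ^ 2 = 3 := Real.sq_sqrt (by norm_num)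
  have hs3 : 0 ≤ Real.sqrt 3 := Real.sqrt_nonneg 3
  have hk0 : 0 < 1 - 2 * β - 2 * β ^ 2 := by
    have h1 : 2 * β + 1 < Real.sqrt 3 := by linarith
    nlinarith
  set κ₀ := 1 - 2 * β - 2 * β ^ 2 with hκ₀
  have hk1 : κ₀ ≤ 1 := by rw [hκ₀]; nlinarith
  have hβ12 : β ≤ 1 / 2 := by
    rw [hκ₀] at hk0
    nlinarith
  set ε := κ₀ / 12 with hεdef
  have hε : 0 < ε := by positivity
  have hε1 : ε ≤ 1 / 10 := by rw [hεdef]; linarith
  have hκ : κ₀ / 2 ≤ 1 - β * (2 + 10 * ε) - 2 * (β ^ 2 * (1 + ε)) := by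
    have h2 : 10 * β + 2 * β ^ 2 ≤ 6 := by nlinarith
    have h4 : ε * (10 * β + 2 * β ^ 2) ≤ ε * 6 := mul_le_mul_of_nonneg_left h2 hε.le
    have h5 : ε * 6 = κ₀ / 2 := by rw [hεdef]; ring
    have h6 : 1 - β * (2 + 10 * ε) - 2 * (β ^ 2 * (1 + ε))
        = κ₀ - ε * (10 * β + 2 * β ^ 2) := by
      rw [hκ₀]; ring
    rw [h6]
    linarith
  set C := 7 / κ₀ + (1 / 2) * Real.log (32 / κ₀) with hC
  have hlog32 : 0 ≤ Real.log (32 / κ₀) := by
    apply Real.log_nonneg
    rw [le_div_iff₀ hk0]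
    linarith
  have hC0 : 0 < C := by
    rw [hC]
    have : 0 < 7 / κ₀ := by positivity
    linarith
  refine ⟨κ₀ / 2, C, by positivity, hC0, ?_⟩
  set c₁ := ε ^ 2 / 16 with hc₁
  have hc₁0 : 0 < c₁ := by positivity
  set c₂ := 1 / (4 * (200 * (β + 1)) ^ 2) with hc₂
  have hc₂0 : 0 < c₂ := by positivity
  -- the bound
  set U : ℕ → ℝ := fun m =>
    (Real.exp 1 * Real.exp (-c₁ * m) + Real.exp 1 * Real.exp (-c₁ * m))
      + (m : ℝ) ^ 1 * Real.exp (-c₁ * m)
      + Real.exp (1 / 2) * ((m : ℝ) ^ 2 * Real.exp (-c₂ * m)) with hU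
  have hUt : Tendsto U atTop (𝓝 0) := by
    have e1 := tendsto_pow_mul_exp_neg hc₁0 0
    have e2 := tendsto_pow_mul_exp_neg hc₁0 1
    have e3 := tendsto_pow_mul_exp_neg hc₂0 2
    simp only [pow_zero, one_mul] at e1
    have h5 := ((((e1.const_mul (Real.exp 1)).add (e1.const_mul (Real.exp 1))).add e2).add
      (e3.const_mul (Real.exp (1 / 2))))
    have h6 : Tendsto U atTop (𝓝 (Real.exp 1 * 0 + Real.exp 1 * 0 + 0 + Real.exp (1 / 2) * 0)) := h5
    simpa using h6
  have hUt' : Tendsto (fun m => ENNReal.ofReal (U m)) atTop (𝓝 0) := by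
    have := ENNReal.tendsto_ofReal hUt
    simpa using this
  refine tendsto_of_tendsto_of_tendsto_of_le_of_le' tendsto_const_nhds hUt'
    (Eventually.of_forall (fun _ => by simp)) ?_
  filter_upwards [eventually_ge_atTop 2] with m hm
  have : NeZero m := ⟨by omega⟩
  obtain ⟨N, hN, hnet⟩ := exists_net (ι := Fin m) hε
  have hmR : (2:ℝ) ≤ m := by exact_mod_cast hm
  have hmpos : (0:ℝ) < m := by linarith
  have hlogm : 0 < Real.log m := Real.log_pos (by linarith)
  have hlog2 : Real.log 2 ≤ Real.log m := Real.log_le_log (by norm_num) hmR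
  set S1 := {g : Pairs m → ℝ | ∃ a ∈ N, (2 + ε) * Real.sqrt m < 1 * quadG a g} with hS1
  set S2 := {g : Pairs m → ℝ | ∃ a ∈ N, (2 + ε) * Real.sqrt m < -1 * quadG a g} with hS2
  set S3 := ⋃ j : Fin m, {g : Pairs m → ℝ | (1 + ε) * m < ∑ i, gMat g i j ^ 2} with hS3
  set S4 := ⋃ p : Pairs m, {g : Pairs m → ℝ | Real.sqrt m / (200 * (β + 1)) < |g p|} with hS4
  have hsub : {g : Pairs m → ℝ | ¬ (κ₀ / 2 ≤ spectralGap (skCoupling β g) ∧
      spectralGap (skCoupling β g) ≤ 1 ∧
      (1 / 2) * Real.log m - C ≤ mixingTime (skCoupling β g) ∧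
      mixingTime (skCoupling β g) ≤ C * Real.log m)} ⊆ S1 ∪ S2 ∪ S3 ∪ S4 := by
    intro g hg
    by_contra hcon
    apply hg
    simp only [Set.mem_union, not_or] at hcon
    obtain ⟨⟨⟨n1, n2⟩, n3⟩, n4⟩ := hcon
    have g1 : ∀ a ∈ N, quadG a g ≤ (2 + ε) * Real.sqrt m := by
      intro a ha
      by_contra hh
      push Not at hh
      exact n1 ⟨a, ha, by simpa using hh⟩
    have g2 : ∀ a ∈ N, -1 * quadG a g ≤ (2 + ε) * Real.sqrt m := by
      intro a ha
      by_contra hh
      push Not at hh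
      exact n2 ⟨a, ha, hh⟩
    have g3 : ∀ j, ∑ i, gMat g i j ^ 2 ≤ (1 + ε) * m := by
      intro j
      by_contra hh
      push Not at hh
      exact n3 (Set.mem_iUnion.2 ⟨j, hh⟩)
    have g4 : ∀ p, |g p| ≤ Real.sqrt m / (200 * (β + 1)) := by
      intro p
      by_contra hh
      push Not at hh
      exact n4 (Set.mem_iUnion.2 ⟨p, hh⟩)
    have hκ' : 0 < 1 - β * (2 + 10 * ε) - 2 * (β ^ 2 * (1 + ε)) := by
      have : 0 < κ₀ / 2 := by positivity
      linarith
    obtain ⟨a1, a2, a3, a4⟩ := sk_deterministic hβ0 hε hε1 hN hnet g1 g2 g3 g4 hκ'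
    set κ := 1 - β * (2 + 10 * ε) - 2 * (β ^ 2 * (1 + ε)) with hκdef
    refine ⟨hκ.trans a1, a2, ?_, ?_⟩
    · refine le_trans ?_ a4
      have h1 : κ₀ / 2 * m / 16 ≤ κ * m / 16 := by
        apply div_le_div_of_nonneg_right _ (by norm_num)
        exact mul_le_mul_of_nonneg_right hκ hmpos.le
      have h2 : 0 < κ₀ / 2 * m / 16 := by positivity
      have h3 := Real.log_le_log h2 h1
      have e : κ₀ / 2 * m / 16 = m / (32 / κ₀) := by
        field_simp
        ring
      have hpos32 : 0 < 32 / κ₀ := by positivity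
      rw [e, Real.log_div hmpos.ne' hpos32.ne'] at h3
      rw [hC]
      have : 0 < 7 / κ₀ := by positivity
      nlinarith
    · refine a3.trans ?_
      have hinv : 1 / κ ≤ 2 / κ₀ := by
        rw [div_le_div_iff₀ hκ' hk0]
        linarith
      have hl : Real.log (4 * (m : ℝ) * Real.sqrt m) ≤ 7 / 2 * Real.log m := by
        have hs : 0 < Real.sqrt m := Real.sqrt_pos.2 hmpos
        rw [Real.log_mul (by positivity) hs.ne', Real.log_mul (by norm_num) hmpos.ne',
          Real.log_sqrt hmpos.le]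
        have : Real.log 4 = 2 * Real.log 2 := by
          rw [show (4:ℝ) = 2 ^ 2 by norm_num, Real.log_pow]
          norm_num
        rw [this]
        linarith
      have hl0 : 0 ≤ Real.log (4 * (m : ℝ) * Real.sqrt m) := by
        apply Real.log_nonneg
        have hs : 1 ≤ Real.sqrt m := by
          rw [Real.one_le_sqrt]
          linarith
        nlinarith
      calc 1 / κ * Real.log (4 * (m : ℝ) * Real.sqrt m)
          ≤ 2 / κ₀ * (7 / 2 * Real.log m) :=
            mul_le_mul hinv hl hl0 (by positivity)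
        _ = 7 / κ₀ * Real.log m := by
            field_simp
        _ ≤ C * Real.log m := by
            apply mul_le_mul_of_nonneg_right _ hlogm.le
            rw [hC]
            linarith
  have hε1' : ε ≤ 1 := by linarith
  have b1 : stdG (Pairs m) S1 ≤ ENNReal.ofReal (Real.exp 1 * Real.exp (-c₁ * m)) :=
    quad_tail (by omega) (σ := 1) (by norm_num) hN hε hε1'
  have b2 : stdG (Pairs m) S2 ≤ ENNReal.ofReal (Real.exp 1 * Real.exp (-c₁ * m)) :=
    quad_tail (by omega) (σ := -1) (by norm_num) hN hε hε1'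
  have b3 : stdG (Pairs m) S3 ≤ ENNReal.ofReal ((m : ℝ) ^ 1 * Real.exp (-c₁ * m)) := by
    refine (measure_iUnion_fintype_le _ _).trans ?_
    refine (Finset.sum_le_sum (fun j _ => row_tail j hε hε1')).trans ?_
    rw [Finset.sum_const, Finset.card_univ, Fintype.card_fin, nsmul_eq_mul, pow_one,
      ENNReal.ofReal_mul hmpos.le, ENNReal.ofReal_natCast]
  have b4 : stdG (Pairs m) S4
      ≤ ENNReal.ofReal (Real.exp (1 / 2) * ((m : ℝ) ^ 2 * Real.exp (-c₂ * m))) := by
    refine (measure_iUnion_fintype_le _ _).trans ?_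
    have hx : 0 ≤ Real.sqrt m / (200 * (β + 1)) := by positivity
    refine (Finset.sum_le_sum (fun p _ => entry_tail p hx)).trans ?_
    rw [Finset.sum_const, Finset.card_univ, nsmul_eq_mul]
    have hcard : ((Fintype.card (Pairs m) : ℕ) : ℝ) ≤ (m : ℝ) ^ 2 := by
      have h1 : Fintype.card (Pairs m) ≤ Fintype.card (Fin m × Fin m) :=
        Fintype.card_subtype_le _
      simp only [Fintype.card_prod, Fintype.card_fin] at h1
      calc ((Fintype.card (Pairs m) : ℕ) : ℝ) ≤ ((m * m : ℕ) : ℝ) := by exact_mod_cast h1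
        _ = (m : ℝ) ^ 2 := by push_cast; ring
    have e : Real.exp (-(( Real.sqrt m / (200 * (β + 1))) ^ 2 / 4)) = Real.exp (-c₂ * m) := by
      congr 1
      rw [div_pow, Real.sq_sqrt hmpos.le, hc₂]
      field_simp
    rw [e, ← ENNReal.ofReal_natCast, ← ENNReal.ofReal_mul (by positivity)]
    apply ENNReal.ofReal_le_ofReal
    have hpos : 0 ≤ Real.exp (1 / 2) * Real.exp (-c₂ * m) := by positivity
    calc ((Fintype.card (Pairs m) : ℕ) : ℝ) * (Real.exp (1 / 2) * Real.exp (-c₂ * m))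
        ≤ (m : ℝ) ^ 2 * (Real.exp (1 / 2) * Real.exp (-c₂ * m)) :=
          mul_le_mul_of_nonneg_right hcard hpos
      _ = _ := by ring
  have hAll : stdG (Pairs m) (S1 ∪ S2 ∪ S3 ∪ S4) ≤ ENNReal.ofReal (U m) := by
    have h1 : stdG (Pairs m) (S1 ∪ S2 ∪ S3 ∪ S4)
        ≤ stdG (Pairs m) S1 + stdG (Pairs m) S2 + stdG (Pairs m) S3 + stdG (Pairs m) S4 := by
      refine (measure_union_le _ _).trans ?_
      refine add_le_add_left ?_ _
      refine (measure_union_le _ _).trans ?_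
      refine add_le_add_left ?_ _
      exact measure_union_le _ _
    refine h1.trans ((add_le_add (add_le_add (add_le_add b1 b2) b3) b4).trans ?_)
    rw [hU]
    simp only
    rw [← ENNReal.ofReal_add (by positivity) (by positivity),
      ← ENNReal.ofReal_add (by positivity) (by positivity),
      ← ENNReal.ofReal_add (by positivity) (by positivity)]
  exact (measure_mono hsub).trans hAll

end Vale.Agent.Lib.P150
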