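import Vale.Agent.Lib.P150.ChiSq
import Vale.Agent.Lib.P150.NetNorm
import Vale.Agent.Lib.P150.Defs

/-!
Probability estimates for the Sherrington-Kirkpatrick disorder.
-/

open MeasureTheory ProbabilityTheory
open scoped BigOperators NNReal ENNReal

set_option linter.unusedSectionVars false
set_option linter.unusedSimpArgs false
set_option linter.unusedVariables false

noncomputable section

namespace Vale.Agent.Lib.P150

/-- Ordered pairs, the index set of the disorder. -/
abbrev Pairs (n : ℕ) := {p : Fin n × Fin n // p.1 < p.2}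

/-- The symmetric matrix with zero diagonal attached to the disorder. -/
def gMat {n : ℕ} (g : Pairs n → ℝ) : Fin n → Fin n → ℝ :=
  fun i j =>
    if h : i < j then g ⟨(i, j), h⟩
    else if h' : j < i then g ⟨(j, i), h'⟩
    else 0

variable {n : ℕ}

lemma gMat_symm (g : Pairs n → ℝ) (i j : Fin n) : gMat g i j = gMat g j i := by
  unfold gMat
  rcases lt_trichotomy i j with h | h | h
  · simp [h, not_lt.2 h.le]
  · subst h; simp
  · simp [h, not_lt.2 h.le]

lemma gMat_diag (g : Pairs n → ℝ) (i : Fin n) : gMat g i i = 0 := by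
  simp [gMat]

lemma gMat_pair (g : Pairs n → ℝ) (p : Pairs n) : gMat g p.1.1 p.1.2 = g p := by
  unfold gMat
  simp [p.2]

lemma gMat_pair' (g : Pairs n → ℝ) (p : Pairs n) : gMat g p.1.2 p.1.1 = g p := by
  rw [gMat_symm, gMat_pair]

lemma skCoupling_eq (β : ℝ) (g : Pairs n → ℝ) (i j : Fin n) :
    skCoupling β g i j = β / Real.sqrt n * gMat g i j := by
  unfold skCoupling gMat
  split_ifs <;> simp

lemma sum_pairs (f : Fin n × Fin n → ℝ) :
    ∑ p : Pairs n, f p.1 = ∑ q, if q.1 < q.2 then f q else 0 := by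
  rw [← Finset.sum_filter]
  exact (Finset.sum_subtype (Finset.univ.filter (fun q : Fin n × Fin n => q.1 < q.2))
    (by simp) f).symm

/-- Splitting a double sum into the sum over ordered pairs and the diagonal. -/
lemma sum_full_eq (F : Fin n → Fin n → ℝ) :
    ∑ i, ∑ j, F i j = ∑ p : Pairs n, (F p.1.1 p.1.2 + F p.1.2 p.1.1) + ∑ i, F i i := by
  have h1 : ∑ p : Pairs n, F p.1.1 p.1.2 = ∑ q : Fin n × Fin n, if q.1 < q.2 then F q.1 q.2 else 0 :=
    sum_pairs (fun q => F q.1 q.2)
  have h2 : ∑ p : Pairs n, F p.1.2 p.1.1 = ∑ q : Fin n × Fin n, if q.2 < q.1 then F q.1 q.2 else 0 := by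
    rw [sum_pairs (fun q => F q.2 q.1)]
    exact (Equiv.prodComm (Fin n) (Fin n)).sum_comp
      (fun q : Fin n × Fin n => if q.2 < q.1 then F q.1 q.2 else 0) 
  have h3 : ∑ i, F i i = ∑ q : Fin n × Fin n, if q.1 = q.2 then F q.1 q.2 else 0 := by
    rw [Fintype.sum_prod_type]
    refine Finset.sum_congr rfl (fun i _ => ?_)
    simp
  rw [Finset.sum_add_distrib, h1, h2, h3, ← Finset.sum_add_distrib, ← Finset.sum_add_distrib,
    ← Fintype.sum_prod_type']
  refine Finset.sum_congr rfl (fun q _ => ?_)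
  rcases lt_trichotomy q.1 q.2 with h | h | h
  · simp [h, not_lt.2 h.le, h.ne]
  · simp [h]
  · simp [h, not_lt.2 h.le, h.ne']

/-- The quadratic form attached to the disorder. -/
def quadG (a : Fin n → ℝ) (g : Pairs n → ℝ) : ℝ := ∑ p : Pairs n, 2 * a p.1.1 * a p.1.2 * g p

lemma bilin_gMat (a : Fin n → ℝ) (g : Pairs n → ℝ) : bilin (gMat g) a a = quadG a g := by
  unfold bilin quadG
  rw [sum_full_eq]
  simp only [gMat_diag, zero_mul, Finset.sum_const_zero, add_zero]
  refine Finset.sum_congr rfl (fun p _ => ?_)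
  rw [gMat_pair, gMat_pair']
  ring

lemma map_inl {P Q : Type*} [Fintype P] [Fintype Q] :
    (stdG (P ⊕ Q)).map (fun γ => γ ∘ Sum.inl) = stdG P := by
  symm
  refine Measure.pi_eq (fun s hs => ?_)
  have hmeas : Measurable (fun γ : P ⊕ Q → ℝ => γ ∘ Sum.inl) := by
    refine measurable_pi_lambda _ (fun i => measurable_pi_apply _)
  rw [Measure.map_apply hmeas (MeasurableSet.univ_pi hs)]
  have hpre : (fun γ : P ⊕ Q → ℝ => γ ∘ Sum.inl) ⁻¹' (Set.univ.pi s)
      = Set.univ.pi (Sum.elim s (fun _ => Set.univ)) := by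
    ext γ
    simp only [Set.mem_preimage, Set.mem_pi, Set.mem_univ, true_implies, Function.comp,
      Sum.forall, Sum.elim_inl, Sum.elim_inr, implies_true, and_true]
  rw [hpre, Measure.pi_pi, Fintype.prod_sum_type]
  simp

/-- Markov bound on the event that some coordinate process exceeds a level. -/
theorem tail_compare {A m : Type*} [Fintype A] [DecidableEq A] [Nonempty A] [Fintype m]
    [DecidableEq m] {MX MY : A → m → ℝ}
    (horth : ∀ a b, ∑ k, MX a k * MY b k = 0)
    (hvar : ∀ a, ∑ k, MX a k ^ 2 ≤ ∑ k, MY a k ^ 2)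
    (hinc : ∀ a b, ∑ k, (MX a k - MX b k) ^ 2 ≤ ∑ k, (MY a k - MY b k) ^ 2)
    {V : (m → ℝ) → ℝ} (hV : ∀ γ a, apM MY γ a ≤ V γ) {lam t B : ℝ} (hlam : 0 < lam)
    (hB : ∫ γ, Real.exp (lam * V γ) ∂(stdG m) ≤ B)
    (hint : Integrable (fun γ => Real.exp (lam * V γ)) (stdG m)) :
    (stdG m) {γ | ∃ a, t < apM MX γ a}
      ≤ ENNReal.ofReal (Real.exp 1 * B * Real.exp (-(lam * t))) := by
  have hcard : (1:ℝ) ≤ Fintype.card A := by
    exact_mod_cast Fintype.card_pos (α := A)
  have hlog : 0 ≤ Real.log (Fintype.card A) := Real.log_nonneg hcard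
  set p : ℝ := 1 / (1 + Real.log (Fintype.card A)) with hp
  have hp0 : 0 < p := by positivity
  have hp1 : p ≤ 1 := by
    rw [hp, div_le_one (by positivity)]
    linarith
  set θ : ℝ := lam / p with hθ
  have hθ0 : 0 < θ := div_pos hlam hp0
  have hpθ : θ * p = lam := by rw [hθ]; field_simp
  have hY : ∀ γ, softG θ p (apM MY γ) ≤ Real.exp 1 * Real.exp (lam * V γ) := by
    intro γ
    unfold softG
    have hZ : softZ θ (apM MY γ) ≤ Fintype.card A * Real.exp (θ * V γ) := by
      unfold softZ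
      rw [← nsmul_eq_mul, ← Finset.card_univ, ← Finset.sum_const]
      refine Finset.sum_le_sum (fun a _ => Real.exp_le_exp.2 ?_)
      exact mul_le_mul_of_nonneg_left (hV γ a) hθ0.le
    have h1 := Real.rpow_le_rpow (softZ_pos θ _).le hZ hp0.le
    refine h1.trans ?_
    rw [Real.mul_rpow (by positivity) (Real.exp_pos _).le, ← Real.exp_mul]
    have e : θ * V γ * p = lam * V γ := by
      rw [← hpθ]; ring
    rw [e]
    refine mul_le_mul_of_nonneg_right ?_ (Real.exp_pos _).le
    rw [Real.rpow_def_of_pos (by linarith : (0:ℝ) < Fintype.card A)]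
    apply Real.exp_le_exp.2
    rw [hp]
    rw [mul_one_div, div_le_one (by positivity)]
    linarith
  have e0 : mixM MX MY 0 = MY := by
    funext a k; simp [mixM]
  have e1 : mixM MX MY (Real.pi / 2) = MX := by
    funext a k; simp [mixM]
  have hintX : Integrable (fun γ => softG θ p (apM MX γ)) (stdG m) := by
    refine ((integrable_stdG_exp (fun k => θ * wtM MX MY k)).const_mul
      (1 + (Fintype.card A : ℝ))).mono'
      ((continuous_softG θ p).comp (continuous_apM _)).aestronglyMeasurable ?_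
    filter_upwards with γ
    rw [Real.norm_eq_abs, abs_of_nonneg (softG_nonneg θ p _)]
    have := softG_mix_le hθ0.le hp0.le hp1 MX MY (Real.pi / 2) γ
    rwa [e1] at this
  have hintY : Integrable (fun γ => softG θ p (apM MY γ)) (stdG m) := by
    refine ((integrable_stdG_exp (fun k => θ * wtM MX MY k)).const_mul
      (1 + (Fintype.card A : ℝ))).mono'
      ((continuous_softG θ p).comp (continuous_apM _)).aestronglyMeasurable ?_
    filter_upwards with γ
    rw [Real.norm_eq_abs, abs_of_nonneg (softG_nonneg θ p _)]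
    have := softG_mix_le hθ0.le hp0.le hp1 MX MY 0 γ
    rwa [e0] at this
  have hcmp := gauss_compare hθ0.le hp0.le hp1 MX MY horth hvar hinc
  have hle : ∫ γ, softG θ p (apM MX γ) ∂(stdG m) ≤ Real.exp 1 * B := by
    refine hcmp.trans ?_
    calc ∫ γ, softG θ p (apM MY γ) ∂(stdG m)
        ≤ ∫ γ, Real.exp 1 * Real.exp (lam * V γ) ∂(stdG m) :=
          integral_mono hintY (hint.const_mul _) hY
      _ = Real.exp 1 * ∫ γ, Real.exp (lam * V γ) ∂(stdG m) := integral_const_mul _ _
      _ ≤ _ := mul_le_mul_of_nonneg_left hB (Real.exp_pos _).le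
  have hmk := markov_ofReal (μ := stdG m) hintX (fun γ => softG_nonneg θ p _)
    (Real.exp_pos (lam * t)) hle
  refine (measure_mono ?_).trans (hmk.trans (le_of_eq ?_))
  · rintro γ ⟨a, ha⟩
    show Real.exp (lam * t) ≤ softG θ p (apM MX γ)
    unfold softG
    have h1 : Real.exp (θ * apM MX γ a) ≤ softZ θ (apM MX γ) := exp_le_softZ θ _ a
    have h2 := Real.rpow_le_rpow (Real.exp_pos _).le h1 hp0.le
    refine le_trans ?_ h2
    rw [← Real.exp_mul]
    apply Real.exp_le_exp.2
    have e : θ * apM MX γ a * p = lam * apM MX γ a := by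
      rw [← hpθ]; ring
    rw [e]
    exact mul_le_mul_of_nonneg_left ha.le hlam.le
  · congr 1
    rw [Real.exp_neg]
    rfl

end Vale.Agent.Lib.P150
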