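import Vale.Agent.Lib.P150.SKProb

/-!
Tail estimates for the Sherrington-Kirkpatrick disorder: quadratic form, rows and entries.
-/

open MeasureTheory ProbabilityTheory
open scoped BigOperators NNReal ENNReal

set_option linter.unusedSectionVars false
set_option linter.unusedSimpArgs false
set_option linter.unusedVariables false

noncomputable section

namespace Vale.Agent.Lib.P150

variable {n : ℕ}

/-- Coefficients of the process `σ aᵀ G a`. -/
def mxSK (σ : ℝ) (a : Fin n → ℝ) : Pairs n ⊕ Fin n → ℝ :=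
  Sum.elim (fun p => σ * (2 * a p.1.1 * a p.1.2)) (fun _ => 0)

/-- Coefficients of the comparison process `2 a·z`. -/
def mySK (a : Fin n → ℝ) : Pairs n ⊕ Fin n → ℝ :=
  Sum.elim (fun _ => 0) (fun i => 2 * a i)

lemma sum_mul_self_expand (a b : Fin n → ℝ) :
    ∑ i, ∑ j, (a i * a j - b i * b j) ^ 2
      = nsq a * nsq a + nsq b * nsq b - 2 * (∑ i, a i * b i) ^ 2 := by
  unfold nsq
  rw [sq (∑ i, a i * b i), Finset.sum_mul_sum, Finset.sum_mul_sum, Finset.sum_mul_sum,
    Finset.mul_sum, ← Finset.sum_add_distrib, ← Finset.sum_sub_distrib]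
  refine Finset.sum_congr rfl (fun i _ => ?_)
  rw [Finset.mul_sum, ← Finset.sum_add_distrib, ← Finset.sum_sub_distrib]
  refine Finset.sum_congr rfl (fun j _ => ?_)
  ring

lemma pair_sum_le (h : Fin n → Fin n → ℝ) (hs : ∀ i j, h i j = h j i) (h0 : ∀ i, 0 ≤ h i i) :
    2 * ∑ p : Pairs n, h p.1.1 p.1.2 ≤ ∑ i, ∑ j, h i j := by
  rw [sum_full_eq, Finset.mul_sum]
  have e : ∑ p : Pairs n, (h p.1.1 p.1.2 + h p.1.2 p.1.1) = ∑ p : Pairs n, 2 * h p.1.1 p.1.2 :=
    Finset.sum_congr rfl (fun p _ => by rw [hs p.1.2 p.1.1]; ring)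
  rw [e]
  have := Finset.sum_nonneg (fun i (_ : i ∈ Finset.univ) => h0 i)
  linarith

lemma mxSK_inc {σ : ℝ} (hσ : σ ^ 2 = 1) {a b : Fin n → ℝ} (ha : nsq a = 1) (hb : nsq b = 1) :
    ∑ k, (mxSK σ a k - mxSK σ b k) ^ 2 ≤ ∑ k, (mySK a k - mySK b k) ^ 2 := by
  rw [Fintype.sum_sum_type, Fintype.sum_sum_type]
  simp only [mxSK, mySK, Sum.elim_inl, Sum.elim_inr]
  set s := ∑ i, a i * b i with hs
  have h1 := pair_sum_le (fun i j => (a i * a j - b i * b j) ^ 2)
    (fun i j => by ring) (fun i => sq_nonneg _)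
  rw [sum_mul_self_expand, ha, hb] at h1
  have e1 : ∑ p : Pairs n, (σ * (2 * a p.1.1 * a p.1.2) - σ * (2 * b p.1.1 * b p.1.2)) ^ 2
      = 4 * ∑ p : Pairs n, (a p.1.1 * a p.1.2 - b p.1.1 * b p.1.2) ^ 2 := by
    rw [Finset.mul_sum]
    refine Finset.sum_congr rfl (fun p _ => ?_)
    have : (σ * (2 * a p.1.1 * a p.1.2) - σ * (2 * b p.1.1 * b p.1.2)) ^ 2
        = σ ^ 2 * (4 * (a p.1.1 * a p.1.2 - b p.1.1 * b p.1.2) ^ 2) := by ring
    rw [this, hσ, one_mul]
  have e2 : ∑ i : Fin n, (2 * a i - 2 * b i) ^ 2 = 4 * (nsq a + nsq b - 2 * s) := by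
    unfold nsq
    rw [hs, Finset.mul_sum, ← Finset.sum_add_distrib, ← Finset.sum_sub_distrib, Finset.mul_sum]
    refine Finset.sum_congr rfl (fun i _ => ?_)
    ring
  rw [e1, e2, ha, hb]
  simp only [sub_self, ne_eq, OfNat.ofNat_ne_zero, not_false_eq_true, zero_pow, Finset.sum_const_zero,
    add_zero, zero_add]
  nlinarith [sq_nonneg (1 - s)]

lemma mxSK_var {σ : ℝ} (hσ : σ ^ 2 = 1) {a : Fin n → ℝ} (ha : nsq a = 1) :
    ∑ k, mxSK σ a k ^ 2 ≤ ∑ k, mySK a k ^ 2 := by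
  rw [Fintype.sum_sum_type, Fintype.sum_sum_type]
  simp only [mxSK, mySK, Sum.elim_inl, Sum.elim_inr]
  have h1 := pair_sum_le (fun i j => (a i * a j) ^ 2) (fun i j => by ring) (fun i => sq_nonneg _)
  have e0 : ∑ i, ∑ j, (a i * a j) ^ 2 = nsq a * nsq a := by
    unfold nsq
    rw [Finset.sum_mul_sum]
    exact Finset.sum_congr rfl (fun i _ => Finset.sum_congr rfl (fun j _ => by ring))
  rw [e0, ha] at h1
  have e1 : ∑ p : Pairs n, (σ * (2 * a p.1.1 * a p.1.2)) ^ 2
      = 4 * ∑ p : Pairs n, (a p.1.1 * a p.1.2) ^ 2 := by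
    rw [Finset.mul_sum]
    refine Finset.sum_congr rfl (fun p _ => ?_)
    have : (σ * (2 * a p.1.1 * a p.1.2)) ^ 2 = σ ^ 2 * (4 * (a p.1.1 * a p.1.2) ^ 2) := by ring
    rw [this, hσ, one_mul]
  have e2 : ∑ i : Fin n, (2 * a i) ^ 2 = 4 * nsq a := by
    unfold nsq
    rw [Finset.mul_sum]
    exact Finset.sum_congr rfl (fun i _ => by ring)
  rw [e1, e2, ha]
  simp only [ne_eq, OfNat.ofNat_ne_zero, not_false_eq_true, zero_pow, Finset.sum_const_zero,
    add_zero, zero_add]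
  linarith

lemma mxSK_orth (σ : ℝ) (a b : Fin n → ℝ) : ∑ k, mxSK σ a k * mySK b k = 0 := by
  rw [Fintype.sum_sum_type]
  simp [mxSK, mySK]

lemma apM_mxSK (σ : ℝ) {N : Finset (Fin n → ℝ)} (γ : Pairs n ⊕ Fin n → ℝ) (a : N) :
    apM (fun a : N => mxSK σ a.1) γ a = σ * quadG a.1 (γ ∘ Sum.inl) := by
  unfold apM quadG
  rw [Fintype.sum_sum_type, Finset.mul_sum]
  simp only [mxSK, Sum.elim_inl, Sum.elim_inr, zero_mul, Finset.sum_const_zero, add_zero,
    Function.comp]
  exact Finset.sum_congr rfl (fun p _ => by ring)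

lemma apM_mySK_le {N : Finset (Fin n → ℝ)} (hN : ∀ a ∈ N, nsq a = 1) {r : ℝ} (hr : 0 < r)
    (γ : Pairs n ⊕ Fin n → ℝ) (a : N) :
    apM (fun a : N => mySK a.1) γ a ≤ r + (∑ i, γ (Sum.inr i) ^ 2) / r := by
  unfold apM
  rw [Fintype.sum_sum_type]
  simp only [mySK, Sum.elim_inl, Sum.elim_inr, zero_mul, Finset.sum_const_zero, zero_add]
  have h1 : ∀ i, 2 * a.1 i * γ (Sum.inr i) ≤ r * a.1 i ^ 2 + γ (Sum.inr i) ^ 2 / r := by
    intro i
    rw [← sub_nonneg]
    have : r * a.1 i ^ 2 + γ (Sum.inr i) ^ 2 / r - 2 * a.1 i * γ (Sum.inr i)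
        = (r * a.1 i - γ (Sum.inr i)) ^ 2 / r := by
      field_simp
      ring
    rw [this]
    positivity
  refine (Finset.sum_le_sum (fun i _ => h1 i)).trans (le_of_eq ?_)
  rw [Finset.sum_add_distrib, ← Finset.mul_sum, ← Finset.sum_div]
  have := hN a.1 a.2
  unfold nsq at this
  rw [this, mul_one]

/-- Tail of the supremum over a net of the quadratic form. -/
theorem quad_tail (hn : 0 < n) {σ : ℝ} (hσ : σ ^ 2 = 1) {N : Finset (Fin n → ℝ)}
    (hN : ∀ a ∈ N, nsq a = 1) {ε : ℝ} (hε : 0 < ε) (hε1 : ε ≤ 1) :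
    stdG (Pairs n) {g | ∃ a ∈ N, (2 + ε) * Real.sqrt n < σ * quadG a g}
      ≤ ENNReal.ofReal (Real.exp 1 * Real.exp (-(ε ^ 2 / 16) * n)) := by
  classical
  by_cases hne : N.Nonempty
  swap
  · rw [Finset.not_nonempty_iff_eq_empty] at hne
    subst hne
    simp
  have : Nonempty N := hne.to_subtype
  set S := {g : Pairs n → ℝ | ∃ a ∈ N, (2 + ε) * Real.sqrt n < σ * quadG a g} with hS
  have hSm : MeasurableSet S := by
    have e : S = ⋃ a ∈ N, {g | (2 + ε) * Real.sqrt n < σ * quadG a g} := by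
      ext g; simp [hS]
    rw [e]
    refine Finset.measurableSet_biUnion _ (fun a _ => measurableSet_lt measurable_const ?_)
    unfold quadG
    fun_prop
  have hmap : stdG (Pairs n) S = stdG (Pairs n ⊕ Fin n) ((fun γ => γ ∘ Sum.inl) ⁻¹' S) := by
    rw [← map_inl (P := Pairs n) (Q := Fin n), Measure.map_apply _ hSm]
    refine measurable_pi_lambda _ (fun i => measurable_pi_apply _)
  rw [hmap]
  have hnpos : (0:ℝ) < n := by exact_mod_cast hn
  set r := Real.sqrt n with hr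
  have hrpos : 0 < r := Real.sqrt_pos.2 hnpos
  have hr2 : r * r = n := Real.mul_self_sqrt hnpos.le
  set s := ε / 8 with hs
  have hs0 : 0 < s := by positivity
  have hs1 : s ≤ 1 / 4 := by rw [hs]; linarith
  set c : Pairs n ⊕ Fin n → ℝ := Sum.elim (fun _ => 0) (fun _ => s) with hc
  have hc0 : ∀ k, 0 ≤ c k := by
    rintro (k | k) <;> simp [hc, hs0.le]
  have hc1 : ∀ k, c k ≤ 1 / 4 := by
    rintro (k | k)
    · simp [hc]
    · simpa [hc] using hs1
  set V : (Pairs n ⊕ Fin n → ℝ) → ℝ := fun γ => r + (∑ i, γ (Sum.inr i) ^ 2) / r with hV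
  have hlamV : ∀ γ, Real.exp ((s * r) * V γ)
      = Real.exp (s * n) * Real.exp (∑ k, c k * γ k ^ 2) := by
    intro γ
    rw [← Real.exp_add]
    congr 1
    rw [Fintype.sum_sum_type]
    simp only [hc, hV, Sum.elim_inl, Sum.elim_inr, zero_mul, Finset.sum_const_zero, zero_add,
      ← Finset.mul_sum]
    rw [← hr2]
    field_simp
  have hintc := integrable_stdG_exp_sq (c := c) (fun k => by linarith [hc1 k])
  have hint : Integrable (fun γ => Real.exp ((s * r) * V γ)) (stdG (Pairs n ⊕ Fin n)) := by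
    simp_rw [hlamV]
    exact hintc.const_mul _
  have hsum : ∑ k, (c k + 4 * c k ^ 2) = n * (s + 4 * s ^ 2) := by
    rw [Fintype.sum_sum_type]
    simp [hc]
    ring
  have hB : ∫ γ, Real.exp ((s * r) * V γ) ∂(stdG (Pairs n ⊕ Fin n))
      ≤ Real.exp (s * n) * Real.exp (n * (s + 4 * s ^ 2)) := by
    simp_rw [hlamV]
    rw [integral_const_mul]
    refine mul_le_mul_of_nonneg_left ?_ (Real.exp_pos _).le
    rw [← hsum]
    exact integral_stdG_exp_sq_le hc0 hc1
  have key := tail_compare (A := N) (m := Pairs n ⊕ Fin n)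
    (MX := fun a => mxSK σ a.1) (MY := fun a => mySK a.1)
    (fun a b => mxSK_orth σ a.1 b.1)
    (fun a => mxSK_var hσ (hN a.1 a.2))
    (fun a b => mxSK_inc hσ (hN a.1 a.2) (hN b.1 b.2))
    (V := V) (fun γ a => apM_mySK_le hN hrpos γ a)
    (lam := s * r) (t := (2 + ε) * r) (mul_pos hs0 hrpos) hB hint
  refine (measure_mono ?_).trans (key.trans (ENNReal.ofReal_le_ofReal (le_of_eq ?_)))
  · rintro γ ⟨a, haN, ha⟩
    refine ⟨⟨a, haN⟩, ?_⟩
    rw [apM_mxSK]
    exact ha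
  · rw [mul_assoc, mul_assoc]
    congr 1
    rw [← Real.exp_add, ← Real.exp_add]
    congr 1
    have e1 : s * r * ((2 + ε) * r) = s * (2 + ε) * (r * r) := by ring
    rw [e1, hr2, hs]
    ring

/-- The rows of the disorder matrix in terms of disorder coordinates. -/
def rowW (j : Fin n) (p : Pairs n) : ℝ :=
  (if p.1.2 = j then 1 else 0) + (if p.1.1 = j then 1 else 0)

lemma row_eq (g : Pairs n → ℝ) (j : Fin n) :
    ∑ i, gMat g i j ^ 2 = ∑ p : Pairs n, rowW j p * g p ^ 2 := by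
  have h := sum_full_eq (fun i l => if l = j then gMat g i l ^ 2 else 0)
  have e1 : ∑ i, ∑ l, (if l = j then gMat g i l ^ 2 else 0) = ∑ i, gMat g i j ^ 2 := by
    refine Finset.sum_congr rfl (fun i _ => ?_)
    simp
  have e2 : ∑ i, (if i = j then gMat g i i ^ 2 else 0) = 0 := by
    simp [gMat_diag]
  rw [e1, e2, add_zero] at h
  rw [h]
  refine Finset.sum_congr rfl (fun p _ => ?_)
  rw [gMat_pair, gMat_pair']
  unfold rowW
  split_ifs <;> ring

lemma rowW_cases (j : Fin n) (p : Pairs n) : rowW j p = 0 ∨ rowW j p = 1 := by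
  unfold rowW
  have hlt := p.2
  split_ifs with h1 h2
  · exfalso
    rw [h1, h2] at hlt
    exact lt_irrefl _ hlt
  · right; norm_num
  · right; norm_num
  · left; norm_num

lemma sum_rowW_le (j : Fin n) : ∑ p : Pairs n, rowW j p ≤ n := by
  have h := row_eq (fun _ => (1:ℝ)) j
  simp only [one_pow, mul_one] at h
  rw [← h]
  have h2 : ∀ i : Fin n, gMat (fun _ => (1:ℝ)) i j ^ 2 ≤ 1 := by
    intro i
    unfold gMat
    split_ifs <;> norm_num
  calc ∑ i, gMat (fun _ => (1:ℝ)) i j ^ 2 ≤ ∑ _i : Fin n, (1:ℝ) := Finset.sum_le_sum (fun i _ => h2 i)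
    _ = n := by simp

/-- Tail for the squared norm of a row. -/
theorem row_tail (j : Fin n) {ε : ℝ} (hε : 0 < ε) (hε1 : ε ≤ 1) :
    stdG (Pairs n) {g | (1 + ε) * n < ∑ i, gMat g i j ^ 2}
      ≤ ENNReal.ofReal (Real.exp (-(ε ^ 2 / 16) * n)) := by
  set s := ε / 8 with hs
  have hs0 : 0 < s := by positivity
  have hs1 : s ≤ 1 / 8 := by rw [hs]; linarith
  set c : Pairs n → ℝ := fun p => s * rowW j p with hc
  have hc0 : ∀ p, 0 ≤ c p := by
    intro p
    rcases rowW_cases j p with h | h <;> simp [hc, h, hs0.le]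
  have hc1 : ∀ p, c p ≤ 1 / 4 := by
    intro p
    rcases rowW_cases j p with h | h <;> simp [hc, h] <;> linarith
  have hint := integrable_stdG_exp_sq (c := c) (fun k => by linarith [hc1 k])
  have hsum : ∑ p, (c p + 4 * c p ^ 2) ≤ (s + 4 * s ^ 2) * n := by
    have e : ∀ p, c p + 4 * c p ^ 2 = (s + 4 * s ^ 2) * rowW j p := by
      intro p
      rcases rowW_cases j p with h | h <;> simp [hc, h]
    simp_rw [e]
    rw [← Finset.mul_sum]
    exact mul_le_mul_of_nonneg_left (sum_rowW_le j) (by positivity)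
  have hB : ∫ γ : Pairs n → ℝ, Real.exp (∑ p, c p * γ p ^ 2) ∂(stdG (Pairs n))
      ≤ Real.exp ((s + 4 * s ^ 2) * n) :=
    (integral_stdG_exp_sq_le hc0 hc1).trans (Real.exp_le_exp.2 hsum)
  have key := markov_ofReal (μ := stdG (Pairs n)) hint (fun γ => (Real.exp_pos _).le)
    (Real.exp_pos (s * ((1 + ε) * n))) hB
  refine (measure_mono ?_).trans (key.trans (ENNReal.ofReal_le_ofReal (le_of_eq ?_)))
  · intro g hg
    show Real.exp (s * ((1 + ε) * n)) ≤ Real.exp (∑ p, c p * g p ^ 2)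
    apply Real.exp_le_exp.2
    have hg' : (1 + ε) * n < ∑ i, gMat g i j ^ 2 := hg
    rw [row_eq] at hg'
    have e : ∑ p, c p * g p ^ 2 = s * ∑ p : Pairs n, rowW j p * g p ^ 2 := by
      rw [Finset.mul_sum]
      exact Finset.sum_congr rfl (fun p _ => by simp only [hc]; ring)
    rw [e]
    exact mul_le_mul_of_nonneg_left hg'.le hs0.le
  · rw [← Real.exp_sub]
    congr 1
    rw [hs]
    ring

/-- Tail of one entry. -/
theorem entry_tail (p : Pairs n) {x : ℝ} (hx : 0 ≤ x) :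
    stdG (Pairs n) {g | x < |g p|}
      ≤ ENNReal.ofReal (Real.exp (1 / 2) * Real.exp (-(x ^ 2 / 4))) := by
  classical
  set c : Pairs n → ℝ := fun k => if k = p then 1 / 4 else 0 with hc
  have hc0 : ∀ k, 0 ≤ c k := by
    intro k
    simp only [hc]
    split_ifs <;> norm_num
  have hc1 : ∀ k, c k ≤ 1 / 4 := by
    intro k
    simp only [hc]
    split_ifs <;> norm_num
  have hint := integrable_stdG_exp_sq (c := c) (fun k => by linarith [hc1 k])
  have hsum : ∑ k, (c k + 4 * c k ^ 2) = 1 / 2 := by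
    have e : ∀ k, c k + 4 * c k ^ 2 = if k = p then 1 / 2 else 0 := by
      intro k
      simp only [hc]
      split_ifs <;> norm_num
    simp_rw [e]
    simp
  have hB : ∫ γ : Pairs n → ℝ, Real.exp (∑ k, c k * γ k ^ 2) ∂(stdG (Pairs n))
      ≤ Real.exp (1 / 2) := by
    rw [← hsum]
    exact integral_stdG_exp_sq_le hc0 hc1
  have key := markov_ofReal (μ := stdG (Pairs n)) hint (fun γ => (Real.exp_pos _).le)
    (Real.exp_pos (x ^ 2 / 4)) hB
  refine (measure_mono ?_).trans (key.trans (ENNReal.ofReal_le_ofReal (le_of_eq ?_)))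
  · intro g hg
    show Real.exp (x ^ 2 / 4) ≤ Real.exp (∑ k, c k * g k ^ 2)
    apply Real.exp_le_exp.2
    have hg' : x < |g p| := hg
    have e : ∑ k, c k * g k ^ 2 = g p ^ 2 / 4 := by
      have : ∀ k, c k * g k ^ 2 = if k = p then g k ^ 2 / 4 else 0 := by
        intro k
        simp only [hc]
        split_ifs <;> ring
      simp_rw [this]
      simp
    rw [e]
    have h2 : x ^ 2 ≤ g p ^ 2 := by
      rw [← sq_abs (g p)]
      exact pow_le_pow_left₀ hx hg'.le 2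
    linarith
  · rw [Real.exp_neg]
    rfl

end Vale.Agent.Lib.P150
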