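import Vale.Agent.Lib.P150.GaussBasic

/-!
The soft-max functional `(∑_a exp (θ x_a))^p`, its derivatives and bounds.
-/

open MeasureTheory ProbabilityTheory
open scoped BigOperators

set_option linter.unusedSectionVars false
set_option linter.unusedSimpArgs false
set_option linter.unusedVariables false

noncomputable section

namespace Vale.Agent.Lib.P150

variable {A : Type*} [Fintype A] [DecidableEq A]

/-- The partition function `∑_a exp (θ x_a)`. -/
def softZ (θ : ℝ) (x : A → ℝ) : ℝ := ∑ a, Real.exp (θ * x a)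

/-- Power of the partition function. -/
def softG (θ p : ℝ) (x : A → ℝ) : ℝ := softZ θ x ^ p

/-- First derivative of `softG`. -/
def softG1 (θ p : ℝ) (a : A) (x : A → ℝ) : ℝ :=
  p * θ * softZ θ x ^ (p - 1) * Real.exp (θ * x a)

/-- Second derivative of `softG`. -/
def softG2 (θ p : ℝ) (a b : A) (x : A → ℝ) : ℝ :=
  p * θ * θ * softZ θ x ^ (p - 1) * Real.exp (θ * x a) * (if a = b then 1 else 0)
    + p * (p - 1) * θ * θ * softZ θ x ^ (p - 2) * Real.exp (θ * x a) * Real.exp (θ * x b)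

lemma softZ_pos [Nonempty A] (θ : ℝ) (x : A → ℝ) : 0 < softZ θ x :=
  Finset.sum_pos (fun a _ => Real.exp_pos _) Finset.univ_nonempty

lemma exp_le_softZ (θ : ℝ) (x : A → ℝ) (a : A) : Real.exp (θ * x a) ≤ softZ θ x :=
  Finset.single_le_sum (f := fun a => Real.exp (θ * x a)) (fun a _ => (Real.exp_pos _).le)
    (Finset.mem_univ a)

lemma hasDerivAt_softZ {θ : ℝ} {x : ℝ → A → ℝ} {v : A → ℝ} {t : ℝ}
    (hx : ∀ a, HasDerivAt (fun s => x s a) (v a) t) :
    HasDerivAt (fun s => softZ θ (x s)) (∑ a, θ * Real.exp (θ * x t a) * v a) t := by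
  unfold softZ
  refine HasDerivAt.fun_sum (fun a _ => ?_)
  have h := (((hx a).const_mul θ).exp)
  refine h.congr_deriv ?_
  ring

lemma hasDerivAt_softZ_rpow [Nonempty A] {θ q : ℝ} {x : ℝ → A → ℝ} {v : A → ℝ} {t : ℝ}
    (hx : ∀ a, HasDerivAt (fun s => x s a) (v a) t) :
    HasDerivAt (fun s => softZ θ (x s) ^ q)
      ((∑ a, θ * Real.exp (θ * x t a) * v a) * q * softZ θ (x t) ^ (q - 1)) t :=
  (hasDerivAt_softZ hx).rpow_const (Or.inl (softZ_pos θ (x t)).ne')

lemma hasDerivAt_softG [Nonempty A] {θ p : ℝ} {x : ℝ → A → ℝ} {v : A → ℝ} {t : ℝ}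
    (hx : ∀ a, HasDerivAt (fun s => x s a) (v a) t) :
    HasDerivAt (fun s => softG θ p (x s)) (∑ a, softG1 θ p a (x t) * v a) t := by
  refine (hasDerivAt_softZ_rpow (q := p) hx).congr_deriv ?_
  rw [Finset.sum_mul, Finset.sum_mul]
  refine Finset.sum_congr rfl (fun a _ => ?_)
  simp only [softG1]
  ring

lemma hasDerivAt_softG1 [Nonempty A] {θ p : ℝ} (a : A) {x : ℝ → A → ℝ} {v : A → ℝ} {t : ℝ}
    (hx : ∀ a, HasDerivAt (fun s => x s a) (v a) t) :
    HasDerivAt (fun s => softG1 θ p a (x s)) (∑ b, softG2 θ p a b (x t) * v b) t := by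
  have h1 := hasDerivAt_softZ_rpow (θ := θ) (q := p - 1) hx
  have h2 : HasDerivAt (fun s => Real.exp (θ * x s a))
      (Real.exp (θ * x t a) * (θ * v a)) t := ((hx a).const_mul θ).exp
  have h3 := (h1.const_mul (p * θ)).mul h2
  have h4 := h3.congr_of_eventuallyEq (f₁ := fun s => softG1 θ p a (x s))
    (Filter.Eventually.of_forall (fun s => by simp [softG1]))
  refine h4.congr_deriv ?_
  have e : ∑ b, softG2 θ p a b (x t) * v b
      = p * θ * θ * softZ θ (x t) ^ (p - 1) * Real.exp (θ * x t a) * v a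
        + p * (p - 1) * θ * softZ θ (x t) ^ (p - 2) * Real.exp (θ * x t a)
          * ∑ b, θ * Real.exp (θ * x t b) * v b := by
    unfold softG2
    simp only [add_mul, Finset.sum_add_distrib]
    congr 1
    · simp [Finset.sum_ite_eq]
    · rw [Finset.mul_sum]
      refine Finset.sum_congr rfl (fun b _ => ?_)
      ring
  rw [e]
  have e2 : p - 1 - 1 = p - 2 := by ring
  rw [e2]
  ring

section bounds

variable [Nonempty A] {θ p : ℝ}

lemma rpow_sub_one_mul_le (θ p : ℝ) (x : A → ℝ) (a : A) :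
    softZ θ x ^ (p - 1) * Real.exp (θ * x a) ≤ softZ θ x ^ p := by
  have hZ := softZ_pos θ x
  have e : softZ θ x ^ p = softZ θ x ^ (p - 1) * softZ θ x := by
    rw [← Real.rpow_add_one hZ.ne']
    congr 1; ring
  rw [e]
  exact mul_le_mul_of_nonneg_left (exp_le_softZ θ x a) (Real.rpow_nonneg hZ.le _)

lemma rpow_sub_two_mul_le (θ p : ℝ) (x : A → ℝ) (a b : A) :
    softZ θ x ^ (p - 2) * Real.exp (θ * x a) * Real.exp (θ * x b) ≤ softZ θ x ^ p := by
  have hZ := softZ_pos θ x
  have e : softZ θ x ^ p = softZ θ x ^ (p - 2) * softZ θ x * softZ θ x := by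
    rw [← Real.rpow_add_one hZ.ne', ← Real.rpow_add_one hZ.ne']
    congr 1; ring
  rw [e]
  have h0 := Real.rpow_nonneg hZ.le (p - 2)
  have h1 := exp_le_softZ θ x a
  have h2 := exp_le_softZ θ x b
  have h3 := Real.exp_pos (θ * x a)
  have h4 := Real.exp_pos (θ * x b)
  exact mul_le_mul (mul_le_mul_of_nonneg_left h1 h0) h2 h4.le (mul_nonneg h0 hZ.le)

lemma softG_nonneg (θ p : ℝ) (x : A → ℝ) : 0 ≤ softG θ p x :=
  Real.rpow_nonneg (softZ_pos θ x).le _

lemma softG1_nonneg (hθ : 0 ≤ θ) (hp : 0 ≤ p) (a : A) (x : A → ℝ) : 0 ≤ softG1 θ p a x := by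
  unfold softG1
  have := Real.rpow_nonneg (softZ_pos θ x).le (p - 1)
  have := Real.exp_pos (θ * x a)
  positivity

lemma softG1_le (hθ : 0 ≤ θ) (hp : 0 ≤ p) (a : A) (x : A → ℝ) :
    softG1 θ p a x ≤ p * θ * softG θ p x := by
  unfold softG1 softG
  have := rpow_sub_one_mul_le θ p x a
  have h0 : 0 ≤ p * θ := mul_nonneg hp hθ
  calc p * θ * softZ θ x ^ (p - 1) * Real.exp (θ * x a)
      = p * θ * (softZ θ x ^ (p - 1) * Real.exp (θ * x a)) := by ring
    _ ≤ p * θ * softZ θ x ^ p := mul_le_mul_of_nonneg_left this h0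

lemma abs_softG2_le (hp : 0 ≤ p) (hp1 : p ≤ 1) (a b : A) (x : A → ℝ) :
    |softG2 θ p a b x| ≤ 2 * p * (θ * θ) * softG θ p x := by
  unfold softG2 softG
  have h1 := rpow_sub_one_mul_le θ p x a
  have h2 := rpow_sub_two_mul_le θ p x a b
  have hZ := softZ_pos θ x
  have n1 : 0 ≤ softZ θ x ^ (p - 1) * Real.exp (θ * x a) :=
    mul_nonneg (Real.rpow_nonneg hZ.le _) (Real.exp_pos _).le
  have n2 : 0 ≤ softZ θ x ^ (p - 2) * Real.exp (θ * x a) * Real.exp (θ * x b) :=
    mul_nonneg (mul_nonneg (Real.rpow_nonneg hZ.le _) (Real.exp_pos _).le) (Real.exp_pos _).le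
  have hθθ : 0 ≤ θ * θ := mul_self_nonneg θ
  have e : p * θ * θ * softZ θ x ^ (p - 1) * Real.exp (θ * x a) * (if a = b then (1:ℝ) else 0)
    + p * (p - 1) * θ * θ * softZ θ x ^ (p - 2) * Real.exp (θ * x a) * Real.exp (θ * x b)
    = (p * (θ * θ)) * ((softZ θ x ^ (p - 1) * Real.exp (θ * x a)) * (if a = b then (1:ℝ) else 0))
     - (p * (θ * θ)) * ((1 - p) * (softZ θ x ^ (p - 2) * Real.exp (θ * x a) * Real.exp (θ * x b))) := by
    ring
  rw [e]
  have h3 : 0 ≤ p * (θ * θ) := mul_nonneg hp hθθ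
  have h4 : (softZ θ x ^ (p - 1) * Real.exp (θ * x a)) * (if a = b then (1:ℝ) else 0)
      ≤ softZ θ x ^ p := by
    split_ifs
    · simpa using h1
    · simpa using (Real.rpow_nonneg hZ.le p)
  have h5 : 0 ≤ (softZ θ x ^ (p - 1) * Real.exp (θ * x a)) * (if a = b then (1:ℝ) else 0) := by
    split_ifs
    · simpa using n1
    · simp
  have h6 : (1 - p) * (softZ θ x ^ (p - 2) * Real.exp (θ * x a) * Real.exp (θ * x b))
      ≤ softZ θ x ^ p := by
    have : (1 - p) * (softZ θ x ^ (p - 2) * Real.exp (θ * x a) * Real.exp (θ * x b))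
        ≤ 1 * (softZ θ x ^ (p - 2) * Real.exp (θ * x a) * Real.exp (θ * x b)) :=
      mul_le_mul_of_nonneg_right (by linarith) n2
    linarith
  have h7 : 0 ≤ (1 - p) * (softZ θ x ^ (p - 2) * Real.exp (θ * x a) * Real.exp (θ * x b)) :=
    mul_nonneg (by linarith) n2
  rw [abs_le]
  constructor
  · have := mul_le_mul_of_nonneg_left h6 h3
    have := mul_nonneg h3 h5
    nlinarith [mul_nonneg h3 (Real.rpow_nonneg hZ.le p)]
  · have := mul_le_mul_of_nonneg_left h4 h3
    have := mul_nonneg h3 h7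
    nlinarith [mul_nonneg h3 (Real.rpow_nonneg hZ.le p)]

lemma softG_le_expSum (hθ : 0 ≤ θ) (hp : 0 ≤ p) (hp1 : p ≤ 1) (x : A → ℝ) :
    softG θ p x ≤ (1 + Fintype.card A) * Real.exp (θ * ∑ a, |x a|) := by
  unfold softG
  have hZ := softZ_pos θ x
  have h1 : softZ θ x ^ p ≤ 1 + softZ θ x := by
    by_cases h : softZ θ x ≤ 1
    · have := Real.rpow_le_one hZ.le h hp
      linarith
    · push Not at h
      have := Real.rpow_le_rpow_of_exponent_le h.le hp1
      rw [Real.rpow_one] at this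
      linarith
  have hS : 0 ≤ ∑ a, |x a| := Finset.sum_nonneg (fun a _ => abs_nonneg _)
  have h2 : softZ θ x ≤ Fintype.card A * Real.exp (θ * ∑ a, |x a|) := by
    unfold softZ
    rw [← nsmul_eq_mul, ← Finset.card_univ, ← Finset.sum_const]
    refine Finset.sum_le_sum (fun a _ => Real.exp_le_exp.2 ?_)
    refine mul_le_mul_of_nonneg_left ?_ hθ
    exact (le_abs_self _).trans (Finset.single_le_sum (f := fun a => |x a|)
      (fun a _ => abs_nonneg _) (Finset.mem_univ a))
  have h3 : 1 ≤ Real.exp (θ * ∑ a, |x a|) := Real.one_le_exp (mul_nonneg hθ hS)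
  calc softZ θ x ^ p ≤ 1 + softZ θ x := h1
    _ ≤ 1 * Real.exp (θ * ∑ a, |x a|) + Fintype.card A * Real.exp (θ * ∑ a, |x a|) := by linarith
    _ = _ := by ring

/-- Negativity of the Hessian pairing under the comparison hypotheses. -/
lemma hessian_pairing_nonpos (hθ : 0 ≤ θ) (hp : 0 ≤ p) (hp1 : p ≤ 1) (D : A → A → ℝ)
    (h1 : ∀ a, D a a ≤ 0) (h2 : ∀ a b, D a a + D b b - 2 * D a b ≤ 0) (x : A → ℝ) :
    ∑ a, ∑ b, D a b * softG2 θ p a b x ≤ 0 := by
  have hZ := softZ_pos θ x
  set Z := softZ θ x with hZdef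
  set e : A → ℝ := fun a => Real.exp (θ * x a) with he
  have hsum : ∑ a, e a = Z := rfl
  have hepos : ∀ a, 0 < e a := fun a => Real.exp_pos _
  have h21 : Z ^ (p - 1) = Z ^ (p - 2) * Z := by
    rw [← Real.rpow_add_one hZ.ne']
    congr 1; ring
  have term : ∀ a b, softG2 θ p a b x
      = p * θ * θ * Z ^ (p - 2) * (e a * e b * Z⁻¹ * 0 + (Z * e a * (if a = b then 1 else 0)
        - (1 - p) * (e a * e b))) := by
    intro a b
    unfold softG2
    rw [h21]
    simp only [he, hZdef]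
    ring
  have hK : 0 ≤ p * θ * θ * Z ^ (p - 2) :=
    mul_nonneg (mul_nonneg (mul_nonneg hp hθ) hθ) (Real.rpow_nonneg hZ.le _)
  have main : ∑ a, ∑ b, D a b * (Z * e a * (if a = b then 1 else 0) - (1 - p) * (e a * e b)) ≤ 0 := by
    have e1 : ∑ a, ∑ b, D a b * (Z * e a * (if a = b then 1 else 0) - (1 - p) * (e a * e b))
        = ∑ a, ∑ b, e a * e b * (D a a - (1 - p) * D a b) := by
      refine Finset.sum_congr rfl (fun a _ => ?_)
      have : ∑ b, e a * e b * (D a a - (1 - p) * D a b)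
          = e a * D a a * Z - (1 - p) * ∑ b, D a b * (e a * e b) := by
        rw [← hsum, Finset.mul_sum, Finset.mul_sum, ← Finset.sum_sub_distrib]
        refine Finset.sum_congr rfl (fun b _ => ?_)
        ring
      rw [this]
      have : ∑ b, D a b * (Z * e a * (if a = b then 1 else 0) - (1 - p) * (e a * e b))
          = ∑ b, (if a = b then D a b * (Z * e a) else 0) - (1 - p) * ∑ b, D a b * (e a * e b) := by
        rw [Finset.mul_sum, ← Finset.sum_sub_distrib]
        refine Finset.sum_congr rfl (fun b _ => ?_)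
        split_ifs <;> ring
      rw [this]
      simp only [Finset.sum_ite_eq, Finset.mem_univ, if_true]
      ring
    rw [e1]
    have e2 : ∑ a, ∑ b, e a * e b * (D a a - (1 - p) * D a b)
        = ∑ a, ∑ b, e a * e b * ((D a a + D b b) / 2 - (1 - p) * D a b) := by
      have s1 : ∑ a, ∑ b, e a * e b * D a a = ∑ a, ∑ b, e a * e b * D b b := by
        rw [Finset.sum_comm]
        refine Finset.sum_congr rfl (fun a _ => Finset.sum_congr rfl (fun b _ => ?_))
        ring
      have : ∀ (F : A → A → ℝ), ∑ a, ∑ b, e a * e b * F a b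
          = (∑ a, ∑ b, e a * e b * D a a) + ∑ a, ∑ b, e a * e b * (F a b - D a a) := by
        intro F
        rw [← Finset.sum_add_distrib]
        refine Finset.sum_congr rfl (fun a _ => ?_)
        rw [← Finset.sum_add_distrib]
        refine Finset.sum_congr rfl (fun b _ => ?_)
        ring
      have s2 : ∑ a, ∑ b, e a * e b * ((D a a + D b b) / 2 - (1 - p) * D a b)
          - ∑ a, ∑ b, e a * e b * (D a a - (1 - p) * D a b)
          = (∑ a, ∑ b, e a * e b * D b b - ∑ a, ∑ b, e a * e b * D a a) / 2 := by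
        rw [← Finset.sum_sub_distrib, ← Finset.sum_sub_distrib, Finset.sum_div]
        refine Finset.sum_congr rfl (fun a _ => ?_)
        rw [← Finset.sum_sub_distrib, ← Finset.sum_sub_distrib, Finset.sum_div]
        refine Finset.sum_congr rfl (fun b _ => ?_)
        ring
      rw [s1] at s2
      linarith
    rw [e2]
    refine Finset.sum_nonpos (fun a _ => Finset.sum_nonpos (fun b _ => ?_))
    have h3 : (D a a + D b b) / 2 - (1 - p) * D a b
        = p * ((D a a + D b b) / 2) + (1 - p) * ((D a a + D b b - 2 * D a b) / 2) := by ring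
    rw [h3]
    have h4 : p * ((D a a + D b b) / 2) ≤ 0 :=
      mul_nonpos_of_nonneg_of_nonpos hp (by linarith [h1 a, h1 b])
    have h5 : (1 - p) * ((D a a + D b b - 2 * D a b) / 2) ≤ 0 :=
      mul_nonpos_of_nonneg_of_nonpos (by linarith) (by linarith [h2 a b])
    exact mul_nonpos_of_nonneg_of_nonpos (mul_pos (hepos a) (hepos b)).le (by linarith)
  have : ∑ a, ∑ b, D a b * softG2 θ p a b x
      = (p * θ * θ * Z ^ (p - 2)) *
        ∑ a, ∑ b, D a b * (Z * e a * (if a = b then 1 else 0) - (1 - p) * (e a * e b)) := by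
    rw [Finset.mul_sum]
    refine Finset.sum_congr rfl (fun a _ => ?_)
    rw [Finset.mul_sum]
    refine Finset.sum_congr rfl (fun b _ => ?_)
    rw [term a b]
    ring
  rw [this]
  exact mul_nonpos_of_nonneg_of_nonpos hK main

end bounds

end Vale.Agent.Lib.P150
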