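import Vale.Agent.Lib.P150.EntStab

/-!
Conditional expectations in one coordinate and tensorization of entropy for product measures.
-/

open scoped BigOperators
open Function

set_option linter.unusedSectionVars false
set_option linter.unusedSimpArgs false
set_option linter.unusedVariables false

noncomputable section

namespace Vale.Agent.Lib.P150

variable {ι : Type*} [Fintype ι] [DecidableEq ι]

/-- The conditional expectation in coordinate `i` for conditional means `t`. -/
def Qt (t : (ι → Bool) → ι → ℝ) (i : ι) (g : (ι → Bool) → ℝ) (x : ι → Bool) : ℝ :=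
  (1 + t x i) / 2 * g (update x i true) + (1 - t x i) / 2 * g (update x i false)

/-- `x log x`. -/
def Phi (u : ℝ) : ℝ := u * Real.log u

lemma Qt_sub (t : (ι → Bool) → ι → ℝ) (i : ι) (g : (ι → Bool) → ℝ) (x : ι → Bool) :
    Qt t i g x - g x = (t x i - spin (x i)) * D i g x := by
  have h1 := value_update g x i true
  have h2 := value_update g x i false
  unfold Qt
  rw [h1, h2]
  simp only [spin_true, spin_false]
  ring

lemma Qt_update {t : (ι → Bool) → ι → ℝ} (ht : ∀ x i b, t (update x i b) i = t x i) (i : ι)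
    (g : (ι → Bool) → ℝ) (x : ι → Bool) (b : Bool) : Qt t i g (update x i b) = Qt t i g x := by
  unfold Qt
  simp [ht]

lemma Qt_pos {t : (ι → Bool) → ι → ℝ} (hlt : ∀ x i, |t x i| < 1) (i : ι) {g : (ι → Bool) → ℝ}
    (hg : ∀ x, 0 < g x) (x : ι → Bool) : 0 < Qt t i g x := by
  have h := abs_lt.mp (hlt x i)
  unfold Qt
  have h1 : 0 < (1 + t x i) / 2 := by linarith [h.1]
  have h2 : 0 < (1 - t x i) / 2 := by linarith [h.2]
  have := hg (update x i true)
  have := hg (update x i false)
  positivity

/-- Tower property. -/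
lemma sum_Qt {π : (ι → Bool) → ℝ} {t : (ι → Bool) → ι → ℝ} (hR : IsRev π t) (i : ι)
    (g : (ι → Bool) → ℝ) : ∑ x, π x * Qt t i g x = ∑ x, π x * g x := by
  have h := hR.ibp i (D i g) (fun x b => D_update i g x b)
  have e : ∑ x, π x * Qt t i g x
      = ∑ x, π x * g x + ∑ x, π x * ((t x i - spin (x i)) * D i g x) := by
    rw [← Finset.sum_add_distrib]
    refine Finset.sum_congr rfl (fun x _ => ?_)
    rw [← Qt_sub]
    ring
  rw [e, h, add_zero]

lemma update_self' (x : ι → Bool) (i : ι) : update x i (x i) = x := update_eq_self i x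

/-- Pull out a function that does not depend on the coordinate. -/
lemma Qt_mul_indep (t : (ι → Bool) → ι → ℝ) (i : ι) (g : (ι → Bool) → ℝ) {F : (ι → Bool) → ℝ}
    (hF : ∀ x b, F (update x i b) = F x) (x : ι → Bool) :
    Qt t i (fun y => g y * F y) x = Qt t i g x * F x := by
  unfold Qt
  simp only [hF]
  ring

/-- Pull out in expectation. -/
lemma sum_mul_indep {π : (ι → Bool) → ℝ} {t : (ι → Bool) → ι → ℝ} (hR : IsRev π t) (i : ι)
    (g : (ι → Bool) → ℝ) {F : (ι → Bool) → ℝ} (hF : ∀ x b, F (update x i b) = F x) :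
    ∑ x, π x * (g x * F x) = ∑ x, π x * (Qt t i g x * F x) := by
  have := sum_Qt hR i (fun y => g y * F y)
  simp only [Qt_mul_indep t i g hF] at this
  exact this.symm

lemma Qt_of_indep (t : (ι → Bool) → ι → ℝ) (i : ι) {F : (ι → Bool) → ℝ}
    (hF : ∀ x b, F (update x i b) = F x) (x : ι → Bool) : Qt t i F x = F x := by
  unfold Qt
  rw [hF, hF]
  ring

section constant

variable (T : ι → ℝ)

/-- Constant conditional means. -/
abbrev ct : (ι → Bool) → ι → ℝ := fun _ i => T i

lemma Qt_comm {i j : ι} (hij : i ≠ j) (g : (ι → Bool) → ℝ) (x : ι → Bool) :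
    Qt (ct T) i (Qt (ct T) j g) x = Qt (ct T) j (Qt (ct T) i g) x := by
  unfold Qt
  simp only [update_comm hij]
  ring

lemma Qt_indep_other {i j : ι} (hij : i ≠ j) {g : (ι → Bool) → ℝ}
    (hg : ∀ x b, g (update x i b) = g x) (x : ι → Bool) (b : Bool) :
    Qt (ct T) j g (update x i b) = Qt (ct T) j g x := by
  unfold Qt
  simp only [update_comm hij]
  rw [hg, hg]

/-- One step of the tensorization. -/
lemma tensor_step {ν : (ι → Bool) → ℝ} (hR : IsRev ν (ct T)) (hT : ∀ i, |T i| < 1) {i j : ι}
    (hij : i ≠ j) {g : (ι → Bool) → ℝ} (hg : ∀ x, 0 < g x) :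
    ∑ x, ν x * (Phi (Qt (ct T) i g x) - Phi (Qt (ct T) j (Qt (ct T) i g) x))
      ≤ ∑ x, ν x * (Phi (g x) - Phi (Qt (ct T) j g x)) := by
  have hlt : ∀ (x : ι → Bool) i, |ct T x i| < 1 := fun x i => hT i
  have hind : ∀ (x : ι → Bool) i b, ct T (update x i b) i = ct T x i := fun x i b => rfl
  set a := Qt (ct T) i g with ha
  set b := Qt (ct T) j g with hb
  set c := Qt (ct T) j a with hc
  have ha0 : ∀ x, 0 < a x := fun x => Qt_pos hlt i hg x
  have hb0 : ∀ x, 0 < b x := fun x => Qt_pos hlt j hg x
  have hc0 : ∀ x, 0 < c x := fun x => Qt_pos hlt j ha0 x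
  have hai : ∀ x v, a (update x i v) = a x := fun x v => Qt_update hind i g x v
  have hbj : ∀ x v, b (update x j v) = b x := fun x v => Qt_update hind j g x v
  have hcj : ∀ x v, c (update x j v) = c x := fun x v => Qt_update hind j a x v
  have hci : ∀ x v, c (update x i v) = c x := fun x v => Qt_indep_other T hij hai x v
  have hcQ : ∀ x, Qt (ct T) i b x = c x := fun x => Qt_comm T hij g x
  -- expectations of the three terms
  have e1 : ∑ x, ν x * Phi (a x) = ∑ x, ν x * (g x * Real.log (a x)) := by
    have := sum_mul_indep hR i g (F := fun x => Real.log (a x)) (fun x v => by simp only [hai])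
    rw [this]
    rfl
  have e2 : ∑ x, ν x * Phi (b x) = ∑ x, ν x * (g x * Real.log (b x)) := by
    have := sum_mul_indep hR j g (F := fun x => Real.log (b x)) (fun x v => by simp only [hbj])
    rw [this]
    rfl
  have e3 : ∑ x, ν x * Phi (c x) = ∑ x, ν x * (g x * Real.log (c x)) := by
    have h1 := sum_mul_indep hR i g (F := fun x => Real.log (c x)) (fun x v => by simp only [hci])
    have h2 := sum_mul_indep hR j a (F := fun x => Real.log (c x)) (fun x v => by simp only [hcj])
    rw [h1, h2]
    rfl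
  -- the pointwise inequality
  have key : ∀ x, ν x * g x - ν x * (a x * b x / c x)
      ≤ ν x * (g x * (Real.log (g x) - Real.log (a x) - Real.log (b x) + Real.log (c x))) := by
    intro x
    have hν := hR.pos x
    have hgx := hg x
    have hax := ha0 x
    have hbx := hb0 x
    have hcx := hc0 x
    have hu : 0 < a x * b x / (g x * c x) := by positivity
    have h1 := Real.log_le_sub_one_of_pos hu
    rw [Real.log_div (by positivity) (by positivity), Real.log_mul hax.ne' hbx.ne',
      Real.log_mul hgx.ne' hcx.ne'] at h1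
    have h2 : g x * (a x * b x / (g x * c x) - 1) = a x * b x / c x - g x := by
      field_simp
    have h3 : g x * (Real.log (a x) + Real.log (b x) - (Real.log (g x) + Real.log (c x)))
        ≤ g x * (a x * b x / (g x * c x) - 1) := mul_le_mul_of_nonneg_left h1 hgx.le
    rw [h2] at h3
    have h4 : g x - a x * b x / c x
        ≤ g x * (Real.log (g x) - Real.log (a x) - Real.log (b x) + Real.log (c x)) := by
      linarith
    have := mul_le_mul_of_nonneg_left h4 hν.le
    linarith
  -- expectation of `a b / c`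
  have e4 : ∑ x, ν x * (a x * b x / c x) = ∑ x, ν x * g x := by
    have h1 := sum_mul_indep hR i b (F := fun x => a x / c x) (fun x v => by simp only [hai, hci])
    have e5 : ∑ x, ν x * (a x * b x / c x) = ∑ x, ν x * (b x * (a x / c x)) :=
      Finset.sum_congr rfl (fun x _ => by ring)
    rw [e5, h1]
    have e6 : ∑ x, ν x * (Qt (ct T) i b x * (a x / c x)) = ∑ x, ν x * a x := by
      refine Finset.sum_congr rfl (fun x _ => ?_)
      rw [hcQ]
      have := (hc0 x).ne'
      field_simp
    rw [e6, ha]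
    exact sum_Qt hR i g
  have hs := Finset.sum_le_sum (fun x (_ : x ∈ Finset.univ) => key x)
  rw [Finset.sum_sub_distrib, e4, sub_self] at hs
  have e7 : ∑ x, ν x * (g x * (Real.log (g x) - Real.log (a x) - Real.log (b x) + Real.log (c x)))
      = ∑ x, ν x * Phi (g x) - ∑ x, ν x * Phi (a x) - ∑ x, ν x * Phi (b x)
        + ∑ x, ν x * Phi (c x) := by
    rw [e1, e2, e3, ← Finset.sum_sub_distrib, ← Finset.sum_sub_distrib, ← Finset.sum_add_distrib]
    refine Finset.sum_congr rfl (fun x _ => ?_)
    unfold Phi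
    ring
  rw [e7] at hs
  simp only [mul_sub, Finset.sum_sub_distrib]
  linarith

/-- Iterated conditional expectations. -/
def QL (l : List ι) (g : (ι → Bool) → ℝ) : (ι → Bool) → ℝ :=
  l.foldl (fun h i => Qt (ct T) i h) g

lemma QL_nil (g : (ι → Bool) → ℝ) : QL T [] g = g := rfl

lemma QL_cons (i : ι) (l : List ι) (g : (ι → Bool) → ℝ) :
    QL T (i :: l) g = QL T l (Qt (ct T) i g) := rfl

lemma QL_pos (hT : ∀ i, |T i| < 1) (l : List ι) {g : (ι → Bool) → ℝ} (hg : ∀ x, 0 < g x) :
    ∀ x, 0 < QL T l g x := by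
  induction l generalizing g with
  | nil => exact hg
  | cons i l ih =>
    rw [QL_cons]
    exact ih (Qt_pos (t := ct T) (fun _ i => hT i) i hg)

lemma sum_QL {ν : (ι → Bool) → ℝ} (hR : IsRev ν (ct T)) (l : List ι) (g : (ι → Bool) → ℝ) :
    ∑ x, ν x * QL T l g x = ∑ x, ν x * g x := by
  induction l generalizing g with
  | nil => rfl
  | cons i l ih =>
    rw [QL_cons, ih]
    exact sum_Qt hR i g

lemma QL_indep_other {i : ι} (l : List ι) (hl : i ∉ l) {g : (ι → Bool) → ℝ}
    (hg : ∀ x b, g (update x i b) = g x) : ∀ x b, QL T l g (update x i b) = QL T l g x := by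
  induction l generalizing g with
  | nil => exact hg
  | cons a l ih =>
    rw [QL_cons]
    rw [List.mem_cons, not_or] at hl
    exact ih hl.2 (fun x b => Qt_indep_other T (Ne.symm (Ne.symm hl.1)) hg x b)

lemma QL_indep {l : List ι} (hl : l.Nodup) {i : ι} (hi : i ∈ l) (g : (ι → Bool) → ℝ) :
    ∀ x b, QL T l g (update x i b) = QL T l g x := by
  induction l generalizing g with
  | nil => simp at hi
  | cons a l ih =>
    rw [QL_cons]
    rw [List.nodup_cons] at hl
    by_cases h : i = a
    · subst h
      exact QL_indep_other T l hl.1 (fun x b => Qt_update (t := ct T) (fun _ _ _ => rfl) i g x b)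
    · have : i ∈ l := by
        rcases List.mem_cons.mp hi with h' | h'
        · exact absurd h' h
        · exact h'
      exact ih hl.2 this _

lemma tensor_list {ν : (ι → Bool) → ℝ} (hR : IsRev ν (ct T)) (hT : ∀ i, |T i| < 1)
    {l : List ι} (hl : l.Nodup) {g : (ι → Bool) → ℝ} (hg : ∀ x, 0 < g x) :
    ∑ x, ν x * Phi (g x) - ∑ x, ν x * Phi (QL T l g x)
      ≤ (l.map (fun i => ∑ x, ν x * (Phi (g x) - Phi (Qt (ct T) i g x)))).sum := by
  induction l generalizing g with
  | nil => simp [QL_nil]
  | cons i l ih =>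
    rw [List.nodup_cons] at hl
    have hg' : ∀ x, 0 < Qt (ct T) i g x := Qt_pos (t := ct T) (fun _ i => hT i) i hg
    have h1 := ih hl.2 hg'
    rw [QL_cons, List.map_cons, List.sum_cons]
    have h2 : (l.map (fun j => ∑ x, ν x * (Phi (Qt (ct T) i g x) - Phi (Qt (ct T) j (Qt (ct T) i g) x)))).sum
        ≤ (l.map (fun j => ∑ x, ν x * (Phi (g x) - Phi (Qt (ct T) j g x)))).sum := by
      refine List.sum_le_sum (fun j hj => ?_)
      have hij : i ≠ j := fun e => hl.1 (e ▸ hj)
      exact tensor_step T hR hT hij hg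
    have h3 : ∑ x, ν x * (Phi (g x) - Phi (Qt (ct T) i g x))
        = ∑ x, ν x * Phi (g x) - ∑ x, ν x * Phi (Qt (ct T) i g x) := by
      rw [← Finset.sum_sub_distrib]
      exact Finset.sum_congr rfl (fun x _ => by ring)
    linarith

/-- **Tensorization of entropy** for product measures. -/
theorem tensorization {ν : (ι → Bool) → ℝ} (hR : IsRev ν (ct T)) (hT : ∀ i, |T i| < 1)
    {g : (ι → Bool) → ℝ} (hg : ∀ x, 0 < g x) :
    ∑ x, ν x * Phi (g x) - Phi (∑ x, ν x * g x)
      ≤ ∑ i, ∑ x, ν x * (Phi (g x) - Phi (Qt (ct T) i g x)) := by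
  classical
  set l := (Finset.univ : Finset ι).toList with hl
  have hnd : l.Nodup := Finset.nodup_toList _
  have hmem : ∀ i, i ∈ l := fun i => Finset.mem_toList.2 (Finset.mem_univ i)
  have h1 := tensor_list T hR hT hnd hg
  have hconst : ∀ x y, QL T l g x = QL T l g y := by
    intro x y
    have hD : ∀ j z, |D j (QL T l g) z| ≤ 0 := by
      intro j z
      unfold D
      rw [QL_indep T hnd (hmem j) g z true, QL_indep T hnd (hmem j) g z false]
      simp
    have := abs_sub_le_path (QL T l g) hD x y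
    rw [mul_zero] at this
    exact sub_eq_zero.mp (abs_nonpos_iff.mp this)
  have hval : ∀ x, QL T l g x = ∑ y, ν y * g y := by
    intro x
    rw [← sum_QL T hR l g]
    simp_rw [hconst _ x]
    rw [← Finset.sum_mul, hR.sum_one, one_mul]
  have h2 : ∑ x, ν x * Phi (QL T l g x) = Phi (∑ y, ν y * g y) := by
    simp_rw [hval]
    rw [← Finset.sum_mul, hR.sum_one, one_mul]
  rw [h2] at h1
  refine h1.trans (le_of_eq ?_)
  rw [hl, Finset.sum_map_toList]

end constant

end Vale.Agent.Lib.P150
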