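import Vale.Agent.Lib.P150.Curv

/-!
Ising models with an external field: conditional means, Gibbs measure, reversibility, and a
matrix generator for a general family of conditional means.
-/

open scoped BigOperators
open Function

set_option linter.unusedSectionVars false
set_option linter.unusedSimpArgs false
set_option linter.unusedVariables false

noncomputable section

namespace Vale.Agent.Lib.P150

variable {ι : Type*} [Fintype ι] [DecidableEq ι]

/-- The conditional mean with an external field. -/
def tfh (J : ι → ι → ℝ) (h : ι → ℝ) (x : ι → Bool) (i : ι) : ℝ :=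
  Real.tanh (h i + field J x i)

/-- The Gibbs weight with an external field. -/
def gibbsWeightH (J : ι → ι → ℝ) (h : ι → ℝ) (x : ι → Bool) : ℝ :=
  Real.exp ((1 / 2) * ∑ i, ∑ j, J i j * spin (x i) * spin (x j) + ∑ i, h i * spin (x i))

/-- The Gibbs measure with an external field. -/
def gibbsH (J : ι → ι → ℝ) (h : ι → ℝ) (x : ι → Bool) : ℝ :=
  gibbsWeightH J h x / ∑ y, gibbsWeightH J h y

lemma gibbsWeightH_pos (J : ι → ι → ℝ) (h : ι → ℝ) (x : ι → Bool) : 0 < gibbsWeightH J h x :=
  Real.exp_pos _

lemma sum_gibbsWeightH_pos (J : ι → ι → ℝ) (h : ι → ℝ) : 0 < ∑ y, gibbsWeightH J h y :=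
  Finset.sum_pos (fun y _ => gibbsWeightH_pos J h y) Finset.univ_nonempty

lemma gibbsH_pos (J : ι → ι → ℝ) (h : ι → ℝ) (x : ι → Bool) : 0 < gibbsH J h x :=
  div_pos (gibbsWeightH_pos J h x) (sum_gibbsWeightH_pos J h)

lemma gibbsH_sum (J : ι → ι → ℝ) (h : ι → ℝ) : ∑ x, gibbsH J h x = 1 := by
  unfold gibbsH
  rw [← Finset.sum_div]
  exact div_self (sum_gibbsWeightH_pos J h).ne'

lemma tfh_indep (J : ι → ι → ℝ) (hdiag : ∀ i, J i i = 0) (h : ι → ℝ) (x : ι → Bool) (i : ι)
    (b : Bool) : tfh J h (update x i b) i = tfh J h x i := by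
  unfold tfh
  rw [field_update, hdiag]
  simp

lemma abs_tfh_lt (J : ι → ι → ℝ) (h : ι → ℝ) (x : ι → Bool) (i : ι) : |tfh J h x i| < 1 :=
  Real.abs_tanh_lt_one _

/-- The linear field energy under a flip. -/
lemma field_energy_flip (h : ι → ℝ) (x : ι → Bool) (i : ι) :
    ∑ a, h a * spin (flipAt i x a) = ∑ a, h a * spin (x a) - 2 * (h i * spin (x i)) := by
  have hs : ∀ a, spin (flipAt i x a) = spin (x a) + if a = i then -2 * spin (x i) else 0 := by
    intro a
    unfold flipAt
    rw [spin_update_apply]
    congr 1
    split_ifs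
    · cases x i <;> simp <;> norm_num
    · rfl
  simp only [hs, mul_add, Finset.sum_add_distrib]
  simp
  ring

lemma gibbsH_flip (J : ι → ι → ℝ) (hsym : ∀ i j, J i j = J j i) (hdiag : ∀ i, J i i = 0)
    (h : ι → ℝ) (x : ι → Bool) (i : ι) :
    gibbsH J h (flipAt i x)
      = gibbsH J h x * Real.exp (-(2 * (spin (x i) * (h i + field J x i)))) := by
  unfold gibbsH
  have : gibbsWeightH J h (flipAt i x)
      = gibbsWeightH J h x * Real.exp (-(2 * (spin (x i) * (h i + field J x i)))) := by
    unfold gibbsWeightH
    rw [← Real.exp_add, energy_flip J hsym hdiag, field_energy_flip]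
    congr 1
    ring
  rw [this]
  ring

/-- The algebraic relation behind reversibility. -/
lemma tanh_flip_relation (H : ℝ) (b : Bool) :
    (Real.tanh H - spin b) + Real.exp (-(2 * (spin b * H))) * (Real.tanh H + spin b) = 0 := by
  have hc : Real.cosh H ≠ 0 := (Real.cosh_pos _).ne'
  rw [Real.tanh_eq_sinh_div_cosh]
  have hE1 : Real.sinh H - Real.cosh H = -Real.exp (-H) := by
    rw [← Real.cosh_sub_sinh]; ring
  have hE2 : Real.sinh H + Real.cosh H = Real.exp H := by
    rw [← Real.cosh_add_sinh]; ring
  cases b
  · simp only [spin_false, mul_neg, neg_mul, one_mul, neg_neg]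
    have e1 : Real.sinh H / Real.cosh H - -1 = Real.exp H / Real.cosh H := by
      rw [← hE2]; field_simp; ring
    have e2 : Real.sinh H / Real.cosh H + -1 = -Real.exp (-H) / Real.cosh H := by
      rw [← hE1]; field_simp; ring
    rw [e1, e2]
    have : Real.exp (2 * H) * Real.exp (-H) = Real.exp H := by
      rw [← Real.exp_add]; congr 1; ring
    have e3 : Real.exp H / Real.cosh H + Real.exp (2 * H) * (-Real.exp (-H) / Real.cosh H)
        = (Real.exp H - Real.exp (2 * H) * Real.exp (-H)) / Real.cosh H := by ring
    rw [e3, this, sub_self, zero_div]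
  · simp only [spin_true, one_mul]
    have e1 : Real.sinh H / Real.cosh H - 1 = -Real.exp (-H) / Real.cosh H := by
      rw [← hE1]; field_simp
    have e2 : Real.sinh H / Real.cosh H + 1 = Real.exp H / Real.cosh H := by
      rw [← hE2]; field_simp
    rw [e1, e2]
    have : Real.exp (-(2 * H)) * Real.exp H = Real.exp (-H) := by
      rw [← Real.exp_add]; congr 1; ring
    have e3 : -Real.exp (-H) / Real.cosh H + Real.exp (-(2 * H)) * (Real.exp H / Real.cosh H)
        = (Real.exp (-(2 * H)) * Real.exp H - Real.exp (-H)) / Real.cosh H := by ring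
    rw [e3, this, sub_self, zero_div]

/-- Reversibility of the Gibbs measure with an external field. -/
lemma isRevH (J : ι → ι → ℝ) (hsym : ∀ i j, J i j = J j i) (hdiag : ∀ i, J i i = 0)
    (h : ι → ℝ) : IsRev (gibbsH J h) (tfh J h) where
  pos := gibbsH_pos J h
  sum_one := gibbsH_sum J h
  ibp := by
    intro i g hg
    set F : (ι → Bool) → ℝ := fun x => gibbsH J h x * ((tfh J h x i - spin (x i)) * g x) with hF
    have hinv : ∑ x, F (flipAt i x) = ∑ x, F x := by
      let e : (ι → Bool) ≃ (ι → Bool) :=
        { toFun := flipAt i, invFun := flipAt i,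
          left_inv := flipAt_invol i, right_inv := flipAt_invol i }
      exact Equiv.sum_comp e F
    have hzero : ∀ x, F x + F (flipAt i x) = 0 := by
      intro x
      simp only [hF]
      rw [gibbsH_flip J hsym hdiag]
      have h1 : g (flipAt i x) = g x := hg x _
      have h2 : tfh J h (flipAt i x) i = tfh J h x i := tfh_indep J hdiag h x i _
      have h3 : spin (flipAt i x i) = -spin (x i) := by
        unfold flipAt
        simp
        cases x i <;> simp
      rw [h1, h2, h3]
      have hbr := tanh_flip_relation (h i + field J x i) (x i)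
      have e1 : tfh J h x i = Real.tanh (h i + field J x i) := rfl
      rw [e1]
      calc _ = gibbsH J h x * g x * ((Real.tanh (h i + field J x i) - spin (x i))
            + Real.exp (-(2 * (spin (x i) * (h i + field J x i))))
              * (Real.tanh (h i + field J x i) + spin (x i))) := by ring
        _ = 0 := by rw [hbr, mul_zero]
    have h2 : 2 * ∑ x, F x = 0 := by
      have : ∑ x, (F x + F (flipAt i x)) = 0 := Finset.sum_eq_zero (fun x _ => hzero x)
      rw [Finset.sum_add_distrib, hinv] at this
      linarith
    simpa [hF] using (by linarith : ∑ x, F x = 0)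

/-- The matrix generator attached to a family of conditional means. -/
def genMat (t : (ι → Bool) → ι → ℝ) : Matrix (ι → Bool) (ι → Bool) ℝ :=
  fun x y => ∑ i, ((if y = update x i true then (1 + t x i) / 2 else 0)
    + (if y = update x i false then (1 - t x i) / 2 else 0)
    - (if y = x then 1 else 0))

lemma genMat_mulVec (t : (ι → Bool) → ι → ℝ) (u : (ι → Bool) → ℝ) :
    (genMat t).mulVec u = gen t u := by
  funext x
  simp only [Matrix.mulVec, dotProduct, genMat, Finset.sum_mul, gen]
  rw [Finset.sum_comm]
  refine Finset.sum_congr rfl (fun i _ => ?_)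
  simp only [add_mul, sub_mul, ite_mul, zero_mul, one_mul, Finset.sum_add_distrib,
    Finset.sum_sub_distrib, Finset.sum_ite_eq', Finset.mem_univ, if_true]
  rw [value_update u x i true, value_update u x i false]
  simp only [spin_true, spin_false]
  ring

/-- The generator `genMat` is of Glauber form. -/
lemma isGlauber_genMat {t : (ι → Bool) → ι → ℝ} (hind : ∀ x i b, t (update x i b) i = t x i)
    (hlt : ∀ x i, |t x i| < 1) : IsGlauber (genMat t) t where
  mulVec_eq := genMat_mulVec t
  offdiag := by
    intro x y hxy
    unfold genMat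
    refine Finset.sum_nonneg (fun i _ => ?_)
    have hne : ¬ y = x := fun e => hxy e.symm
    simp only [hne, if_false, sub_zero]
    have h' := abs_lt.mp (hlt x i)
    have h1 : 0 ≤ (1 + t x i) / 2 := by linarith [h'.1]
    have h2 : 0 ≤ (1 - t x i) / 2 := by linarith [h'.2]
    split_ifs <;> linarith
  indep := hind
  lt_one := hlt

/-- The exact form of the discrete derivative of the conditional mean. -/
lemma D_tfh (J : ι → ι → ℝ) (h : ι → ℝ) (x : ι → Bool) (i j : ι) :
    D j (fun y => tfh J h y i) x
      = Real.tanh (2 * J i j) / 2 * (1 - tfh J h x i ^ 2)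
          / (1 - spin (x j) * tfh J h x i * Real.tanh (2 * J i j)) := by
  unfold D tfh
  show (Real.tanh (h i + field J (update x j true) i)
    - Real.tanh (h i + field J (update x j false) i)) / 2 = _
  rw [field_update, field_update]
  simp only [spin_true, spin_false]
  set H := h i + field J x i with hH
  set δ := J i j
  have e0 : ∀ c, h i + (field J x i + c) = H + c := by intro c; rw [hH]; ring
  rw [e0, e0]
  cases hx : x j
  · simp only [spin_false]
    have e1 : H + δ * (1 - -1) = H + 2 * δ := by ring
    have e2 : H + δ * (-1 - -1) = H := by ring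
    rw [e1, e2, tanh_diff_minus]
    congr 2
    ring
  · simp only [spin_true]
    have e1 : H + δ * (1 - 1) = H := by ring
    have e2 : H + δ * (-1 - 1) = H - 2 * δ := by ring
    rw [e1, e2, tanh_diff_plus]
    congr 2
    ring

end Vale.Agent.Lib.P150
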